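import Crest.Agent.Kac.Packing

open MeasureTheory Crest.ProbabilityR.Continuum Filter Topology Set
open scoped ENNReal

namespace Crest.Agent.Kac

/-- no more than `J` points with all pairwise distances in `[s0,s3]` -/
def ClusLe (J : ℕ) (s0 s3 : ℝ) : Prop :=
  ∀ (n : ℕ) (x : Fin n → Pt), (∀ i j, i ≠ j → s0 ≤ dist (x i) (x j) ∧ dist (x i) (x j) ≤ s3) →
    n ≤ J

/-- the possible numbers of points with pairwise distances in `[1,t]` -/
def clusSet (t : ℝ) : Set ℕ :=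
  {n | ∃ x : Fin n → Pt, ∀ i j, i ≠ j → 1 ≤ dist (x i) (x j) ∧ dist (x i) (x j) ≤ t}

theorem clusSet_mono {t t' : ℝ} (h : t ≤ t') : clusSet t ⊆ clusSet t' := by
  rintro n ⟨x, hx⟩
  exact ⟨x, fun i j hij => ⟨(hx i j hij).1, (hx i j hij).2.trans h⟩⟩

theorem clusSet_le {t : ℝ} (ht : t ≤ 3) {n : ℕ} (hn : n ∈ clusSet t) : n ≤ packingNumber 6 := by
  obtain ⟨x, hx⟩ := hn
  rcases Nat.eq_zero_or_pos n with rfl | hn
  · exact Nat.zero_le _
  · obtain ⟨i0⟩ : Nonempty (Fin n) := ⟨⟨0, hn⟩⟩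
    let w : Pt := WithLp.toLp 2 (fun _ => (3 : ℝ))
    apply packing_le (fun i => x i - x i0 + w)
    · intro i
      have h1 : ‖x i - x i0‖ ≤ 3 := by
        by_cases hi : i = i0
        · rw [hi, sub_self, norm_zero]
          norm_num
        · rw [← dist_eq_norm]
          exact (hx i i0 hi).2.trans ht
      intro k
      have h2 : |(x i - x i0) k| ≤ ‖x i - x i0‖ := by
        have := PiLp.norm_apply_le (x i - x i0) k
        rwa [Real.norm_eq_abs] at this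
      have h3 := abs_le.1 (h2.trans h1)
      have h4 : (x i - x i0 + w) k = (x i - x i0) k + 3 := rfl
      rw [h4]
      constructor <;> linarith [h3.1, h3.2]
    · intro i j hij
      rw [dist_add_right, dist_sub_right]
      exact (hx i j hij).1

theorem two_mem_clusSet {t : ℝ} (ht : 1 ≤ t) : 2 ∈ clusSet t := by
  have h01 : dist (0 : Pt) e0 = 1 := by
    rw [dist_eq_norm, zero_sub, norm_neg]
    simp [e0]
  refine ⟨fun i => if i = 0 then 0 else e0, fun i j hij => ?_⟩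
  have h : dist (if i = 0 then (0 : Pt) else e0) (if j = 0 then 0 else e0) = 1 := by
    by_cases hi : i = 0
    · have hj : j ≠ 0 := fun h => hij (hi.trans h.symm)
      rw [if_pos hi, if_neg hj, h01]
    · have hj : j = 0 := by
        revert hi hij
        fin_cases i <;> fin_cases j <;> simp
      rw [if_neg hi, if_pos hj, dist_comm, h01]
  simp only
  rw [h]
  exact ⟨le_rfl, ht⟩

theorem clus_exists : ∃ (J : ℕ) (t1 t2 t3 κ : ℝ) (x : Fin J → Pt), 2 ≤ J ∧ 1 < t1 ∧ t1 < t2 ∧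
    t2 < t3 ∧ t3 ≤ 3 ∧ 0 < κ ∧ ClusLe J 1 t3 ∧
    (∀ i j, i ≠ j → t1 + 2 * κ ≤ dist (x i) (x j) ∧ dist (x i) (x j) ≤ t2 - 2 * κ) ∧
    ∀ i, ‖x i‖ ≤ 3 := by
  obtain ⟨M, hM⟩ : ∃ M, M = packingNumber 6 := ⟨_, rfl⟩
  have hbdd : ∀ t : ℝ, t ≤ 3 → BddAbove (clusSet t) :=
    fun t ht => ⟨packingNumber 6, fun n hn => clusSet_le ht hn⟩
  have hne : ∀ t : ℝ, 1 ≤ t → (clusSet t).Nonempty := fun t ht => ⟨2, two_mem_clusSet ht⟩
  -- the grid of values of `t`
  let τ : ℕ → ℝ := fun k => 2 + k / (M + 1)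
  have hM1 : (0 : ℝ) < M + 1 := by positivity
  have hτ1 : ∀ k, 2 ≤ τ k := fun k => by
    have : 0 ≤ (k : ℝ) / (M + 1) := by positivity
    simp only [τ]
    linarith
  have hτ3 : ∀ k, k ≤ M + 1 → τ k ≤ 3 := fun k hk => by
    have : (k : ℝ) / (M + 1) ≤ 1 := by
      rw [div_le_one hM1]
      exact_mod_cast hk
    simp only [τ]
    linarith
  have hτm : ∀ k l, k < l → τ k < τ l := fun k l hkl => by
    simp only [τ]
    have : (k : ℝ) < l := by exact_mod_cast hkl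
    gcongr
  have hle : ∀ k, k ≤ M + 1 → sSup (clusSet (τ k)) ≤ M := fun k hk => by
    rw [hM]
    exact csSup_le (hne _ (by linarith [hτ1 k])) fun n hn => clusSet_le (hτ3 k hk) hn
  -- pigeonhole
  obtain ⟨a, b, hab, hb, heq⟩ : ∃ a b : ℕ, a < b ∧ b ≤ M + 1 ∧
      sSup (clusSet (τ a)) = sSup (clusSet (τ b)) := by
    let f : Fin (M + 2) → Fin (M + 1) := fun k =>
      ⟨sSup (clusSet (τ k)), Nat.lt_succ_of_le (hle k (Nat.lt_succ_iff.1 k.2))⟩
    obtain ⟨a, b, hab, hf⟩ := Fintype.exists_ne_map_eq_of_card_lt f (by simp)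
    have hf' : sSup (clusSet (τ a)) = sSup (clusSet (τ b)) := by
      simpa [f] using hf
    rcases lt_or_gt_of_ne hab with h | h
    · exact ⟨a, b, h, Nat.lt_succ_iff.1 b.2, hf'⟩
    · exact ⟨b, a, h, Nat.lt_succ_iff.1 a.2, hf'.symm⟩
  have ha2 := hτ1 a
  have hlt := hτm a b hab
  have hb3 := hτ3 b hb
  obtain ⟨J, hJ⟩ : ∃ J, J = sSup (clusSet (τ a)) := ⟨_, rfl⟩
  have hJmem : J ∈ clusSet (τ a) := by
    rw [hJ]
    exact Nat.sSup_mem (hne _ (by linarith)) (hbdd _ (by linarith))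
  have hJ2 : 2 ≤ J := by
    rw [hJ]
    exact le_csSup (hbdd _ (by linarith)) (two_mem_clusSet (by linarith))
  have hJle : ∀ t, t ≤ τ b → ClusLe J 1 t := by
    intro t ht n x hx
    rw [hJ, heq]
    exact le_csSup (hbdd _ hb3) (clusSet_mono ht ⟨x, hx⟩)
  obtain ⟨x, hx⟩ := hJmem
  -- the gap
  obtain ⟨g, hg⟩ : ∃ g, g = τ b - τ a := ⟨_, rfl⟩
  have hg0 : 0 < g := by linarith
  have hg1 : g ≤ 1 := by linarith
  obtain ⟨i0⟩ : Nonempty (Fin J) := ⟨⟨0, by omega⟩⟩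
  -- `lam = 1 + g / 10`
  have hlam : (0 : ℝ) ≤ 1 + g / 10 := by linarith
  have hdist : ∀ i j, dist ((1 + g / 10) • (x i - x i0)) ((1 + g / 10) • (x j - x i0))
      = (1 + g / 10) * dist (x i) (x j) := by
    intro i j
    rw [dist_smul₀, dist_sub_right, Real.norm_of_nonneg hlam]
  refine ⟨J, 1 + g / 20, τ a + g / 2, τ b, g / 100, fun i => (1 + g / 10) • (x i - x i0), hJ2,
    by linarith, by linarith, by linarith, hb3, by linarith, hJle _ le_rfl, ?_, ?_⟩
  · intro i j hij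
    simp only
    rw [hdist]
    obtain ⟨h1, h2⟩ := hx i j hij
    constructor
    · nlinarith
    · have h3 : (1 + g / 10) * dist (x i) (x j) ≤ (1 + g / 10) * τ a := by gcongr
      nlinarith
  · intro i
    simp only
    rw [norm_smul, Real.norm_of_nonneg hlam]
    by_cases hi : i = i0
    · rw [hi, sub_self, norm_zero, mul_zero]
      norm_num
    · rw [← dist_eq_norm]
      have h2 := (hx i i0 hi).2
      have h3 : (1 + g / 10) * dist (x i) (x i0) ≤ (1 + g / 10) * τ a := by gcongr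
      nlinarith

theorem ClusLe.scale {J : ℕ} {t3 : ℝ} (h : ClusLe J 1 t3) {σ : ℝ} (hσ : 0 < σ) :
    ClusLe J σ (σ * t3) := by
  intro n x hx
  apply h n (fun i => σ⁻¹ • x i)
  intro i j hij
  rw [dist_smul₀, Real.norm_of_nonneg (by positivity)]
  obtain ⟨h1, h2⟩ := hx i j hij
  constructor
  · rw [le_inv_mul_iff₀ hσ, mul_one]
    exact h1
  · rw [inv_mul_le_iff₀ hσ]
    exact h2

end Crest.Agent.Kac
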