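import Crest.Agent.Kac.Defs

open MeasureTheory Crest.ProbabilityR.Continuum Filter Topology Set
open scoped ENNReal

namespace Crest.Agent.Kac

theorem Xn_range {Q : ℕ} (hQ : 1 ≤ Q) {n N : ℕ} (h : n ≤ N) :
    ∑ i ∈ Finset.range N, (n - (i + 1) * Q) = Xn Q n := by
  unfold Xn
  symm
  apply Finset.sum_subset
  · intro i hi
    rw [Finset.mem_range] at hi ⊢
    omega
  · intro i _ hi
    rw [Finset.mem_range] at hi
    have : i + 1 ≤ (i + 1) * Q := Nat.le_mul_of_pos_right _ hQ
    omega

theorem Xn_mono {Q n m : ℕ} (h : n ≤ m) : Xn Q n ≤ Xn Q m := by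
  unfold Xn
  calc ∑ i ∈ Finset.range n, (n - (i + 1) * Q) ≤ ∑ i ∈ Finset.range n, (m - (i + 1) * Q) := by
        apply Finset.sum_le_sum
        intro i _
        exact Nat.sub_le_sub_right h _
    _ ≤ ∑ i ∈ Finset.range m, (m - (i + 1) * Q) := by
        apply Finset.sum_le_sum_of_subset
        intro i hi
        rw [Finset.mem_range] at hi ⊢
        omega

theorem Xn_rec {Q : ℕ} (hQ : 1 ≤ Q) (n : ℕ) : Xn Q n = (n - Q) + Xn Q (n - Q) := by
  rcases Nat.eq_zero_or_pos n with rfl | hn
  · simp [Xn]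
  · obtain ⟨m, rfl⟩ : ∃ m, n = m + 1 := ⟨n - 1, by omega⟩
    have h1 : Xn Q (m + 1) = ∑ i ∈ Finset.range m, ((m + 1) - (i + 1 + 1) * Q)
        + ((m + 1) - (0 + 1) * Q) := by
      unfold Xn
      rw [Finset.sum_range_succ']
    have h2 : ∑ i ∈ Finset.range m, ((m + 1) - (i + 1 + 1) * Q) = Xn Q (m + 1 - Q) := by
      rw [← Xn_range hQ (n := m + 1 - Q) (N := m) (by omega)]
      apply Finset.sum_congr rfl
      intro i _
      rw [Nat.sub_sub]
      congr 1
      ring
    rw [h1, h2, zero_add, one_mul, add_comm]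

theorem Xn_ge_lin {Q : ℕ} (hQ : 1 ≤ Q) (n M : ℕ) :
    (M : ℝ) * n - Q * (M * (M + 1) / 2) ≤ Xn Q n := by
  have h1 : ∑ i ∈ Finset.range M, (n - (i + 1) * Q) ≤ Xn Q n := by
    rcases le_total M n with h | h
    · unfold Xn
      apply Finset.sum_le_sum_of_subset
      intro i hi
      rw [Finset.mem_range] at hi ⊢
      omega
    · rw [Xn_range hQ h]
  have h2 : (M : ℝ) * n - Q * (M * (M + 1) / 2) = ∑ i ∈ Finset.range M, ((n : ℝ) - (i + 1) * Q) := by
    clear h1
    induction M with
    | zero => simp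
    | succ M ih =>
      rw [Finset.sum_range_succ, ← ih]
      push_cast
      ring
  have h3 : ∑ i ∈ Finset.range M, ((n : ℝ) - (i + 1) * Q)
      ≤ ((∑ i ∈ Finset.range M, (n - (i + 1) * Q) : ℕ) : ℝ) := by
    rw [Nat.cast_sum]
    apply Finset.sum_le_sum
    intro i _
    have : (n : ℝ) ≤ ((n - (i + 1) * Q : ℕ) : ℝ) + (i + 1) * Q := by
      have h4 : n ≤ (n - (i + 1) * Q) + (i + 1) * Q := by omega
      exact_mod_cast h4
    linarith
  rw [h2]
  exact h3.trans (by exact_mod_cast h1)

theorem Xn_ge_quad {Q : ℕ} (hQ : 1 ≤ Q) (n : ℕ) :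
    (n : ℝ) ^ 2 / (2 * Q) - n / 2 ≤ Xn Q n := by
  refine le_trans ?_ (Xn_ge_lin hQ n (n / Q))
  have hQ0 : (0 : ℝ) < Q := by exact_mod_cast hQ
  have h1 : (n : ℝ) = Q * ((n / Q : ℕ) : ℝ) + ((n % Q : ℕ) : ℝ) := by
    exact_mod_cast (Nat.div_add_mod n Q).symm
  have h2 : ((n % Q : ℕ) : ℝ) ≤ Q := by exact_mod_cast (Nat.mod_lt n hQ).le
  have h3 : (0 : ℝ) ≤ ((n % Q : ℕ) : ℝ) := Nat.cast_nonneg _
  obtain ⟨M, hM⟩ : ∃ M : ℝ, M = ((n / Q : ℕ) : ℝ) := ⟨_, rfl⟩
  obtain ⟨r, hr⟩ : ∃ r : ℝ, r = ((n % Q : ℕ) : ℝ) := ⟨_, rfl⟩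
  rw [← hM, ← hr] at h1
  rw [← hr] at h2 h3
  rw [← hM, h1]
  have h4 : M * (Q * M + r) - Q * (M * (M + 1) / 2) - ((Q * M + r) ^ 2 / (2 * Q) - (Q * M + r) / 2)
      = r * (Q - r) / (2 * Q) := by
    field_simp
    ring
  have h5 : 0 ≤ r * (Q - r) / (2 * Q) := by
    apply div_nonneg _ (by positivity)
    apply mul_nonneg h3
    linarith
  linarith

theorem Xn_anti {Q Q' : ℕ} (h : Q ≤ Q') (n : ℕ) : Xn Q' n ≤ Xn Q n := by
  unfold Xn
  apply Finset.sum_le_sum
  intro i _
  exact Nat.sub_le_sub_left (Nat.mul_le_mul_left _ h) _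

open Classical in
theorem greedy_aux {n : ℕ} (big : Fin n → Fin n → Prop) (hs : ∀ i j, big i j → big j i) (Q : ℕ)
    (hQ : ∀ A : Finset (Fin n), (∀ i ∈ A, ∀ j ∈ A, i ≠ j → ¬ big i j) → A.card ≤ Q) (m : ℕ) :
    ∀ S : Finset (Fin n), S.card = m →
    Xn Q m ≤ ((S ×ˢ S).filter (fun p => p.1 < p.2 ∧ big p.1 p.2)).card := by
  induction m using Nat.strong_induction_on with
  | _ m ih =>
    intro S hS
    rcases Nat.eq_zero_or_pos m with rfl | hm
    · simp [Xn]
    · -- a maximal big-free subset
      obtain ⟨A, hA, hAmax⟩ := Finset.exists_max_image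
        (S.powerset.filter (fun A => ∀ i ∈ A, ∀ j ∈ A, i ≠ j → ¬ big i j)) Finset.card
        ⟨∅, by simp⟩
      rw [Finset.mem_filter, Finset.mem_powerset] at hA
      obtain ⟨hAS, hAf⟩ := hA
      have hAQ : A.card ≤ Q := hQ A hAf
      have hnb : ∀ v ∈ S \ A, ∃ w ∈ A, big v w := by
        intro v hv
        rw [Finset.mem_sdiff] at hv
        by_contra hcon
        push Not at hcon
        have h1 : (insert v A) ∈ S.powerset.filter
            (fun A => ∀ i ∈ A, ∀ j ∈ A, i ≠ j → ¬ big i j) := by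
          rw [Finset.mem_filter, Finset.mem_powerset]
          refine ⟨Finset.insert_subset hv.1 hAS, ?_⟩
          intro i hi j hj hij
          rw [Finset.mem_insert] at hi hj
          rcases hi with rfl | hi
          · rcases hj with rfl | hj
            · exact absurd rfl hij
            · exact hcon j hj
          · rcases hj with rfl | hj
            · intro hb
              exact hcon i hi (hs _ _ hb)
            · exact hAf i hi j hj hij
        have h2 := hAmax _ h1
        rw [Finset.card_insert_of_notMem hv.2] at h2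
        omega
      have hApos : 1 ≤ A.card := by
        by_contra hcon
        have hA0 : A = ∅ := by
          rw [← Finset.card_eq_zero]
          omega
        have hSne : S.Nonempty := by
          rw [← Finset.card_pos]
          omega
        obtain ⟨v, hv⟩ := hSne
        obtain ⟨w, hw, _⟩ := hnb v (by rw [hA0]; simpa using hv)
        rw [hA0] at hw
        simp at hw
      have hcard : (S \ A).card = m - A.card := by
        rw [Finset.card_sdiff_of_subset hAS, hS]
      have hAm : A.card ≤ m := by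
        rw [← hS]
        exact Finset.card_le_card hAS
      have hih := ih (m - A.card) (by omega) (S \ A) hcard
      choose! w hwA hwb using hnb
      have hinj : Set.InjOn (fun v => (min v (w v), max v (w v))) (S \ A : Finset (Fin n)) := by
        intro v hv v' hv' h
        rw [Finset.mem_coe] at hv hv'
        simp only [Prod.mk.injEq] at h
        have h1 := hwA v hv
        have h2 := hwA v' hv'
        have h3 := (Finset.mem_sdiff.1 hv).2
        have h4 := (Finset.mem_sdiff.1 hv').2
        have h5 : v ≠ w v' := fun h => h3 (h ▸ h2)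
        have h6 : v' ≠ w v := fun h => h4 (h ▸ h1)
        obtain ⟨ha, hb⟩ := h
        rcases le_total v (w v) with hvw | hvw <;> rcases le_total v' (w v') with hvw' | hvw'
        · rwa [min_eq_left hvw, min_eq_left hvw'] at ha
        · rw [min_eq_left hvw, min_eq_right hvw'] at ha
          exact absurd ha h5
        · rw [min_eq_right hvw, min_eq_left hvw'] at ha
          exact absurd ha.symm h6
        · rwa [max_eq_left hvw, max_eq_left hvw'] at hb
      have hsub : (((S \ A) ×ˢ (S \ A)).filter (fun p => p.1 < p.2 ∧ big p.1 p.2)) ∪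
          (S \ A).image (fun v => (min v (w v), max v (w v))) ⊆
          (S ×ˢ S).filter (fun p => p.1 < p.2 ∧ big p.1 p.2) := by
        intro p hp
        rw [Finset.mem_union] at hp
        rcases hp with hp | hp
        · rw [Finset.mem_filter, Finset.mem_product, Finset.mem_sdiff, Finset.mem_sdiff] at hp
          rw [Finset.mem_filter, Finset.mem_product]
          exact ⟨⟨hp.1.1.1, hp.1.2.1⟩, hp.2⟩
        · rw [Finset.mem_image] at hp
          obtain ⟨v, hv, rfl⟩ := hp
          have h1 := hwA v hv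
          have h2 := hwb v hv
          have h3 := Finset.mem_sdiff.1 hv
          have h4 : v ≠ w v := fun h => h3.2 (h ▸ h1)
          rw [Finset.mem_filter, Finset.mem_product]
          rcases lt_or_gt_of_ne h4 with h5 | h5
          · simp only [min_eq_left h5.le, max_eq_right h5.le]
            exact ⟨⟨h3.1, hAS h1⟩, h5, h2⟩
          · simp only [min_eq_right h5.le, max_eq_left h5.le]
            exact ⟨⟨hAS h1, h3.1⟩, h5, hs _ _ h2⟩
      have hdisj : Disjoint (((S \ A) ×ˢ (S \ A)).filter (fun p => p.1 < p.2 ∧ big p.1 p.2))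
          ((S \ A).image (fun v => (min v (w v), max v (w v)))) := by
        rw [Finset.disjoint_left]
        intro p hp hp'
        rw [Finset.mem_filter, Finset.mem_product, Finset.mem_sdiff, Finset.mem_sdiff] at hp
        rw [Finset.mem_image] at hp'
        obtain ⟨v, hv, rfl⟩ := hp'
        have h1 := hwA v hv
        rcases le_total v (w v) with h5 | h5
        · simp only [min_eq_left h5, max_eq_right h5] at hp
          exact hp.1.2.2 h1
        · simp only [min_eq_right h5, max_eq_left h5] at hp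
          exact hp.1.1.2 h1
      have hle := Finset.card_le_card hsub
      rw [Finset.card_union_of_disjoint hdisj, Finset.card_image_of_injOn hinj, hcard] at hle
      have hQ1 : 1 ≤ Q := hApos.trans hAQ
      have hrec := Xn_rec hQ1 m
      have hmono : Xn Q (m - Q) ≤ Xn Q (m - A.card) := Xn_mono (by omega)
      omega

open Classical in
/-- Turan-type greedy bound: if every set without `big` pairs has at most `Q` elements then there
are at least `Xn Q n` big pairs. -/
theorem greedy {n : ℕ} (big : Fin n → Fin n → Prop) (hs : ∀ i j, big i j → big j i) (Q : ℕ)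
    (hQ : ∀ A : Finset (Fin n), (∀ i ∈ A, ∀ j ∈ A, i ≠ j → ¬ big i j) → A.card ≤ Q) :
    Xn Q n ≤ (Finset.univ.filter
      (fun p : {p : Fin n × Fin n // p.1 < p.2} => big p.1.1 p.1.2)).card := by
  have h1 := greedy_aux big hs Q hQ n Finset.univ (by simp)
  refine h1.trans (le_of_eq ?_)
  symm
  apply Finset.card_bij (fun p _ => p.1)
  · intro p hp
    rw [Finset.mem_filter] at hp
    rw [Finset.mem_filter]
    exact ⟨by simp, p.2, hp.2⟩
  · intro p _ q _ h
    exact Subtype.ext h
  · intro p hp
    rw [Finset.mem_filter] at hp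
    exact ⟨⟨p, hp.2.1⟩, by rw [Finset.mem_filter]; exact ⟨Finset.mem_univ _, hp.2.2⟩, rfl⟩

end Crest.Agent.Kac
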