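import Crest.Agent.Kac.Defs

open MeasureTheory Crest.ProbabilityR.Continuum Filter Topology Set
open scoped ENNReal

namespace Crest.Agent.Kac

theorem ZW_zero0 (W : Pt → Pt → ℝ) (Λ : Set Pt) : ZW W Λ 0 = 1 := by
  unfold ZW pairE
  have h : Set.pi Set.univ (fun _ : Fin 0 => Λ) = Set.univ := by
    ext x
    simp
  rw [h, Measure.restrict_univ]
  simp [volume_pi]

/-! ### Symmetric half-sum energy over an arbitrary finite index type -/

/-- symmetric energy `½ Σ_{i ≠ j} W (x i) (x j)` -/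
noncomputable def sE {α : Type*} [Fintype α] (W : Pt → Pt → ℝ) (x : α → Pt) : ℝ :=
  ((∑ i, ∑ j, W (x i) (x j)) - ∑ i, W (x i) (x i)) / 2

theorem measurable_sE {α : Type*} [Fintype α] {W : Pt → Pt → ℝ}
    (hW : Measurable (Function.uncurry W)) : Measurable (fun x : α → Pt => sE W x) := by
  have h : ∀ i j : α, Measurable (fun x : α → Pt => W (x i) (x j)) := fun i j => by
    have h2 : Measurable (fun x : α → Pt => (x i, x j)) :=
      (measurable_pi_apply i).prodMk (measurable_pi_apply j)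
    exact hW.comp h2
  unfold sE
  refine Measurable.div_const (Measurable.sub ?_ ?_) 2
  · exact Finset.measurable_sum _ fun i _ => Finset.measurable_sum _ fun j _ => h i j
  · exact Finset.measurable_sum _ fun i _ => h i i

theorem measurable_expE {α : Type*} [Fintype α] {W : Pt → Pt → ℝ}
    (hW : Measurable (Function.uncurry W)) :
    Measurable (fun x : α → Pt => ENNReal.ofReal (Real.exp (-sE W x))) :=
  ENNReal.measurable_ofReal.comp (Real.measurable_exp.comp (measurable_sE hW).neg)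

theorem sE_eq_pairE {W : Pt → Pt → ℝ} (hs : ∀ x y, W x y = W y x) {n : ℕ} (x : Fin n → Pt) :
    pairE W x = sE W x := by
  classical
  unfold pairE sE
  have h1 : (∑ p : {p : Fin n × Fin n // p.1 < p.2}, W (x p.1.1) (x p.1.2))
      = ∑ p : Fin n × Fin n, if p.1 < p.2 then W (x p.1) (x p.2) else 0 := by
    rw [← Finset.sum_filter]
    exact Finset.sum_subtype (Finset.univ.filter fun p : Fin n × Fin n => p.1 < p.2)
      (by intro p; simp) (fun p : Fin n × Fin n => W (x p.1) (x p.2)) |>.symm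
  have h2 : (∑ p : Fin n × Fin n, if p.2 < p.1 then W (x p.1) (x p.2) else 0)
      = ∑ p : Fin n × Fin n, if p.1 < p.2 then W (x p.1) (x p.2) else 0 := by
    rw [← (Equiv.prodComm (Fin n) (Fin n)).sum_comp]
    refine Finset.sum_congr rfl fun p _ => ?_
    simp only [Equiv.prodComm_apply, Prod.fst_swap, Prod.snd_swap]
    split_ifs with h
    · exact hs _ _
    · rfl
  have h3 : (∑ p : Fin n × Fin n, if p.1 = p.2 then W (x p.1) (x p.2) else 0)
      = ∑ i, W (x i) (x i) := by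
    rw [Fintype.sum_prod_type]
    refine Finset.sum_congr rfl fun i _ => ?_
    simp
  have h4 : (∑ i, ∑ j, W (x i) (x j))
      = (∑ p : Fin n × Fin n, if p.1 < p.2 then W (x p.1) (x p.2) else 0)
        + (∑ p : Fin n × Fin n, if p.2 < p.1 then W (x p.1) (x p.2) else 0)
        + (∑ p : Fin n × Fin n, if p.1 = p.2 then W (x p.1) (x p.2) else 0) := by
    rw [← Fintype.sum_prod_type', ← Finset.sum_add_distrib, ← Finset.sum_add_distrib]
    refine Finset.sum_congr rfl fun p _ => ?_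
    rcases lt_trichotomy p.1 p.2 with h | h | h
    · simp [h, h.ne, h.not_gt]
    · simp [h]
    · simp [h, h.ne', h.not_gt]
  rw [h1, h4, h2, h3]
  ring

/-- reindexing -/
theorem sE_comp {α β : Type*} [Fintype α] [Fintype β] (e : α ≃ β) (W : Pt → Pt → ℝ)
    (x : α → Pt) (y : β → Pt) (h : ∀ a, y (e a) = x a) : sE W y = sE W x := by
  unfold sE
  rw [← e.sum_comp, ← e.sum_comp (fun i => W (y i) (y i))]
  congr 2
  · refine Finset.sum_congr rfl fun i _ => ?_
    rw [← e.sum_comp]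
    refine Finset.sum_congr rfl fun j _ => ?_
    rw [h, h]
  · refine Finset.sum_congr rfl fun i _ => ?_
    rw [h]

/-- splitting of the energy -/
theorem sE_split {α : Type*} [Fintype α] {W : Pt → Pt → ℝ} (hs : ∀ x y, W x y = W y x)
    (p : α → Prop) [DecidablePred p] (x : α → Pt) :
    sE W x = sE W (fun i : {i // p i} => x i) + sE W (fun i : {i // ¬ p i} => x i)
      + ∑ i : {i // p i}, ∑ j : {i // ¬ p i}, W (x i) (x j) := by
  unfold sE
  have hsum : ∀ f : α → ℝ, ∑ i, f i = (∑ i : {i // p i}, f i) + ∑ i : {i // ¬ p i}, f i :=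
    fun f => (Fintype.sum_subtype_add_sum_subtype p f).symm
  have hc : (∑ i : {i // ¬ p i}, ∑ j : {i // p i}, W (x i) (x j))
      = ∑ i : {i // p i}, ∑ j : {i // ¬ p i}, W (x i) (x j) := by
    rw [Finset.sum_comm]
    exact Finset.sum_congr rfl fun i _ => Finset.sum_congr rfl fun j _ => hs _ _
  have h1 : (∑ i, ∑ j, W (x i) (x j))
      = (∑ i : {i // p i}, ∑ j : {i // p i}, W (x i) (x j))
        + (∑ i : {i // ¬ p i}, ∑ j : {i // ¬ p i}, W (x i) (x j))
        + 2 * ∑ i : {i // p i}, ∑ j : {i // ¬ p i}, W (x i) (x j) := by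
    rw [hsum]
    simp_rw [fun i : α => hsum (fun j => W (x i) (x j)), Finset.sum_add_distrib]
    rw [hc]
    ring
  rw [h1, hsum (fun i => W (x i) (x i))]
  ring

/-- configuration integral over an arbitrary finite index type -/
noncomputable def SJ (α : Type*) [Fintype α] (W : Pt → Pt → ℝ) (Λ : Set Pt) : ℝ≥0∞ :=
  ∫⁻ x in Set.pi Set.univ (fun _ : α => Λ), ENNReal.ofReal (Real.exp (-sE W x))

theorem SJ_congr {α β : Type*} [Fintype α] [Fintype β] (e : α ≃ β) (W : Pt → Pt → ℝ)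
    (Λ : Set Pt) : SJ α W Λ = SJ β W Λ := by
  have hmp := volume_measurePreserving_piCongrLeft (fun _ : β => Pt) e
  have hap : ∀ (x : α → Pt) (a : α),
      (MeasurableEquiv.piCongrLeft (fun _ : β => Pt) e) x (e a) = x a := fun x a => by
    rw [MeasurableEquiv.coe_piCongrLeft]
    exact Equiv.piCongrLeft_apply_apply (fun _ : β => Pt) e x a
  have h := hmp.setLIntegral_comp_preimage_emb (MeasurableEquiv.measurableEmbedding _)
    (fun y : β → Pt => ENNReal.ofReal (Real.exp (-sE W y))) (Set.pi Set.univ (fun _ : β => Λ))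
  unfold SJ
  rw [← h]
  have hpre : (MeasurableEquiv.piCongrLeft (fun _ : β => Pt) e) ⁻¹'
      (Set.pi Set.univ (fun _ : β => Λ)) = Set.pi Set.univ (fun _ : α => Λ) := by
    ext x
    simp only [Set.mem_preimage, Set.mem_univ_pi]
    constructor
    · intro hx a
      have := hx (e a)
      rwa [hap] at this
    · intro hx b
      obtain ⟨a, rfl⟩ := e.surjective b
      rw [hap]
      exact hx a
  rw [hpre]
  refine lintegral_congr fun x => ?_
  rw [sE_comp e W x _ (hap x)]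

theorem ZW_eq_SJ {W : Pt → Pt → ℝ} (hs : ∀ x y, W x y = W y x) (Λ : Set Pt) (n : ℕ) :
    ZW W Λ n = (n.factorial : ℝ≥0∞)⁻¹ * SJ (Fin n) W Λ := by
  unfold ZW SJ
  simp_rw [sE_eq_pairE hs]

/-- the piece of the configuration integral with the indices of `p` in `A`, the others in `B` -/
noncomputable def piece {N : ℕ} (W : Pt → Pt → ℝ) (A B : Set Pt) (p : Fin N → Prop)
    [DecidablePred p] : ℝ≥0∞ :=
  ∫⁻ x in Set.pi Set.univ (fun i : Fin N => if p i then A else B),
    ENNReal.ofReal (Real.exp (-sE W x))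

theorem SJ_union {N : ℕ} (W : Pt → Pt → ℝ) {A B : Set Pt} (hA : MeasurableSet A)
    (hB : MeasurableSet B) (hAB : Disjoint A B) :
    SJ (Fin N) W (A ∪ B)
      = ∑ S ∈ (Finset.univ : Finset (Fin N)).powerset, piece W A B (fun i => i ∈ S) := by
  classical
  unfold SJ piece
  rw [← lintegral_biUnion_finset]
  · congr 2
    ext x
    simp only [Set.mem_univ_pi, Set.mem_union, Set.mem_iUnion, exists_prop]
    constructor
    · intro hx
      refine ⟨Finset.univ.filter fun i => x i ∈ A, by simp, fun i => ?_⟩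
      by_cases hi : x i ∈ A
      · simp [hi]
      · have := (hx i).resolve_left hi
        simp [hi, this]
    · rintro ⟨S, -, hx⟩ i
      have := hx i
      split_ifs at this
      · exact Or.inl this
      · exact Or.inr this
  · intro S _ T _ hST
    rw [Function.onFun, Set.disjoint_left]
    intro x hx hy
    apply hST
    ext i
    have h1 := Set.mem_univ_pi.1 hx i
    have h2 := Set.mem_univ_pi.1 hy i
    constructor
    · intro hi
      by_contra hn
      rw [if_pos hi] at h1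
      rw [if_neg hn] at h2
      exact Set.disjoint_left.1 hAB h1 h2
    · intro hi
      by_contra hn
      rw [if_neg hn] at h1
      rw [if_pos hi] at h2
      exact Set.disjoint_left.1 hAB h2 h1
  · intro S _
    refine MeasurableSet.univ_pi fun i => ?_
    split_ifs
    · exact hA
    · exact hB

theorem piece_eq {N : ℕ} {W : Pt → Pt → ℝ} (hs : ∀ x y, W x y = W y x) (A B : Set Pt)
    (p : Fin N → Prop) [DecidablePred p] :
    piece W A B p = ∫⁻ y in (Set.pi Set.univ (fun _ : {i // p i} => A)) ×ˢ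
        (Set.pi Set.univ (fun _ : {i // ¬ p i} => B)),
      ENNReal.ofReal (Real.exp (-(sE W y.1 + sE W y.2 + ∑ i, ∑ j, W (y.1 i) (y.2 j)))) := by
  have hmp := volume_preserving_piEquivPiSubtypeProd (fun _ : Fin N => Pt) p
  have h := hmp.setLIntegral_comp_preimage_emb (MeasurableEquiv.measurableEmbedding _)
    (fun y : ({i // p i} → Pt) × ({i // ¬ p i} → Pt) =>
      ENNReal.ofReal (Real.exp (-(sE W y.1 + sE W y.2 + ∑ i, ∑ j, W (y.1 i) (y.2 j)))))
    ((Set.pi Set.univ (fun _ : {i // p i} => A)) ×ˢ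
        (Set.pi Set.univ (fun _ : {i // ¬ p i} => B)))
  rw [← h]
  have hpre : (MeasurableEquiv.piEquivPiSubtypeProd (fun _ : Fin N => Pt) p) ⁻¹'
      ((Set.pi Set.univ (fun _ : {i // p i} => A)) ×ˢ
        (Set.pi Set.univ (fun _ : {i // ¬ p i} => B)))
      = Set.pi Set.univ (fun i : Fin N => if p i then A else B) := by
    ext x
    simp only [Set.mem_preimage, Set.mem_prod, Set.mem_univ_pi]
    constructor
    · rintro ⟨h1, h2⟩ i
      by_cases hi : p i
      · rw [if_pos hi]; exact h1 ⟨i, hi⟩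
      · rw [if_neg hi]; exact h2 ⟨i, hi⟩
    · intro hx
      refine ⟨fun i => ?_, fun i => ?_⟩
      · have := hx i.1
        rw [if_pos i.2] at this
        exact this
      · have := hx i.1
        rw [if_neg i.2] at this
        exact this
  rw [hpre]
  unfold piece
  refine lintegral_congr fun x => ?_
  rw [sE_split hs p x]
  rfl

theorem prod_eq {N : ℕ} {W : Pt → Pt → ℝ} (hW : Measurable (Function.uncurry W))
    (A B : Set Pt) (p : Fin N → Prop) [DecidablePred p] {n m : ℕ}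
    (hn : Fintype.card {i // p i} = n) (hm : Fintype.card {i // ¬ p i} = m) :
    ∫⁻ y in (Set.pi Set.univ (fun _ : {i // p i} => A)) ×ˢ
        (Set.pi Set.univ (fun _ : {i // ¬ p i} => B)),
      (ENNReal.ofReal (Real.exp (-sE W y.1)) * ENNReal.ofReal (Real.exp (-sE W y.2)))
      = SJ (Fin n) W A * SJ (Fin m) W B := by
  have e1 : {i // p i} ≃ Fin n := Fintype.equivFinOfCardEq hn
  have e2 : {i // ¬ p i} ≃ Fin m := Fintype.equivFinOfCardEq hm
  rw [← SJ_congr e1, ← SJ_congr e2]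
  unfold SJ
  rw [Measure.volume_eq_prod, ← Measure.prod_restrict]
  exact lintegral_prod_mul (measurable_expE hW).aemeasurable (measurable_expE hW).aemeasurable

theorem card_mem_subtype {N : ℕ} (S : Finset (Fin N)) [Fintype {i // i ∈ S}] :
    Fintype.card {i // i ∈ S} = S.card :=
  Fintype.card_of_subtype S fun _ => Iff.rfl

theorem card_not_mem_subtype {N : ℕ} (S : Finset (Fin N)) [Fintype {i // ¬ i ∈ S}] :
    Fintype.card {i // ¬ i ∈ S} = N - S.card := by
  classical
  rw [Fintype.card_of_subtype Sᶜ (fun i => Finset.mem_compl), Finset.card_compl, Fintype.card_fin]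

theorem piece_ge {N : ℕ} {W : Pt → Pt → ℝ} (hW : Measurable (Function.uncurry W))
    (hs : ∀ x y, W x y = W y x) {A B : Set Pt} (hA : MeasurableSet A) (hB : MeasurableSet B)
    (h : ∀ x ∈ A, ∀ y ∈ B, W x y ≤ 0) (p : Fin N → Prop) [DecidablePred p] {n m : ℕ}
    (hn : Fintype.card {i // p i} = n) (hm : Fintype.card {i // ¬ p i} = m) :
    SJ (Fin n) W A * SJ (Fin m) W B ≤ piece W A B p := by
  rw [← prod_eq hW A B p hn hm, piece_eq hs]
  refine setLIntegral_mono' ((MeasurableSet.univ_pi fun _ => hA).prod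
    (MeasurableSet.univ_pi fun _ => hB)) fun y hy => ?_
  rw [← ENNReal.ofReal_mul (Real.exp_pos _).le, ← Real.exp_add]
  refine ENNReal.ofReal_le_ofReal (Real.exp_le_exp.2 ?_)
  have h0 : ∑ i, ∑ j, W (y.1 i) (y.2 j) ≤ 0 :=
    Finset.sum_nonpos fun i _ => Finset.sum_nonpos fun j _ =>
      h _ (Set.mem_univ_pi.1 hy.1 i) _ (Set.mem_univ_pi.1 hy.2 j)
  linarith

theorem piece_le {N : ℕ} {W : Pt → Pt → ℝ} (hW : Measurable (Function.uncurry W))
    (hs : ∀ x y, W x y = W y x) {A B : Set Pt} (hA : MeasurableSet A) (hB : MeasurableSet B)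
    (h : ∀ x ∈ A, ∀ y ∈ B, 0 ≤ W x y) (p : Fin N → Prop) [DecidablePred p] {n m : ℕ}
    (hn : Fintype.card {i // p i} = n) (hm : Fintype.card {i // ¬ p i} = m) :
    piece W A B p ≤ SJ (Fin n) W A * SJ (Fin m) W B := by
  rw [← prod_eq hW A B p hn hm, piece_eq hs]
  refine setLIntegral_mono' ((MeasurableSet.univ_pi fun _ => hA).prod
    (MeasurableSet.univ_pi fun _ => hB)) fun y hy => ?_
  rw [← ENNReal.ofReal_mul (Real.exp_pos _).le, ← Real.exp_add]
  refine ENNReal.ofReal_le_ofReal (Real.exp_le_exp.2 ?_)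
  have h0 : 0 ≤ ∑ i, ∑ j, W (y.1 i) (y.2 j) :=
    Finset.sum_nonneg fun i _ => Finset.sum_nonneg fun j _ =>
      h _ (Set.mem_univ_pi.1 hy.1 i) _ (Set.mem_univ_pi.1 hy.2 j)
  linarith

theorem choose_aux (n m : ℕ) (a b : ℝ≥0∞) :
    ((n + m).factorial : ℝ≥0∞)⁻¹ * (((n + m).choose n : ℝ≥0∞) * (a * b))
      = ((n.factorial : ℝ≥0∞)⁻¹ * a) * ((m.factorial : ℝ≥0∞)⁻¹ * b) := by
  have hf : ((n + m).factorial : ℝ≥0∞)
      = ((n + m).choose n : ℝ≥0∞) * ((n.factorial : ℝ≥0∞) * (m.factorial : ℝ≥0∞)) := by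
    rw [← Nat.add_choose_mul_factorial_mul_factorial n m, ← Nat.choose_symm_add]
    push_cast
    ring
  have hc0 : ((n + m).choose n : ℝ≥0∞) ≠ 0 := by
    simp [(Nat.choose_pos (Nat.le_add_right n m)).ne']
  have hct : ((n + m).choose n : ℝ≥0∞) ≠ ∞ := ENNReal.natCast_ne_top _
  have hn0 : (n.factorial : ℝ≥0∞) ≠ 0 := by simp [n.factorial_ne_zero]
  have hnt : (n.factorial : ℝ≥0∞) ≠ ∞ := ENNReal.natCast_ne_top _
  rw [hf, ENNReal.mul_inv (Or.inl hc0) (Or.inl hct), ENNReal.mul_inv (Or.inl hn0) (Or.inl hnt)]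
  have : (((n + m).choose n : ℝ≥0∞)⁻¹ * ((n.factorial : ℝ≥0∞)⁻¹ * (m.factorial : ℝ≥0∞)⁻¹))
      * (((n + m).choose n : ℝ≥0∞) * (a * b))
      = (((n + m).choose n : ℝ≥0∞)⁻¹ * ((n + m).choose n : ℝ≥0∞))
        * (((n.factorial : ℝ≥0∞)⁻¹ * a) * ((m.factorial : ℝ≥0∞)⁻¹ * b)) := by ring
  rw [this, ENNReal.inv_mul_cancel hc0 hct, one_mul]

theorem ZW_super {W : Pt → Pt → ℝ} (hW : Measurable (Function.uncurry W))
    (hs : ∀ x y, W x y = W y x) {A B : Set Pt} (hA : MeasurableSet A) (hB : MeasurableSet B)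
    (hAB : Disjoint A B) (h : ∀ x ∈ A, ∀ y ∈ B, W x y ≤ 0) (n m : ℕ) :
    ZW W A n * ZW W B m ≤ ZW W (A ∪ B) (n + m) := by
  classical
  rw [ZW_eq_SJ hs, ZW_eq_SJ hs, ZW_eq_SJ hs, ← choose_aux, SJ_union W hA hB hAB]
  refine mul_le_mul_right ?_ _
  calc ((n + m).choose n : ℝ≥0∞) * (SJ (Fin n) W A * SJ (Fin m) W B)
      = ∑ S ∈ (Finset.univ : Finset (Fin (n + m))).powersetCard n,
          SJ (Fin n) W A * SJ (Fin m) W B := by
        rw [Finset.sum_const, Finset.card_powersetCard, Finset.card_univ, Fintype.card_fin,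
          nsmul_eq_mul]
    _ ≤ ∑ S ∈ (Finset.univ : Finset (Fin (n + m))).powersetCard n,
          piece W A B (fun i => i ∈ S) := by
        refine Finset.sum_le_sum fun S hS => ?_
        have hc : S.card = n := (Finset.mem_powersetCard.1 hS).2
        refine piece_ge hW hs hA hB h _ ?_ ?_
        · rw [card_mem_subtype, hc]
        · rw [card_not_mem_subtype, hc, Nat.add_sub_cancel_left]
    _ ≤ ∑ S ∈ (Finset.univ : Finset (Fin (n + m))).powerset, piece W A B (fun i => i ∈ S) :=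
        Finset.sum_le_sum_of_subset fun S _ => Finset.mem_powerset.2 (Finset.subset_univ S)

theorem ZW_sub {W : Pt → Pt → ℝ} (hW : Measurable (Function.uncurry W))
    (hs : ∀ x y, W x y = W y x) {A B : Set Pt} (hA : MeasurableSet A) (hB : MeasurableSet B)
    (hAB : Disjoint A B) (h : ∀ x ∈ A, ∀ y ∈ B, 0 ≤ W x y) (N : ℕ) :
    ZW W (A ∪ B) N ≤ ∑ nm ∈ Finset.HasAntidiagonal.antidiagonal N, ZW W A nm.1 * ZW W B nm.2 := by
  classical
  rw [Finset.Nat.sum_antidiagonal_eq_sum_range_succ (fun a b => ZW W A a * ZW W B b) N]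
  rw [ZW_eq_SJ hs, SJ_union W hA hB hAB]
  calc (N.factorial : ℝ≥0∞)⁻¹ * ∑ S ∈ (Finset.univ : Finset (Fin N)).powerset,
          piece W A B (fun i => i ∈ S)
      ≤ (N.factorial : ℝ≥0∞)⁻¹ * ∑ S ∈ (Finset.univ : Finset (Fin N)).powerset,
          (fun k => SJ (Fin k) W A * SJ (Fin (N - k)) W B) S.card := by
        refine mul_le_mul_right ?_ _
        refine Finset.sum_le_sum fun S _ => ?_
        refine piece_le hW hs hA hB h _ ?_ ?_
        · rw [card_mem_subtype]
        · rw [card_not_mem_subtype]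
    _ = ∑ k ∈ Finset.range N.succ, ZW W A k * ZW W B (N - k) := by
        rw [Finset.sum_powerset_apply_card (fun k => SJ (Fin k) W A * SJ (Fin (N - k)) W B),
          Finset.card_univ, Fintype.card_fin, Finset.mul_sum]
        refine Finset.sum_congr rfl fun k hk => ?_
        have hkN : k ≤ N := Nat.lt_succ_iff.1 (Finset.mem_range.1 hk)
        obtain ⟨m, rfl⟩ := Nat.exists_eq_add_of_le hkN
        rw [Nat.add_sub_cancel_left, nsmul_eq_mul, choose_aux, ZW_eq_SJ hs, ZW_eq_SJ hs]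

theorem ZW_super_fam {W : Pt → Pt → ℝ} (hW : Measurable (Function.uncurry W))
    (hs : ∀ x y, W x y = W y x) {ι : Type*} [DecidableEq ι] (S : Finset ι) (A : ι → Set Pt)
    (hA : ∀ i, MeasurableSet (A i)) (hd : ∀ i ∈ S, ∀ j ∈ S, i ≠ j → Disjoint (A i) (A j))
    (h : ∀ i ∈ S, ∀ j ∈ S, i ≠ j → ∀ x ∈ A i, ∀ y ∈ A j, W x y ≤ 0) (n : ι → ℕ) :
    ∏ i ∈ S, ZW W (A i) (n i) ≤ ZW W (⋃ i ∈ S, A i) (∑ i ∈ S, n i) := by
  induction S using Finset.induction_on with
  | empty => simp [ZW_zero0]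
  | insert a S ha ih =>
    rw [Finset.prod_insert ha, Finset.sum_insert ha, Finset.set_biUnion_insert]
    have ih' := ih (fun i hi j hj => hd i (Finset.mem_insert_of_mem hi) j
      (Finset.mem_insert_of_mem hj)) (fun i hi j hj => h i (Finset.mem_insert_of_mem hi) j
      (Finset.mem_insert_of_mem hj))
    refine (mul_le_mul_right ih' _).trans ?_
    refine ZW_super hW hs (hA a) (Finset.measurableSet_biUnion _ fun i _ => hA i) ?_ ?_ _ _
    · rw [Set.disjoint_iUnion₂_right]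
      intro i hi
      exact hd a (Finset.mem_insert_self _ _) i (Finset.mem_insert_of_mem hi)
        (fun hai => ha (hai ▸ hi))
    · intro x hx y hy
      obtain ⟨i, hi, hyi⟩ := Set.mem_iUnion₂.1 hy
      exact h a (Finset.mem_insert_self _ _) i (Finset.mem_insert_of_mem hi)
        (fun hai => ha (hai ▸ hi)) x hx y hyi

theorem ZW_empty (W : Pt → Pt → ℝ) {n : ℕ} (hn : n ≠ 0) : ZW W ∅ n = 0 := by
  obtain ⟨m, rfl⟩ := Nat.exists_eq_succ_of_ne_zero hn
  unfold ZW
  have : Set.pi Set.univ (fun _ : Fin (m + 1) => (∅ : Set Pt)) = ∅ := by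
    rw [Set.univ_pi_eq_empty_iff]
    exact ⟨0, rfl⟩
  rw [this]
  simp

/-- generating function bound for a union -/
theorem tsum_ZW_union_le {W : Pt → Pt → ℝ} (hW : Measurable (Function.uncurry W))
    (hs : ∀ x y, W x y = W y x) {A B : Set Pt} (hA : MeasurableSet A) (hB : MeasurableSet B)
    (hAB : Disjoint A B) (h : ∀ x ∈ A, ∀ y ∈ B, 0 ≤ W x y) (z : ℝ≥0∞) :
    ∑' n, ZW W (A ∪ B) n * z ^ n ≤ (∑' n, ZW W A n * z ^ n) * ∑' n, ZW W B n * z ^ n := by
  have h1 : (∑' n, ZW W A n * z ^ n) * ∑' n, ZW W B n * z ^ n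
      = ∑' N, ∑ nm ∈ Finset.HasAntidiagonal.antidiagonal N,
          (ZW W A nm.1 * z ^ nm.1) * (ZW W B nm.2 * z ^ nm.2) := by
    rw [← ENNReal.tsum_mul_right]
    simp_rw [← ENNReal.tsum_mul_left]
    rw [← ENNReal.tsum_prod (f := fun a b => (ZW W A a * z ^ a) * (ZW W B b * z ^ b)),
      ← (Finset.HasAntidiagonal.sigmaAntidiagonalEquivProd (A := ℕ)).tsum_eq, ENNReal.tsum_sigma']
    refine tsum_congr fun N => ?_
    rw [tsum_fintype]
    exact Finset.sum_coe_sort (Finset.HasAntidiagonal.antidiagonal N)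
      (fun nm : ℕ × ℕ => (ZW W A nm.1 * z ^ nm.1) * (ZW W B nm.2 * z ^ nm.2))
  rw [h1]
  refine ENNReal.tsum_le_tsum fun N => ?_
  refine (mul_le_mul_left (ZW_sub hW hs hA hB hAB h N) _).trans ?_
  rw [Finset.sum_mul]
  refine Finset.sum_le_sum fun nm hnm => le_of_eq ?_
  rw [← Finset.HasAntidiagonal.mem_antidiagonal.1 hnm, pow_add]
  ring

theorem tsum_ZW_fam_le {W : Pt → Pt → ℝ} (hW : Measurable (Function.uncurry W))
    (hs : ∀ x y, W x y = W y x) {ι : Type*} [DecidableEq ι] (S : Finset ι) (A : ι → Set Pt)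
    (hA : ∀ i, MeasurableSet (A i)) (hd : ∀ i ∈ S, ∀ j ∈ S, i ≠ j → Disjoint (A i) (A j))
    (h : ∀ i ∈ S, ∀ j ∈ S, i ≠ j → ∀ x ∈ A i, ∀ y ∈ A j, 0 ≤ W x y) (z : ℝ≥0∞) :
    ∑' n, ZW W (⋃ i ∈ S, A i) n * z ^ n ≤ ∏ i ∈ S, ∑' n, ZW W (A i) n * z ^ n := by
  induction S using Finset.induction_on with
  | empty =>
    simp only [Finset.notMem_empty, Set.iUnion_of_empty, Set.iUnion_empty, Finset.prod_empty]
    rw [tsum_eq_single 0]
    · simp [ZW_zero0]
    · intro n hn
      rw [ZW_empty W hn, zero_mul]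
  | insert a S ha ih =>
    rw [Finset.prod_insert ha, Finset.set_biUnion_insert]
    have ih' := ih (fun i hi j hj => hd i (Finset.mem_insert_of_mem hi) j
      (Finset.mem_insert_of_mem hj)) (fun i hi j hj => h i (Finset.mem_insert_of_mem hi) j
      (Finset.mem_insert_of_mem hj))
    refine le_trans (tsum_ZW_union_le hW hs (hA a) (Finset.measurableSet_biUnion _ fun i _ => hA i)
      ?_ ?_ z) (mul_le_mul_right ih' _)
    · rw [Set.disjoint_iUnion₂_right]
      intro i hi
      exact hd a (Finset.mem_insert_self _ _) i (Finset.mem_insert_of_mem hi)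
        (fun hai => ha (hai ▸ hi))
    · intro x hx y hy
      obtain ⟨i, hi, hyi⟩ := Set.mem_iUnion₂.1 hy
      exact h a (Finset.mem_insert_self _ _) i (Finset.mem_insert_of_mem hi)
        (fun hai => ha (hai ▸ hi)) x hx y hyi

theorem ZW_sub_fam {W : Pt → Pt → ℝ} (hW : Measurable (Function.uncurry W))
    (hs : ∀ x y, W x y = W y x) {ι : Type*} [DecidableEq ι] (S : Finset ι) (A : ι → Set Pt)
    (hA : ∀ i, MeasurableSet (A i)) (hd : ∀ i ∈ S, ∀ j ∈ S, i ≠ j → Disjoint (A i) (A j))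
    (h : ∀ i ∈ S, ∀ j ∈ S, i ≠ j → ∀ x ∈ A i, ∀ y ∈ A j, 0 ≤ W x y) (z X : ℝ≥0∞)
    (hX : ∀ i ∈ S, ∑' n, ZW W (A i) n * z ^ n ≤ X) (N : ℕ) :
    ZW W (⋃ i ∈ S, A i) N * z ^ N ≤ X ^ S.card := by
  refine (ENNReal.le_tsum (f := fun n => ZW W (⋃ i ∈ S, A i) n * z ^ n) N).trans ?_
  refine (tsum_ZW_fam_le hW hs S A hA hd h z).trans ?_
  rw [← Finset.prod_const]
  exact Finset.prod_le_prod' hX

end Crest.Agent.Kac
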