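import Crest.Agent.Kac.Defs

open MeasureTheory Crest.ProbabilityR.Continuum Filter Topology Set
open scoped ENNReal

namespace Crest.Agent.Kac

namespace CB

theorem measurable_pairE {W : Pt → Pt → ℝ} (hW : Measurable (Function.uncurry W)) (n : ℕ) :
    Measurable (fun x : Fin n → Pt => pairE W x) := by
  unfold pairE
  refine Finset.measurable_sum _ fun p _ => ?_
  have h2 : Measurable (fun x : Fin n → Pt => (x p.1.1, x p.1.2)) :=
    (measurable_pi_apply _).prodMk (measurable_pi_apply _)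
  exact hW.comp h2

theorem measurable_exp {W : Pt → Pt → ℝ} (hW : Measurable (Function.uncurry W)) (n : ℕ) :
    Measurable (fun x : Fin n → Pt => ENNReal.ofReal (Real.exp (-pairE W x))) :=
  ENNReal.measurable_ofReal.comp (Real.measurable_exp.comp (measurable_pairE hW n).neg)

theorem measurableSet_cube (L : ℝ) : MeasurableSet (cube L) := by
  have : cube L = ⋂ k : Fin 3, {x : Pt | 0 ≤ x k ∧ x k ≤ L} := by
    ext x; simp [cube]
  rw [this]
  refine MeasurableSet.iInter (fun k => ?_)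
  have hk : Measurable (fun x : Pt => x k) := by fun_prop
  exact (measurableSet_le measurable_const hk).inter (measurableSet_le hk measurable_const)

theorem volume_cube_aux (L : ℝ) : volume (cube L) = ENNReal.ofReal L ^ 3 := by
  rw [← (PiLp.volume_preserving_toLp (Fin 3)).measure_preimage
    (measurableSet_cube L).nullMeasurableSet]
  have h : (WithLp.toLp 2 : (Fin 3 → ℝ) → Pt) ⁻¹' (cube L)
      = Set.pi Set.univ (fun _ : Fin 3 => Set.Icc 0 L) := by
    ext x
    show (∀ k, 0 ≤ x k ∧ x k ≤ L) ↔ _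
    simp only [Set.mem_univ_pi, Set.mem_Icc]
  rw [h, volume_pi_pi]
  simp

theorem pairE_rad (β : ℝ) (φ : ℝ → ℝ) {n : ℕ} (x : Fin n → Pt) :
    pairE (rad β φ) x = β * energy φ x := by
  unfold pairE rad energy
  rw [Finset.mul_sum]

end CB

open CB

theorem ZW_zero (W : Pt → Pt → ℝ) (Λ : Set Pt) : ZW W Λ 0 = 1 := by
  unfold ZW pairE
  have h : Set.pi Set.univ (fun _ : Fin 0 => Λ) = Set.univ := by
    ext x
    simp
  rw [h, Measure.restrict_univ]
  simp [volume_pi]

theorem ZW_mono_set (W : Pt → Pt → ℝ) {Λ Λ' : Set Pt} (h : Λ ⊆ Λ') (n : ℕ) :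
    ZW W Λ n ≤ ZW W Λ' n := by
  unfold ZW
  exact mul_le_mul_right (lintegral_mono_set (Set.pi_mono fun _ _ => h)) _

theorem ZW_anti {W W' : Pt → Pt → ℝ} {Λ : Set Pt} (hΛ : MeasurableSet Λ)
    (h : ∀ x ∈ Λ, ∀ y ∈ Λ, W x y ≤ W' x y) (n : ℕ) : ZW W' Λ n ≤ ZW W Λ n := by
  unfold ZW
  refine mul_le_mul_right (setLIntegral_mono' (MeasurableSet.univ_pi fun _ => hΛ)
    fun x hx => ?_) _
  refine ENNReal.ofReal_le_ofReal (Real.exp_le_exp.2 (neg_le_neg ?_))
  exact Finset.sum_le_sum fun p _ => h _ (hx _ (mem_univ _)) _ (hx _ (mem_univ _))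

theorem ZW_translate {W : Pt → Pt → ℝ} (hW : Measurable (Function.uncurry W)) (v : Pt)
    (hv : ∀ x y, W (x + v) (y + v) = W x y) (Λ : Set Pt) (n : ℕ) :
    ZW W ((fun x => x + v) '' Λ) n = ZW W Λ n := by
  unfold ZW
  congr 1
  have hmp : MeasurePreserving (fun x : Fin n → Pt => x + fun _ => v) volume volume :=
    measurePreserving_add_right volume (fun _ => v)
  have hemb : MeasurableEmbedding (fun x : Fin n → Pt => x + fun _ => v) :=
    measurableEmbedding_addRight (fun _ => v)
  have h := hmp.setLIntegral_comp_preimage_emb hemb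
    (fun x : Fin n → Pt => ENNReal.ofReal (Real.exp (-pairE W x)))
    (Set.pi Set.univ (fun _ : Fin n => (fun x => x + v) '' Λ))
  rw [← h]
  have hpre : (fun x : Fin n → Pt => x + fun _ => v) ⁻¹'
      (Set.pi Set.univ (fun _ : Fin n => (fun x => x + v) '' Λ))
      = Set.pi Set.univ (fun _ : Fin n => Λ) := by
    ext x
    simp only [Set.mem_preimage, Set.mem_univ_pi, Pi.add_apply, Set.mem_image,
      add_left_inj, exists_eq_right]
  rw [hpre]
  refine lintegral_congr fun x => ?_
  congr 3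
  unfold pairE
  exact Finset.sum_congr rfl fun p _ => hv _ _

theorem volume_cube {L : ℝ} (hL : 0 ≤ L) : volume (cube L) = ENNReal.ofReal (L ^ 3) := by
  rw [volume_cube_aux, ENNReal.ofReal_pow hL]

theorem integrableOn_exp {φ : ℝ → ℝ} (hφ : Measurable φ) {B : ℝ}
    (hst : ∀ (n : ℕ) (x : Fin n → Pt), -B * n ≤ energy φ x) {L β : ℝ} (hβ : 0 < β) (n : ℕ) :
    IntegrableOn (fun x : Fin n → Pt => Real.exp (-β * energy φ x))
      (Set.pi Set.univ (fun _ : Fin n => cube L)) := by
  have hm : Measurable (fun x : Fin n → Pt => energy φ x) := by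
    unfold energy
    refine Finset.measurable_sum _ fun p _ => ?_
    exact hφ.comp ((measurable_pi_apply _).dist (measurable_pi_apply _))
  refine Measure.integrableOn_of_bounded (M := Real.exp (β * (B * n))) ?_ ?_ ?_
  · rw [volume_pi_pi]
    refine (ENNReal.prod_lt_top fun i _ => ?_).ne
    rw [volume_cube_aux]
    exact ENNReal.pow_lt_top ENNReal.ofReal_lt_top
  · exact (Real.measurable_exp.comp (hm.const_mul (-β))).aestronglyMeasurable
  · refine ae_of_all _ fun x => ?_
    rw [Real.norm_eq_abs, abs_of_pos (Real.exp_pos _)]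
    refine Real.exp_le_exp.2 ?_
    have := hst n x
    nlinarith

theorem ofReal_partitionFn {φ : ℝ → ℝ} (hφ : Measurable φ) {B : ℝ}
    (hst : ∀ (n : ℕ) (x : Fin n → Pt), -B * n ≤ energy φ x) {L β : ℝ} (hβ : 0 < β) (n : ℕ) :
    ENNReal.ofReal (partitionFn φ L n β) = ZW (rad β φ) (cube L) n := by
  unfold partitionFn ZW
  have hf : (0 : ℝ) < n.factorial := by exact_mod_cast n.factorial_pos
  rw [ENNReal.ofReal_mul (by positivity), one_div, ENNReal.ofReal_inv_of_pos hf,
    ENNReal.ofReal_natCast, ofReal_integral_eq_lintegral_ofReal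
      (integrableOn_exp hφ hst hβ n) (ae_of_all _ fun x => (Real.exp_pos _).le)]
  congr 1
  refine lintegral_congr fun x => ?_
  rw [pairE_rad, neg_mul]

theorem partitionFn_pos {φ : ℝ → ℝ} (hφ : Measurable φ) {B : ℝ}
    (hst : ∀ (n : ℕ) (x : Fin n → Pt), -B * n ≤ energy φ x) {L β : ℝ} (hL : 0 < L) (hβ : 0 < β)
    (n : ℕ) : 0 < partitionFn φ L n β := by
  unfold partitionFn
  have hf : (0 : ℝ) < n.factorial := by exact_mod_cast n.factorial_pos
  refine mul_pos (by positivity) ?_
  rw [setIntegral_pos_iff_support_of_nonneg_ae (ae_of_all _ fun x => (Real.exp_pos _).le)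
    (integrableOn_exp hφ hst hβ n)]
  have hsupp : Function.support (fun x : Fin n → Pt => Real.exp (-β * energy φ x)) = Set.univ := by
    ext x
    simp [(Real.exp_pos _).ne']
  rw [hsupp, Set.univ_inter, volume_pi_pi]
  refine (pos_iff_ne_zero).2 (Finset.prod_ne_zero_iff.2 fun i _ => ?_)
  rw [volume_cube hL.le]
  have : 0 < L ^ 3 := by positivity
  simpa using this

/-- log-convexity in the coupling -/
theorem ZW_holder {W0 W1 : Pt → Pt → ℝ} (h0 : Measurable (Function.uncurry W0))
    (h1 : Measurable (Function.uncurry W1)) {Λ : Set Pt} (hΛ : MeasurableSet Λ) (n : ℕ)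
    {t : ℝ} (ht0 : 0 < t) (ht1 : t < 1) :
    ZW (fun x y => (1 - t) * W0 x y + t * W1 x y) Λ n ≤
      (ZW W0 Λ n) ^ (1 - t) * (ZW W1 Λ n) ^ t := by
  unfold ZW
  have hp : 0 ≤ 1 - t := by linarith
  rw [ENNReal.mul_rpow_of_nonneg _ _ hp, ENNReal.mul_rpow_of_nonneg _ _ ht0.le]
  have hc : ((n.factorial : ℝ≥0∞)⁻¹) ^ (1 - t) * ((n.factorial : ℝ≥0∞)⁻¹) ^ t
      = (n.factorial : ℝ≥0∞)⁻¹ := by
    rw [← ENNReal.rpow_add_of_nonneg _ _ hp ht0.le]
    simp
  have hpt : ∀ x : Fin n → Pt,
      ENNReal.ofReal (Real.exp (-pairE (fun x y => (1 - t) * W0 x y + t * W1 x y) x))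
      = ENNReal.ofReal (Real.exp (-pairE W0 x)) ^ (1 - t)
        * ENNReal.ofReal (Real.exp (-pairE W1 x)) ^ t := by
    intro x
    rw [ENNReal.ofReal_rpow_of_pos (Real.exp_pos _), ENNReal.ofReal_rpow_of_pos (Real.exp_pos _),
      ← ENNReal.ofReal_mul (by positivity), ← Real.exp_mul, ← Real.exp_mul, ← Real.exp_add]
    congr 2
    have : pairE (fun x y => (1 - t) * W0 x y + t * W1 x y) x
        = (1 - t) * pairE W0 x + t * pairE W1 x := by
      unfold pairE
      rw [Finset.mul_sum, Finset.mul_sum, ← Finset.sum_add_distrib]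
    rw [this]
    ring
  simp_rw [hpt]
  calc (n.factorial : ℝ≥0∞)⁻¹ * ∫⁻ x in Set.pi Set.univ (fun _ : Fin n => Λ),
        ENNReal.ofReal (Real.exp (-pairE W0 x)) ^ (1 - t)
          * ENNReal.ofReal (Real.exp (-pairE W1 x)) ^ t
      ≤ (n.factorial : ℝ≥0∞)⁻¹ *
        ((∫⁻ x in Set.pi Set.univ (fun _ : Fin n => Λ),
          ENNReal.ofReal (Real.exp (-pairE W0 x))) ^ (1 - t)
        * (∫⁻ x in Set.pi Set.univ (fun _ : Fin n => Λ),
          ENNReal.ofReal (Real.exp (-pairE W1 x))) ^ t) := by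
        refine mul_le_mul_right ?_ _
        exact ENNReal.lintegral_mul_norm_pow_le (measurable_exp h0 n).aemeasurable
          (measurable_exp h1 n).aemeasurable hp ht0.le (by ring)
    _ = (((n.factorial : ℝ≥0∞)⁻¹) ^ (1 - t) * ((n.factorial : ℝ≥0∞)⁻¹) ^ t) *
        ((∫⁻ x in Set.pi Set.univ (fun _ : Fin n => Λ),
          ENNReal.ofReal (Real.exp (-pairE W0 x))) ^ (1 - t)
        * (∫⁻ x in Set.pi Set.univ (fun _ : Fin n => Λ),
          ENNReal.ofReal (Real.exp (-pairE W1 x))) ^ t) := by rw [hc]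
    _ = _ := by ring

/-- integral of one pair term -/
theorem pair_term_le {W : Pt → Pt → ℝ} (hW : Measurable (Function.uncurry W))
    {Λ : Set Pt} (hΛ : MeasurableSet Λ) {I : ℝ≥0∞}
    (hI : ∀ x ∈ Λ, ∫⁻ y in Λ, ENNReal.ofReal (W x y) ≤ I) {n : ℕ} {i j : Fin (n + 1)}
    (hij : i ≠ j) :
    ∫⁻ x in Set.pi Set.univ (fun _ : Fin (n + 1) => Λ), ENNReal.ofReal (W (x i) (x j))
      ≤ I * volume Λ ^ n := by
  obtain ⟨i', rfl⟩ := Fin.exists_succAbove_eq hij
  have hmp := volume_preserving_piFinSuccAbove (fun _ : Fin (n + 1) => Pt) j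
  have h := hmp.setLIntegral_comp_preimage_emb (MeasurableEquiv.measurableEmbedding _)
    (fun y : Pt × (Fin n → Pt) => ENNReal.ofReal (W (y.2 i') y.1))
    (Λ ×ˢ Set.pi Set.univ (fun _ : Fin n => Λ))
  have hpre : (MeasurableEquiv.piFinSuccAbove (fun _ : Fin (n + 1) => Pt) j) ⁻¹'
      (Λ ×ˢ Set.pi Set.univ (fun _ : Fin n => Λ))
      = Set.pi Set.univ (fun _ : Fin (n + 1) => Λ) := by
    ext x
    simp only [Set.mem_preimage, Set.mem_prod, Set.mem_univ_pi]
    constructor
    · rintro ⟨h1, h2⟩ k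
      rcases eq_or_ne k j with rfl | hk
      · exact h1
      · obtain ⟨k', rfl⟩ := Fin.exists_succAbove_eq hk
        exact h2 k'
    · intro hx
      exact ⟨hx j, fun k => hx _⟩
  rw [hpre] at h
  have h' : ∫⁻ x in Set.pi Set.univ (fun _ : Fin (n + 1) => Λ),
      ENNReal.ofReal (W (x (j.succAbove i')) (x j))
      = ∫⁻ y in Λ ×ˢ Set.pi Set.univ (fun _ : Fin n => Λ),
        ENNReal.ofReal (W (y.2 i') y.1) := h
  rw [h', Measure.volume_eq_prod, ← Measure.prod_restrict]
  have hmeas : Measurable (fun y : Pt × (Fin n → Pt) => ENNReal.ofReal (W (y.2 i') y.1)) := by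
    have h2 : Measurable (fun y : Pt × (Fin n → Pt) => (y.2 i', y.1)) :=
      ((measurable_pi_apply i').comp measurable_snd).prodMk measurable_fst
    exact ENNReal.measurable_ofReal.comp (hW.comp h2)
  rw [lintegral_prod_symm' _ hmeas]
  calc ∫⁻ y in Set.pi Set.univ (fun _ : Fin n => Λ), ∫⁻ x in Λ, ENNReal.ofReal (W (y i') x)
      ≤ ∫⁻ y in Set.pi Set.univ (fun _ : Fin n => Λ), I :=
        setLIntegral_mono' (MeasurableSet.univ_pi fun _ => hΛ)
          fun y hy => hI _ (hy i' (mem_univ _))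
    _ = I * volume Λ ^ n := by
        rw [setLIntegral_const, volume_pi_pi]
        simp

/-- Jensen lower bound -/
theorem ZW_jensen {W : Pt → Pt → ℝ} (hW : Measurable (Function.uncurry W))
    (h0 : ∀ x y, 0 ≤ W x y) {Λ : Set Pt} (hΛ : MeasurableSet Λ) {V I : ℝ} (hV : 0 < V)
    (hvol : volume Λ = ENNReal.ofReal V) (hI0 : 0 ≤ I)
    (hI : ∀ x ∈ Λ, ∫⁻ y in Λ, ENNReal.ofReal (W x y) ≤ ENNReal.ofReal I) (n : ℕ) :
    ENNReal.ofReal (V ^ n / n.factorial * Real.exp (-((n : ℝ) ^ 2 * I / (2 * V)))) ≤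
      ZW W Λ n := by
  rcases n with _ | n
  · rw [ZW_zero]
    simp
  set m : ℝ := ((n + 1 : ℕ) : ℝ) ^ 2 * I / (2 * V) with hm
  have hm0 : 0 ≤ m := by positivity
  set Q := Set.pi Set.univ (fun _ : Fin (n + 1) => Λ) with hQ
  have hQm : MeasurableSet Q := MeasurableSet.univ_pi fun _ => hΛ
  have hvolQ : volume Q = ENNReal.ofReal (V ^ (n + 1)) := by
    rw [hQ, volume_pi_pi]
    simp [hvol, ENNReal.ofReal_pow hV.le]
  have hE0 : ∀ x : Fin (n + 1) → Pt, 0 ≤ pairE W x := fun x =>
    Finset.sum_nonneg fun p _ => h0 _ _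
  -- mean energy
  have hE : ∫⁻ x in Q, ENNReal.ofReal (pairE W x) ≤ ENNReal.ofReal (m * V ^ (n + 1)) := by
    have h1 : ∀ x : Fin (n + 1) → Pt, ENNReal.ofReal (pairE W x)
        = ∑ p : {p : Fin (n + 1) × Fin (n + 1) // p.1 < p.2},
          ENNReal.ofReal (W (x p.1.1) (x p.1.2)) := by
      intro x
      unfold pairE
      rw [ENNReal.ofReal_sum_of_nonneg fun p _ => h0 _ _]
    simp_rw [h1]
    rw [lintegral_finsetSum]
    · calc ∑ p : {p : Fin (n + 1) × Fin (n + 1) // p.1 < p.2},
            ∫⁻ x in Q, ENNReal.ofReal (W (x p.1.1) (x p.1.2))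
          ≤ ∑ p : {p : Fin (n + 1) × Fin (n + 1) // p.1 < p.2},
            ENNReal.ofReal (I * V ^ n) := by
            refine Finset.sum_le_sum fun p _ => ?_
            refine (pair_term_le hW hΛ hI (ne_of_lt p.2)).trans (le_of_eq ?_)
            rw [hvol, ← ENNReal.ofReal_pow hV.le, ← ENNReal.ofReal_mul hI0]
        _ = ENNReal.ofReal ((Fintype.card {p : Fin (n + 1) × Fin (n + 1) // p.1 < p.2} : ℝ)
              * (I * V ^ n)) := by
            rw [Finset.sum_const, Finset.card_univ, nsmul_eq_mul,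
              ENNReal.ofReal_mul (Nat.cast_nonneg _), ENNReal.ofReal_natCast]
        _ ≤ ENNReal.ofReal (m * V ^ (n + 1)) := by
            refine ENNReal.ofReal_le_ofReal ?_
            have hcard : 2 * Fintype.card {p : Fin (n + 1) × Fin (n + 1) // p.1 < p.2}
                ≤ (n + 1) ^ 2 := by
              have h3 : Fintype.card {p : Fin (n + 1) × Fin (n + 1) // p.1 < p.2}
                  = Fintype.card {p : Fin (n + 1) × Fin (n + 1) // p.2 < p.1} := by
                refine Fintype.card_congr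
                  ((Equiv.prodComm (Fin (n + 1)) (Fin (n + 1))).subtypeEquiv fun p => ?_)
                simp
              rw [two_mul]
              nth_rewrite 2 [h3]
              rw [Fintype.card_subtype, Fintype.card_subtype, ← Finset.card_union_of_disjoint]
              · refine (Finset.card_le_univ _).trans (le_of_eq ?_)
                simp [sq]
              · rw [Finset.disjoint_left]
                intro p hp hp'
                rw [Finset.mem_filter] at hp hp'
                exact absurd hp.2 (not_lt.2 hp'.2.le)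
            have hcard' : (2 : ℝ) * (Fintype.card
                {p : Fin (n + 1) × Fin (n + 1) // p.1 < p.2} : ℝ) ≤ ((n + 1 : ℕ) : ℝ) ^ 2 := by
              exact_mod_cast hcard
            have h5 : m * V ^ (n + 1) = ((n + 1 : ℕ) : ℝ) ^ 2 / 2 * (I * V ^ n) := by
              rw [hm, pow_succ]
              field_simp
              ring
            rw [h5]
            have h6 : 0 ≤ I * V ^ n := by positivity
            nlinarith
    · intro p _
      have h2 : Measurable (fun x : Fin (n + 1) → Pt => (x p.1.1, x p.1.2)) :=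
        (measurable_pi_apply _).prodMk (measurable_pi_apply _)
      exact ENNReal.measurable_ofReal.comp (hW.comp h2)
  -- pointwise tangent line inequality
  have hpt : ∀ x : Fin (n + 1) → Pt, ENNReal.ofReal (Real.exp (-m) * (1 + m)) ≤
      ENNReal.ofReal (Real.exp (-pairE W x)) +
        ENNReal.ofReal (Real.exp (-m)) * ENNReal.ofReal (pairE W x) := by
    intro x
    rw [← ENNReal.ofReal_mul (Real.exp_pos _).le, ← ENNReal.ofReal_add (Real.exp_pos _).le
      (mul_nonneg (Real.exp_pos _).le (hE0 x))]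
    refine ENNReal.ofReal_le_ofReal ?_
    have h1 : m - pairE W x + 1 ≤ Real.exp (m - pairE W x) := Real.add_one_le_exp _
    have h2 : Real.exp (-pairE W x) = Real.exp (-m) * Real.exp (m - pairE W x) := by
      rw [← Real.exp_add]
      congr 1
      ring
    rw [h2]
    have h3 := mul_le_mul_of_nonneg_left h1 (Real.exp_pos (-m)).le
    linarith
  have hint : ENNReal.ofReal (Real.exp (-m) * (1 + m)) * ENNReal.ofReal (V ^ (n + 1)) ≤
      (∫⁻ x in Q, ENNReal.ofReal (Real.exp (-pairE W x))) +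
        ENNReal.ofReal (Real.exp (-m)) * ENNReal.ofReal (m * V ^ (n + 1)) := by
    calc ENNReal.ofReal (Real.exp (-m) * (1 + m)) * ENNReal.ofReal (V ^ (n + 1))
        = ∫⁻ _ in Q, ENNReal.ofReal (Real.exp (-m) * (1 + m)) := by
          rw [setLIntegral_const, hvolQ]
      _ ≤ ∫⁻ x in Q, (ENNReal.ofReal (Real.exp (-pairE W x)) +
            ENNReal.ofReal (Real.exp (-m)) * ENNReal.ofReal (pairE W x)) :=
          lintegral_mono hpt
      _ = (∫⁻ x in Q, ENNReal.ofReal (Real.exp (-pairE W x))) +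
            ENNReal.ofReal (Real.exp (-m)) * ∫⁻ x in Q, ENNReal.ofReal (pairE W x) := by
          rw [lintegral_add_left (measurable_exp hW (n + 1)),
            lintegral_const_mul' _ _ ENNReal.ofReal_ne_top]
      _ ≤ _ := add_le_add le_rfl (mul_le_mul_right hE _)
  have hfin : ENNReal.ofReal (Real.exp (-m)) * ENNReal.ofReal (m * V ^ (n + 1)) ≠ ⊤ :=
    ENNReal.mul_ne_top ENNReal.ofReal_ne_top ENNReal.ofReal_ne_top
  have hlow : ENNReal.ofReal (Real.exp (-m) * V ^ (n + 1)) ≤
      ∫⁻ x in Q, ENNReal.ofReal (Real.exp (-pairE W x)) := by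
    refine (ENNReal.add_le_add_iff_right hfin).1 ?_
    refine le_trans (le_of_eq ?_) hint
    rw [← ENNReal.ofReal_mul (Real.exp_pos _).le, ← ENNReal.ofReal_mul (by positivity),
      ← ENNReal.ofReal_add (by positivity) (by positivity)]
    congr 1
    ring
  unfold ZW
  have hf : (0 : ℝ) < (n + 1).factorial := by exact_mod_cast (n + 1).factorial_pos
  have h7 : ENNReal.ofReal (V ^ (n + 1) / (n + 1).factorial * Real.exp (-m))
      = ((n + 1).factorial : ℝ≥0∞)⁻¹ * ENNReal.ofReal (Real.exp (-m) * V ^ (n + 1)) := by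
    rw [← ENNReal.ofReal_natCast, ← ENNReal.ofReal_inv_of_pos hf,
      ← ENNReal.ofReal_mul (by positivity)]
    congr 1
    ring
  rw [h7]
  exact mul_le_mul_right hlow _

end Crest.Agent.Kac
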