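import Mathlib

open Filter Topology Set

namespace Crest.Agent.Kac

theorem exists_subgrad {f : ℝ × ℝ → ℝ} {s : Set (ℝ × ℝ)} (hs : IsOpen s) (hf : ConvexOn ℝ s f)
    {z : ℝ × ℝ} (hz : z ∈ s) :
    ∃ a d : ℝ, ∀ w ∈ s, f z + a * (w.1 - z.1) + d * (w.2 - z.2) ≤ f w := by
  have hcont : ContinuousOn f s := hf.continuousOn hs
  have hconv := hf.convex_strict_epigraph
  have hopen : IsOpen {p : (ℝ × ℝ) × ℝ | p.1 ∈ s ∧ f p.1 < p.2} := by
    have h1 : IsOpen (s ×ˢ (univ : Set ℝ)) := hs.prod isOpen_univ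
    have h2 : ContinuousOn (fun p : (ℝ × ℝ) × ℝ => p.2 - f p.1) (s ×ˢ (univ : Set ℝ)) := by
      apply ContinuousOn.sub continuous_snd.continuousOn
      exact hcont.comp continuous_fst.continuousOn (fun p hp => hp.1)
    have h3 := h2.isOpen_inter_preimage h1 (isOpen_Ioi (a := (0 : ℝ)))
    convert h3 using 1
    ext p
    simp [sub_pos]
  have hnot : (z, f z) ∉ {p : (ℝ × ℝ) × ℝ | p.1 ∈ s ∧ f p.1 < p.2} := by
    simp
  obtain ⟨φ, hφ⟩ := geometric_hahn_banach_open_point hconv hopen hnot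
  set α := φ ((1, 0), 0) with hα
  set β := φ ((0, 1), 0) with hβ
  set τ := φ ((0, 0), 1) with hτ
  have hrep : ∀ (w : ℝ × ℝ) (t : ℝ), φ (w, t) = w.1 * α + w.2 * β + t * τ := by
    intro w t
    have : ((w, t) : (ℝ × ℝ) × ℝ) = w.1 • (((1 : ℝ), (0 : ℝ)), (0 : ℝ)) +
        w.2 • (((0 : ℝ), (1 : ℝ)), (0 : ℝ)) + t • (((0 : ℝ), (0 : ℝ)), (1 : ℝ)) := by
      ext <;> simp
    rw [this, map_add, map_add, map_smul, map_smul, map_smul]
    simp [hα, hβ, hτ]
  have hτneg : τ < 0 := by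
    have := hφ (z, f z + 1) ⟨hz, by simp⟩
    rw [hrep, hrep] at this
    linarith
  have hτ0 : τ ≠ 0 := hτneg.ne
  refine ⟨α / (-τ), β / (-τ), fun w hw => ?_⟩
  have key : ∀ ε > 0, w.1 * α + w.2 * β + (f w + ε) * τ < z.1 * α + z.2 * β + f z * τ := by
    intro ε hε
    have := hφ (w, f w + ε) ⟨hw, by simpa using hε⟩
    rwa [hrep, hrep] at this
  have hle : w.1 * α + w.2 * β + f w * τ ≤ z.1 * α + z.2 * β + f z * τ := by
    by_contra hcon
    push Not at hcon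
    set gap := w.1 * α + w.2 * β + f w * τ - (z.1 * α + z.2 * β + f z * τ) with hgap
    have hgpos : 0 < gap := by linarith
    have hk := key (gap / (-τ)) (div_pos hgpos (by linarith))
    have : gap / (-τ) * τ = - gap := by field_simp
    rw [add_mul, this] at hk
    linarith
  have hτ' : 0 < -τ := by linarith
  have h1 : f z + α / (-τ) * (w.1 - z.1) + β / (-τ) * (w.2 - z.2) - f w =
      (w.1 * α + w.2 * β + f w * τ - (z.1 * α + z.2 * β + f z * τ)) / (-τ) := by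
    field_simp
    ring
  have h2 : (w.1 * α + w.2 * β + f w * τ - (z.1 * α + z.2 * β + f z * τ)) / (-τ) ≤ 0 :=
    div_nonpos_of_nonpos_of_nonneg (by linarith) hτ'.le
  linarith

/-- approximate subgradient on the box `|u| ≤ U`, `|x| ≤ X` -/
def SubOn (f : ℝ → ℝ → ℝ) (U X u x a d e : ℝ) : Prop :=
  ∀ u' x' : ℝ, |u'| ≤ U → |x'| ≤ X → f u x + a * (u' - u) + d * (x' - x) - e ≤ f u' x'

/-- the cluster claim -/
def Claim (f : ℝ → ℝ → ℝ) (A D : Fin 3 → ℝ) (U X m r e : ℝ) : Prop :=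
  ∀ u x : ℝ, |u| ≤ U - m → |x| ≤ X - m →
    ∃ (i : Fin 3) (a d : ℝ), |a - A i| ≤ r ∧ |d - D i| ≤ r ∧ SubOn f U X u x a d e

theorem subgrad_box {f : ℝ → ℝ → ℝ} {U0 X0 C : ℝ} (hU : 0 < U0) (hX : 0 < X0)
    (hf : ConvexOn ℝ (Icc (-(2 * U0)) (2 * U0) ×ˢ Icc (-(2 * X0)) (2 * X0))
        (fun z : ℝ × ℝ => f z.1 z.2))
    (hb : ∀ u ∈ Icc (-(2 * U0)) (2 * U0), ∀ x ∈ Icc (-(2 * X0)) (2 * X0),
        0 ≤ f u x ∧ f u x ≤ C) {u x : ℝ} (hu : |u| ≤ U0) (hx : |x| < 3 / 2 * X0) :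
    ∃ a d : ℝ, |a| ≤ 2 * C / U0 ∧ |d| ≤ 2 * C / X0 ∧
      ∀ u' x' : ℝ, |u'| < 2 * U0 → |x'| < 2 * X0 →
        f u x + a * (u' - u) + d * (x' - x) ≤ f u' x' := by
  have hopen : IsOpen (Ioo (-(2 * U0)) (2 * U0) ×ˢ Ioo (-(2 * X0)) (2 * X0)) :=
    isOpen_Ioo.prod isOpen_Ioo
  have hconvS : Convex ℝ (Ioo (-(2 * U0)) (2 * U0) ×ˢ Ioo (-(2 * X0)) (2 * X0)) :=
    (convex_Ioo _ _).prod (convex_Ioo _ _)
  have hf' := hf.subset (prod_mono Ioo_subset_Icc_self Ioo_subset_Icc_self) hconvS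
  have hu' := abs_le.1 hu
  have hx' := abs_lt.1 hx
  have hz : (u, x) ∈ Ioo (-(2 * U0)) (2 * U0) ×ˢ Ioo (-(2 * X0)) (2 * X0) := by
    refine ⟨⟨?_, ?_⟩, ⟨?_, ?_⟩⟩ <;> simp only <;> linarith [hu'.1, hu'.2, hx'.1, hx'.2]
  obtain ⟨a, d, had⟩ := exists_subgrad hopen hf' hz
  have hsub : ∀ u' x' : ℝ, |u'| < 2 * U0 → |x'| < 2 * X0 →
        f u x + a * (u' - u) + d * (x' - x) ≤ f u' x' := by
    intro u' x' h1 h2
    have h1' := abs_lt.1 h1
    have h2' := abs_lt.1 h2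
    exact had (u', x') ⟨⟨h1'.1, h1'.2⟩, ⟨h2'.1, h2'.2⟩⟩
  have hf0 : 0 ≤ f u x := (hb u ⟨by linarith, by linarith⟩ x ⟨by linarith, by linarith⟩).1
  have htest : ∀ u' x' : ℝ, |u'| < 2 * U0 → |x'| < 2 * X0 →
      a * (u' - u) + d * (x' - x) ≤ C := by
    intro u' x' h1 h2
    have h1' := abs_lt.1 h1
    have h2' := abs_lt.1 h2
    have h3 := hsub u' x' h1 h2
    have h4 := (hb u' ⟨h1'.1.le, h1'.2.le⟩ x' ⟨h2'.1.le, h2'.2.le⟩).2
    linarith
  refine ⟨a, d, ?_, ?_, hsub⟩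
  · rw [le_div_iff₀ hU]
    have e1 := htest (u + U0 / 2) x (by rw [abs_lt]; constructor <;> linarith)
      (by rw [abs_lt]; constructor <;> linarith)
    have e2 := htest (u - U0 / 2) x (by rw [abs_lt]; constructor <;> linarith)
      (by rw [abs_lt]; constructor <;> linarith)
    ring_nf at e1 e2
    rcases abs_cases a with ⟨h, _⟩ | ⟨h, _⟩ <;> rw [h] <;> linarith
  · rw [le_div_iff₀ hX]
    have e1 := htest u (x + X0 / 2) (by rw [abs_lt]; constructor <;> linarith)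
      (by rw [abs_lt]; constructor <;> linarith)
    have e2 := htest u (x - X0 / 2) (by rw [abs_lt]; constructor <;> linarith)
      (by rw [abs_lt]; constructor <;> linarith)
    ring_nf at e1 e2
    rcases abs_cases d with ⟨h, _⟩ | ⟨h, _⟩ <;> rw [h] <;> linarith

theorem vec_aux {b ys Y g : ℝ} (hb : 0 ≤ b) (h0 : 0 ≤ ys) (h1 : ys ≤ Y) (hg : |g| ≤ Y) :
    |b * ys * g - b * ys ^ 2 / 2| ≤ 3 / 2 * Y ^ 2 * b := by
  have hY0 : 0 ≤ Y := h0.trans h1
  have e1 : |ys * g| ≤ Y * Y := by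
    rw [abs_mul, abs_of_nonneg h0]
    exact mul_le_mul h1 hg (abs_nonneg _) hY0
  have e2 : ys ^ 2 ≤ Y * Y := by
    rw [sq]; exact mul_le_mul h1 h1 h0 hY0
  have e3 : 0 ≤ ys ^ 2 := sq_nonneg _
  have e4 := abs_le.1 e1
  have e5 : b * ys * g - b * ys ^ 2 / 2 = b * (ys * g - ys ^ 2 / 2) := by ring
  rw [e5, abs_mul, abs_of_nonneg hb, mul_comm]
  apply mul_le_mul_of_nonneg_right _ hb
  rw [abs_le]
  constructor <;> linarith

theorem quad_aux {s γ r : ℝ} (hr : r ≤ γ / 8) (hr0 : 0 ≤ r) (hs : γ / 2 ≤ s) :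
    γ ^ 2 / 16 ≤ s ^ 2 / 2 - r * s := by
  have h1 : 0 ≤ s * (γ / 8 - r) := mul_nonneg (by linarith) (by linarith)
  have h2 : 0 ≤ (s - γ / 2) * (s + γ / 4) := mul_nonneg (by linarith) (by linarith)
  linarith

set_option maxHeartbeats 1000000 in
theorem corner_step {f f' : ℝ → ℝ → ℝ} {A D : Fin 3 → ℝ} {U0 X0 C Y b δ κ γ G L m r e : ℝ}
    (hU : 0 < U0) (hU1 : U0 ≤ 1 / 4) (hX : 0 < X0) (hY : 2 * C / X0 ≤ Y) (hY0 : 0 ≤ Y)
    (hf : ConvexOn ℝ (Icc (-(2 * U0)) (2 * U0) ×ˢ Icc (-(2 * X0)) (2 * X0))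
        (fun z : ℝ × ℝ => f z.1 z.2))
    (hb : ∀ u ∈ Icc (-(2 * U0)) (2 * U0), ∀ x ∈ Icc (-(2 * X0)) (2 * X0),
        0 ≤ f u x ∧ f u x ≤ C)
    (hbpos : 0 < b) (hbY : 5 / 4 * b * Y < X0 / 2)
    (hlo : ∀ u ∈ Icc (-U0) U0, ∀ x ∈ Icc (-X0) X0, ∀ y ∈ Icc 0 Y,
      f u (x + (1 + u) * b * y) - (1 + u) * b * y ^ 2 / 2 - δ ≤ f' u x)
    (hup : ∀ u ∈ Icc (-U0) U0, ∀ x ∈ Icc (-X0) X0, ∃ y ∈ Icc 0 Y,
      f' u x ≤ f u (x + (1 + u) * b * y) - (1 + u) * b * y ^ 2 / 2 + δ)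
    (hD : ∀ i, D i ∈ Icc 0 Y)
    (hsep : ∀ i j, |D i - D j| < γ → i = j)
    (hG : ∀ i, |A i| + |D i| + 2 * r ≤ G)
    (hL : 2 * C / U0 + 2 * C / X0 ≤ L)
    (hκ : 0 < κ) (hm : 0 ≤ m)
    (hE : (4 / 3) * ((L + G) * κ + e / b) < γ ^ 2 / 16) (hr : r ≤ γ / 8) (hr0 : 0 ≤ r)
    (hclaim : Claim f A D U0 X0 m r e) :
    Claim f' A D U0 X0 (m + (5 / 4 * Y + κ) * b) (r + e / (κ * b) + 3 / 2 * Y ^ 2 * b)
      (2 * δ) := by
  intro u x hu hx
  have hκb : 0 < κ * b := mul_pos hκ hbpos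
  have hYb : 0 ≤ Y * b := mul_nonneg hY0 hbpos.le
  have hmm : (5 / 4 * Y + κ) * b = 5 / 4 * (Y * b) + κ * b := by ring
  rw [hmm] at hu hx
  have hu1 := abs_le.1 hu
  have hx1 := abs_le.1 hx
  have huU : |u| ≤ U0 := by linarith
  have hxX : |x| ≤ X0 := by linarith
  have huU' := abs_le.1 huU
  have hxX' := abs_le.1 hxX
  set β := 1 + u with hβ
  have hβ1 : 3 / 4 ≤ β := by rw [hβ]; linarith
  have hβ2 : β ≤ 5 / 4 := by rw [hβ]; linarith
  have hβb : 0 < β * b := mul_pos (by linarith) hbpos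
  have hshift : ∀ y ∈ Icc (0 : ℝ) Y, 0 ≤ β * b * y ∧ β * b * y ≤ 5 / 4 * (Y * b) := by
    intro y hy
    refine ⟨mul_nonneg hβb.le hy.1, ?_⟩
    calc β * b * y ≤ 5 / 4 * b * Y := by
          apply mul_le_mul _ hy.2 hy.1 (by positivity)
          exact mul_le_mul_of_nonneg_right hβ2 hbpos.le
      _ = 5 / 4 * (Y * b) := by ring
  have hbY' : 5 / 4 * (Y * b) < X0 / 2 := by linarith
  -- continuity and maximiser
  have hopen : IsOpen (Ioo (-(2 * U0)) (2 * U0) ×ˢ Ioo (-(2 * X0)) (2 * X0)) :=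
    isOpen_Ioo.prod isOpen_Ioo
  have hconvS : Convex ℝ (Ioo (-(2 * U0)) (2 * U0) ×ˢ Ioo (-(2 * X0)) (2 * X0)) :=
    (convex_Ioo _ _).prod (convex_Ioo _ _)
  have hf' := hf.subset (prod_mono Ioo_subset_Icc_self Ioo_subset_Icc_self) hconvS
  have hcont : ContinuousOn (fun y => f u (x + β * b * y) - β * b * y ^ 2 / 2) (Icc 0 Y) := by
    apply ContinuousOn.sub
    · have hc := hf'.continuousOn hopen
      have : ContinuousOn (fun y : ℝ => ((u, x + β * b * y) : ℝ × ℝ)) (Icc 0 Y) := by fun_prop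
      refine hc.comp this ?_
      intro y hy
      have h1 := hshift y hy
      refine ⟨⟨?_, ?_⟩, ⟨?_, ?_⟩⟩ <;> simp only <;> linarith
    · fun_prop
  obtain ⟨ys, hys, hmax⟩ := isCompact_Icc.exists_isMaxOn (nonempty_Icc.2 hY0) hcont
  have hmax' : ∀ y ∈ Icc (0 : ℝ) Y,
      f u (x + β * b * y) - β * b * y ^ 2 / 2 ≤ f u (x + β * b * ys) - β * b * ys ^ 2 / 2 :=
    fun y hy => hmax hy
  set xs := x + β * b * ys with hxs
  have hys' := hshift ys hys
  have hxs3 : |xs| < 3 / 2 * X0 := by rw [abs_lt]; constructor <;> rw [hxs] <;> linarith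
  obtain ⟨α, g, hα, hg, hsub⟩ := subgrad_box hU hX hf hb huU hxs3
  have hgY : |g| ≤ Y := hg.trans hY
  -- nearby points
  have hnear : ∀ u' x' : ℝ, |u' - u| ≤ κ * b → |x' - xs| ≤ κ * b →
      ∃ (i : Fin 3) (a d : ℝ), |a - A i| ≤ r ∧ |d - D i| ≤ r ∧ SubOn f U0 X0 u' x' a d e ∧
        |D i - ys| < γ / 2 := by
    intro u' x' h1 h2
    have h1' := abs_le.1 h1
    have h2' := abs_le.1 h2
    have hu'm : |u'| ≤ U0 - m := by rw [abs_le]; constructor <;> linarith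
    have hx'm : |x'| ≤ X0 - m := by rw [abs_le]; constructor <;> linarith
    obtain ⟨i, a, d, ha, hd, hS⟩ := hclaim u' x' hu'm hx'm
    refine ⟨i, a, d, ha, hd, hS, ?_⟩
    have hDi := hD i
    have hDs := hshift (D i) hDi
    have t1 := hS u (x + β * b * D i) huU (by rw [abs_le]; constructor <;> linarith)
    have t2 := hsub u' x' (by linarith) (by linarith)
    have t3 := hmax' (D i) hDi
    have hGi := hG i
    have ha' : |a| ≤ |A i| + r := by
      have := abs_sub_abs_le_abs_sub a (A i); linarith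
    have hd' : |d| ≤ |D i| + r := by
      have := abs_sub_abs_le_abs_sub d (D i); linarith
    -- error terms
    have q1 : -(|α| * (κ * b)) ≤ α * (u' - u) := by
      have : |α * (u' - u)| ≤ |α| * (κ * b) := by
        rw [abs_mul]; exact mul_le_mul_of_nonneg_left h1 (abs_nonneg _)
      exact (abs_le.1 this).1
    have q2 : -(|g| * (κ * b)) ≤ g * (x' - xs) := by
      have : |g * (x' - xs)| ≤ |g| * (κ * b) := by
        rw [abs_mul]; exact mul_le_mul_of_nonneg_left h2 (abs_nonneg _)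
      exact (abs_le.1 this).1
    have q3 : -(|a| * (κ * b)) ≤ a * (u - u') := by
      have : |a * (u - u')| ≤ |a| * (κ * b) := by
        rw [abs_mul, abs_sub_comm]; exact mul_le_mul_of_nonneg_left h1 (abs_nonneg _)
      exact (abs_le.1 this).1
    have q4 : -(|d| * (κ * b)) ≤ d * (xs - x') := by
      have : |d * (xs - x')| ≤ |d| * (κ * b) := by
        rw [abs_mul, abs_sub_comm]; exact mul_le_mul_of_nonneg_left h2 (abs_nonneg _)
      exact (abs_le.1 this).1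
    have q5 : -(r * |D i - ys|) ≤ (d - D i) * (D i - ys) := by
      have : |(d - D i) * (D i - ys)| ≤ r * |D i - ys| := by
        rw [abs_mul]; exact mul_le_mul_of_nonneg_right hd (abs_nonneg _)
      exact (abs_le.1 this).1
    set s := |D i - ys| with hs
    have hs0 : 0 ≤ s := abs_nonneg _
    have hs2 : s ^ 2 = (D i - ys) ^ 2 := sq_abs _
    -- main inequality
    have main : β * b * (s ^ 2 / 2 - r * s) ≤ (L + G) * (κ * b) + e := by
      have w1 : β * b * (-(r * s)) ≤ β * b * ((d - D i) * (D i - ys)) :=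
        mul_le_mul_of_nonneg_left q5 hβb.le
      have w2 : (|α| + |g| + |a| + |d|) * (κ * b) ≤ (L + G) * (κ * b) := by
        apply mul_le_mul_of_nonneg_right _ hκb.le
        linarith
      have w3 : x + β * b * D i - x' = (xs - x') + β * b * (D i - ys) := by rw [hxs]; ring
      rw [w3] at t1
      rw [hs2]
      linarith [t1, t2, t3, q1, q2, q3, q4, w1, w2]
    by_contra hcon
    push Not at hcon
    have hγs : γ ^ 2 / 16 ≤ s ^ 2 / 2 - r * s := quad_aux hr hr0 hcon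
    have hE' : (L + G) * (κ * b) + e < 3 / 4 * b * (γ ^ 2 / 16) := by
      have : (L + G) * (κ * b) + e = ((L + G) * κ + e / b) * b := by
        field_simp
      rw [this]
      have h5 : (L + G) * κ + e / b < 3 / 4 * (γ ^ 2 / 16) := by linarith
      calc ((L + G) * κ + e / b) * b < 3 / 4 * (γ ^ 2 / 16) * b :=
            mul_lt_mul_of_pos_right h5 hbpos
        _ = 3 / 4 * b * (γ ^ 2 / 16) := by ring
    have h6 : 3 / 4 * b * (γ ^ 2 / 16) ≤ β * b * (s ^ 2 / 2 - r * s) := by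
      apply mul_le_mul _ hγs (by positivity) hβb.le
      exact mul_le_mul_of_nonneg_right hβ1 hbpos.le
    linarith
  -- the cluster at z*
  obtain ⟨i, a0, d0, ha0, hd0, hS0, hi⟩ := hnear u xs (by simp [hκb.le]) (by simp [hκb.le])
  have hnear' : ∀ u' x' : ℝ, |u' - u| ≤ κ * b → |x' - xs| ≤ κ * b →
      ∃ (a d : ℝ), |a - A i| ≤ r ∧ |d - D i| ≤ r ∧ SubOn f U0 X0 u' x' a d e := by
    intro u' x' h1 h2
    obtain ⟨j, a, d, ha, hd, hS, hj⟩ := hnear u' x' h1 h2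
    have : i = j := by
      apply hsep
      have := abs_sub_le (D i) ys (D j)
      rw [abs_sub_comm ys (D j)] at this
      linarith
    subst this
    exact ⟨a, d, ha, hd, hS⟩
  have hxsX : |xs| ≤ X0 := by rw [abs_le]; constructor <;> rw [hxs] <;> linarith
  -- the four tests
  have hediv : e / (κ * b) * (κ * b) = e := by field_simp
  have test : ∀ s t : ℝ, |s| ≤ 1 → |t| ≤ 1 → ∃ a d : ℝ, |a - A i| ≤ r ∧ |d - D i| ≤ r ∧
      (α - a) * s + (g - d) * t ≤ e / (κ * b) := by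
    intro s t hs ht
    have k1 : |u + κ * b * s - u| ≤ κ * b := by
      rw [add_sub_cancel_left, abs_mul, abs_of_pos hκb]
      exact mul_le_of_le_one_right hκb.le hs
    have k2 : |xs + κ * b * t - xs| ≤ κ * b := by
      rw [add_sub_cancel_left, abs_mul, abs_of_pos hκb]
      exact mul_le_of_le_one_right hκb.le ht
    obtain ⟨a, d, ha, hd, hS⟩ := hnear' _ _ k1 k2
    refine ⟨a, d, ha, hd, ?_⟩
    have k1' := abs_le.1 k1
    have k2' := abs_le.1 k2
    have t1 := hS u xs huU hxsX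
    have t2 := hsub (u + κ * b * s) (xs + κ * b * t)
      (by rw [abs_lt]; constructor <;> linarith) (by rw [abs_lt]; constructor <;> linarith)
    rw [le_div_iff₀ hκb]
    linarith [t1, t2]
  have hαA : |α - A i| ≤ r + e / (κ * b) := by
    obtain ⟨a, d, ha, hd, h1⟩ := test 1 0 (by simp) (by simp)
    obtain ⟨a', d', ha', hd', h1'⟩ := test (-1) 0 (by simp) (by simp)
    rw [abs_le] at *
    constructor <;> linarith
  have hgD : |g - D i| ≤ r + e / (κ * b) := by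
    obtain ⟨a, d, ha, hd, h1⟩ := test 0 1 (by simp) (by simp)
    obtain ⟨a', d', ha', hd', h1'⟩ := test 0 (-1) (by simp) (by simp)
    rw [abs_le] at hd hd' ⊢
    constructor <;> linarith
  refine ⟨i, α + b * ys * g - b * ys ^ 2 / 2, g, ?_, ?_, ?_⟩
  · have h1 : |b * ys * g - b * ys ^ 2 / 2| ≤ 3 / 2 * Y ^ 2 * b :=
      vec_aux hbpos.le hys.1 hys.2 hgY
    calc |α + b * ys * g - b * ys ^ 2 / 2 - A i|
        = |(α - A i) + (b * ys * g - b * ys ^ 2 / 2)| := by congr 1; ring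
      _ ≤ |α - A i| + |b * ys * g - b * ys ^ 2 / 2| := abs_add_le _ _
      _ ≤ r + e / (κ * b) + 3 / 2 * Y ^ 2 * b := add_le_add hαA h1
  · have : 0 ≤ 3 / 2 * Y ^ 2 * b := by positivity
    linarith
  · intro u' x' hu' hx'
    have hu2 := abs_le.1 hu'
    have hx2 := abs_le.1 hx'
    have hβ'1 : 0 ≤ 1 + u' := by linarith
    have hβ'2 : 1 + u' ≤ 5 / 4 := by linarith
    have hsh0 : 0 ≤ (1 + u') * b * ys := mul_nonneg (mul_nonneg hβ'1 hbpos.le) hys.1
    have hsh1 : (1 + u') * b * ys ≤ 5 / 4 * (Y * b) := by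
      calc (1 + u') * b * ys ≤ 5 / 4 * b * Y := by
            apply mul_le_mul _ hys.2 hys.1 (by positivity)
            exact mul_le_mul_of_nonneg_right hβ'2 hbpos.le
        _ = 5 / 4 * (Y * b) := by ring
    have t1 := hlo u' ⟨by linarith, by linarith⟩ x' ⟨by linarith, by linarith⟩ ys hys
    have t2 := hsub u' (x' + (1 + u') * b * ys) (by linarith)
      (by rw [abs_lt]; constructor <;> linarith)
    obtain ⟨y, hy, t3⟩ := hup u ⟨by linarith, by linarith⟩ x ⟨by linarith, by linarith⟩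
    have t4 := hmax' y hy
    have key : f u xs - β * b * ys ^ 2 / 2 +
        (α + b * ys * g - b * ys ^ 2 / 2) * (u' - u) + g * (x' - x) =
        f u xs + α * (u' - u) + g * (x' + (1 + u') * b * ys - xs) -
          (1 + u') * b * ys ^ 2 / 2 := by
      rw [hxs, hβ]; ring
    linarith

end Crest.Agent.Kac
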