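import Mathlib
import Crest.Agent.Kac.CornerA

open Filter Topology Set

namespace Crest.Agent.Kac


/-- the cluster sets -/
def Cl (q : ℝ → ℝ → ℝ) (U0 X0 r A D : ℝ) : Set (ℝ × ℝ) :=
  {z | |z.1| ≤ U0 / 2 ∧ |z.2| ≤ X0 / 2 ∧
    ∃ a d : ℝ, |a - A| ≤ r ∧ |d - D| ≤ r ∧ SubOn q U0 X0 z.1 z.2 a d 0}

theorem Cl_compact {q : ℝ → ℝ → ℝ} {U0 X0 r M : ℝ} (hU : 0 < U0) (hX : 0 < X0)
    (H : ∀ u x : ℝ, |u| ≤ U0 / 2 → |x| ≤ X0 / 2 → ∃ a d : ℝ, |a| ≤ M ∧ |d| ≤ M ∧
      SubOn q U0 X0 u x a d 0) (A D : ℝ) : IsCompact (Cl q U0 X0 r A D) := by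
  have hM0 : 0 ≤ M := by
    obtain ⟨a, d, ha, _, _⟩ := H 0 0 (by rw [abs_zero]; linarith) (by rw [abs_zero]; linarith)
    exact (abs_nonneg _).trans ha
  set Z : Set (ℝ × ℝ) := Icc (-(U0 / 2)) (U0 / 2) ×ˢ Icc (-(X0 / 2)) (X0 / 2) with hZ
  have hZc : IsCompact Z := isCompact_Icc.prod isCompact_Icc
  have hZmem : ∀ z : ℝ × ℝ, z ∈ Z ↔ |z.1| ≤ U0 / 2 ∧ |z.2| ≤ X0 / 2 := by
    intro z
    rw [hZ, mem_prod, mem_Icc, mem_Icc, abs_le, abs_le]
  have hlow : ∀ z ∈ Z, ∀ w ∈ Z, q z.1 z.2 - q w.1 w.2 ≤ 2 * M * dist z w := by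
    intro z hz w hw
    obtain ⟨hz1, hz2⟩ := (hZmem z).1 hz
    obtain ⟨hw1, hw2⟩ := (hZmem w).1 hw
    obtain ⟨a, d, ha, hd, hS⟩ := H z.1 z.2 hz1 hz2
    have h1 := hS w.1 w.2 (by linarith) (by linarith)
    have h2 : |z.1 - w.1| ≤ dist z w := by
      rw [Prod.dist_eq, ← Real.dist_eq]; exact le_max_left _ _
    have h3 : |z.2 - w.2| ≤ dist z w := by
      rw [Prod.dist_eq, ← Real.dist_eq]; exact le_max_right _ _
    have h4 : |a * (w.1 - z.1)| ≤ M * dist z w := by
      rw [abs_mul, abs_sub_comm]; exact mul_le_mul ha h2 (abs_nonneg _) hM0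
    have h5 : |d * (w.2 - z.2)| ≤ M * dist z w := by
      rw [abs_mul, abs_sub_comm]; exact mul_le_mul hd h3 (abs_nonneg _) hM0
    have h4' := (abs_le.1 h4).1
    have h5' := (abs_le.1 h5).1
    linarith
  have hqc : ContinuousOn (fun z : ℝ × ℝ => q z.1 z.2) Z := by
    have : LipschitzOnWith (Real.toNNReal (2 * M)) (fun z : ℝ × ℝ => q z.1 z.2) Z := by
      apply LipschitzOnWith.of_dist_le_mul
      intro z hz w hw
      rw [Real.coe_toNNReal _ (by linarith), Real.dist_eq, abs_le]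
      constructor
      · have := hlow w hw z hz
        rw [dist_comm w z] at this
        linarith
      · exact hlow z hz w hw
    exact this.continuousOn
  set B : Set (ℝ × ℝ) := Icc (A - r) (A + r) ×ˢ Icc (D - r) (D + r) with hB
  have hBc : IsCompact B := isCompact_Icc.prod isCompact_Icc
  have hZB : IsCompact (Z ×ˢ B) := hZc.prod hBc
  set K : Set ((ℝ × ℝ) × (ℝ × ℝ)) := (Z ×ˢ B) ∩
    ⋂ w : {w : ℝ × ℝ // |w.1| ≤ U0 ∧ |w.2| ≤ X0},
      ((Z ×ˢ B) ∩ (fun p : (ℝ × ℝ) × (ℝ × ℝ) => q p.1.1 p.1.2 + p.2.1 * (w.1.1 - p.1.1) +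
        p.2.2 * (w.1.2 - p.1.2) - 0) ⁻¹' (Iic (q w.1.1 w.1.2))) with hK
  have hKc : IsCompact K := by
    apply hZB.inter_right
    apply isClosed_iInter
    intro w
    apply ContinuousOn.preimage_isClosed_of_isClosed _ hZB.isClosed isClosed_Iic
    have h1 : ContinuousOn (fun p : (ℝ × ℝ) × (ℝ × ℝ) => q p.1.1 p.1.2) (Z ×ˢ B) :=
      hqc.comp continuous_fst.continuousOn (fun p hp => hp.1)
    apply ContinuousOn.sub _ continuousOn_const
    apply ContinuousOn.add
    · exact h1.add (by fun_prop)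
    · fun_prop
  have hEq : Cl q U0 X0 r A D = Prod.fst '' K := by
    ext z
    constructor
    · rintro ⟨h1, h2, a, d, ha, hd, hS⟩
      refine ⟨(z, (a, d)), ?_, rfl⟩
      have hmem : (z, (a, d)) ∈ Z ×ˢ B := by
        refine ⟨(hZmem z).2 ⟨h1, h2⟩, ?_⟩
        have ha' := abs_le.1 ha
        have hd' := abs_le.1 hd
        exact ⟨⟨by linarith [ha'.1], by linarith [ha'.2]⟩, ⟨by linarith [hd'.1], by linarith [hd'.2]⟩⟩
      refine ⟨hmem, ?_⟩
      rw [mem_iInter]
      intro w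
      exact ⟨hmem, hS w.1.1 w.1.2 w.2.1 w.2.2⟩
    · rintro ⟨p, ⟨hp1, hp2⟩, rfl⟩
      rw [mem_iInter] at hp2
      obtain ⟨h1, h2⟩ := (hZmem p.1).1 hp1.1
      obtain ⟨⟨h3, h4⟩, ⟨h5, h6⟩⟩ := hp1.2
      refine ⟨h1, h2, p.2.1, p.2.2, ?_, ?_, ?_⟩
      · rw [abs_le]; constructor <;> linarith
      · rw [abs_le]; constructor <;> linarith
      · intro u' x' hu' hx'
        exact (hp2 ⟨(u', x'), hu', hx'⟩).2
  rw [hEq]
  exact hKc.image continuous_fst

set_option maxHeartbeats 1000000 in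
theorem triple {q : ℝ → ℝ → ℝ} {c0 c1 c2 U0 X0 r e : ℝ}
    (hc0 : 0 < c0) (hc1 : 0 < c1) (hc12 : c1 < c2) (hU : 0 < U0) (hX : 0 < X0)
    (hg1 : c0 * U0 < c1 * X0) (hg2 : c0 * U0 < (c2 - c1) * X0)
    (hr1 : r ≤ c0 / 2) (hr2 : r ≤ c1 / 4) (hr3 : r ≤ (c2 - c1) / 4)
    (he1 : 2 * e < c0 * U0 / 8)
    (H1 : ∀ z : ℝ × ℝ, |z.1| ≤ U0 / 2 → |z.2| ≤ X0 / 2 →
      z ∈ Cl q U0 X0 r 0 0 ∨ z ∈ Cl q U0 X0 r (-c0) c1 ∨ z ∈ Cl q U0 X0 r 0 c2)
    (H2 : ∀ u x : ℝ, |u| ≤ U0 → |x| ≤ X0 →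
      |q u x - max 0 (max (c1 * x - c0 * u) (c2 * x))| ≤ e) :
    ∃ z : ℝ × ℝ, |z.1| < U0 / 2 ∧ |z.2| < X0 / 2 ∧ z ∈ Cl q U0 X0 r 0 0 ∧
      z ∈ Cl q U0 X0 r (-c0) c1 ∧ z ∈ Cl q U0 X0 r 0 c2 := by
  have hH : ∀ u x : ℝ, |u| ≤ U0 / 2 → |x| ≤ X0 / 2 → ∃ a d : ℝ, |a| ≤ c0 + c1 + c2 + r ∧
      |d| ≤ c0 + c1 + c2 + r ∧ SubOn q U0 X0 u x a d 0 := by
    intro u x hu hx
    rcases H1 (u, x) hu hx with ⟨_, _, a, d, ha, hd, hS⟩ | ⟨_, _, a, d, ha, hd, hS⟩ |
      ⟨_, _, a, d, ha, hd, hS⟩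
    all_goals
      refine ⟨a, d, ?_, ?_, hS⟩
      · rw [abs_le] at ha ⊢; constructor <;> linarith
      · rw [abs_le] at hd ⊢; constructor <;> linarith
  have comp : ∀ A D : ℝ, IsCompact (Cl q U0 X0 r A D) := fun A D => Cl_compact hU hX hH A D
  -- (a) cluster 0
  have hA : ∀ z ∈ Cl q U0 X0 r 0 0, z.2 ≤ X0 / 4 := by
    rintro ⟨u, x⟩ ⟨h1, h2, a, d, ha, hd, hS⟩
    simp only at h1 h2 hS ⊢
    by_contra hcon
    push Not at hcon
    have t1 := hS u 0 (by linarith) (by simp [hX.le])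
    have t2 := abs_le.1 (H2 u x (by linarith) (by linarith))
    have t3 := abs_le.1 (H2 u 0 (by linarith) (by simp [hX.le]))
    have hx0 : 0 < x := by linarith
    have hd' := abs_le.1 hd
    have t4 : max 0 (max (c1 * 0 - c0 * u) (c2 * 0)) + c1 * x ≤
        max 0 (max (c1 * x - c0 * u) (c2 * x)) := by
      have h5 : c1 * x ≤ c2 * x := mul_le_mul_of_nonneg_right hc12.le hx0.le
      rcases le_total 0 (c1 * 0 - c0 * u) with h | h
      · have : max 0 (max (c1 * 0 - c0 * u) (c2 * 0)) = c1 * 0 - c0 * u := by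
          rw [max_eq_left (by linarith : c2 * 0 ≤ c1 * 0 - c0 * u), max_eq_right h]
        rw [this]
        exact le_trans (by linarith) (le_trans (le_max_left (c1 * x - c0 * u) (c2 * x)) (le_max_right _ _))
      · have : max 0 (max (c1 * 0 - c0 * u) (c2 * 0)) = 0 := by
          rw [mul_zero c2, max_eq_right h, max_self]
        rw [this]
        exact le_trans (by linarith) (le_trans (le_max_right (c1 * x - c0 * u) (c2 * x)) (le_max_right _ _))
    have t5 : -(r * x) ≤ d * (0 - x) := by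
      have : d * x ≤ r * x := mul_le_mul_of_nonneg_right (by linarith) hx0.le
      linarith
    have t6 : c1 / 2 * x ≤ (c1 - r) * x := mul_le_mul_of_nonneg_right (by linarith) hx0.le
    have t7 : c1 / 2 * (X0 / 4) < c1 / 2 * x := mul_lt_mul_of_pos_left hcon (by linarith)
    linarith
  -- (b) cluster 2
  have hB : ∀ z ∈ Cl q U0 X0 r 0 c2, -(X0 / 4) ≤ z.2 := by
    rintro ⟨u, x⟩ ⟨h1, h2, a, d, ha, hd, hS⟩
    simp only at h1 h2 hS ⊢
    by_contra hcon
    push Not at hcon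
    have t1 := hS u 0 (by linarith) (by simp [hX.le])
    have t2 := abs_le.1 (H2 u x (by linarith) (by linarith))
    have t3 := abs_le.1 (H2 u 0 (by linarith) (by simp [hX.le]))
    have hx0 : x < 0 := by linarith
    have hd' := abs_le.1 hd
    have t4 : max 0 (max (c1 * 0 - c0 * u) (c2 * 0)) ≤
        max 0 (max (c1 * x - c0 * u) (c2 * x)) + c1 * (-x) := by
      have h5 : 0 ≤ c1 * (-x) := mul_nonneg hc1.le (by linarith)
      apply max_le
      · have := le_max_left 0 (max (c1 * x - c0 * u) (c2 * x)); linarith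
      · apply max_le
        · have := le_trans (le_max_left (c1 * x - c0 * u) (c2 * x)) (le_max_right 0 _); linarith
        · have := le_max_left 0 (max (c1 * x - c0 * u) (c2 * x)); linarith
    have t5 : (c2 - r) * (-x) ≤ d * (0 - x) := by
      have : (c2 - r) * (-x) ≤ d * (-x) := mul_le_mul_of_nonneg_right (by linarith) (by linarith)
      linarith
    have t6 : (c2 - c1) / 2 * (-x) ≤ (c2 - r - c1) * (-x) :=
      mul_le_mul_of_nonneg_right (by linarith) (by linarith)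
    have t7 : (c2 - c1) / 2 * (X0 / 4) < (c2 - c1) / 2 * (-x) :=
      mul_lt_mul_of_pos_left (by linarith) (by linarith)
    linarith
  -- (c) cluster 1
  have hC : ∀ z ∈ Cl q U0 X0 r (-c0) c1, z.1 ≤ U0 / 4 := by
    rintro ⟨u, x⟩ ⟨h1, h2, a, d, ha, hd, hS⟩
    simp only at h1 h2 hS ⊢
    by_contra hcon
    push Not at hcon
    have hu0 : 0 < u := by linarith
    have t1 := hS 0 x (by simp [hU.le]) (by linarith)
    have t2 := abs_le.1 (H2 u x (by linarith) (by linarith))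
    have t3 := abs_le.1 (H2 0 x (by simp [hU.le]) (by linarith))
    have ha' := abs_le.1 ha
    have hcu : 0 < c0 * u := mul_pos hc0 hu0
    have t4 : max 0 (max (c1 * x - c0 * 0) (c2 * x)) ≤ max 0 (max (c1 * x - c0 * u) (c2 * x)) := by
      apply max_le (le_max_left _ _)
      apply max_le
      · rcases le_total 0 x with h | h
        · have h5 : c1 * x ≤ c2 * x := mul_le_mul_of_nonneg_right hc12.le h
          exact le_trans (by linarith) (le_trans (le_max_right (c1 * x - c0 * u) (c2 * x)) (le_max_right _ _))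
        · have h5 : c1 * x ≤ 0 := mul_nonpos_of_nonneg_of_nonpos hc1.le h
          exact le_trans (by linarith) (le_max_left _ _)
      · exact le_trans (le_max_right (c1 * x - c0 * u) (c2 * x)) (le_max_right _ _)
    have t5 : (c0 - r) * u ≤ a * (0 - u) := by
      have : a * u ≤ (-c0 + r) * u := mul_le_mul_of_nonneg_right (by linarith) hu0.le
      linarith
    have t6 : c0 / 2 * u ≤ (c0 - r) * u := mul_le_mul_of_nonneg_right (by linarith) hu0.le
    have t7 : c0 / 2 * (U0 / 4) < c0 / 2 * u := mul_lt_mul_of_pos_left hcon (by linarith)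
    linarith
  -- (d)
  have hD : ((-(U0 / 4), 0) : ℝ × ℝ) ∈ Cl q U0 X0 r (-c0) c1 := by
    have hu4 : |-(U0 / 4)| ≤ U0 := by rw [abs_neg, abs_of_pos (by linarith)]; linarith
    have t2 := abs_le.1 (H2 (-(U0 / 4)) 0 hu4 (by simp [hX.le]))
    have hcU : 0 < c0 * U0 := mul_pos hc0 hU
    have ev0 : max 0 (max (c1 * 0 - c0 * (-(U0 / 4))) (c2 * 0)) = c0 * U0 / 4 := by
      rw [max_eq_left (by linarith : c2 * 0 ≤ c1 * 0 - c0 * (-(U0 / 4))),
        max_eq_right (by linarith : (0 : ℝ) ≤ c1 * 0 - c0 * (-(U0 / 4)))]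
      ring
    rw [ev0] at t2
    rcases H1 (-(U0 / 4), 0) (by simp only; rw [abs_neg, abs_of_pos (by linarith)]; linarith)
      (by simp only; rw [abs_zero]; linarith) with h | h | h
    · exfalso
      obtain ⟨_, _, a, d, ha, hd, hS⟩ := h
      simp only at hS
      set s := c0 * U0 / (4 * c1) with hs
      have hs0 : 0 < s := by positivity
      have hcs : c1 * s = c0 * U0 / 4 := by rw [hs]; field_simp
      have hsX : s ≤ X0 := by
        have : c1 * s ≤ c1 * X0 := by rw [hcs]; linarith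
        exact le_of_mul_le_mul_left this hc1
      have hsX' : |-s| ≤ X0 := by rw [abs_neg, abs_of_pos hs0]; exact hsX
      have t1 := hS (-(U0 / 4)) (-s) hu4 hsX'
      have t3 := abs_le.1 (H2 (-(U0 / 4)) (-s) hu4 hsX')
      have ev : max 0 (max (c1 * (-s) - c0 * (-(U0 / 4))) (c2 * (-s))) = 0 := by
        apply max_eq_left
        apply max_le
        · linarith
        · have : 0 ≤ c2 * s := mul_nonneg (by linarith) hs0.le
          linarith
      rw [ev] at t3
      have hd' := abs_le.1 hd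
      have t5 : -(r * s) ≤ d * (-s - 0) := by
        have : d * s ≤ r * s := mul_le_mul_of_nonneg_right (by linarith) hs0.le
        linarith
      have t6 : r * s ≤ c1 / 2 * s := mul_le_mul_of_nonneg_right (by linarith) hs0.le
      linarith
    · exact h
    · exfalso
      obtain ⟨_, _, a, d, ha, hd, hS⟩ := h
      simp only at hS
      have hc21 : 0 < c2 - c1 := by linarith
      set s := c0 * U0 / (4 * (c2 - c1)) with hs
      have hs0 : 0 < s := by positivity
      have hcs : (c2 - c1) * s = c0 * U0 / 4 := by rw [hs]; field_simp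
      have hsX : s ≤ X0 := by
        have : (c2 - c1) * s ≤ (c2 - c1) * X0 := by rw [hcs]; linarith
        exact le_of_mul_le_mul_left this hc21
      have hsX' : |s| ≤ X0 := by rw [abs_of_pos hs0]; exact hsX
      have t1 := hS (-(U0 / 4)) s hu4 hsX'
      have t3 := abs_le.1 (H2 (-(U0 / 4)) s hu4 hsX')
      have ev : max 0 (max (c1 * s - c0 * (-(U0 / 4))) (c2 * s)) = c2 * s := by
        have h9 : c1 * s - c0 * (-(U0 / 4)) = c2 * s := by linarith
        rw [h9, max_self, max_eq_right]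
        exact mul_nonneg (by linarith) hs0.le
      rw [ev] at t3
      have hd' := abs_le.1 hd
      have t5 : (c2 - r) * s ≤ d * (s - 0) := by
        have : (c2 - r) * s ≤ d * s := mul_le_mul_of_nonneg_right (by linarith) hs0.le
        linarith
      have t6 : r * s ≤ (c2 - c1) / 2 * s := mul_le_mul_of_nonneg_right (by linarith) hs0.le
      linarith
  -- the maximal u
  obtain ⟨z1, hz1, hz1max⟩ := (comp (-c0) c1).exists_isMaxOn ⟨_, hD⟩ continuous_fst.continuousOn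
  have hmax : ∀ z ∈ Cl q U0 X0 r (-c0) c1, z.1 ≤ z1.1 := fun z hz => hz1max hz
  have huc1 : -(U0 / 4) ≤ z1.1 := hmax _ hD
  have huc2 : z1.1 ≤ U0 / 4 := hC _ hz1
  have hcl : IsClosed (Prod.fst '' (Cl q U0 X0 r 0 0 ∩ Cl q U0 X0 r 0 c2)) :=
    (((comp 0 0).inter (comp 0 c2)).image continuous_fst).isClosed
  have hcov : Ioc z1.1 (U0 / 2) ⊆ Prod.fst '' (Cl q U0 X0 r 0 0 ∩ Cl q U0 X0 r 0 c2) := by
    intro u hu
    have hu' : |u| ≤ U0 / 2 := by rw [abs_le]; constructor <;> linarith [hu.1, hu.2]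
    have hpre := (isPreconnected_Icc (a := -(X0 / 2)) (b := X0 / 2))
    rw [isPreconnected_closed_iff] at hpre
    have hmk : Continuous (fun x : ℝ => ((u, x) : ℝ × ℝ)) := by fun_prop
    have hnot1 : ∀ x : ℝ, (u, x) ∉ Cl q U0 X0 r (-c0) c1 := by
      intro x hx
      have := hmax _ hx
      simp only at this
      linarith [hu.1]
    have key := hpre ((fun x : ℝ => ((u, x) : ℝ × ℝ)) ⁻¹' Cl q U0 X0 r 0 0)
      ((fun x : ℝ => ((u, x) : ℝ × ℝ)) ⁻¹' Cl q U0 X0 r 0 c2)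
      ((comp 0 0).isClosed.preimage hmk) ((comp 0 c2).isClosed.preimage hmk)
      (by
        intro x hx
        rcases H1 (u, x) hu' (abs_le.2 hx) with h | h | h
        · exact Or.inl h
        · exact absurd h (hnot1 x)
        · exact Or.inr h)
      (by
        refine ⟨-(X0 / 2), ⟨le_refl _, by linarith⟩, ?_⟩
        rcases H1 (u, -(X0 / 2)) hu' (by simp only; rw [abs_neg, abs_of_pos (by linarith)]) with
          h | h | h
        · exact h
        · exact absurd h (hnot1 _)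
        · have := hB _ h
          simp only at this
          linarith)
      (by
        refine ⟨X0 / 2, ⟨by linarith, le_refl _⟩, ?_⟩
        rcases H1 (u, X0 / 2) hu' (by simp only; rw [abs_of_pos (by linarith)]) with
          h | h | h
        · have := hA _ h
          simp only at this
          linarith
        · exact absurd h (hnot1 _)
        · exact h)
    obtain ⟨x, _, hx⟩ := key
    exact ⟨(u, x), hx, rfl⟩
  have huc : z1.1 ∈ Prod.fst '' (Cl q U0 X0 r 0 0 ∩ Cl q U0 X0 r 0 c2) := by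
    have h1 : closure (Ioc z1.1 (U0 / 2)) ⊆ Prod.fst '' (Cl q U0 X0 r 0 0 ∩ Cl q U0 X0 r 0 c2) :=
      closure_minimal hcov hcl
    apply h1
    rw [closure_Ioc (by linarith : z1.1 ≠ U0 / 2)]
    exact ⟨le_refl _, by linarith⟩
  obtain ⟨z, ⟨hz0, hz2⟩, hzu⟩ := huc
  have hxz : z.2 = z1.2 := by
    obtain ⟨b1, b2, a0, d0, ha0, hd0, hS0⟩ := hz0
    obtain ⟨_, _, a2, d2, ha2, hd2, hS2⟩ := hz2
    obtain ⟨g1, g2, a1, d1, ha1, hd1, hS1⟩ := hz1
    have e0 := hS0 z1.1 z1.2 (by linarith) (by linarith)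
    have e2 := hS2 z1.1 z1.2 (by linarith) (by linarith)
    have e1 := hS1 z.1 z.2 (by linarith) (by linarith)
    rw [hzu] at e0 e2 e1
    have hd0' := abs_le.1 hd0
    have hd1' := abs_le.1 hd1
    have hd2' := abs_le.1 hd2
    rcases lt_trichotomy z.2 z1.2 with h | h | h
    · exfalso
      have : 0 < (d2 - d1) * (z1.2 - z.2) := mul_pos (by linarith) (by linarith)
      linarith
    · exact h
    · exfalso
      have : 0 < (d1 - d0) * (z.2 - z1.2) := mul_pos (by linarith) (by linarith)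
      linarith
  have hzz : z = z1 := Prod.ext hzu hxz
  refine ⟨z, ?_, ?_, hz0, hzz ▸ hz1, hz2⟩
  · rw [hzu, abs_lt]; constructor <;> linarith
  · have h1 := hA _ hz0
    have h2 := hB _ hz2
    rw [abs_lt]; constructor <;> linarith

end Crest.Agent.Kac
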