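import Mathlib
import Crest.Agent.Kac.CornerA
import Crest.Agent.Kac.CornerB

open Filter Topology Set

namespace Crest.Agent.Kac

theorem limit_sub {p : ℕ → ℝ → ℝ → ℝ} {q : ℝ → ℝ → ℝ} {A D : Fin 3 → ℝ} {U0 X0 r u x : ℝ}
    {e : ℕ → ℝ} (hu : |u| ≤ U0) (hx : |x| ≤ X0)
    (hlim : ∀ u x : ℝ, |u| ≤ U0 → |x| ≤ X0 → Tendsto (fun k => p k u x) atTop (𝓝 (q u x)))
    (he : Tendsto e atTop (𝓝 0))
    (h : ∀ k, ∃ (i : Fin 3) (a d : ℝ), |a - A i| ≤ r ∧ |d - D i| ≤ r ∧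
      SubOn (p k) U0 X0 u x a d (e k)) :
    ∃ (i : Fin 3) (a d : ℝ), |a - A i| ≤ r ∧ |d - D i| ≤ r ∧ SubOn q U0 X0 u x a d 0 := by
  choose i a d ha hd hS using h
  set S : Set (ℝ × ℝ) := ⋃ j : Fin 3, Icc (A j - r) (A j + r) ×ˢ Icc (D j - r) (D j + r) with hSdef
  have hSc : IsCompact S := isCompact_iUnion fun j => isCompact_Icc.prod isCompact_Icc
  have hmem : ∀ k, (a k, d k) ∈ S := by
    intro k
    rw [hSdef, mem_iUnion]
    refine ⟨i k, ?_⟩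
    have h1 := abs_le.1 (ha k)
    have h2 := abs_le.1 (hd k)
    exact ⟨⟨by linarith [h1.1], by linarith [h1.2]⟩, ⟨by linarith [h2.1], by linarith [h2.2]⟩⟩
  obtain ⟨v, hv, φ, hφ, hlim2⟩ := hSc.tendsto_subseq hmem
  rw [hSdef, mem_iUnion] at hv
  obtain ⟨j, ⟨h1, h2⟩, ⟨h3, h4⟩⟩ := hv
  refine ⟨j, v.1, v.2, by rw [abs_le]; constructor <;> linarith,
    by rw [abs_le]; constructor <;> linarith, ?_⟩
  intro u' x' hu' hx'
  have hφt := hφ.tendsto_atTop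
  have l1 : Tendsto (fun k => a (φ k)) atTop (𝓝 v.1) :=
    (continuous_fst.tendsto v).comp hlim2
  have l2 : Tendsto (fun k => d (φ k)) atTop (𝓝 v.2) :=
    (continuous_snd.tendsto v).comp hlim2
  have l3 : Tendsto (fun k => p (φ k) u x + a (φ k) * (u' - u) + d (φ k) * (x' - x) - e (φ k))
      atTop (𝓝 (q u x + v.1 * (u' - u) + v.2 * (x' - x) - 0)) :=
    ((((hlim u x hu hx).comp hφt).add (l1.mul_const _)).add (l2.mul_const _)).sub (he.comp hφt)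
  exact le_of_tendsto_of_tendsto' l3 ((hlim u' x' hu' hx').comp hφt)
    (fun k => hS (φ k) u' x' hu' hx')

theorem Claim.mono {f : ℝ → ℝ → ℝ} {A D : Fin 3 → ℝ} {U X m r e m' r' e' : ℝ}
    (h : Claim f A D U X m r e) (hm : m ≤ m') (hr : r ≤ r') (he : e ≤ e') :
    Claim f A D U X m' r' e' := by
  intro u x hu hx
  obtain ⟨i, a, d, ha, hd, hS⟩ := h u x (by linarith) (by linarith)
  refine ⟨i, a, d, by linarith, by linarith, ?_⟩
  intro u' x' hu' hx'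
  have := hS u' x' hu' hx'
  linarith

theorem claim_zero {f : ℝ → ℝ → ℝ} {c0 c1 c2 U0 X0 ε : ℝ}
    (h : ∀ u x : ℝ, |u| ≤ U0 → |x| ≤ X0 →
      |f u x - max 0 (max (c1 * x - c0 * u) (c2 * x))| ≤ ε) :
    Claim f ![0, -c0, 0] ![0, c1, c2] U0 X0 0 0 (2 * ε) := by
  intro u x hu hx
  rw [sub_zero] at hu hx
  have h0 := abs_le.1 (h u x hu hx)
  rcases max_choice 0 (max (c1 * x - c0 * u) (c2 * x)) with h1 | h1
  · refine ⟨0, 0, 0, by simp, by simp, ?_⟩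
    intro u' x' hu' hx'
    have h2 := abs_le.1 (h u' x' hu' hx')
    have h3 := le_max_left 0 (max (c1 * x' - c0 * u') (c2 * x'))
    rw [h1] at h0
    linarith
  · rcases max_choice (c1 * x - c0 * u) (c2 * x) with h5 | h5
    · refine ⟨1, -c0, c1, by simp, by simp, ?_⟩
      intro u' x' hu' hx'
      have h2 := abs_le.1 (h u' x' hu' hx')
      have h3 := le_trans (le_max_left (c1 * x' - c0 * u') (c2 * x')) (le_max_right 0 _)
      rw [h1, h5] at h0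
      linarith
    · refine ⟨2, 0, c2, by simp, by simp, ?_⟩
      intro u' x' hu' hx'
      have h2 := abs_le.1 (h u' x' hu' hx')
      have h3 := le_trans (le_max_right (c1 * x' - c0 * u') (c2 * x')) (le_max_right 0 _)
      rw [h1, h5] at h0
      linarith

theorem exists_eta {C r' K K' K'' γ U0 X0 c0 : ℝ} (hC : 0 < C) (hr : 0 < r') (hγ : 0 < γ)
    (hU : 0 < U0) (hX : 0 < X0) (hc0 : 0 < c0) :
    ∃ η : ℝ, 0 < η ∧ η ≤ 1 ∧ η ≤ C ∧ η * (2 * K') ≤ r' ∧ η * (4 * K) ≤ U0 ∧ η * (4 * K) ≤ X0 ∧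
      η ≤ γ ^ 2 / 256 ∧ η * (32 * K'') ≤ c0 * U0 := by
  have hsmall : ∀ c t : ℝ, 0 < t → ∀ᶠ η in 𝓝[>] (0:ℝ), η * c < t := by
    intro c t ht
    have h1 : Tendsto (fun η : ℝ => η * c) (𝓝 0) (𝓝 (0 * c)) :=
      (continuous_id.mul continuous_const).tendsto 0
    rw [zero_mul] at h1
    exact nhdsWithin_le_nhds (h1.eventually_lt_const ht)
  have hpos : ∀ᶠ η in 𝓝[>] (0:ℝ), 0 < η := self_mem_nhdsWithin
  obtain ⟨η, h0, h1, h2, h3, h4, h5, h6, h7⟩ := (hpos.and ((hsmall 1 1 one_pos).and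
    ((hsmall 1 C hC).and ((hsmall (2 * K') r' hr).and ((hsmall (4 * K) U0 hU).and
    ((hsmall (4 * K) X0 hX).and ((hsmall 1 (γ ^ 2 / 256) (by positivity)).and
    (hsmall (32 * K'') (c0 * U0) (mul_pos hc0 hU))))))))).exists
  rw [mul_one] at h1 h2 h6
  exact ⟨η, h0, h1.le, h2.le, h3.le, h4.le, h5.le, h6.le, h7.le⟩

set_option maxHeartbeats 1000000 in
theorem corner {c0 c1 c2 U0 X0 C Y r : ℝ} (hc0 : 0 < c0) (hc1 : 0 < c1) (hc12 : c1 < c2)
    (hU : 0 < U0) (hU1 : U0 ≤ 1 / 4) (hX : 0 < X0) (hC : 0 < C) (hY : 2 * C / X0 ≤ Y)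
    (hg1 : c0 * U0 < c1 * X0) (hg2 : c0 * U0 < (c2 - c1) * X0) (hr : 0 < r) :
    ∃ η > 0, ∀ (p : ℕ → ℝ → ℝ → ℝ) (q : ℝ → ℝ → ℝ) (b δ : ℕ → ℝ) (ε : ℝ),
      (∀ k, ConvexOn ℝ (Icc (-(2 * U0)) (2 * U0) ×ˢ Icc (-(2 * X0)) (2 * X0))
        (fun z : ℝ × ℝ => p k z.1 z.2)) →
      (∀ k, ∀ u ∈ Icc (-(2 * U0)) (2 * U0), ∀ x ∈ Icc (-(2 * X0)) (2 * X0),
        0 ≤ p k u x ∧ p k u x ≤ C) →
      (∀ k, ∀ u ∈ Icc (-(2 * U0)) (2 * U0), MonotoneOn (p k u) (Icc (-(2 * X0)) (2 * X0))) →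
      (∀ u ∈ Icc (-(2 * U0)) (2 * U0), ∀ x ∈ Icc (-(2 * X0)) (2 * X0),
        |p 0 u x - max 0 (max (c1 * x - c0 * u) (c2 * x))| ≤ ε) →
      (∀ k, 0 < b k) → (∀ k, 0 ≤ δ k) →
      (∀ k, ∀ u ∈ Icc (-U0) U0, ∀ x ∈ Icc (-X0) X0, ∀ y ∈ Icc 0 Y,
        p k u (x + (1 + u) * b k * y) - (1 + u) * b k * y ^ 2 / 2 - δ k ≤ p (k + 1) u x) →
      (∀ k, ∀ u ∈ Icc (-U0) U0, ∀ x ∈ Icc (-X0) X0, ∃ y ∈ Icc 0 Y,
        p (k + 1) u x ≤ p k u (x + (1 + u) * b k * y) - (1 + u) * b k * y ^ 2 / 2 + δ k) →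
      (∀ u ∈ Icc (-U0) U0, ∀ x ∈ Icc (-X0) X0, Tendsto (fun k => p k u x) atTop (𝓝 (q u x))) →
      ε ≤ η * b 0 → (∀ k, b k ≤ η / 2 ^ k) → (∀ k, δ k ≤ η * b (k + 1) / 2 ^ k) →
      ∃ uc xc : ℝ, ∃ a d : Fin 3 → ℝ, |uc| < U0 / 2 ∧ |xc| < X0 / 2 ∧
        |a 0| ≤ r ∧ |d 0| ≤ r ∧ |a 1 + c0| ≤ r ∧ |d 1 - c1| ≤ r ∧ |a 2| ≤ r ∧ |d 2 - c2| ≤ r ∧
        ∀ i, ∀ u x : ℝ, |u| ≤ U0 / 2 → |x| ≤ X0 / 2 →
          q uc xc + a i * (u - uc) + d i * (x - xc) ≤ q u x := by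
  have hc2 : 0 < c2 := by linarith
  have hCX : 0 < 2 * C / X0 := by positivity
  have hCU : 0 < 2 * C / U0 := by positivity
  have hY0 : 0 < Y := by linarith
  obtain ⟨γ, hγ⟩ : ∃ γ, γ = min c1 (c2 - c1) := ⟨_, rfl⟩
  have hγ0 : 0 < γ := by rw [hγ]; exact lt_min hc1 (by linarith)
  have hγ1 : γ ≤ c1 := by rw [hγ]; exact min_le_left _ _
  have hγ2 : γ ≤ c2 - c1 := by rw [hγ]; exact min_le_right _ _
  obtain ⟨L, hL⟩ : ∃ L, L = 2 * C / U0 + 2 * C / X0 := ⟨_, rfl⟩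
  have hL0 : 0 < L := by rw [hL]; positivity
  obtain ⟨G, hG⟩ : ∃ G, G = c0 + c2 + 1 := ⟨_, rfl⟩
  have hG0 : 0 < G := by rw [hG]; positivity
  obtain ⟨κ, hκdef⟩ : ∃ κ, κ = γ ^ 2 / (256 * (L + G)) := ⟨_, rfl⟩
  have hκ0 : 0 < κ := by rw [hκdef]; positivity
  have hκLG : (L + G) * κ = γ ^ 2 / 256 := by rw [hκdef]; field_simp
  obtain ⟨K, hK⟩ : ∃ K, K = 5 / 4 * Y + κ := ⟨_, rfl⟩
  have hK0 : 0 < K := by rw [hK]; positivity
  obtain ⟨K', hK'⟩ : ∃ K', K' = 4 / κ + 3 / 2 * Y ^ 2 := ⟨_, rfl⟩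
  have hK'0 : 0 < K' := by rw [hK']; positivity
  obtain ⟨K'', hK''⟩ : ∃ K'', K'' = 1 + 2 * (5 / 4 * Y ^ 2 + 1) := ⟨_, rfl⟩
  obtain ⟨r', hr'⟩ : ∃ r', r' = min (min r (1 / 2)) (min (γ / 8) (c0 / 2)) := ⟨_, rfl⟩
  have hr'0 : 0 < r' := by
    rw [hr']; exact lt_min (lt_min hr (by norm_num)) (lt_min (by positivity) (by positivity))
  have hr'1 : r' ≤ r := by rw [hr']; exact (min_le_left _ _).trans (min_le_left _ _)
  have hr'2 : r' ≤ 1 / 2 := by rw [hr']; exact (min_le_left _ _).trans (min_le_right _ _)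
  have hr'3 : r' ≤ γ / 8 := by rw [hr']; exact (min_le_right _ _).trans (min_le_left _ _)
  have hr'4 : r' ≤ c0 / 2 := by rw [hr']; exact (min_le_right _ _).trans (min_le_right _ _)
  obtain ⟨η, hη0, hη1, hηC, hηr, hηU, hηX, hηγ, hηK⟩ := exists_eta (K := K) (K' := K')
    (K'' := K'') hC hr'0 hγ0 hU hX hc0
  refine ⟨η, hη0, ?_⟩
  intro p q b δ ε hconv hbd hmono hp0 hb hδ hlo hup hlim hε hbη hδη
  -- basic facts
  have hpow : ∀ k : ℕ, (0:ℝ) < 2 ^ k := fun k => by positivity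
  have hpow1 : ∀ k : ℕ, (1:ℝ) ≤ 2 ^ k := fun k => one_le_pow₀ (by norm_num)
  have hb1 : ∀ k, b k ≤ η := fun k => (hbη k).trans (div_le_self hη0.le (hpow1 k))
  have hε1 : ε ≤ C := by
    have : η * b 0 ≤ η * 1 := mul_le_mul_of_nonneg_left ((hb1 0).trans hη1) hη0.le
    linarith
  have hεη : ε ≤ η := by
    have : η * b 0 ≤ η * 1 := mul_le_mul_of_nonneg_left ((hb1 0).trans hη1) hη0.le
    linarith
  have hηY : 5 / 4 * η * Y < X0 / 2 := by
    have : η * (4 * K) = 5 * (η * Y) + 4 * (η * κ) := by rw [hK]; ring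
    have h2 : 0 < η * κ := mul_pos hη0 hκ0
    linarith
  have hbY : ∀ k, 5 / 4 * b k * Y < X0 / 2 := by
    intro k
    have h1 : b k * Y ≤ η * Y := mul_le_mul_of_nonneg_right (hb1 k) hY0.le
    linarith
  -- c2 ≤ Y
  have hc2Y : c2 ≤ Y := by
    have h1 := abs_le.1 (hp0 0 ⟨by linarith, by linarith⟩ (2 * X0) ⟨by linarith, le_refl _⟩)
    have h2 := (hbd 0 0 ⟨by linarith, by linarith⟩ (2 * X0) ⟨by linarith, le_refl _⟩).2
    have h3 := le_trans (le_max_right (c1 * (2 * X0) - c0 * 0) (c2 * (2 * X0))) (le_max_right 0 _)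
    have h4 : c2 * X0 ≤ 2 * C := by linarith
    have h5 : c2 ≤ 2 * C / X0 := by rw [le_div_iff₀ hX]; exact h4
    linarith
  have hp0' : ∀ u x : ℝ, |u| ≤ U0 → |x| ≤ X0 →
      |p 0 u x - max 0 (max (c1 * x - c0 * u) (c2 * x))| ≤ ε := by
    intro u x hu hx
    have hu' := abs_le.1 hu
    have hx' := abs_le.1 hx
    exact hp0 u ⟨by linarith [hu'.1], by linarith [hu'.2]⟩ x
      ⟨by linarith [hx'.1], by linarith [hx'.2]⟩
  -- s k
  have hs : ∀ k : ℕ, (2:ℝ) - 2 / 2 ^ (k + 1) = (2 - 2 / 2 ^ k) + 1 / 2 ^ k := by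
    intro k
    rw [pow_succ]
    field_simp
    ring
  have hs0 : ∀ k : ℕ, (0:ℝ) ≤ 2 - 2 / 2 ^ k := by
    intro k
    have : (2:ℝ) / 2 ^ k ≤ 2 := div_le_self (by norm_num) (hpow1 k)
    linarith
  have hs2 : ∀ k : ℕ, (2:ℝ) - 2 / 2 ^ k ≤ 2 := by
    intro k
    have : (0:ℝ) ≤ 2 / 2 ^ k := by positivity
    linarith
  have hDA : ∀ i : Fin 3, |(![0, -c0, 0] : Fin 3 → ℝ) i| + |(![0, c1, c2] : Fin 3 → ℝ) i| ≤
      c0 + c2 := by
    intro i
    fin_cases i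
    · simp; linarith
    · simp [abs_of_pos hc0, abs_of_pos hc1]; linarith
    · simp [abs_of_pos hc2]; linarith
  have hDY : ∀ i : Fin 3, (![0, c1, c2] : Fin 3 → ℝ) i ∈ Icc 0 Y := by
    intro i
    fin_cases i
    · exact ⟨le_refl _, hY0.le⟩
    · exact ⟨hc1.le, by simp; linarith⟩
    · exact ⟨hc2.le, hc2Y⟩
  have hsep : ∀ i j : Fin 3, |(![0, c1, c2] : Fin 3 → ℝ) i - (![0, c1, c2] : Fin 3 → ℝ) j| < γ →
      i = j := by
    intro i j h
    rw [abs_lt] at h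
    fin_cases i <;> fin_cases j <;> first | rfl | (exfalso; simp at h; linarith [h.1, h.2])
  -- Claim by induction
  have hclaim : ∀ k : ℕ, Claim (p k) ![0, -c0, 0] ![0, c1, c2] U0 X0 (η * K * (2 - 2 / 2 ^ k))
      (η * K' * (2 - 2 / 2 ^ k)) (4 * η * b k / 2 ^ k) := by
    intro k
    induction k with
    | zero =>
      apply (claim_zero hp0').mono
      · simp
      · simp
      · have := hb 0
        have h2 : 0 < η * b 0 := mul_pos hη0 this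
        simp only [pow_zero, div_one]
        linarith
    | succ k ih =>
      have hbk := hb k
      have hek : 4 * η * b k / 2 ^ k / b k = 4 * η / 2 ^ k := by
        field_simp
      have hrk : η * K' * (2 - 2 / 2 ^ k) ≤ r' := by
        have : η * K' * (2 - 2 / 2 ^ k) ≤ η * K' * 2 :=
          mul_le_mul_of_nonneg_left (hs2 k) (by positivity)
        linarith
      have h4η : 4 * η / 2 ^ k ≤ 4 * η := div_le_self (by positivity) (hpow1 k)
      have step := corner_step (f := p k) (f' := p (k + 1)) (A := ![0, -c0, 0])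
        (D := ![0, c1, c2]) (U0 := U0) (X0 := X0) (C := C) (Y := Y) (b := b k) (δ := δ k) (κ := κ)
        (γ := γ) (G := G) (L := L) (m := η * K * (2 - 2 / 2 ^ k)) (r := η * K' * (2 - 2 / 2 ^ k))
        (e := 4 * η * b k / 2 ^ k) hU hU1 hX hY hY0.le (hconv k) (hbd k) hbk (hbY k) (hlo k)
        (hup k) hDY hsep
        (by
          intro i
          have := hDA i
          rw [hG]
          linarith)
        hL.symm.le hκ0 (mul_nonneg (by positivity) (hs0 k))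
        (by
          rw [hek, hκLG]
          have : 0 < γ ^ 2 := by positivity
          linarith)
        (by linarith) (mul_nonneg (by positivity) (hs0 k)) ih
      apply step.mono
      · rw [hs k, ← hK]
        have h1 : K * b k ≤ K * (η / 2 ^ k) := mul_le_mul_of_nonneg_left (hbη k) hK0.le
        have h2 : K * (η / 2 ^ k) = η * K * (1 / 2 ^ k) := by ring
        linarith
      · rw [hs k]
        have h1 : 4 * η * b k / 2 ^ k / (κ * b k) = η * (4 / κ) * (1 / 2 ^ k) := by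
          field_simp
        have h2 : 3 / 2 * Y ^ 2 * b k ≤ 3 / 2 * Y ^ 2 * (η / 2 ^ k) :=
          mul_le_mul_of_nonneg_left (hbη k) (by positivity)
        have h3 : 3 / 2 * Y ^ 2 * (η / 2 ^ k) = η * (3 / 2 * Y ^ 2) * (1 / 2 ^ k) := by ring
        have h4 : η * K' * (1 / 2 ^ k) = η * (4 / κ) * (1 / 2 ^ k) +
            η * (3 / 2 * Y ^ 2) * (1 / 2 ^ k) := by rw [hK']; ring
        linarith
      · have h1 := hδη k
        have h2 : 4 * η * b (k + 1) / 2 ^ (k + 1) = 2 * (η * b (k + 1) / 2 ^ k) := by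
          rw [pow_succ]
          field_simp
          ring
        linarith
  -- telescoping
  have hYC : ∀ d : ℝ, |d| ≤ 2 * C / X0 → |d| ≤ Y := fun d hd => hd.trans hY
  have htel : ∀ k : ℕ, ∀ u x : ℝ, |u| ≤ U0 → |x| ≤ X0 →
      |p k u x - max 0 (max (c1 * x - c0 * u) (c2 * x))| ≤
        η + η * (5 / 4 * Y ^ 2 + 1) * (2 - 2 / 2 ^ k) := by
    intro k
    induction k with
    | zero =>
      intro u x hu hx
      have := hp0' u x hu hx
      simp only [pow_zero, div_one, sub_self, mul_zero, add_zero]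
      linarith
    | succ k ih =>
      intro u x hu hx
      have h0 := abs_le.1 (ih u x hu hx)
      have hu' := abs_le.1 hu
      have hx' := abs_le.1 hx
      have hδk : δ k ≤ η * (1 / 2 ^ k) := by
        have h1 := hδη k
        have h2 : η * b (k + 1) / 2 ^ k = η * (1 / 2 ^ k) * b (k + 1) := by ring
        have h3 : η * (1 / 2 ^ k) * b (k + 1) ≤ η * (1 / 2 ^ k) * 1 :=
          mul_le_mul_of_nonneg_left ((hb1 (k + 1)).trans hη1) (by positivity)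
        linarith
      have t1 := hlo k u ⟨hu'.1, hu'.2⟩ x ⟨hx'.1, hx'.2⟩ 0 ⟨le_refl _, hY0.le⟩
      have t1' : p k u x - δ k ≤ p (k + 1) u x := by
        have e1 : x + (1 + u) * b k * 0 = x := by ring
        rw [e1] at t1
        linarith
      obtain ⟨y, hy, t2⟩ := hup k u ⟨hu'.1, hu'.2⟩ x ⟨hx'.1, hx'.2⟩
      have hβ1 : 0 ≤ 1 + u := by linarith
      have hβ2 : 1 + u ≤ 5 / 4 := by linarith
      have hsh0 : 0 ≤ (1 + u) * b k * y := mul_nonneg (mul_nonneg hβ1 (hb k).le) hy.1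
      have hsh1 : (1 + u) * b k * y ≤ 5 / 4 * b k * Y := by
        apply mul_le_mul _ hy.2 hy.1 (mul_nonneg (by norm_num) (hb k).le)
        exact mul_le_mul_of_nonneg_right hβ2 (hb k).le
      have hbYk := hbY k
      obtain ⟨a, d, ha, hd, hS⟩ := subgrad_box hU hX (hconv k) (hbd k) hu
        (x := x + (1 + u) * b k * y) (by rw [abs_lt]; constructor <;> linarith)
      have t3 := hS u x (by linarith) (by linarith)
      have hdY := abs_le.1 (hYC d hd)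
      have t4 : d * ((1 + u) * b k * y) ≤ Y * (5 / 4 * b k * Y) :=
        mul_le_mul hdY.2 hsh1 hsh0 hY0.le
      have t5 : Y * (5 / 4 * b k * Y) ≤ η * (5 / 4 * Y ^ 2) * (1 / 2 ^ k) := by
        have e1 : Y * (5 / 4 * b k * Y) = 5 / 4 * Y ^ 2 * b k := by ring
        have e2 : 5 / 4 * Y ^ 2 * b k ≤ 5 / 4 * Y ^ 2 * (η / 2 ^ k) :=
          mul_le_mul_of_nonneg_left (hbη k) (by positivity)
        have e3 : 5 / 4 * Y ^ 2 * (η / 2 ^ k) = η * (5 / 4 * Y ^ 2) * (1 / 2 ^ k) := by ring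
        linarith
      have t6 : 0 ≤ (1 + u) * b k * y ^ 2 / 2 := by
        have := (hb k).le
        positivity
      have e4 : η * (5 / 4 * Y ^ 2 + 1) * (1 / 2 ^ k) = η * (5 / 4 * Y ^ 2) * (1 / 2 ^ k) +
          η * (1 / 2 ^ k) := by ring
      have e5 : 0 ≤ η * (5 / 4 * Y ^ 2) * (1 / 2 ^ k) := by positivity
      rw [hs k, mul_add, abs_le]
      constructor <;> linarith
  have hqΨ : ∀ u x : ℝ, |u| ≤ U0 → |x| ≤ X0 →
      |q u x - max 0 (max (c1 * x - c0 * u) (c2 * x))| ≤ η * K'' := by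
    intro u x hu hx
    have hu' := abs_le.1 hu
    have hx' := abs_le.1 hx
    have h1 := ((hlim u ⟨hu'.1, hu'.2⟩ x ⟨hx'.1, hx'.2⟩).sub_const
      (max 0 (max (c1 * x - c0 * u) (c2 * x)))).abs
    apply le_of_tendsto' h1
    intro k
    have h2 := htel k u x hu hx
    have h3 : η * (5 / 4 * Y ^ 2 + 1) * (2 - 2 / 2 ^ k) ≤ η * (5 / 4 * Y ^ 2 + 1) * 2 :=
      mul_le_mul_of_nonneg_left (hs2 k) (by positivity)
    rw [hK'']
    linarith
  -- H1
  have hlim' : ∀ u x : ℝ, |u| ≤ U0 → |x| ≤ X0 → Tendsto (fun k => p k u x) atTop (𝓝 (q u x)) := by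
    intro u x hu hx
    exact hlim u (abs_le.1 hu) x (abs_le.1 hx)
  have hetend : Tendsto (fun k : ℕ => 4 * η * b k / 2 ^ k) atTop (𝓝 0) := by
    have h1 : Tendsto (fun k : ℕ => 4 * η * η * (1 / 2) ^ k) atTop (𝓝 (4 * η * η * 0)) :=
      (tendsto_pow_atTop_nhds_zero_of_lt_one (by norm_num) (by norm_num)).const_mul _
    rw [mul_zero] at h1
    apply squeeze_zero _ _ h1
    · intro k
      have := (hb k).le
      positivity
    · intro k
      rw [one_div, inv_pow, ← div_eq_mul_inv]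
      apply div_le_div_of_nonneg_right _ (hpow k).le
      exact mul_le_mul_of_nonneg_left (hb1 k) (by positivity)
  have H1 : ∀ z : ℝ × ℝ, |z.1| ≤ U0 / 2 → |z.2| ≤ X0 / 2 →
      z ∈ Cl q U0 X0 r' 0 0 ∨ z ∈ Cl q U0 X0 r' (-c0) c1 ∨ z ∈ Cl q U0 X0 r' 0 c2 := by
    intro z hz1 hz2
    have hk : ∀ k : ℕ, ∃ (i : Fin 3) (a d : ℝ), |a - (![0, -c0, 0] : Fin 3 → ℝ) i| ≤ r' ∧
        |d - (![0, c1, c2] : Fin 3 → ℝ) i| ≤ r' ∧
        SubOn (p k) U0 X0 z.1 z.2 a d (4 * η * b k / 2 ^ k) := by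
      intro k
      have hm : η * K * (2 - 2 / 2 ^ k) ≤ η * K * 2 :=
        mul_le_mul_of_nonneg_left (hs2 k) (by positivity)
      have hrk : η * K' * (2 - 2 / 2 ^ k) ≤ η * K' * 2 :=
        mul_le_mul_of_nonneg_left (hs2 k) (by positivity)
      obtain ⟨i, a, d, ha, hd, hS⟩ := hclaim k z.1 z.2 (by linarith) (by linarith)
      exact ⟨i, a, d, by linarith, by linarith, hS⟩
    obtain ⟨i, a, d, ha, hd, hS⟩ := limit_sub (by linarith) (by linarith) hlim' hetend hk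
    fin_cases i
    · exact Or.inl ⟨hz1, hz2, a, d, ha, hd, hS⟩
    · exact Or.inr (Or.inl ⟨hz1, hz2, a, d, ha, hd, hS⟩)
    · exact Or.inr (Or.inr ⟨hz1, hz2, a, d, ha, hd, hS⟩)
  have hcU : 0 < c0 * U0 := mul_pos hc0 hU
  obtain ⟨z, hz1, hz2, hz3, hz4, hz5⟩ := triple (r := r') (e := η * K'') hc0 hc1 hc12 hU hX hg1
    hg2 hr'4 (by linarith) (by linarith) (by linarith) H1 hqΨ
  obtain ⟨_, _, a0, d0, ha0, hd0, hS0⟩ := hz3
  obtain ⟨_, _, a1, d1, ha1, hd1, hS1⟩ := hz4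
  obtain ⟨_, _, a2, d2, ha2, hd2, hS2⟩ := hz5
  rw [sub_zero] at ha0 hd0 ha2
  rw [sub_neg_eq_add] at ha1
  refine ⟨z.1, z.2, ![a0, a1, a2], ![d0, d1, d2], hz1, hz2, ha0.trans hr'1, hd0.trans hr'1,
    ha1.trans hr'1, hd1.trans hr'1, ha2.trans hr'1, hd2.trans hr'1, ?_⟩
  intro i u x hu hx
  fin_cases i
  · have := hS0 u x (by linarith) (by linarith)
    rw [sub_zero] at this
    exact this
  · have := hS1 u x (by linarith) (by linarith)
    rw [sub_zero] at this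
    exact this
  · have := hS2 u x (by linarith) (by linarith)
    rw [sub_zero] at this
    exact this

end Crest.Agent.Kac
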