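import Mathlib
import Crest.Prelude.Def_PairPotential
import Crest.Prelude.Def_UnitPacking

/-!
# S0209/S0210: multi-scale Kac tails.  Common definitions.
-/

open MeasureTheory Crest.ProbabilityR.Continuum
open scoped ENNReal

namespace Crest.Agent.Kac

/-- total energy of a pair function `W` (sum over pairs `i < j`) -/
noncomputable def pairE (W : Pt → Pt → ℝ) {n : ℕ} (x : Fin n → Pt) : ℝ :=
  ∑ p : {p : Fin n × Fin n // p.1 < p.2}, W (x p.1.1) (x p.1.2)

/-- `(1/n!) ∫_{Λ^n} exp (-pairE W)` in `ℝ≥0∞`. -/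
noncomputable def ZW (W : Pt → Pt → ℝ) (Λ : Set Pt) (n : ℕ) : ℝ≥0∞ :=
  (n.factorial : ℝ≥0∞)⁻¹ *
    ∫⁻ x in Set.pi Set.univ (fun _ : Fin n => Λ), ENNReal.ofReal (Real.exp (-pairE W x))

/-- the pair function `β φ(|x-y|)` -/
noncomputable def rad (β : ℝ) (φ : ℝ → ℝ) : Pt → Pt → ℝ := fun x y => β * φ (dist x y)

/-- cell index for the cubic grid of side `h` shifted by `(τ,τ,τ)` -/
noncomputable def cellIdx (h τ : ℝ) (x : Pt) : Fin 3 → ℤ := fun k => ⌊(x k - τ) / h⌋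

open Classical in
/-- `Σ_C n_C²`: the number of ordered pairs (including `i = j`) in the same cell -/
noncomputable def sqOcc (h τ : ℝ) {n : ℕ} (x : Fin n → Pt) : ℝ :=
  ∑ i, ∑ j, if cellIdx h τ (x i) = cellIdx h τ (x j) then (1 : ℝ) else 0

/-- total potential: repulsive reference minus attractive part -/
noncomputable def tot (φr ψ : ℝ → ℝ) : ℝ → ℝ := fun r => φr r - ψ r

/-- A thermodynamic system: `φr ≥ 0` of range `≤ 2`, integrable, superstable; attractive part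
`ψ ≥ 0` dominated by a fraction `θ ≤ 1/2` of the repulsion. -/
structure Sys (φr ψ : ℝ → ℝ) (θ B c : ℝ) : Prop where
  mr : Measurable φr
  mψ : Measurable ψ
  r0 : ∀ r, 0 ≤ φr r
  r2 : ∀ r, 2 ≤ r → φr r = 0
  rint : Integrable (fun x : Pt => φr ‖x‖)
  ψ0 : ∀ r, 0 ≤ ψ r
  B0 : 0 ≤ B
  c0 : 0 < c
  θ0 : 0 ≤ θ
  θ1 : θ ≤ 1 / 2
  dom : ∀ (n : ℕ) (x : Fin n → Pt), energy ψ x ≤ θ * energy φr x + B * n
  ss : ∀ L : ℝ, 1 ≤ L → ∀ (n : ℕ) (x : Fin n → Pt), (∀ i, x i ∈ cube L) →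
    c * (n : ℝ) ^ 2 / L ^ 3 - B * n ≤ energy φr x

open Classical in
/-- canonical free energy per volume (times `β`), as a limit (`0` if the limit does not exist) -/
noncomputable def Fe (φ : ℝ → ℝ) (β ρ : ℝ) : ℝ :=
  if h : ∃ l : ℝ, Filter.Tendsto
      (fun L : ℝ => -(1 / L ^ 3) * Real.log (partitionFn φ L ⌊ρ * L ^ 3⌋₊ β)) Filter.atTop (nhds l)
  then h.choose else 0

/-- pressure (times `β`) as the Legendre transform of `Fe` -/
noncomputable def Pr (φ : ℝ → ℝ) (β μ : ℝ) : ℝ :=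
  ⨆ ρ : Set.Ici (0 : ℝ), (μ * (ρ : ℝ) - Fe φ β (ρ : ℝ))

/-- unit vector -/
noncomputable def e0 : Pt := EuclideanSpace.single 0 1

/-- volume of the ball of radius `R/2` -/
noncomputable def vR (R : ℝ) : ℝ := (volume (Metric.closedBall (0 : Pt) (R / 2))).toReal

/-- normalised overlap kernel of range `R` (it is `(h*h)(r)` for `h` = normalised indicator of the
ball of radius `R/2`), total integral one -/
noncomputable def kap (R r : ℝ) : ℝ :=
  (volume (Metric.closedBall (0 : Pt) (R / 2) ∩ Metric.closedBall (r • e0) (R / 2))).toReal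
    / vR R ^ 2

/-- `Σ_{i≥1} (n - i Q)_+` on naturals -/
def Xn (Q n : ℕ) : ℕ := ∑ i ∈ Finset.range n, (n - (i + 1) * Q)

end Crest.Agent.Kac
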