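import Crest.Agent.Kac.Thermo
import Crest.Agent.Kac.ConfigB

/-! Rescaling of length and energy; the free energy of the rescaled potential. -/

open MeasureTheory Crest.ProbabilityR.Continuum Filter Topology Set
open scoped ENNReal Pointwise

namespace Crest.Agent.Kac

/-- rescaled potential -/
noncomputable def resc (a lam : ℝ) (φ : ℝ → ℝ) : ℝ → ℝ := fun r => a * φ (lam * r)

theorem energy_resc (a : ℝ) {lam : ℝ} (hlam : 0 < lam) (φ : ℝ → ℝ) {n : ℕ} (x : Fin n → Pt) :
    energy (resc a lam φ) x = a * energy φ (lam • x) := by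
  simp only [energy, resc, Finset.mul_sum]
  apply Finset.sum_congr rfl
  intro p _
  congr 2
  simp only [Pi.smul_apply]
  rw [dist_smul₀, Real.norm_of_nonneg hlam.le]

theorem smul_pi_cube {lam : ℝ} (hlam : 0 < lam) (L : ℝ) (n : ℕ) :
    lam • (Set.pi Set.univ (fun _ : Fin n => cube L)) =
      Set.pi Set.univ (fun _ : Fin n => cube (lam * L)) := by
  ext x
  rw [Set.mem_smul_set_iff_inv_smul_mem₀ hlam.ne']
  simp only [Set.mem_pi, Set.mem_univ, true_imp_iff, cube, Set.mem_ofPred_eq, Pi.smul_apply,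
    PiLp.smul_apply, smul_eq_mul]
  refine forall_congr' fun i => forall_congr' fun k => ?_
  constructor
  · rintro ⟨h1, h2⟩
    constructor
    · have := mul_nonneg hlam.le h1
      rwa [← mul_assoc, mul_inv_cancel₀ hlam.ne', one_mul] at this
    · have := mul_le_mul_of_nonneg_left h2 hlam.le
      rwa [← mul_assoc, mul_inv_cancel₀ hlam.ne', one_mul] at this
  · rintro ⟨h1, h2⟩
    constructor
    · positivity
    · rw [inv_mul_le_iff₀ hlam]
      exact h2

theorem partitionFn_resc (φ : ℝ → ℝ) (a : ℝ) {lam : ℝ} (hlam : 0 < lam) (L β : ℝ) (n : ℕ) :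
    partitionFn (resc a lam φ) L n β = (lam ^ (3 * n))⁻¹ * partitionFn φ (lam * L) n (a * β) := by
  unfold partitionFn
  have h1 : ∀ x : Fin n → Pt, Real.exp (-β * energy (resc a lam φ) x)
      = Real.exp (-(a * β) * energy φ (lam • x)) := by
    intro x
    rw [energy_resc a hlam]
    congr 1
    ring
  simp_rw [h1]
  have h3 := MeasureTheory.Measure.setIntegral_comp_smul (μ := (volume : Measure (Fin n → Pt)))
    (fun y : Fin n → Pt => Real.exp (-(a * β) * energy φ y))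
    (Set.pi Set.univ (fun _ : Fin n => cube L)) hlam.ne'
  have h2 : Module.finrank ℝ (Fin n → Pt) = 3 * n := by
    rw [Module.finrank_pi_fintype]
    simp
    ring
  rw [h2, abs_of_pos (by positivity), smul_eq_mul, smul_pi_cube hlam] at h3
  rw [h3]
  ring

section
variable {φr ψ : ℝ → ℝ} {θ B c : ℝ}

/-- stability of the total potential -/
theorem Sys.stable (h : Sys φr ψ θ B c) (n : ℕ) (x : Fin n → Pt) :
    -B * n ≤ energy (tot φr ψ) x := by
  have h1 : energy (tot φr ψ) x = energy φr x - energy ψ x := by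
    simp only [energy, tot, Finset.sum_sub_distrib]
  have h2 : 0 ≤ energy φr x := Finset.sum_nonneg fun p _ => h.r0 _
  have h3 := h.dom n x
  have h4 := h.θ1
  rw [h1]
  nlinarith

theorem Sys.meas (h : Sys φr ψ θ B c) : Measurable (tot φr ψ) := h.mr.sub h.mψ

theorem Sys.stable_resc (h : Sys φr ψ θ B c) {a lam : ℝ} (ha : 0 < a) (hlam : 0 < lam) (n : ℕ)
    (x : Fin n → Pt) : -(a * B) * n ≤ energy (resc a lam (tot φr ψ)) x := by
  rw [energy_resc a hlam]
  have := mul_le_mul_of_nonneg_left (h.stable n (lam • x)) ha.le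
  linarith

theorem final_limit (h : Sys φr ψ θ B c) {a lam β ρ : ℝ} (ha : 0 < a) (hlam : 0 < lam)
    (hβ : 0 < β) (hρ : 0 ≤ ρ) :
    Tendsto (fun L : ℝ => -(1 / (β * L ^ 3)) *
        Real.log (partitionFn (resc a lam (tot φr ψ)) L ⌊ρ * L ^ 3⌋₊ β)) atTop
      (𝓝 (3 * Real.log lam * ρ / β + lam ^ 3 / β * Fe (tot φr ψ) (a * β) (ρ / lam ^ 3))) := by
  have hl3 : 0 < lam ^ 3 := by positivity
  have h1 : Tendsto (fun L : ℝ => 3 * Real.log lam * ((⌊ρ * L ^ 3⌋₊ : ℝ) / L ^ 3) / β) atTop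
      (𝓝 (3 * Real.log lam * ρ / β)) := by
    have h2 : Tendsto (fun L : ℝ => (⌊ρ * L ^ 3⌋₊ : ℝ) / L ^ 3) atTop (𝓝 ρ) :=
      (tendsto_nat_floor_mul_div_atTop hρ).comp (tendsto_pow_atTop (by norm_num))
    exact (h2.const_mul _).div_const _
  have h2 : Tendsto (fun L : ℝ => lam ^ 3 / β * (-(1 / (lam * L) ^ 3) *
      Real.log (partitionFn (tot φr ψ) (lam * L) ⌊ρ / lam ^ 3 * (lam * L) ^ 3⌋₊ (a * β)))) atTop
      (𝓝 (lam ^ 3 / β * Fe (tot φr ψ) (a * β) (ρ / lam ^ 3))) := by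
    apply Tendsto.const_mul
    have h3 := thermo_limit h (β := a * β) (ρ := ρ / lam ^ 3) (by positivity) (by positivity)
    exact h3.comp (tendsto_id.const_mul_atTop hlam)
  refine (h1.add h2).congr' ?_
  filter_upwards [eventually_gt_atTop (0 : ℝ)] with L hL
  have hfl : ρ / lam ^ 3 * (lam * L) ^ 3 = ρ * L ^ 3 := by
    field_simp
  rw [hfl, partitionFn_resc _ _ hlam]
  have hpos : 0 < partitionFn (tot φr ψ) (lam * L) ⌊ρ * L ^ 3⌋₊ (a * β) :=
    partitionFn_pos h.meas (h.stable) (by positivity) (by positivity) _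
  rw [Real.log_mul (by positivity) hpos.ne', Real.log_inv, Real.log_pow]
  push_cast
  field_simp
  ring

theorem final_fun (F : ℝ → ℝ) {a lam ρ : ℝ} (ha : 0 < a) :
    (fun β => 3 * Real.log lam * ρ / β + lam ^ 3 / β * F (a * β))
      = fun β => (3 * Real.log lam * ρ) * β⁻¹ + (lam ^ 3 * a) * ((fun b => (1 / b) * F b) (a * β)) := by
  funext β
  simp only
  have : (1 : ℝ) / (a * β) = a⁻¹ * β⁻¹ := by rw [one_div, mul_inv]
  rw [this]
  field_simp

theorem final_deriv (F : ℝ → ℝ) {lam ρ βc D : ℝ} (hβc : 0 < βc) {s t : Set ℝ}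
    (hst : MapsTo (fun b => βc * b) s t)
    (hD : HasDerivWithinAt (fun b => (1 / b) * F b) D t βc) :
    HasDerivWithinAt (fun β => 3 * Real.log lam * ρ / β + lam ^ 3 / β * F (βc * β))
      (-(3 * Real.log lam * ρ) + (lam ^ 3 * βc) * (D * βc)) s 1 := by
  rw [final_fun F hβc]
  have h1 : HasDerivWithinAt (fun b : ℝ => βc * b) βc s 1 := by
    simpa using ((hasDerivAt_id (1 : ℝ)).const_mul βc).hasDerivWithinAt
  have h2 : HasDerivWithinAt (fun b : ℝ => (fun b => (1 / b) * F b) (βc * b)) (D * βc) s 1 := by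
    have hD' : HasDerivWithinAt (fun b => (1 / b) * F b) D t (βc * 1) := by rwa [mul_one]
    exact hD'.comp 1 h1 hst
  have h3 : HasDerivWithinAt (fun β : ℝ => (3 * Real.log lam * ρ) * β⁻¹)
      ((3 * Real.log lam * ρ) * (-(1 ^ 2)⁻¹)) s 1 :=
    ((hasDerivAt_inv (one_ne_zero)).const_mul _).hasDerivWithinAt
  have h4 := h3.add (h2.const_mul (lam ^ 3 * βc))
  have h5 : -(3 * Real.log lam * ρ) + (lam ^ 3 * βc) * (D * βc)
      = 3 * Real.log lam * ρ * (-(1 ^ 2)⁻¹) + lam ^ 3 * βc * (D * βc) := by norm_num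
  rw [h5]
  exact h4

end

end Crest.Agent.Kac
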