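import Crest.Agent.Kac.Main
import Crest.Agent.Kac.Scale

/-! Conclusion: the two statements S0209, S0210 from `main_thm`. -/

open MeasureTheory Crest.ProbabilityR.Continuum Filter Topology Set
open scoped ENNReal

namespace Crest.Agent.Kac

/-- decay after rescaling -/
theorem decay_resc {φ : ℝ → ℝ} {M C s lam a : ℝ} (hs : 0 < s) (hlam : 0 < lam) (ha : 0 < a)
    (hM0 : 0 ≤ M) (hC0 : 0 ≤ C) (hM : ∀ r, |φ r| ≤ M)
    (hC : ∀ r, 2 ≤ r → |φ r| ≤ C * r ^ (-s)) :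
    ∃ C', ∀ r : ℝ, 1 ≤ r → |resc a lam φ r| ≤ C' * r ^ (-s) := by
  refine ⟨a * (M * (2 / lam) ^ s + C * lam ^ (-s)), fun r hr => ?_⟩
  have hr0 : 0 < r := by linarith
  simp only [resc]
  rw [abs_mul, abs_of_pos ha, mul_assoc]
  refine mul_le_mul_of_nonneg_left ?_ ha.le
  have hrs : 0 < r ^ (-s) := Real.rpow_pos_of_pos hr0 _
  have hls : 0 < lam ^ (-s) := Real.rpow_pos_of_pos hlam _
  have h2s : 0 < (2 / lam) ^ s := Real.rpow_pos_of_pos (by positivity) _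
  rcases le_or_gt 2 (lam * r) with h | h
  · calc |φ (lam * r)| ≤ C * (lam * r) ^ (-s) := hC _ h
      _ = C * lam ^ (-s) * r ^ (-s) := by rw [Real.mul_rpow hlam.le hr0.le]; ring
      _ ≤ (M * (2 / lam) ^ s + C * lam ^ (-s)) * r ^ (-s) := by
          have : 0 ≤ M * (2 / lam) ^ s * r ^ (-s) := by positivity
          nlinarith
  · have h1 : r < 2 / lam := by rw [lt_div_iff₀ hlam]; linarith
    have h2 : (2 / lam) ^ (-s) ≤ r ^ (-s) :=
      Real.rpow_le_rpow_of_nonpos hr0 h1.le (by linarith)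
    have h3 : (2 / lam) ^ s * (2 / lam) ^ (-s) = 1 := by
      rw [← Real.rpow_add (by positivity)]
      simp
    calc |φ (lam * r)| ≤ M := hM _
      _ = M * ((2 / lam) ^ s * (2 / lam) ^ (-s)) := by rw [h3, mul_one]
      _ = M * (2 / lam) ^ s * (2 / lam) ^ (-s) := by ring
      _ ≤ M * (2 / lam) ^ s * r ^ (-s) := by gcongr
      _ ≤ (M * (2 / lam) ^ s + C * lam ^ (-s)) * r ^ (-s) := by
          have : 0 ≤ C * lam ^ (-s) * r ^ (-s) := by positivity
          nlinarith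

theorem final209 :
    ∃ φ : ℝ → ℝ, Continuous φ ∧ (∃ M : ℝ, ∀ r : ℝ, |φ r| ≤ M) ∧
      (∃ B : ℝ, ∀ (N : ℕ) (x : Fin N → Crest.ProbabilityR.Continuum.Pt), -B * N ≤ Crest.ProbabilityR.Continuum.energy φ x) ∧
      (∃ C : ℝ, ∀ r : ℝ, 1 ≤ r → |φ r| ≤ C * r ^ (-(3 + 1 / 32 : ℝ))) ∧
      ∃ p η βc : ℝ, 0 < p ∧
        Filter.Tendsto (fun L : ℝ => (Crest.ProbabilityR.Continuum.packingNumber L : ℝ) / L ^ 3)
          Filter.atTop (nhds p) ∧
        0 < η ∧ η ≤ 5 * p / 3 ∧ 7 / 8 ≤ βc ∧ βc ≤ 9 / 8 ∧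
        ∃ f : ℝ → ℝ → ℝ,
          (∀ ρ : ℝ, 5 * p / 3 - η < ρ → ρ < 5 * p / 3 + η → ∀ β : ℝ, 0 < β →
            Filter.Tendsto (fun L : ℝ => -(1 / (β * L ^ 3)) *
                Real.log (Crest.ProbabilityR.Continuum.partitionFn φ L ⌊ρ * L ^ 3⌋₊ β))
              Filter.atTop (nhds (f β ρ))) ∧
          (∀ ρ : ℝ, 5 * p / 3 - η < ρ → ρ < 5 * p / 3 + η → ∃ Dl Dr : ℝ,
            HasDerivWithinAt (fun β => f β ρ) Dl (Set.Iio βc) βc ∧
            HasDerivWithinAt (fun β => f β ρ) Dr (Set.Ioi βc) βc ∧ Dr < Dl) := by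
  obtain ⟨K, s0, s1, s2, s3, η, b, R, θ, B, c, h0, h01, h12, h23, h3, hη0, hη1, hK, hb, hR, hs,
    hs2, hsys, βc, ρ1, ρ2, hβc, hρ1, hρ12, hjump⟩ := main_thm false
  obtain ⟨p, hp, hpt⟩ := packing_limit
  have hb' : ∀ k, 0 ≤ b k := fun k => (hb k).le
  have hfun : (fun r => refpot K s0 s1 s2 s3 η r + (if false = true then sing s0 r else 0))
      = refpot K s0 s1 s2 s3 η := by
    funext r
    simp
  rw [hfun] at hsys hjump
  obtain ⟨M, hM⟩ := tail_bdd hb' hR hs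
  obtain ⟨C, hC0, hC⟩ := tail_decay hb' hR hs hs2
  have hM0 : 0 ≤ M := le_trans (tail_nonneg hb' 0) (hM 0)
  have href := refData_bdd hK h0 h01 h12 h23 h3 hη0 hη1
  -- the scaling factor
  obtain ⟨ρs, hρs⟩ : ∃ ρs, ρs = (ρ1 + ρ2) / 2 := ⟨_, rfl⟩
  have hρs0 : 0 < ρs := by linarith
  obtain ⟨lam, hlam, hlam3⟩ : ∃ lam : ℝ, 0 < lam ∧ lam ^ 3 = 5 * p / 3 / ρs := by
    refine ⟨(5 * p / 3 / ρs) ^ ((1 : ℝ) / 3), by positivity, ?_⟩
    rw [← Real.rpow_natCast, ← Real.rpow_mul (by positivity)]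
    norm_num
  have hl3 : 0 < lam ^ 3 := by positivity
  have hlρ : lam ^ 3 * ρs = 5 * p / 3 := by rw [hlam3]; field_simp
  refine ⟨resc βc lam (tot (refpot K s0 s1 s2 s3 η) (tail b R)), ?_, ?_, ?_, ?_, p,
    lam ^ 3 * ((ρ2 - ρ1) / 2), 1, hp, hpt, ?_, ?_, by norm_num, by norm_num,
    fun β ρ => 3 * Real.log lam * ρ / β + lam ^ 3 / β *
      Fe (tot (refpot K s0 s1 s2 s3 η) (tail b R)) (βc * β) (ρ / lam ^ 3), ?_, ?_⟩
  · have h1 := refpot_cont (K := K) h01 h23 hη0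
    have h2 := tail_cont hb' hR hs
    unfold resc tot
    fun_prop
  · refine ⟨βc * (2 * K + M), fun r => ?_⟩
    simp only [resc, tot]
    rw [abs_mul, abs_of_pos hβc]
    refine mul_le_mul_of_nonneg_left ?_ hβc.le
    calc |refpot K s0 s1 s2 s3 η (lam * r) - tail b R (lam * r)|
        ≤ |refpot K s0 s1 s2 s3 η (lam * r)| + |tail b R (lam * r)| := abs_sub _ _
      _ ≤ 2 * K + M := by
          rw [abs_of_nonneg (tail_nonneg hb' _)]
          exact add_le_add (refpot_bdd hK _) (hM _)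
  · exact ⟨βc * B, fun N x => hsys.stable_resc hβc hlam N x⟩
  · apply decay_resc (s := 3 + 1 / 32) (by norm_num) hlam hβc (M := 2 * K + M) (C := C)
      (by positivity) hC0
    · intro r
      simp only [tot]
      calc |refpot K s0 s1 s2 s3 η r - tail b R r|
          ≤ |refpot K s0 s1 s2 s3 η r| + |tail b R r| := abs_sub _ _
        _ ≤ 2 * K + M := by
            rw [abs_of_nonneg (tail_nonneg hb' _)]
            exact add_le_add (refpot_bdd hK _) (hM _)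
    · intro r hr
      simp only [tot]
      rw [href.zero2 r (by linarith), zero_sub, abs_neg, abs_of_nonneg (tail_nonneg hb' _)]
      exact hC r (by linarith)
  · have : 0 < ρ2 - ρ1 := by linarith
    positivity
  · calc lam ^ 3 * ((ρ2 - ρ1) / 2) ≤ lam ^ 3 * ρs := by
          gcongr
          linarith
      _ = 5 * p / 3 := hlρ
  · intro ρ hρa hρb β hβ
    apply final_limit hsys hβc hlam hβ
    have : lam ^ 3 * ((ρ2 - ρ1) / 2) ≤ lam ^ 3 * ρs := by
      gcongr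
      linarith
    linarith
  · intro ρ hρa hρb
    have h1 : ρ1 < ρ / lam ^ 3 := by
      rw [lt_div_iff₀ hl3]
      have : 5 * p / 3 - lam ^ 3 * ((ρ2 - ρ1) / 2) = ρ1 * lam ^ 3 := by
        rw [← hlρ, hρs]
        ring
      linarith
    have h2 : ρ / lam ^ 3 < ρ2 := by
      rw [div_lt_iff₀ hl3]
      have : 5 * p / 3 + lam ^ 3 * ((ρ2 - ρ1) / 2) = ρ2 * lam ^ 3 := by
        rw [← hlρ, hρs]
        ring
      linarith
    obtain ⟨Dl, Dr, hl, hr, hlt⟩ := hjump (ρ / lam ^ 3) h1 h2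
    refine ⟨_, _, final_deriv (lam := lam) (ρ := ρ) _ hβc (s := Iio 1) ?_ hl,
      final_deriv (lam := lam) (ρ := ρ) _ hβc (s := Ioi 1) ?_ hr, ?_⟩
    · intro x hx
      simp only [mem_Iio] at hx ⊢
      nlinarith
    · intro x hx
      simp only [mem_Ioi] at hx ⊢
      nlinarith
    · have h5 : Dr * βc < Dl * βc := by gcongr
      have h6 : lam ^ 3 * βc * (Dr * βc) < lam ^ 3 * βc * (Dl * βc) := by gcongr
      linarith

theorem final210 :
    ∃ φ : ℝ → ℝ, Measurable φ ∧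
      (∀ a b : ℝ, 0 < a → a ≤ b → ∃ M : ℝ, ∀ r : ℝ, a ≤ r → r ≤ b → |φ r| ≤ M) ∧
      Filter.Tendsto φ (nhdsWithin 0 (Set.Ioi 0)) Filter.atTop ∧
      (∃ r₁ r₂ a : ℝ, 0 < r₁ ∧ r₁ < r₂ ∧ 0 < a ∧ ∀ r : ℝ, r₁ ≤ r → r ≤ r₂ → φ r ≤ -a) ∧
      (∃ R : ℝ, 0 < R ∧ MeasureTheory.IntegrableOn (fun r : ℝ => r ^ 2 * |φ r|) (Set.Ioi R)) ∧
      Filter.Tendsto (fun r : ℝ => r ^ 3 * φ r) Filter.atTop (nhds 0) ∧
      (∃ B : ℝ, ∀ (N : ℕ) (x : Fin N → Crest.ProbabilityR.Continuum.Pt), Function.Injective x →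
        -B * N ≤ Crest.ProbabilityR.Continuum.energy φ x) ∧
      ∃ f : ℝ → ℝ → ℝ,
        (∀ ρ : ℝ, 0 < ρ → ∀ β : ℝ, 0 < β →
          Filter.Tendsto (fun L : ℝ => -(1 / (β * L ^ 3)) *
              Real.log (Crest.ProbabilityR.Continuum.partitionFn φ L ⌊ρ * L ^ 3⌋₊ β))
            Filter.atTop (nhds (f β ρ))) ∧
        ∃ ρ₁ ρ₂ βc : ℝ, 0 ≤ ρ₁ ∧ ρ₁ < ρ₂ ∧ 1 / 2 < βc ∧ βc < 3 / 2 ∧
          ∀ ρ : ℝ, ρ₁ < ρ → ρ < ρ₂ → ∃ Dl Dr : ℝ,
            HasDerivWithinAt (fun β => f β ρ) Dl (Set.Iio βc) βc ∧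
            HasDerivWithinAt (fun β => f β ρ) Dr (Set.Ioi βc) βc ∧ Dr < Dl := by
  obtain ⟨K, s0, s1, s2, s3, η, b, R, θ, B, c, h0, h01, h12, h23, h3, hη0, hη1, hK, hb, hR, hs,
    hs2, hsys, βc, ρ1, ρ2, hβc, hρ1, hρ12, hjump⟩ := main_thm true
  have hb' : ∀ k, 0 ≤ b k := fun k => (hb k).le
  have hfun : (fun r => refpot K s0 s1 s2 s3 η r + (if true = true then sing s0 r else 0))
      = fun r => refpot K s0 s1 s2 s3 η r + sing s0 r := by
    funext r
    simp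
  rw [hfun] at hsys hjump
  obtain ⟨M, hM⟩ := tail_bdd hb' hR hs
  obtain ⟨C, hC0, hC⟩ := tail_decay hb' hR hs hs2
  obtain ⟨at0, hat0, hat⟩ := tail_pos_interval hb hR hs
  have hM0 : 0 ≤ M := le_trans (tail_nonneg hb' 0) (hM 0)
  have href := refData_sing hK h0 h01 h12 h23 h3 hη0 hη1
  have hsing0 : ∀ r, 0 ≤ sing s0 r := fun r => le_max_left _ _
  -- the potential
  obtain ⟨φ, hφ⟩ : ∃ φ : ℝ → ℝ, φ = resc βc 1
      (tot (fun r => refpot K s0 s1 s2 s3 η r + sing s0 r) (tail b R)) := ⟨_, rfl⟩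
  have hφr : ∀ r, φ r = βc * (refpot K s0 s1 s2 s3 η r + sing s0 r - tail b R r) := by
    intro r
    rw [hφ]
    simp only [resc, tot, one_mul]
  have hφ2 : ∀ r, 2 ≤ r → φ r = -(βc * tail b R r) := by
    intro r hr
    rw [hφr, href.zero2 r (by linarith)]
    ring
  have hφdec : ∀ r, 2 ≤ r → |φ r| ≤ βc * C * r ^ (-(3 + 1 / 32 : ℝ)) := by
    intro r hr
    rw [hφ2 r hr, abs_neg, abs_mul, abs_of_pos hβc, abs_of_nonneg (tail_nonneg hb' _), mul_assoc]
    exact mul_le_mul_of_nonneg_left (hC r (by linarith)) hβc.le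
  have hφm : Measurable φ := by
    rw [hφ]
    exact ((hsys.meas).comp (measurable_const.mul measurable_id)).const_mul _
  refine ⟨φ, hφm, ?_, ?_, ?_, ?_, ?_, ?_,
    fun β ρ => 3 * Real.log 1 * ρ / β + 1 ^ 3 / β *
      Fe (tot (fun r => refpot K s0 s1 s2 s3 η r + sing s0 r) (tail b R)) (βc * β) (ρ / 1 ^ 3),
      ?_, ρ1, ρ2, 1, hρ1.le, hρ12, by norm_num, by norm_num, ?_⟩
  · intro a b' ha hab
    refine ⟨βc * (2 * K + a⁻¹ + M), fun r hra _ => ?_⟩
    rw [hφr, abs_mul, abs_of_pos hβc]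
    refine mul_le_mul_of_nonneg_left ?_ hβc.le
    have hr0 : 0 < r := by linarith
    have e1 : |refpot K s0 s1 s2 s3 η r| ≤ 2 * K := refpot_bdd hK r
    have e2 : sing s0 r ≤ a⁻¹ := by
      unfold sing
      apply max_le (by positivity)
      have : r⁻¹ ≤ a⁻¹ := inv_anti₀ ha hra
      have : 0 < s0⁻¹ := by positivity
      linarith
    have e3 := hM r
    have e4 := tail_nonneg (R := R) hb' r
    have e5 := hsing0 r
    rw [abs_le] at e1 ⊢
    have : 0 < a⁻¹ := by positivity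
    constructor <;> linarith [e1.1, e1.2]
  · have h1 : Tendsto (fun r : ℝ => βc * (r⁻¹ - (s0⁻¹ + 2 * K + M))) (𝓝[>] 0) atTop := by
      apply Tendsto.const_mul_atTop hβc
      exact tendsto_atTop_add_const_right _ _ tendsto_inv_nhdsGT_zero
    refine tendsto_atTop_mono' _ ?_ h1
    filter_upwards with r
    rw [hφr]
    refine mul_le_mul_of_nonneg_left ?_ hβc.le
    have e1 := (abs_le.1 (refpot_bdd (s0 := s0) (s1 := s1) (s2 := s2) (s3 := s3) (η := η) hK r)).1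
    have e2 : r⁻¹ - s0⁻¹ ≤ sing s0 r := le_max_right _ _
    have e3 := hM r
    linarith
  · refine ⟨2, 3, βc * at0, by norm_num, by norm_num, by positivity, fun r h2 h3 => ?_⟩
    rw [hφ2 r h2]
    have := mul_le_mul_of_nonneg_left (hat r ⟨h2, h3⟩) hβc.le
    linarith
  · refine ⟨2, by norm_num, ?_⟩
    have h1 : IntegrableOn (fun r : ℝ => βc * C * r ^ (-(1 + 1 / 32 : ℝ))) (Ioi 2) :=
      (integrableOn_Ioi_rpow_of_lt (by norm_num) (by norm_num)).const_mul _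
    refine Integrable.mono' h1 ?_ ?_
    · exact ((measurable_id.pow_const 2).mul hφm.abs).aestronglyMeasurable
    · filter_upwards [ae_restrict_mem measurableSet_Ioi] with r hr
      simp only [mem_Ioi] at hr
      have hr0 : 0 < r := by linarith
      rw [Real.norm_of_nonneg (by positivity)]
      calc r ^ 2 * |φ r| ≤ r ^ 2 * (βc * C * r ^ (-(3 + 1 / 32 : ℝ))) := by
            gcongr
            exact hφdec r hr.le
        _ = βc * C * (r ^ (2 : ℝ) * r ^ (-(3 + 1 / 32 : ℝ))) := by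
            rw [Real.rpow_two]
            ring
        _ = βc * C * r ^ (-(1 + 1 / 32 : ℝ)) := by
            rw [← Real.rpow_add hr0]
            norm_num
  · have h1 : Tendsto (fun r : ℝ => βc * C * r ^ (-(1 / 32 : ℝ))) atTop (𝓝 0) := by
      have := (tendsto_rpow_neg_atTop (y := (1 / 32 : ℝ)) (by norm_num)).const_mul (βc * C)
      simpa using this
    refine squeeze_zero_norm' ?_ h1
    filter_upwards [eventually_ge_atTop (2 : ℝ)] with r hr
    have hr0 : 0 < r := by linarith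
    rw [Real.norm_eq_abs, abs_mul, abs_of_pos (by positivity)]
    calc r ^ 3 * |φ r| ≤ r ^ 3 * (βc * C * r ^ (-(3 + 1 / 32 : ℝ))) := by
          gcongr
          exact hφdec r hr
      _ = βc * C * (r ^ (3 : ℝ) * r ^ (-(3 + 1 / 32 : ℝ))) := by
          rw [show (3 : ℝ) = ((3 : ℕ) : ℝ) by norm_num, Real.rpow_natCast]
          push_cast
          ring
      _ = βc * C * r ^ (-(1 / 32 : ℝ)) := by
          rw [← Real.rpow_add hr0]
          norm_num
  · refine ⟨βc * B, fun N x _ => ?_⟩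
    rw [hφ]
    exact hsys.stable_resc hβc one_pos N x
  · intro ρ hρ β hβ
    rw [hφ]
    exact final_limit hsys hβc one_pos hβ hρ.le
  · intro ρ hρa hρb
    obtain ⟨Dl, Dr, hl, hr, hlt⟩ := hjump (ρ / 1 ^ 3) (by simpa using hρa) (by simpa using hρb)
    refine ⟨_, _, final_deriv (lam := 1) (ρ := ρ) _ hβc (s := Iio 1) ?_ hl,
      final_deriv (lam := 1) (ρ := ρ) _ hβc (s := Ioi 1) ?_ hr, ?_⟩
    · intro x hx
      simp only [mem_Iio] at hx ⊢
      nlinarith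
    · intro x hx
      simp only [mem_Ioi] at hx ⊢
      nlinarith
    · have h5 : Dr * βc < Dl * βc := by gcongr
      have h6 : (1 : ℝ) ^ 3 * βc * (Dr * βc) < 1 ^ 3 * βc * (Dl * βc) := by gcongr
      linarith

end Crest.Agent.Kac
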