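import Crest.Agent.Kac.MFupC

/-!
# Mean-field upper bound, part (iii): comparison of the scaled and unscaled systems
-/

open MeasureTheory Crest.ProbabilityR.Continuum Filter Topology Set
open scoped ENNReal

namespace Crest.Agent.Kac.MF

theorem Pr_scale_le {φr ψ : ℝ → ℝ} {B c e β μ : ℝ} (h1 : Sys φr ψ (1 / 4) B c) (hβp : 0 < β)
    (he0 : 0 ≤ e) (he1 : e ≤ 1) :
    Pr (tot φr (fun r => (1 + e) * ψ r)) β μ ≤
      Pr (tot φr ψ) ((1 - e / 3) * β) (μ + β * (4 / 3 * e * B)) := by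
  refine Pr_comp h1 (sys_scale' h1 he0 he1) hβp (by positivity) (by linarith) ?_
  intro n x
  rw [energy_tot, energy_tot, energy_smul]
  have h3 := h1.dom n x
  have h5 : 4 / 3 * e * energy ψ x ≤ 4 / 3 * e * (1 / 4 * energy φr x + B * n) :=
    mul_le_mul_of_nonneg_left h3 (by positivity)
  have e1 : 4 / 3 * e * (1 / 4 * energy φr x + B * n) =
    e / 3 * energy φr x + 4 / 3 * e * B * n := by ring
  rw [e1] at h5
  have e2 : (1 - e / 3) * (energy φr x - energy ψ x) - 4 / 3 * e * B * n =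
    energy φr x - (1 + e) * energy ψ x - (e / 3 * energy φr x + 4 / 3 * e * B * n
      - 4 / 3 * e * energy ψ x) := by ring
  rw [e2]
  linarith

theorem abs_mem {M1 a : ℝ} (h1 : -M1 ≤ a) (h2 : a ≤ M1) : a ∈ Icc (-M1) M1 := ⟨h1, h2⟩

/-- scaled system versus unscaled system -/
theorem Pr_scale_lip {φr ψ : ℝ → ℝ} {B c e β β0 β1 M M1 μ s s' : ℝ}
    (h1 : Sys φr ψ (1 / 4) B c)
    (hβ0 : 0 < β0) (hβ : β ∈ Icc β0 β1) (hμ : μ ∈ Icc (-M) M) (he0 : 0 ≤ e) (he1 : e ≤ 1)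
    (hM : 0 ≤ M) (hs0 : 0 ≤ s) (hss : s ≤ s') (hM1 : M + s' + 2 * β1 * B ≤ M1) :
    Pr (tot φr (fun r => (1 + e) * ψ r)) β (μ + s') ≤
      Pr (tot φr ψ) β (μ + s) + prL B c (β0 / 2) β1 M1 *
        (e / 3 * β + (s' - s + β * (4 / 3 * e * B))) ∧
    Pr (tot φr (fun r => (1 + e) * ψ r)) β (μ + s') ≤ prC B c (β0 / 2) β1 M1 ∧
    0 ≤ Pr (tot φr (fun r => (1 + e) * ψ r)) β (μ + s') := by
  have hβp : 0 < β := hβ0.trans_le hβ.1
  have hβ02 : 0 < β0 / 2 := by positivity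
  have hB := h1.B0
  have hcmp := Pr_scale_le (μ := μ + s') h1 hβp he0 he1
  have h3 : β * B ≤ β1 * B := mul_le_mul_of_nonneg_right hβ.2 hB
  have h4 : 0 ≤ β * B := by positivity
  have hβeB : β * (4 / 3 * e * B) ≤ 2 * β1 * B := by nlinarith
  have hβeB0 : 0 ≤ β * (4 / 3 * e * B) := by positivity
  have hm1 := hμ.1
  have hm2 := hμ.2
  have hM10 : 0 ≤ M1 := by linarith
  have hμ2mem : μ + s' + β * (4 / 3 * e * B) ∈ Icc (-M1) M1 :=
    abs_mem (by linarith) (by linarith)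
  have hμ1mem : μ + s ∈ Icc (-M1) M1 := abs_mem (by linarith) (by linarith)
  have hβk : (1 - e / 3) * β ∈ Icc (β0 / 2) β1 := by
    constructor
    · nlinarith [hβ.1]
    · nlinarith [hβ.2]
  have hβmem : β ∈ Icc (β0 / 2) β1 := ⟨by linarith [hβ.1], hβ.2⟩
  have hb01 : β0 / 2 ≤ β1 := by linarith [hβ.1, hβ.2]
  have hlip := Pr_lip h1 hβ02 hb01 hM10 hβk hβmem hμ2mem hμ1mem
  have hP2 : Pr (tot φr ψ) ((1 - e / 3) * β) (μ + s' + β * (4 / 3 * e * B)) ≤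
      prC B c (β0 / 2) β1 M1 :=
    Pr_le_prC h1 hβ02 hb01 hM10 ⟨by linarith [hβk.1], by linarith [hβk.2]⟩
      ⟨by linarith [hμ2mem.1], by linarith [hμ2mem.2]⟩
  have ha1 : |(1 - e / 3) * β - β| = e / 3 * β := by
    rw [show (1 - e / 3) * β - β = -(e / 3 * β) by ring, abs_neg, abs_of_nonneg (by positivity)]
  have ha2 : |μ + s' + β * (4 / 3 * e * B) - (μ + s)| = s' - s + β * (4 / 3 * e * B) := by
    rw [abs_of_nonneg (by linarith)]
    ring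
  rw [ha1, ha2] at hlip
  exact ⟨by linarith, hcmp.trans hP2, Pr_nonneg (sys_scale' h1 he0 he1) hβp⟩

/-- collecting the errors -/
theorem collect {β β1 b b' c y Y B e r1 r2 : ℝ} (hβp : 0 < β) (hβ1 : β ≤ β1) (hB : 0 ≤ B)
    (hc : 0 < c) (hy0 : 0 ≤ y) (hyY : y ≤ Y) (hbb : b ≤ b') (hd : b' - b ≤ 9 * c * r2)
    (hr1 : 0 ≤ r1) (hr2 : 0 ≤ r2) (he : e = 12 * r1) :
    e / 3 * β + (β * b' * y - β * b * y + β * (4 / 3 * e * B)) ≤
      (4 * β1 + 16 * β1 * B + 9 * β1 * c * Y) * (r1 + r2) := by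
  have hβ1p : 0 < β1 := hβp.trans_le hβ1
  have hY0 : 0 ≤ Y := hy0.trans hyY
  have er1 : e / 3 * β ≤ 4 * β1 * r1 := by
    rw [he]
    have := mul_le_mul_of_nonneg_right hβ1 hr1
    linarith
  have er2 : β * (4 / 3 * e * B) ≤ 16 * β1 * B * r1 := by
    rw [he]
    have h3 : β * B ≤ β1 * B := mul_le_mul_of_nonneg_right hβ1 hB
    have := mul_le_mul_of_nonneg_right h3 hr1
    have e1 : β * (4 / 3 * (12 * r1) * B) = 16 * (β * B * r1) := by ring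
    have e2 : 16 * β1 * B * r1 = 16 * (β1 * B * r1) := by ring
    rw [e1, e2]
    linarith
  have er3 : β * b' * y - β * b * y ≤ 9 * β1 * c * Y * r2 := by
    have h3 : β * (b' - b) ≤ β1 * (9 * c * r2) :=
      mul_le_mul hβ1 hd (by linarith) hβ1p.le
    have h4 : β * (b' - b) * y ≤ β1 * (9 * c * r2) * Y :=
      mul_le_mul h3 hyY hy0 (by positivity)
    have e1 : β * b' * y - β * b * y = β * (b' - b) * y := by ring
    have e2 : 9 * β1 * c * Y * r2 = β1 * (9 * c * r2) * Y := by ring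
    rw [e1, e2]
    exact h4
  have h3 : 0 ≤ 4 * β1 * r2 := by positivity
  have h4 : 0 ≤ 16 * β1 * B * r2 := by positivity
  have h5 : 0 ≤ 9 * β1 * c * Y * r1 := by positivity
  have e3 : (4 * β1 + 16 * β1 * B + 9 * β1 * c * Y) * (r1 + r2) =
    4 * β1 * r1 + 16 * β1 * B * r1 + 9 * β1 * c * Y * r2 +
    (4 * β1 * r2 + 16 * β1 * B * r2 + 9 * β1 * c * Y * r1) := by ring
  rw [e3]
  linarith

theorem cube_ratio {l : ℝ} (hl : 1 ≤ l) : ((l + 2) / l) ^ 3 ≤ 1 + 26 * (1 / l) := by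
  have hlp : 0 < l := by linarith
  rw [div_pow, div_le_iff₀ (by positivity)]
  have : (1 + 26 * (1 / l)) * l ^ 3 = l ^ 3 + 26 * l ^ 2 := by field_simp
  rw [this]
  nlinarith

/-- final numerical assembly -/
theorem assemble {Y r1 r2 k P2 P CC LL Q D q q' S r l : ℝ} (hY : 0 ≤ Y) (hr : r = 1 / l)
    (hr1 : 1 / l ≤ r1) (hr0 : 0 ≤ r) (hr2 : 0 ≤ r2) (hk : k ≤ 1 + 26 * r)
    (hP2 : P2 ≤ P + LL * Q)
    (hP2c : P2 ≤ CC) (hP20 : 0 ≤ P2) (hLL : 0 ≤ LL) (hQ : Q ≤ D * (r1 + r2)) (hqq : q ≤ q')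
    (hS : S ≤ (Y + 6) / l + k * P2 - q') :
    S ≤ P - q + ((Y + 6) + 26 * CC + LL * D) * (r1 + r2) := by
  have h1 : k * P2 ≤ (1 + 26 * r) * P2 := mul_le_mul_of_nonneg_right hk hP20
  have h2 : 26 * r * P2 ≤ 26 * r1 * CC := by
    have : r ≤ r1 := by rw [hr]; exact hr1
    apply mul_le_mul _ hP2c hP20 (by linarith)
    linarith
  have h3 : LL * Q ≤ LL * (D * (r1 + r2)) := mul_le_mul_of_nonneg_left hQ hLL
  have hCC : 0 ≤ CC := hP20.trans hP2c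
  have h4 : 0 ≤ ((Y + 6) + 26 * CC) * r2 := mul_nonneg (by linarith) hr2
  have h5 : (Y + 6) / l ≤ (Y + 6) * r1 := by
    rw [show (Y + 6) / l = (Y + 6) * (1 / l) by ring]
    exact mul_le_mul_of_nonneg_left hr1 (by linarith)
  have e1 : ((Y + 6) + 26 * CC + LL * D) * (r1 + r2) =
    (Y + 6) * r1 + 26 * r1 * CC + LL * (D * (r1 + r2)) + ((Y + 6) + 26 * CC) * r2 := by ring
  have e2 : (1 + 26 * r) * P2 = P2 + 26 * r * P2 := by ring
  rw [e1]
  rw [e2] at h1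
  linarith

end Crest.Agent.Kac.MF
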