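import Crest.Agent.Kac.Thermo
import Crest.Agent.Kac.KernelB
import Crest.Agent.Kac.MFupD

open MeasureTheory Crest.ProbabilityR.Continuum Filter Topology Set
open scoped ENNReal

namespace Crest.Agent.Kac

open MF

theorem MF_up {φr : ℝ → ℝ} {B c β0 β1 M Y : ℝ} (hβ0 : 0 < β0) (hβ1 : β0 ≤ β1) (hM : 0 ≤ M)
    (hY1 : 1 ≤ Y) (hB : 0 ≤ B) (hc : 0 < c) (hY : M + 3 * β1 * B + 2 ≤ β0 * c * Y / 4) :
    ∃ K : ℝ, 0 < K ∧ ∀ (ψ : ℝ → ℝ) (b R R' l : ℝ), Sys φr ψ (1 / 4) B c →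
      Sys φr (fun r => ψ r + b * kap R r) (1 / 4) B c → (∀ r, R' ≤ r → ψ r = 0) →
      0 ≤ b → b ≤ c / 4 → 2 ≤ R' → 12 * R' ≤ l → 50 * l ≤ R →
      ∀ β ∈ Icc β0 β1, ∀ μ ∈ Icc (-M) M, ∃ y ∈ Icc 0 Y,
        Pr (tot φr (fun r => ψ r + b * kap R r)) β μ ≤
          Pr (tot φr ψ) β (μ + β * b * y) - β * b * y ^ 2 / 2 + K * (R' / l + l / R) := by
  have hβ1p : 0 < β1 := hβ0.trans_le hβ1
  set M1 : ℝ := M + β1 * c * Y + 2 * β1 * B with hM1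
  have hβ02 : 0 < β0 / 2 := by positivity
  set CC : ℝ := prC B c (β0 / 2) β1 M1 with hCC
  set LL : ℝ := prL B c (β0 / 2) β1 M1 with hLL
  have hCC0 : 0 < CC := prC_pos hβ02 hc
  have hLL0 : 0 < LL := prL_pos hβ02 hc
  refine ⟨(Y + 6) + 26 * CC + LL * (4 * β1 + 16 * β1 * B + 9 * β1 * c * Y), by positivity, ?_⟩
  intro ψ b R R' l h1 h2 hr hb0 hbc hR' hl hR β hβ μ hμ
  have hl24 : 24 ≤ l := by linarith
  have hlp : 0 < l := by linarith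
  have hRp : 0 < R := by linarith
  have hR'p : 0 < R' := by linarith
  have hβp : 0 < β := hβ0.trans_le hβ.1
  set r1 : ℝ := R' / l with hr1
  set r2 : ℝ := l / R with hr2
  have hr10 : 0 ≤ r1 := by positivity
  have hr20 : 0 ≤ r2 := by positivity
  have hr1' : r1 ≤ 1 / 12 := by
    rw [hr1, div_le_div_iff₀ hlp (by norm_num)]; linarith
  have hr2' : r2 ≤ 1 / 50 := by
    rw [hr2, div_le_div_iff₀ hRp (by norm_num)]; linarith
  set e : ℝ := 12 * r1 with he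
  have he0 : 0 ≤ e := by positivity
  have he1 : e ≤ 1 := by linarith
  have hM'pos : 0 < ⌈l / R'⌉₊ := Nat.ceil_pos.2 (by positivity)
  have hM'inv : 1 / ((⌈l / R'⌉₊ : ℕ) : ℝ) ≤ r1 := by
    rw [hr1, div_le_div_iff₀ (by exact_mod_cast hM'pos) hlp, one_mul]
    have h3 : l / R' ≤ (⌈l / R'⌉₊ : ℕ) := Nat.le_ceil _
    rw [div_le_iff₀ hR'p] at h3
    linarith
  have hcond : 1 ≤ (1 + e) * (1 - 3 * (R' / l + 1 / ((⌈l / R'⌉₊ : ℕ) : ℝ))) := by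
    rw [← hr1]
    have h3 : 1 - 6 * r1 ≤ 1 - 3 * (r1 + 1 / ((⌈l / R'⌉₊ : ℕ) : ℝ)) := by linarith
    have h4 : (1 + e) * (1 - 6 * r1) ≤ (1 + e) * (1 - 3 * (r1 + 1 / ((⌈l / R'⌉₊ : ℕ) : ℝ))) :=
      mul_le_mul_of_nonneg_left h3 (by linarith)
    have h5 : (1 + e) * (1 - 6 * r1) = 1 + 6 * r1 * (1 - 12 * r1) := by rw [he]; ring
    have h6 : 0 ≤ 6 * r1 * (1 - 12 * r1) := mul_nonneg (by positivity) (by linarith)
    linarith
  obtain ⟨hne, y, hy, hle⟩ := MFX_le h1 hβ0 hβ hM hμ hY1 hY hb0 hbc hl24 hR he0 he1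
  have hA := MFup_A (M' := ⌈l / R'⌉₊) h1 h2 hr hb0 hRp hlp hβp hM'pos he0 he1 hcond hne
  refine ⟨y, hy, ?_⟩
  have hA' := hA.trans hle
  clear hA hle
  set b' : ℝ := b * (1 + 4 * l / R) ^ 6 with hb'
  have e4 : 4 * l / R = 4 * r2 := by rw [hr2]; ring
  have hp6 : (1 + 4 * l / R) ^ 6 ≤ 1 + 9 * (4 * r2) := by
    rw [e4]; exact pow6_le (by positivity) (by linarith)
  have hb'b : b ≤ b' := by
    have : 1 ≤ (1 + 4 * l / R) ^ 6 := one_le_pow₀ (by rw [e4]; linarith)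
    calc b = b * 1 := by ring
      _ ≤ b' := mul_le_mul_of_nonneg_left this hb0
  have h3 : b' ≤ b * (1 + 9 * (4 * r2)) := mul_le_mul_of_nonneg_left hp6 hb0
  have hb'd : b' - b ≤ 9 * c * r2 := by
    have h5 : 36 * b * r2 ≤ 9 * c * r2 := mul_le_mul_of_nonneg_right (by linarith) hr20
    have e1 : b * (1 + 9 * (4 * r2)) = b + 36 * b * r2 := by ring
    linarith
  have hb'c : b' ≤ c := by
    have h5 : 9 * c * r2 ≤ 9 * c * (1 / 50) := mul_le_mul_of_nonneg_left hr2' (by positivity)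
    linarith
  have hbc' : b ≤ c := by linarith
  have hss : β * b * y ≤ β * b' * y :=
    mul_le_mul_of_nonneg_right (mul_le_mul_of_nonneg_left hb'b hβp.le) hy.1
  have hs0 : 0 ≤ β * b * y := mul_nonneg (mul_nonneg hβp.le hb0) hy.1
  have hs' : β * b' * y ≤ β1 * c * Y :=
    mul_le_mul (mul_le_mul hβ.2 hb'c (hb0.trans hb'b) hβ1p.le) hy.2 hy.1 (by positivity)
  obtain ⟨g1, g2, g3⟩ := Pr_scale_lip (M := M) (M1 := M1) (s := β * b * y) (s' := β * b' * y)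
    h1 hβ0 hβ hμ he0 he1 hM hs0 hss (by rw [hM1]; linarith)
  have hcol := collect (e := e) hβp hβ.2 hB hc hy.1 hy.2 hb'b hb'd hr10 hr20 he
  have hq : β * b * y ^ 2 / 2 ≤ β * b' * y ^ 2 / 2 := by
    have : β * b * y ^ 2 ≤ β * b' * y ^ 2 :=
      mul_le_mul_of_nonneg_right (mul_le_mul_of_nonneg_left hb'b hβp.le) (by positivity)
    linarith
  have h1l : 1 / l ≤ r1 := by
    rw [hr1]
    apply div_le_div_of_nonneg_right _ hlp.le
    linarith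
  exact assemble (r := 1 / l) (hy.1.trans hy.2) rfl h1l (by positivity) hr20
    (cube_ratio (by linarith)) g1 g2 g3 hLL0.le hcol hq hA'

end Crest.Agent.Kac
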