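import Mathlib

/-!
S0209, real-variable lemma: the mean-field functional of the reference system is bounded by the
maximum of three affine functions near the triple point.
-/

namespace Crest.Agent.Kac

theorem quad_le_max {α s c l h ρ : ℝ} (hα : 0 ≤ α) (hl : l ≤ ρ) (hh : ρ ≤ h) :
    α * ρ ^ 2 + s * ρ + c ≤ max (α * l ^ 2 + s * l + c) (α * h ^ 2 + s * h + c) := by
  have key : (h - l) * (α * ρ ^ 2 + s * ρ + c) ≤
      (h - ρ) * (α * l ^ 2 + s * l + c) + (ρ - l) * (α * h ^ 2 + s * h + c) := by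
    have : (h - ρ) * (α * l ^ 2 + s * l + c) + (ρ - l) * (α * h ^ 2 + s * h + c) -
        (h - l) * (α * ρ ^ 2 + s * ρ + c) = α * ((h - ρ) * (ρ - l) * (h - l)) := by ring
    have h2 : 0 ≤ α * ((h - ρ) * (ρ - l) * (h - l)) := by
      apply mul_nonneg hα
      apply mul_nonneg (mul_nonneg (by linarith) (by linarith)) (by linarith)
    linarith
  rcases eq_or_lt_of_le (le_trans hl hh) with h1 | h1
  · have : ρ = l := by linarith
    subst this
    exact le_max_left _ _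
  · set m := max (α * l ^ 2 + s * l + c) (α * h ^ 2 + s * h + c) with hm
    have ha : α * l ^ 2 + s * l + c ≤ m := le_max_left _ _
    have hb : α * h ^ 2 + s * h + c ≤ m := le_max_right _ _
    have h3 : (h - l) * (α * ρ ^ 2 + s * ρ + c) ≤ (h - l) * m := by
      calc _ ≤ _ := key
        _ ≤ (h - ρ) * m + (ρ - l) * m :=
          add_le_add (mul_le_mul_of_nonneg_left ha (by linarith))
            (mul_le_mul_of_nonneg_left hb (by linarith))
        _ = (h - l) * m := by ring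
    exact le_of_mul_le_mul_left h3 (by linarith)

theorem psi_bound {p : ℝ} (hp : 0 < p) {J : ℕ} (hJ : 2 ≤ J) {βh x Kb : ℝ} (hβ1 : 1 / 2 ≤ βh)
    (hx : J * x ≤ 1) (hK : 4 ≤ Kb) {ρ : ℝ} (hρ : 0 ≤ ρ) :
    ∃ M : ℕ, (x - βh + (1 - 1 / J)) * ρ + βh * (2 / (J * p)) * ρ ^ 2 / 2 - max 0 (ρ - p) -
        (βh * Kb - 1) * (M * ρ - J * p * (M * (M + 1) / 2)) ≤
      max 0 (max (p * x - p * (1 - 1 / J) * (βh - 1)) (J * p * x)) := by
  have hJ' : (2 : ℝ) ≤ J := by exact_mod_cast hJ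
  have hJ0 : (0 : ℝ) < J := by linarith
  set Q : ℝ := J * p with hQ
  have hQ0 : 0 < Q := mul_pos hJ0 hp
  have hpQ : p ≤ Q := by nlinarith
  set α : ℝ := βh / Q with hα
  have hα0 : 0 ≤ α := div_nonneg (by linarith) hQ0.le
  have hαQ : α * Q = βh := by rw [hα]; field_simp
  have hαp : α * p = βh / J := by
    rw [hα, hQ]; field_simp
  have e1 : ∀ ρ : ℝ, βh * (2 / Q) * ρ ^ 2 / 2 = α * ρ ^ 2 := by
    intro ρ; rw [hα]; field_simp
  set m : ℝ := x - βh + (1 - 1 / J) with hm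
  set l1 : ℝ := p * x - p * (1 - 1 / J) * (βh - 1) with hl1
  set lJ : ℝ := Q * x with hlJ
  have hl1' : l1 = α * p ^ 2 + m * p := by
    have : α * p ^ 2 = (α * p) * p := by ring
    rw [this, hαp, hl1, hm]
    field_simp
    ring
  have hlJ' : lJ = α * Q ^ 2 + m * Q - (Q - p) := by
    have : α * Q ^ 2 = (α * Q) * Q := by ring
    rw [this, hαQ, hlJ, hm]
    have : (1 / (J : ℝ)) * Q = p := by rw [hQ]; field_simp
    nlinarith
  have hlJp : lJ ≤ p := by
    have : lJ = p * (J * x) := by rw [hlJ, hQ]; ring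
    rw [this]
    nlinarith
  obtain ⟨M, hM1, hM2⟩ : ∃ M : ℕ, (M : ℝ) * Q ≤ ρ ∧ ρ ≤ (M + 1) * Q := by
    refine ⟨⌊ρ / Q⌋₊, ?_, ?_⟩
    · have := Nat.floor_le (div_nonneg hρ hQ0.le)
      rwa [le_div_iff₀ hQ0] at this
    · have := (Nat.lt_floor_add_one (ρ / Q)).le
      rwa [div_le_iff₀ hQ0] at this
  refine ⟨M, ?_⟩
  rw [e1]
  rcases Nat.eq_zero_or_pos M with hM0 | hM0
  · subst hM0
    simp only [Nat.cast_zero, zero_mul, zero_add, zero_div, mul_zero, sub_zero] at *
    rcases le_total ρ p with hρp | hρp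
    · rw [max_eq_left (by linarith : ρ - p ≤ 0)]
      have h1 := quad_le_max (s := m) (c := 0) hα0 hρ hρp
      simp only [add_zero] at h1
      have h2 : α * 0 ^ 2 + m * 0 = 0 := by ring
      rw [h2, ← hl1'] at h1
      calc m * ρ + α * ρ ^ 2 - 0 = α * ρ ^ 2 + m * ρ := by ring
        _ ≤ max 0 l1 := h1
        _ ≤ max 0 (max l1 lJ) := max_le_max le_rfl (le_max_left _ _)
    · rw [max_eq_right (by linarith : 0 ≤ ρ - p)]
      have h1 := quad_le_max (s := m - 1) (c := p) hα0 hρp (by linarith : ρ ≤ Q)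
      have h2 : α * p ^ 2 + (m - 1) * p + p = l1 := by rw [hl1']; ring
      have h3 : α * Q ^ 2 + (m - 1) * Q + p = lJ := by rw [hlJ']; ring
      rw [h2, h3] at h1
      calc m * ρ + α * ρ ^ 2 - (ρ - p) = α * ρ ^ 2 + (m - 1) * ρ + p := by ring
        _ ≤ max l1 lJ := h1
        _ ≤ max 0 (max l1 lJ) := le_max_right _ _
  · have hM1' : (1 : ℝ) ≤ M := by exact_mod_cast hM0
    have hρQ : Q ≤ ρ := le_trans (by nlinarith) hM1
    rw [max_eq_right (by linarith : 0 ≤ ρ - p)]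
    set g : ℝ := βh * Kb - 1 with hg
    have hg' : 2 * βh ≤ g := by rw [hg]; nlinarith
    have h1 := quad_le_max (s := m - 1 - g * M) (c := p + g * (Q * (M * (M + 1) / 2))) hα0 hM1 hM2
    -- value at k Q
    have val : ∀ k : ℝ, 1 ≤ k → α * (k * Q) ^ 2 + (m - 1) * (k * Q) + p - g * (Q * (k * (k - 1) / 2))
        ≤ lJ := by
      intro k hk
      have : α * (k * Q) ^ 2 = k ^ 2 * (α * Q ^ 2) := by ring
      have h4 : α * Q ^ 2 = lJ - m * Q + (Q - p) := by rw [hlJ']; ring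
      have h5 : α * Q ^ 2 = βh * Q := by
        have : α * Q ^ 2 = (α * Q) * Q := by ring
        rw [this, hαQ]
      -- g(kQ) - k lJ = (k(k-1)/2) (2 βh Q - g Q) + p (1-k)
      have h6 : α * (k * Q) ^ 2 + (m - 1) * (k * Q) + p - g * (Q * (k * (k - 1) / 2)) =
          k * lJ + (k * (k - 1) / 2) * Q * (2 * βh - g) + p * (1 - k) := by
        rw [this, hlJ', h5]; ring
      rw [h6]
      have h7 : (k * (k - 1) / 2) * Q * (2 * βh - g) ≤ 0 := by
        apply mul_nonpos_of_nonneg_of_nonpos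
        · apply mul_nonneg _ hQ0.le
          nlinarith
        · linarith
      nlinarith
    have hv1 := val M hM1'
    have hv2 := val (M + 1) (by linarith)
    have h8 : max (α * (M * Q) ^ 2 + (m - 1 - g * M) * (M * Q) + (p + g * (Q * (M * (M + 1) / 2))))
        (α * ((M + 1) * Q) ^ 2 + (m - 1 - g * M) * ((M + 1) * Q) +
          (p + g * (Q * (M * (M + 1) / 2)))) ≤ lJ := by
      apply max_le
      · calc _ = α * (M * Q) ^ 2 + (m - 1) * (M * Q) + p - g * (Q * (M * (M - 1) / 2)) := by ring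
          _ ≤ lJ := hv1
      · calc _ = α * ((M + 1) * Q) ^ 2 + (m - 1) * ((M + 1) * Q) + p -
              g * (Q * ((M + 1) * ((M + 1) - 1) / 2)) := by ring
          _ ≤ lJ := hv2
    calc m * ρ + α * ρ ^ 2 - (ρ - p) - g * (M * ρ - Q * (M * (M + 1) / 2)) =
        α * ρ ^ 2 + (m - 1 - g * M) * ρ + (p + g * (Q * (M * (M + 1) / 2))) := by ring
      _ ≤ lJ := h1.trans h8
      _ ≤ max 0 (max l1 lJ) := le_trans (le_max_right _ _) (le_max_right _ _)

end Crest.Agent.Kac
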