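import Crest.Agent.Kac.RefLoA

/-!
Lower bounds for the reference system, phase B (clusters); phase A is in `RefLoA`.
-/

open MeasureTheory Crest.ProbabilityR.Continuum Filter Topology Set
open scoped ENNReal

namespace Crest.Agent.Kac

namespace RefLo

/-- configurations of one cluster: a free first point and `m` points in small balls around
prescribed positions relative to the first point -/
def clusSet (m : ℕ) (z : Pt) (δ τ : ℝ) (v : Fin m → Pt) : Set (Fin (m + 1) → Pt) :=
  {y | y 0 ∈ Metric.closedBall z δ ∧ ∀ i : Fin m, y i.succ ∈ Metric.closedBall (y 0 + v i) τ}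

theorem isClosed_clusSet (m : ℕ) (z : Pt) (δ τ : ℝ) (v : Fin m → Pt) :
    IsClosed (clusSet m z δ τ v) := by
  have : clusSet m z δ τ v = {y | dist (y 0) z ≤ δ} ∩
      ⋂ i : Fin m, {y | dist (y i.succ) (y 0 + v i) ≤ τ} := by
    ext y
    simp [clusSet, Metric.mem_closedBall]
  rw [this]
  refine IsClosed.inter (isClosed_le (by fun_prop) (by fun_prop))
    (isClosed_iInter fun i => isClosed_le (by fun_prop) (by fun_prop))

theorem clusSet_vol (m : ℕ) (z : Pt) (δ τ : ℝ) (v : Fin m → Pt) :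
    volume (clusSet m z δ τ v) =
      volume (Metric.closedBall (0 : Pt) δ) * volume (Metric.closedBall (0 : Pt) τ) ^ m := by
  set e := MeasurableEquiv.piFinSuccAbove (fun _ : Fin (m + 1) => Pt) 0 with he
  have hmp : MeasurePreserving e volume volume :=
    volume_preserving_piFinSuccAbove (fun _ : Fin (m + 1) => Pt) 0
  let D : Set (Pt × (Fin m → Pt)) :=
    {w | w.1 ∈ Metric.closedBall z δ ∧ ∀ i : Fin m, w.2 i ∈ Metric.closedBall (w.1 + v i) τ}
  have hD : MeasurableSet D := by
    have : D = {w : Pt × (Fin m → Pt) | dist w.1 z ≤ δ} ∩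
        ⋂ i : Fin m, {w | dist (w.2 i) (w.1 + v i) ≤ τ} := by
      ext w
      simp [D, Metric.mem_closedBall]
    rw [this]
    refine (IsClosed.inter (isClosed_le (by fun_prop) (by fun_prop))
      (isClosed_iInter fun i => isClosed_le (by fun_prop) (by fun_prop))).measurableSet
  have hpre : clusSet m z δ τ v = e ⁻¹' D := by
    ext y
    simp only [clusSet, D, he, Set.mem_preimage, Set.mem_ofPred_eq,
      MeasurableEquiv.piFinSuccAbove_apply, Fin.insertNthEquiv_zero, Fin.consEquiv]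
    rfl
  rw [hpre, hmp.measure_preimage hD.nullMeasurableSet]
  rw [Measure.volume_eq_prod, Measure.prod_apply hD]
  have hsl : ∀ a : Pt, volume (Prod.mk a ⁻¹' D) =
      (Metric.closedBall z δ).indicator
        (fun _ => volume (Metric.closedBall (0 : Pt) τ) ^ m) a := by
    intro a
    by_cases ha : a ∈ Metric.closedBall z δ
    · rw [Set.indicator_of_mem ha]
      have h1 : Prod.mk a ⁻¹' D = Set.pi Set.univ fun i => Metric.closedBall (a + v i) τ := by
        ext b
        simp only [D, Set.mem_preimage, Set.mem_ofPred_eq, Set.mem_univ_pi]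
        exact ⟨fun h => h.2, fun h => ⟨ha, h⟩⟩
      rw [h1, volume_pi, Measure.pi_pi]
      simp only [Measure.addHaar_closedBall_center]
      simp
    · rw [Set.indicator_of_notMem ha]
      have h1 : Prod.mk a ⁻¹' D = ∅ := by
        ext b
        simp only [D, Set.mem_preimage, Set.mem_ofPred_eq, Set.mem_empty_iff_false, iff_false,
          not_and]
        exact fun h => absurd h ha
      rw [h1, measure_empty]
  simp only [hsl]
  rw [lintegral_indicator measurableSet_closedBall, setLIntegral_const,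
    Measure.addHaar_closedBall_center volume z δ, mul_comm]

/-- lower bound for `ZW` by a set of configurations of zero energy -/
theorem ZW_ge_of_zero {W : Pt → Pt → ℝ} {Λ : Set Pt} {n : ℕ} {C : Set (Fin n → Pt)}
    (hC : MeasurableSet C) (hsub : ∀ y ∈ C, ∀ i, y i ∈ Λ) (hW : ∀ y ∈ C, pairE W y = 0) :
    (n.factorial : ℝ≥0∞)⁻¹ * volume C ≤ ZW W Λ n := by
  unfold ZW
  gcongr
  calc volume C = ∫⁻ _y in C, 1 := by rw [setLIntegral_one]
    _ = ∫⁻ y in C, ENNReal.ofReal (Real.exp (-pairE W y)) := by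
        refine setLIntegral_congr_fun hC fun y hy => ?_
        simp [hW y hy]
    _ ≤ _ := lintegral_mono_set fun y hy => by
        rw [Set.mem_univ_pi]
        exact hsub y hy

theorem vball_mul {s t : ℝ} (hs : 0 ≤ s) :
    (volume (Metric.closedBall (0 : Pt) (s * t))).toReal =
      s ^ 3 * (volume (Metric.closedBall (0 : Pt) t)).toReal := by
  rcases le_or_gt 0 t with ht | ht
  · rw [Measure.addHaar_closedBall_mul _ _ hs ht, ENNReal.toReal_mul,
      ENNReal.toReal_ofReal (by positivity)]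
    simp
  · rcases eq_or_lt_of_le hs with h0 | h0
    · rw [← h0]
      simp
    · rw [Metric.closedBall_eq_empty.2 (by nlinarith), Metric.closedBall_eq_empty.2 ht]
      simp

end RefLo

open RefLo

/-- phase B: clusters of `J` points, density close to `J p` -/
theorem ref_phaseB {p : ℝ} (hp0 : 0 < p)
    (hp : Tendsto (fun L : ℝ => (packingNumber L : ℝ) / L ^ 3) atTop (𝓝 p)) {ε : ℝ} (hε : 0 < ε)
    {J : ℕ} (hJ2 : 2 ≤ J) {t1 t2 t3 κ : ℝ} (x : Fin J → Pt) (ht1 : 1 < t1) (ht2 : t1 < t2)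
    (ht3 : t2 < t3) (ht3' : t3 ≤ 3) (hκ : 0 < κ)
    (hx : ∀ i j, i ≠ j → t1 + 2 * κ ≤ dist (x i) (x j) ∧ dist (x i) (x j) ≤ t2 - 2 * κ)
    (hx3 : ∀ i, ‖x i‖ ≤ 3) :
    ∃ ηbar > 0, ∃ Cst : ℝ, ∀ (φr : ℝ → ℝ) (K σ η θ B c Λ : ℝ),
      RefData φr K σ (σ * t1) (σ * t2) (σ * t3) η → Sys φr (fun _ => 0) θ B c → η ≤ ηbar →
      σ ≤ ηbar → volume (Metric.closedBall (0 : Pt) (σ * t3)) = ENNReal.ofReal (Real.exp (-Λ)) →
      ∃ ρ, J * p - ε ≤ ρ ∧ ρ ≤ J * p ∧
        ∀ β, 0 < β → Fe (tot φr (fun _ => 0)) β ρ ≤ (J - 1) / J * ρ * Λ + Cst := by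
  obtain ⟨m, rfl⟩ : ∃ m, J = m + 1 := ⟨J - 1, by omega⟩
  have hJpos : (0 : ℝ) < ((m + 1 : ℕ) : ℝ) := by positivity
  obtain ⟨δ, hδ, L0, hL0, h1, h2⟩ := choose_sites hp0 hp
    (div_pos hε hJpos : 0 < ε / ((m + 1 : ℕ) : ℝ))
  set ρ0 := (packingNumber L0 : ℝ) / side δ L0 ^ 3 with hρ0
  set V := (volume (Metric.closedBall (0 : Pt) δ)).toReal with hV
  have hVpos : 0 < V := vball_pos hδ
  have ht3pos : 0 < t3 := by linarith
  refine ⟨δ, hδ, -ρ0 * (Real.log V + 3 * m * Real.log (κ / t3)
    - Real.log ((m + 1).factorial : ℝ)), ?_⟩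
  intro φr K σ η θ B c Λ hr hs hη hσ hvol
  have hσ0 : 0 < σ := hr.s0pos
  refine ⟨((m + 1 : ℕ) : ℝ) * ρ0, ?_, ?_, fun β hβ => ?_⟩
  · have h3 : ((m + 1 : ℕ) : ℝ) * (p - ε / ((m + 1 : ℕ) : ℝ)) = ((m + 1 : ℕ) : ℝ) * p - ε := by
      field_simp
    rw [← h3]
    exact mul_le_mul_of_nonneg_left h1 hJpos.le
  · exact mul_le_mul_of_nonneg_left h2 hJpos.le
  -- the weight of one cluster
  set q : ℝ := ((m + 1).factorial : ℝ)⁻¹ * (V * ((κ / t3) ^ 3 * Real.exp (-Λ)) ^ m) with hqdef
  have hq : 0 < q := by positivity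
  have hτ : (volume (Metric.closedBall (0 : Pt) (σ * κ))).toReal =
      (κ / t3) ^ 3 * Real.exp (-Λ) := by
    have h3 : σ * κ = (κ / t3) * (σ * t3) := by field_simp
    rw [h3, vball_mul (by positivity), hvol, ENNReal.toReal_ofReal (Real.exp_pos _).le]
  have hsite : ∀ z : Pt, ENNReal.ofReal q ≤
      ZW (rad β (tot φr (fun _ => 0))) (Metric.closedBall z (5 * δ)) (m + 1) := by
    intro z
    set v : Fin m → Pt := fun i => σ • (x i.succ - x 0) with hv
    have hvn : ∀ i, ‖v i‖ ≤ σ * (t2 - 2 * κ) := by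
      intro i
      rw [hv]
      simp only [norm_smul, Real.norm_eq_abs, abs_of_pos hσ0]
      rw [← dist_eq_norm]
      exact mul_le_mul_of_nonneg_left (hx _ _ (Fin.succ_ne_zero i)).2 hσ0.le
    have h3 := ZW_ge_of_zero (W := rad β (tot φr (fun _ => 0)))
      (Λ := Metric.closedBall z (5 * δ)) (C := clusSet m z δ (σ * κ) v)
      (isClosed_clusSet m z δ (σ * κ) v).measurableSet ?_ ?_
    · refine le_trans (le_of_eq ?_) h3
      rw [clusSet_vol]
      rw [hqdef, ENNReal.ofReal_mul (by positivity), ENNReal.ofReal_mul hVpos.le,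
        ENNReal.ofReal_pow (by positivity), ← hτ,
        ENNReal.ofReal_toReal measure_closedBall_lt_top.ne,
        ENNReal.ofReal_toReal measure_closedBall_lt_top.ne,
        ENNReal.ofReal_inv_of_pos (by positivity), ENNReal.ofReal_natCast]
    · -- inside the ball
      rintro y ⟨hy0, hy⟩ i
      rw [Metric.mem_closedBall] at hy0 ⊢
      refine Fin.cases ?_ (fun i => ?_) i
      · linarith
      · have h4 := hy i
        rw [Metric.mem_closedBall] at h4
        have h5 : dist (y i.succ) z ≤ dist (y i.succ) (y 0 + v i) + dist (y 0 + v i) (y 0)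
            + dist (y 0) z := dist_triangle4 _ _ _ _
        have h6 : dist (y 0 + v i) (y 0) = ‖v i‖ := by simp [dist_eq_norm]
        rw [h6] at h5
        have h7 := hvn i
        have h8 : σ * κ + σ * (t2 - 2 * κ) ≤ 3 * σ := by nlinarith
        linarith
    · -- zero energy
      rintro y ⟨hy0, hy⟩
      -- error vectors
      have herr : ∀ i : Fin (m + 1), ‖y i - y 0 - σ • (x i - x 0)‖ ≤ σ * κ := by
        intro i
        refine Fin.cases ?_ (fun i => ?_) i
        · simp; positivity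
        · have h4 := hy i
          rw [Metric.mem_closedBall, dist_eq_norm] at h4
          have h4' : y i.succ - y 0 - σ • (x i.succ - x 0) = y i.succ - (y 0 + v i) := by
            simp only [hv]; abel
          rw [h4']
          exact h4
      unfold pairE
      refine Finset.sum_eq_zero fun pr _ => ?_
      have hne : pr.1.1 ≠ pr.1.2 := ne_of_lt pr.2
      have h5 := hx _ _ hne
      have h6 := herr pr.1.1
      have h7 := herr pr.1.2
      have h8 : y pr.1.1 - y pr.1.2 = σ • (x pr.1.1 - x pr.1.2) +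
          ((y pr.1.1 - y 0 - σ • (x pr.1.1 - x 0)) - (y pr.1.2 - y 0 - σ • (x pr.1.2 - x 0))) := by
        simp only [smul_sub]; abel
      have h9 : ‖(y pr.1.1 - y 0 - σ • (x pr.1.1 - x 0)) -
          (y pr.1.2 - y 0 - σ • (x pr.1.2 - x 0))‖ ≤ 2 * (σ * κ) := by
        refine (norm_sub_le _ _).trans ?_
        linarith
      have h10 : ‖σ • (x pr.1.1 - x pr.1.2)‖ = σ * dist (x pr.1.1) (x pr.1.2) := by
        rw [norm_smul, Real.norm_eq_abs, abs_of_pos hσ0, dist_eq_norm]
      have h11 : dist (y pr.1.1) (y pr.1.2) ≤ σ * t2 := by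
        rw [dist_eq_norm, h8]
        refine (norm_add_le _ _).trans ?_
        rw [h10]
        nlinarith [h5.2]
      have h12 : σ * t1 ≤ dist (y pr.1.1) (y pr.1.2) := by
        rw [dist_eq_norm, h8]
        have h13 := norm_sub_norm_le (σ • (x pr.1.1 - x pr.1.2))
          (-((y pr.1.1 - y 0 - σ • (x pr.1.1 - x 0)) - (y pr.1.2 - y 0 - σ • (x pr.1.2 - x 0))))
        rw [norm_neg, sub_neg_eq_add, h10] at h13
        refine le_trans ?_ h13
        nlinarith [h5.1]
      have h14 : φr (dist (y pr.1.1) (y pr.1.2)) = 0 := hr.zero1 _ h12 h11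
      simp [rad, tot, h14]
  have h4 := site_bound hs hr.zero2 hδ hη hL0 hβ hq (m + 1) hsite
  rw [← hρ0] at h4
  refine h4.trans (le_of_eq ?_)
  have hlog : Real.log q = -Real.log ((m + 1).factorial : ℝ) +
      (Real.log V + m * (3 * Real.log (κ / t3) - Λ)) := by
    rw [hqdef, Real.log_mul (by positivity) (by positivity), Real.log_inv,
      Real.log_mul (by positivity) (by positivity), Real.log_pow,
      Real.log_mul (by positivity) (by positivity), Real.log_pow, Real.log_exp]
    push_cast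
    ring
  rw [hlog]
  have h5 : ((m + 1 : ℕ) : ℝ) ≠ 0 := hJpos.ne'
  push_cast at h5 ⊢
  field_simp
  ring

end Crest.Agent.Kac
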