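import Crest.Agent.Kac.RefUpA

open MeasureTheory Crest.ProbabilityR.Continuum Filter Topology Set
open scoped ENNReal

namespace Crest.Agent.Kac

/-- infinite volume version -/
theorem ref_Fe_lower {φr : ℝ → ℝ} {K s0 s1 s2 s3 η θ B c p : ℝ}
    (h : RefData φr K s0 s1 s2 s3 η) (hS : Sys φr (fun _ => 0) θ B c) {J : ℕ}
    (hJ : ClusLe J s0 s3) {β Λ : ℝ} (hβ : 0 < β) (hΛ0 : 0 ≤ Λ)
    (hΛ : volume (Metric.closedBall (0 : Pt) s3) ≤ ENNReal.ofReal (Real.exp (-Λ)))
    (hK : Λ ≤ β * K)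
    (hp : Tendsto (fun L : ℝ => (packingNumber L : ℝ) / L ^ 3) atTop (𝓝 p))
    {ρ : ℝ} (hρ : 0 ≤ ρ) (M : ℕ) :
    Λ * max 0 (ρ - p) + (β * K - Λ) * (M * ρ - J * p * (M * (M + 1) / 2)) - 4 ≤
      Fe (tot φr (fun _ => 0)) β ρ := by
  have htot : tot φr (fun _ => 0) = φr := by funext r; simp [tot]
  have hJ1 : 1 ≤ J := by
    have := hJ 1 (fun _ => 0) (fun i j hij => absurd (Subsingleton.elim i j) hij)
    exact this
  have h1 := thermo_limit hS hβ hρ
  have hd := ThB.tendsto_density' hρ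
  have h2 : Tendsto (fun L : ℝ => Λ * max 0 (((⌊ρ * L ^ 3⌋₊ : ℕ) : ℝ) / L ^ 3 -
      (packingNumber L : ℝ) / L ^ 3) + (β * K - Λ) * (M * (((⌊ρ * L ^ 3⌋₊ : ℕ) : ℝ) / L ^ 3) -
      J * ((packingNumber L : ℝ) / L ^ 3) * (M * (M + 1) / 2)) - 4) atTop
      (𝓝 (Λ * max 0 (ρ - p) + (β * K - Λ) * (M * ρ - J * p * (M * (M + 1) / 2)) - 4)) := by
    refine Tendsto.sub_const (Tendsto.add ?_ ?_) 4
    · exact (tendsto_const_nhds.max (hd.sub hp)).const_mul Λ
    · refine Tendsto.const_mul _ (Tendsto.sub (hd.const_mul _) ?_)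
      exact (hp.const_mul (J : ℝ)).mul_const _
  refine le_of_tendsto_of_tendsto h2 h1 ?_
  filter_upwards [eventually_ge_atTop (1 : ℝ)] with L hL
  have hL3 : 0 < L ^ 3 := by positivity
  set n : ℕ := ⌊ρ * L ^ 3⌋₊ with hn
  have hZ := ref_Z_upper h hJ hL hβ hΛ0 hΛ hK n
  have hZpos : 0 < partitionFn φr L n β := by
    rw [← htot]
    refine partitionFn_pos (φ := tot φr (fun _ => 0)) (B := B) ?_ ?_ (by linarith) hβ n
    · rw [htot]; exact h.meas
    · intro m x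
      rw [htot]
      have h0 : 0 ≤ energy φr x := Finset.sum_nonneg (fun _ _ => h.nonneg _)
      have h3 : 0 ≤ B * m := mul_nonneg hS.B0 (Nat.cast_nonneg m)
      linarith
  have hlog := Real.log_le_log hZpos hZ
  rw [← Real.exp_add, Real.log_exp] at hlog
  have hP1 : 1 ≤ packingNumber L := packing_one_le (by linarith)
  have hX := Xn_ge_lin (Q := J * packingNumber L) (Nat.one_le_iff_ne_zero.mpr
    (Nat.mul_ne_zero (by omega) (by omega))) n M
  have hsub : (n : ℝ) - packingNumber L ≤ ((n - packingNumber L : ℕ) : ℝ) := by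
    have : n ≤ (n - packingNumber L) + packingNumber L := by omega
    have h3 : (n : ℝ) ≤ ((n - packingNumber L : ℕ) : ℝ) + packingNumber L := by exact_mod_cast this
    linarith
  have hsub0 : (0 : ℝ) ≤ ((n - packingNumber L : ℕ) : ℝ) := Nat.cast_nonneg _
  rw [htot]
  have e1 : -(1 / L ^ 3) * Real.log (partitionFn φr L n β) =
      (-Real.log (partitionFn φr L n β)) / L ^ 3 := by ring
  rw [e1, le_div_iff₀ hL3]
  have e2 : (Λ * max 0 ((n : ℝ) / L ^ 3 - (packingNumber L : ℝ) / L ^ 3) +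
      (β * K - Λ) * (M * ((n : ℝ) / L ^ 3) - J * ((packingNumber L : ℝ) / L ^ 3) *
        (M * (M + 1) / 2)) - 4) * L ^ 3 =
      Λ * (max 0 ((n : ℝ) / L ^ 3 - (packingNumber L : ℝ) / L ^ 3) * L ^ 3) +
      (β * K - Λ) * (M * n - J * packingNumber L * (M * (M + 1) / 2)) - 4 * L ^ 3 := by
    field_simp
  rw [e2]
  have e3 : max 0 ((n : ℝ) / L ^ 3 - (packingNumber L : ℝ) / L ^ 3) * L ^ 3 =
      max 0 ((n : ℝ) - packingNumber L) := by
    rw [max_mul_of_nonneg _ _ hL3.le, zero_mul]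
    congr 1
    field_simp
  rw [e3]
  have e4 : max 0 ((n : ℝ) - packingNumber L) ≤ ((n - packingNumber L : ℕ) : ℝ) :=
    max_le hsub0 hsub
  have e5 := mul_le_mul_of_nonneg_left e4 hΛ0
  have e6 : (β * K - Λ) * (M * n - J * packingNumber L * (M * (M + 1) / 2)) ≤
      (β * K - Λ) * (Xn (J * packingNumber L) n : ℝ) := by
    apply mul_le_mul_of_nonneg_left _ (by linarith)
    have : ((J * packingNumber L : ℕ) : ℝ) = J * packingNumber L := by push_cast; ring
    rw [this] at hX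
    exact hX
  linarith

end Crest.Agent.Kac
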