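import Crest.Agent.Kac.MFlo
import Crest.Agent.Kac.MFup
import Crest.Agent.Kac.RefUp
import Crest.Agent.Kac.RefLo
import Crest.Agent.Kac.PsiLem

/-!
S0209: the first level.  The pressure of the reference system plus one Kac kernel of strength
`a = 2/(J p)` is close to the maximum of three affine functions.
-/

open MeasureTheory Crest.ProbabilityR.Continuum Filter Topology Set
open scoped ENNReal

namespace Crest.Agent.Kac

/-- the affine model -/
noncomputable def Psi (p : ℝ) (J : ℕ) (u x : ℝ) : ℝ :=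
  max 0 (max (p * x - p * (1 - 1 / J) * u) (J * p * x))

/-- `μ / Λ` in terms of the coordinates `(u,x)` -/
noncomputable def mm (J : ℕ) (u x : ℝ) : ℝ := x - (1 + u) + (1 - 1 / J)

/-- radius of a ball with volume `exp (-Λ)` -/
noncomputable def rad0 (Λ : ℝ) : ℝ := (Real.exp (-Λ) / (8 * vR 1)) ^ (1 / 3 : ℝ)

theorem rad0_pos (Λ : ℝ) : 0 < rad0 Λ :=
  Real.rpow_pos_of_pos (div_pos (Real.exp_pos _) (by have := vR_pos one_pos; linarith)) _

theorem volume_rad0 (Λ : ℝ) :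
    volume (Metric.closedBall (0 : Pt) (rad0 Λ)) = ENNReal.ofReal (Real.exp (-Λ)) := by
  have h1 := vR_pos one_pos
  have h2 : vR (2 * rad0 Λ) = vR 1 * (2 * rad0 Λ) ^ 3 :=
    vR_eq (by have := rad0_pos Λ; linarith)
  have h3 : rad0 Λ ^ 3 = Real.exp (-Λ) / (8 * vR 1) := by
    unfold rad0
    rw [← Real.rpow_natCast, ← Real.rpow_mul (by positivity)]
    norm_num
  have h4 : vR (2 * rad0 Λ) = Real.exp (-Λ) := by
    rw [h2, mul_pow, h3]; field_simp; norm_num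
  unfold vR at h4
  have h5 : (2 * rad0 Λ / 2) = rad0 Λ := by ring
  rw [h5] at h4
  rw [← h4, ENNReal.ofReal_toReal]
  exact (Metric.isBounded_closedBall.measure_lt_top).ne

theorem rad0_small {δ : ℝ} (hδ : 0 < δ) : ∃ Λ0 : ℝ, ∀ Λ, Λ0 ≤ Λ → rad0 Λ ≤ δ := by
  have h1 := vR_pos one_pos
  have : Tendsto rad0 atTop (𝓝 0) := by
    have h2 : Tendsto (fun Λ : ℝ => Real.exp (-Λ) / (8 * vR 1)) atTop (𝓝 0) := by
      have := (Real.tendsto_exp_neg_atTop_nhds_zero).div_const (8 * vR 1)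
      simpa using this
    have h3 := h2.rpow_const (p := (1 / 3 : ℝ)) (Or.inr (by norm_num))
    rw [Real.zero_rpow (by norm_num : (1 / 3 : ℝ) ≠ 0)] at h3
    exact h3
  have h4 := this.eventually (gt_mem_nhds hδ)
  obtain ⟨Λ0, h5⟩ := (eventually_atTop.mp h4)
  exact ⟨Λ0, fun Λ h => (h5 Λ h).le⟩

/-- upper bound for the reference pressure in the mean-field combination -/
theorem ref_mf_upper {φr : ℝ → ℝ} {K s0 s1 s2 s3 η θ B c p : ℝ}
    (h : RefData φr K s0 s1 s2 s3 η) (hS : Sys φr (fun _ => 0) θ B c) {J : ℕ} (hJ2 : 2 ≤ J)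
    (hJ : ClusLe J s0 s3) {Λ : ℝ} (hΛ1 : 1 ≤ Λ)
    (hΛ : volume (Metric.closedBall (0 : Pt) s3) ≤ ENNReal.ofReal (Real.exp (-Λ)))
    (hK : 4 ≤ K) (hp0 : 0 < p)
    (hp : Tendsto (fun L : ℝ => (packingNumber L : ℝ) / L ^ 3) atTop (𝓝 p))
    {u x y : ℝ} (hu : -(1 / 2) ≤ u) (hx : J * x ≤ 1) :
    Pr (tot φr (fun _ => 0)) (Λ * (1 + u)) (Λ * mm J u x + Λ * (1 + u) * (2 / (J * p)) * y) -
      Λ * (1 + u) * (2 / (J * p)) * y ^ 2 / 2 ≤ Λ * Psi p J u x + 4 := by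
  have hΛ0 : 0 < Λ := by linarith
  have hβ : 0 < Λ * (1 + u) := mul_pos hΛ0 (by linarith)
  have hJp : 0 < (J : ℝ) * p := mul_pos (by positivity) hp0
  set a : ℝ := 2 / (J * p) with ha
  have ha0 : 0 < a := by positivity
  suffices hs : Pr (tot φr (fun _ => 0)) (Λ * (1 + u)) (Λ * mm J u x + Λ * (1 + u) * a * y) ≤
      Λ * Psi p J u x + 4 + Λ * (1 + u) * a * y ^ 2 / 2 by linarith
  apply Pr_le
  intro ρ hρ
  obtain ⟨M, hM⟩ := psi_bound hp0 hJ2 (βh := 1 + u) (x := x) (Kb := K) (by linarith) hx hK hρ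
  have hF := ref_Fe_lower h hS hJ hβ hΛ0.le hΛ (by nlinarith) hp hρ M
  have hPsi : Psi p J u x = max 0 (max (p * x - p * (1 - 1 / J) * (1 + u - 1)) (J * p * x)) := by
    unfold Psi; ring_nf
  rw [hPsi]
  set P := max 0 (max (p * x - p * (1 - 1 / J) * (1 + u - 1)) (J * p * x)) with hP
  have h1 : Λ * ((x - (1 + u) + (1 - 1 / J)) * ρ + (1 + u) * (2 / (J * p)) * ρ ^ 2 / 2 -
      max 0 (ρ - p) - ((1 + u) * K - 1) * (M * ρ - J * p * (M * (M + 1) / 2))) ≤ Λ * P :=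
    mul_le_mul_of_nonneg_left hM hΛ0.le
  have h2 : 0 ≤ Λ * (1 + u) * a * (ρ - y) ^ 2 / 2 := by positivity
  have h3 : Λ * (1 + u) * a * y * ρ ≤ Λ * (1 + u) * a * ρ ^ 2 / 2 + Λ * (1 + u) * a * y ^ 2 / 2 := by
    nlinarith
  have h4 : mm J u x = x - (1 + u) + (1 - 1 / J) := rfl
  rw [h4]
  rw [← ha] at h1
  have h5 : (Λ * (1 + u) * K - Λ) * (M * ρ - J * p * (M * (M + 1) / 2)) =
      Λ * (((1 + u) * K - 1) * (M * ρ - J * p * (M * (M + 1) / 2))) := by ring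
  rw [h5] at hF
  nlinarith

/-- lower bound at a given density -/
theorem fl_low {φr : ℝ → ℝ} {θ B c θ' B' c' a T β μ y : ℝ} (hS : Sys φr (fun _ => 0) θ B c)
    (hST : Sys φr (fun r => a * kap T r) θ' B' c') (ha0 : 0 ≤ a) (hT : 1 ≤ T) (hβ : 0 < β)
    (hy0 : 0 ≤ y) :
    μ * y + β * a * y ^ 2 / 2 - β * a / (2 * vR T) * y - Fe (tot φr (fun _ => 0)) β y ≤
      Pr (tot φr (fun r => a * kap T r)) β μ := by
  have hfun : (fun r => (fun _ : ℝ => (0 : ℝ)) r + a * kap T r) = fun r => a * kap T r := by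
    funext r; simp
  have hST' : Sys φr (fun r => (fun _ : ℝ => (0 : ℝ)) r + a * kap T r) θ' B' c' := by
    rw [hfun]; exact hST
  have h1 := MF_lo (μ := μ) (y := y) hS hST' ha0 hT hβ
  rw [hfun] at h1
  have h2 := le_Pr hS (μ := μ - β * a / (2 * vR T) + β * a * y) hβ hy0
  have h3 : (μ - β * a / (2 * vR T) + β * a * y) * y = μ * y - β * a / (2 * vR T) * y +
    β * a * y ^ 2 := by ring
  linarith

theorem fl_quad {m b a z y ε1 D : ℝ} (hm : |m| ≤ 7 / 2) (hb : b ≤ 3 / 2)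
    (ha : 0 ≤ a) (haD : a * D = 2) (h1 : z - ε1 ≤ y) (h2 : y ≤ z) (hz : 0 ≤ z) (hzD : z ≤ D)
    (hy : 0 ≤ y) :
    m * z + b * a * z ^ 2 / 2 - 8 * ε1 ≤ m * y + b * a * y ^ 2 / 2 := by
  have hd : 0 ≤ z - y := by linarith
  have hd1 : z - y ≤ ε1 := by linarith
  have e1 : m * (z - y) ≤ 7 / 2 * ε1 := by
    calc m * (z - y) ≤ |m| * (z - y) := mul_le_mul_of_nonneg_right (le_abs_self m) hd
      _ ≤ 7 / 2 * ε1 := mul_le_mul hm hd1 hd (by norm_num)
  have e2 : a * (z + y) ≤ 4 := by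
    have : a * (z + y) ≤ a * (2 * D) := mul_le_mul_of_nonneg_left (by linarith) ha
    linarith
  have e3 : 0 ≤ a * (z + y) := mul_nonneg ha (by linarith)
  have e4 : b * (a * (z + y)) ≤ 3 / 2 * 4 := mul_le_mul hb e2 e3 (by norm_num)
  have e5 : b * (a * (z + y)) * (z - y) ≤ 6 * ε1 := by
    calc b * (a * (z + y)) * (z - y) ≤ (3 / 2 * 4) * (z - y) := mul_le_mul_of_nonneg_right e4 hd
      _ ≤ (3 / 2 * 4) * ε1 := mul_le_mul_of_nonneg_left hd1 (by norm_num)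
      _ = 6 * ε1 := by ring
  have e6 : b * (a * (z + y)) * (z - y) = b * a * z ^ 2 - b * a * y ^ 2 := by ring
  have e7 : m * (z - y) = m * z - m * y := by ring
  linarith

/-- the error term of `MF_lo` is small for large `T` -/
theorem fl_err {b a y ε D T : ℝ} (hb : b ≤ 3 / 2) (ha : 0 < a) (hy : 0 ≤ y)
    (hyD : y ≤ D) (hD : 0 < D) (hε : 0 < ε) (hT1 : 1 ≤ T)
    (hT : 8 * (1 + D) * a / (ε * vR 1) ≤ T) :
    b * a / (2 * vR T) * y ≤ ε / 4 := by
  have hv1 := vR_pos one_pos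
  have hTpos : 0 < T := by linarith
  have h3 : vR T = vR 1 * T ^ 3 := vR_eq hTpos
  have h5 : 0 < vR T := vR_pos hTpos
  have h4 : T ≤ T ^ 3 := by
    calc T = T * 1 := (mul_one T).symm
      _ ≤ T * T ^ 2 := mul_le_mul_of_nonneg_left (one_le_pow₀ hT1) hTpos.le
      _ = T ^ 3 := by ring
  have h7 : 8 * (1 + D) * a ≤ ε * vR T := by
    rw [div_le_iff₀ (by positivity)] at hT
    calc 8 * (1 + D) * a ≤ T * (ε * vR 1) := hT
      _ ≤ T ^ 3 * (ε * vR 1) := mul_le_mul_of_nonneg_right h4 (by positivity)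
      _ = ε * vR T := by rw [h3]; ring
  have h8 : b * a / (2 * vR T) * y = (b * (a * y)) / (2 * vR T) := by ring
  rw [h8, div_le_iff₀ (by positivity)]
  have h9 : a * y ≤ (1 + D) * a := by
    calc a * y ≤ a * (1 + D) := mul_le_mul_of_nonneg_left (by linarith) ha.le
      _ = (1 + D) * a := mul_comm _ _
  have h10 : 0 ≤ a * y := by positivity
  have h11 : b * (a * y) ≤ 3 / 2 * ((1 + D) * a) := mul_le_mul hb h9 h10 (by norm_num)
  have h12 : ε / 4 * (2 * vR T) = ε * vR T / 2 := by ring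
  rw [h12]
  have h13 : 0 ≤ (1 + D) * a := by positivity
  linarith

theorem first_level_lower {p : ℝ} (hp0 : 0 < p) {J : ℕ} (hJ2 : 2 ≤ J) {φr : ℝ → ℝ}
    {θ B c θ' B' c' Λ ε T ρA ρB CA CB u x : ℝ} (hε : 0 < ε) (hΛ : 1 ≤ Λ)
    (hS : Sys φr (fun _ => 0) θ B c)
    (hST : Sys φr (fun r => 2 / (J * p) * kap T r) θ' B' c') (hT1 : 1 ≤ T)
    (hT : 8 * (1 + J * p) * (2 / (J * p)) / (ε * vR 1) ≤ T)
    (hA1 : p - ε / 32 ≤ ρA) (hA2 : ρA ≤ p)
    (hA3 : ∀ β, 0 < β → Fe (tot φr (fun _ => 0)) β ρA ≤ CA) (hCA : 4 * CA ≤ Λ * ε)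
    (hB1 : J * p - ε / 32 ≤ ρB) (hB2 : ρB ≤ J * p)
    (hB3 : ∀ β, 0 < β → Fe (tot φr (fun _ => 0)) β ρB ≤ (J - 1) / J * ρB * Λ + CB)
    (hCB : 4 * CB ≤ Λ * ε) (hu : |u| ≤ 1 / 2) (hx : |x| ≤ 1) :
    Λ * Psi p J u x - Λ * ε ≤
      Pr (tot φr (fun r => 2 / (J * p) * kap T r)) (Λ * (1 + u)) (Λ * mm J u x) := by
  have hJ0 : (2 : ℝ) ≤ J := by exact_mod_cast hJ2
  have hJpos : (0 : ℝ) < J := by linarith
  have hJp : 0 < (J : ℝ) * p := mul_pos hJpos hp0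
  set a : ℝ := 2 / (J * p) with ha
  have ha0 : 0 < a := by positivity
  have haJ : a * (J * p) = 2 := by rw [ha]; field_simp
  have hΛpos : 0 < Λ := by linarith
  obtain ⟨hu1, hu2⟩ := abs_le.mp hu
  obtain ⟨hx1, hx2⟩ := abs_le.mp hx
  have hβ : 0 < Λ * (1 + u) := mul_pos hΛpos (by linarith)
  have hJinv : 0 ≤ 1 / (J : ℝ) := by positivity
  have hJinv2 : 1 / (J : ℝ) ≤ 1 / 2 := one_div_le_one_div_of_le (by norm_num) hJ0
  have hm : |mm J u x| ≤ 7 / 2 := by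
    unfold mm; rw [abs_le]; constructor <;> linarith
  set m := mm J u x with hmdef
  have hpJ : p ≤ J * p := le_mul_of_one_le_left hp0.le (by linarith)
  have hΛε : 0 < Λ * ε := mul_pos hΛpos hε
  -- general consequence of `fl_low`, `fl_quad`, `fl_err`
  have gen : ∀ y z : ℝ, z - ε / 32 ≤ y → y ≤ z → 0 ≤ z → z ≤ J * p → 0 ≤ y →
      Λ * (m * z + (1 + u) * a * z ^ 2 / 2) - Λ * ε / 2 - Fe (tot φr (fun _ => 0)) (Λ * (1 + u)) y ≤
      Pr (tot φr (fun r => a * kap T r)) (Λ * (1 + u)) (Λ * m) := by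
    intro y z h1 h2 h3 h4 h5
    have e1 := fl_low (μ := Λ * m) (y := y) hS hST ha0.le hT1 hβ h5
    have e2 := fl_quad (m := m) (b := 1 + u) (a := a) (z := z) (y := y) (ε1 := ε / 32)
      (D := J * p) hm (by linarith) ha0.le haJ h1 h2 h3 h4 h5
    have e3 := fl_err (b := 1 + u) (a := a) (y := y) (ε := ε) (D := J * p) (T := T) (by linarith)
      ha0 h5 (by linarith) hJp hε hT1 hT
    have e4 := mul_le_mul_of_nonneg_left e2 hΛpos.le
    have e5 := mul_le_mul_of_nonneg_left e3 hΛpos.le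
    have e6 : Λ * (m * y + (1 + u) * a * y ^ 2 / 2) = Λ * m * y + Λ * (1 + u) * a * y ^ 2 / 2 := by
      ring
    have e7 : Λ * ((1 + u) * a / (2 * vR T) * y) = Λ * (1 + u) * a / (2 * vR T) * y := by ring
    have e8 : Λ * (m * z + (1 + u) * a * z ^ 2 / 2 - 8 * (ε / 32)) =
      Λ * (m * z + (1 + u) * a * z ^ 2 / 2) - Λ * ε / 4 := by ring
    have e9 : Λ * (ε / 4) = Λ * ε / 4 := by ring
    rw [e6, e8] at e4
    rw [e7, e9] at e5
    linarith
  have hP0 : 0 ≤ Pr (tot φr (fun r => a * kap T r)) (Λ * (1 + u)) (Λ * m) := Pr_nonneg hST hβ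
  have hAl : Λ * (p * x - p * (1 - 1 / J) * u) - Λ * ε ≤
      Pr (tot φr (fun r => a * kap T r)) (Λ * (1 + u)) (Λ * m) := by
    have e1 : m * p + (1 + u) * a * p ^ 2 / 2 = p * x - p * (1 - 1 / J) * u := by
      have : a * p = 2 / J := by rw [ha]; field_simp
      have e2 : (1 + u) * a * p ^ 2 / 2 = (1 + u) * (a * p) * p / 2 := by ring
      rw [e2, this, hmdef]; unfold mm; field_simp; ring
    rcases le_or_gt 0 ρA with h0 | h0
    · have e3 := gen ρA p hA1 hA2 hp0.le hpJ h0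
      have e5 := hA3 _ hβ
      rw [e1] at e3
      linarith
    · have e3 : p < ε / 32 := by linarith
      have e4 : p * x - p * (1 - 1 / J) * u ≤ ε := by
        have h6 : p * x ≤ p * 1 := mul_le_mul_of_nonneg_left hx2 hp0.le
        have h8 : 0 ≤ (1 - 1 / (J : ℝ)) := by linarith
        have h9 : 0 ≤ p * (1 - 1 / J) := mul_nonneg hp0.le h8
        have h10 : p * (1 - 1 / J) ≤ p * 1 := mul_le_mul_of_nonneg_left (by linarith) hp0.le
        have h11 : p * (1 - 1 / J) * (-u) ≤ p * 1 * (1 / 2) :=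
          (mul_le_mul_of_nonneg_left (by linarith : -u ≤ 1 / 2) h9).trans
            (mul_le_mul_of_nonneg_right h10 (by norm_num))
        have h12 : p * (1 - 1 / J) * (-u) = -(p * (1 - 1 / J) * u) := by ring
        linarith
      have e5 := mul_le_mul_of_nonneg_left e4 hΛpos.le
      linarith
  have hBl : Λ * (J * p * x) - Λ * ε ≤
      Pr (tot φr (fun r => a * kap T r)) (Λ * (1 + u)) (Λ * m) := by
    have e1 : m * (J * p) + (1 + u) * a * (J * p) ^ 2 / 2 = J * p * x + (J - 1) * p := by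
      have e2 : (1 + u) * a * (J * p) ^ 2 / 2 = (1 + u) * (a * (J * p)) * (J * p) / 2 := by
        ring
      rw [e2, haJ, hmdef]; unfold mm; field_simp; ring
    rcases le_or_gt 0 ρB with h0 | h0
    · have e3 := gen ρB (J * p) hB1 hB2 hJp.le le_rfl h0
      have e5 := hB3 _ hβ
      have e6 : (J - 1) / J * ρB * Λ ≤ Λ * ((J - 1) * p) := by
        have e7 : ((J : ℝ) - 1) / J * ρB ≤ (J - 1) / J * (J * p) :=
          mul_le_mul_of_nonneg_left hB2 (div_nonneg (by linarith) (by linarith))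
        have e8 : ((J : ℝ) - 1) / J * (J * p) = (J - 1) * p := by field_simp
        rw [e8] at e7
        calc (J - 1) / J * ρB * Λ ≤ (J - 1) * p * Λ := mul_le_mul_of_nonneg_right e7 hΛpos.le
          _ = Λ * ((J - 1) * p) := mul_comm _ _
      rw [e1] at e3
      have e9 : Λ * (J * p * x + (J - 1) * p) = Λ * (J * p * x) + Λ * ((J - 1) * p) := by ring
      rw [e9] at e3
      linarith
    · have e4 : J * p * x ≤ ε := by
        have h1 : J * p < ε / 32 := by linarith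
        have h2 : J * p * x ≤ J * p * 1 := mul_le_mul_of_nonneg_left hx2 hJp.le
        linarith
      have e5 := mul_le_mul_of_nonneg_left e4 hΛpos.le
      linarith
  unfold Psi
  rcases max_cases 0 (max (p * x - p * (1 - 1 / J) * u) (J * p * x)) with h1 | h1
  · rw [h1.1]; linarith
  · rw [h1.1]
    rcases max_cases (p * x - p * (1 - 1 / J) * u) (J * p * x) with h2 | h2
    · rw [h2.1]; exact hAl
    · rw [h2.1]; exact hBl

theorem first_level {p : ℝ} (hp0 : 0 < p)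
    (hp : Tendsto (fun L : ℝ => (packingNumber L : ℝ) / L ^ 3) atTop (𝓝 p))
    {J : ℕ} (hJ2 : 2 ≤ J) {t1 t2 t3 κ : ℝ} (xc : Fin J → Pt) (ht1 : 1 < t1) (ht2 : t1 < t2)
    (ht3 : t2 < t3) (ht3' : t3 ≤ 3) (hκ : 0 < κ) (hJ : ClusLe J 1 t3)
    (hx : ∀ i j, i ≠ j → t1 + 2 * κ ≤ dist (xc i) (xc j) ∧ dist (xc i) (xc j) ≤ t2 - 2 * κ)
    (hx3 : ∀ i, ‖xc i‖ ≤ 3) {K B c : ℝ} (hK : 4 ≤ K) (hB : 0 ≤ B) (hc : 0 < c)
    (hac : 2 / (J * p) ≤ c / 4) {ε : ℝ} (hε : 0 < ε) :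
    ∃ η σ Λ : ℝ, 0 < η ∧ η ≤ 1 ∧ 0 < σ ∧ σ * t3 ≤ 1 / 8 ∧ 1 ≤ Λ ∧
      ∀ φr : ℝ → ℝ, RefData φr K σ (σ * t1) (σ * t2) (σ * t3) η →
        Sys φr (fun _ => 0) (1 / 4) B c → ∃ T0 : ℝ, ∀ T, T0 ≤ T →
        Sys φr (fun r => 2 / (J * p) * kap T r) (1 / 4) B c →
        ∀ u x : ℝ, |u| ≤ 1 / 2 → |x| ≤ 1 → J * x ≤ 1 →
          |1 / Λ * Pr (tot φr (fun r => 2 / (J * p) * kap T r)) (Λ * (1 + u)) (Λ * mm J u x) -
            Psi p J u x| ≤ ε := by
  have hJ0 : (2 : ℝ) ≤ J := by exact_mod_cast hJ2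
  have hJp : 0 < (J : ℝ) * p := mul_pos (by linarith) hp0
  have hε10 : 0 < ε / 32 := by positivity
  obtain ⟨ηA, hηA, CA, hA⟩ := ref_phaseA hp0 hp hε10
  obtain ⟨ηB, hηB, CB, hBB⟩ := ref_phaseB hp0 hp hε10 hJ2 xc ht1 ht2 ht3 ht3' hκ hx hx3
  have ht30 : 0 < t3 := by linarith
  obtain ⟨Λ0, hΛ0⟩ := rad0_small (δ := min (ηB * t3) (1 / 8)) (lt_min (by positivity) (by norm_num))
  -- choose Λ
  obtain ⟨Λ, hΛ1, hΛ00, hΛ16, hΛA, hΛB⟩ : ∃ Λ : ℝ, 1 ≤ Λ ∧ Λ0 ≤ Λ ∧ 16 ≤ Λ * ε ∧ 4 * CA ≤ Λ * ε ∧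
      4 * CB ≤ Λ * ε := by
    refine ⟨max (max Λ0 1) (max (16 / ε) (max (4 * CA / ε) (4 * CB / ε))), ?_, ?_, ?_, ?_, ?_⟩
    · exact le_trans (le_max_right _ _) (le_max_left _ _)
    · exact le_trans (le_max_left _ _) (le_max_left _ _)
    · rw [← div_le_iff₀ hε]; exact le_trans (le_max_left _ _) (le_max_right _ _)
    · rw [← div_le_iff₀ hε]
      exact le_trans (le_max_left _ _) (le_trans (le_max_right _ _) (le_max_right _ _))
    · rw [← div_le_iff₀ hε]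
      exact le_trans (le_max_right _ _) (le_trans (le_max_right _ _) (le_max_right _ _))
  have hΛpos : 0 < Λ := by linarith
  have hσt : rad0 Λ / t3 * t3 = rad0 Λ := by field_simp
  have hσ0 : 0 < rad0 Λ / t3 := div_pos (rad0_pos _) ht30
  generalize rad0 Λ / t3 = σ at hσt hσ0
  have hr := hΛ0 Λ hΛ00
  obtain ⟨η, hη0, hη1, hηA', hηB'⟩ : ∃ η : ℝ, 0 < η ∧ η ≤ 1 ∧ η ≤ ηA ∧ η ≤ ηB :=
    ⟨min (min ηA ηB) 1, lt_min (lt_min hηA hηB) one_pos, min_le_right _ _,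
      le_trans (min_le_left _ _) (min_le_left _ _), le_trans (min_le_left _ _) (min_le_right _ _)⟩
  have hσB : σ ≤ ηB := by
    have : rad0 Λ ≤ ηB * t3 := le_trans hr (min_le_left _ _)
    rw [← hσt] at this
    exact le_of_mul_le_mul_right this ht30
  have hσ8 : σ * t3 ≤ 1 / 8 := by rw [hσt]; exact le_trans hr (min_le_right _ _)
  have hvol : volume (Metric.closedBall (0 : Pt) (σ * t3)) = ENNReal.ofReal (Real.exp (-Λ)) := by
    rw [hσt]; exact volume_rad0 Λ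
  refine ⟨η, σ, Λ, hη0, hη1, hσ0, hσ8, hΛ1, ?_⟩
  intro φr hR hS
  have hJσ : ClusLe J σ (σ * t3) := hJ.scale hσ0
  -- mean-field constants
  obtain ⟨Y, hY1, hY⟩ : ∃ Y : ℝ, 1 ≤ Y ∧
      4 * Λ + 3 * (3 * Λ / 2) * B + 2 ≤ (Λ / 2) * c * Y / 4 := by
    refine ⟨max 1 ((4 * Λ + 3 * (3 * Λ / 2) * B + 2) / ((Λ / 2) * c / 4)), le_max_left _ _, ?_⟩
    have h1 : (4 * Λ + 3 * (3 * Λ / 2) * B + 2) / ((Λ / 2) * c / 4) ≤
        max 1 ((4 * Λ + 3 * (3 * Λ / 2) * B + 2) / ((Λ / 2) * c / 4)) := le_max_right _ _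
    rw [div_le_iff₀ (by positivity)] at h1
    linarith
  obtain ⟨Km, hKm0, hKm⟩ := MF_up (φr := φr) (B := B) (c := c) (β0 := Λ / 2) (β1 := 3 * Λ / 2)
    (M := 4 * Λ) (Y := Y) (by positivity) (by linarith) (by positivity) hY1 hB hc hY
  have hv1 := vR_pos one_pos
  obtain ⟨ρA, hρA1, hρA2, hρA3⟩ := hA φr K σ (σ * t1) (σ * t2) (σ * t3) η (1 / 4) B c hR hS hηA'
  obtain ⟨ρB, hρB1, hρB2, hρB3⟩ := hBB φr K σ η (1 / 4) B c Λ hR hS hηB' hσB hvol
  refine ⟨max (2500 : ℝ) (max ((12 * Km / (ε * Λ)) ^ 2)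
    (8 * (1 + J * p) * (2 / (J * p)) / (ε * vR 1))), fun T hT hST u x hu hx1 hJx => ?_⟩
  have hT1 : (2500 : ℝ) ≤ T := le_trans (le_max_left _ _) hT
  have hT2 : (12 * Km / (ε * Λ)) ^ 2 ≤ T :=
    le_trans (le_trans (le_max_left _ _) (le_max_right _ _)) hT
  have hT3 : 8 * (1 + J * p) * (2 / (J * p)) / (ε * vR 1) ≤ T :=
    le_trans (le_trans (le_max_right _ _) (le_max_right _ _)) hT
  have hlower := first_level_lower hp0 hJ2 hε hΛ1 hS hST (by linarith) hT3 hρA1 hρA2 hρA3 hΛA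
    hρB1 hρB2 hρB3 hΛB hu hx1
  have ha0 : 0 < 2 / (J * p) := by positivity
  obtain ⟨hu1, hu2⟩ := abs_le.mp hu
  have hupper := fun y => ref_mf_upper hR hS hJ2 hJσ hΛ1 hvol.le hK hp0 hp (u := u) (x := x)
    (y := y) (by linarith) hJx
  generalize 2 / (J * p) = a at *
  obtain ⟨hx1', hx2'⟩ := abs_le.mp hx1
  have hβ : 0 < Λ * (1 + u) := mul_pos hΛpos (by linarith)
  have hJinv : 0 ≤ 1 / (J : ℝ) := by positivity
  have hJinv2 : 1 / (J : ℝ) ≤ 1 / 2 := one_div_le_one_div_of_le (by norm_num) hJ0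
  have hm1 : mm J u x ≤ 4 := by unfold mm; linarith
  have hm2 : -4 ≤ mm J u x := by unfold mm; linarith
  have hfun : (fun r => (fun _ : ℝ => (0 : ℝ)) r + a * kap T r) = fun r => a * kap T r := by
    funext r; simp
  have hST' : Sys φr (fun r => (fun _ : ℝ => (0 : ℝ)) r + a * kap T r) (1 / 4) B c := by
    rw [hfun]; exact hST
  have hdiv : ∀ z : ℝ, 1 / Λ * z = z / Λ := fun z => by ring
  rw [hdiv, abs_le]
  constructor
  · have : Psi p J u x - ε ≤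
        Pr (tot φr (fun r => a * kap T r)) (Λ * (1 + u)) (Λ * mm J u x) / Λ := by
      rw [le_div_iff₀ hΛpos]
      linarith
    linarith
  · -- upper bound
    have hsT : 0 < Real.sqrt T := Real.sqrt_pos.mpr (by linarith)
    have hsT2 : Real.sqrt T * Real.sqrt T = T := Real.mul_self_sqrt (by linarith)
    have hs50 : 50 ≤ Real.sqrt T := by
      rw [show (50 : ℝ) = Real.sqrt 2500 by
        rw [show (2500 : ℝ) = 50 ^ 2 by norm_num]; exact (Real.sqrt_sq (by norm_num)).symm]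
      exact Real.sqrt_le_sqrt hT1
    have hb1 : Λ * (1 + u) ∈ Icc (Λ / 2) (3 * Λ / 2) := by
      constructor
      · calc Λ / 2 = Λ * (1 / 2) := by ring
          _ ≤ Λ * (1 + u) := mul_le_mul_of_nonneg_left (by linarith) hΛpos.le
      · calc Λ * (1 + u) ≤ Λ * (3 / 2) := mul_le_mul_of_nonneg_left (by linarith) hΛpos.le
          _ = 3 * Λ / 2 := by ring
    have hb2 : Λ * mm J u x ∈ Icc (-(4 * Λ)) (4 * Λ) := by
      constructor
      · calc -(4 * Λ) = Λ * (-4) := by ring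
          _ ≤ Λ * mm J u x := mul_le_mul_of_nonneg_left hm2 hΛpos.le
      · calc Λ * mm J u x ≤ Λ * 4 := mul_le_mul_of_nonneg_left hm1 hΛpos.le
          _ = 4 * Λ := by ring
    have h50 : 50 * Real.sqrt T ≤ T := by
      calc 50 * Real.sqrt T ≤ Real.sqrt T * Real.sqrt T :=
            mul_le_mul_of_nonneg_right hs50 hsT.le
        _ = T := hsT2
    obtain ⟨y, hy, h1⟩ := hKm (fun _ => 0) a T 2 (Real.sqrt T) hS hST' (fun _ _ => rfl) ha0.le
      hac le_rfl (by linarith) h50 (Λ * (1 + u)) hb1 (Λ * mm J u x) hb2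
    rw [hfun] at h1
    have h3 : Km * (2 / Real.sqrt T + Real.sqrt T / T) ≤ Λ * (ε / 4) := by
      have h4 : Real.sqrt T / T = 1 / Real.sqrt T := by
        rw [div_eq_div_iff (by linarith) hsT.ne']; linarith
      rw [h4]
      have h5 : 12 * Km / (ε * Λ) ≤ Real.sqrt T := by
        apply Real.le_sqrt_of_sq_le hT2
      rw [div_le_iff₀ (by positivity)] at h5
      have h6 : Km * (2 / Real.sqrt T + 1 / Real.sqrt T) = 3 * Km / Real.sqrt T := by
        field_simp; norm_num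
      rw [h6, div_le_iff₀ hsT]
      have h7 : Λ * (ε / 4) * Real.sqrt T = Real.sqrt T * (ε * Λ) / 4 := by ring
      rw [h7]; linarith
    have h2 := hupper y
    have h8 : Pr (tot φr (fun r => a * kap T r)) (Λ * (1 + u)) (Λ * mm J u x) / Λ ≤
        Psi p J u x + ε := by
      rw [div_le_iff₀ hΛpos]
      linarith
    linarith

end Crest.Agent.Kac
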