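import Crest.Agent.Kac.Defs

open MeasureTheory Crest.ProbabilityR.Continuum Filter Topology Set
open scoped ENNReal

namespace Crest.Agent.Kac

namespace KA

theorem norm_e0 : ‖e0‖ = 1 := by
  simp [e0]

theorem vol_cb_ne_top (x : Pt) (r : ℝ) : volume (Metric.closedBall x r) ≠ ⊤ :=
  measure_closedBall_lt_top.ne

theorem vol_cb (x : Pt) {r : ℝ} (hr : 0 ≤ r) :
    volume (Metric.closedBall x r) = ENNReal.ofReal (r ^ 3) * volume (Metric.ball (0 : Pt) 1) := by
  rw [MeasureTheory.Measure.addHaar_closedBall _ _ hr]
  simp [Pt]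

theorem exists_iso (v : Pt) : ∃ U : Pt ≃ₗᵢ[ℝ] Pt, U (‖v‖ • e0) = v := by
  refine ⟨Submodule.reflection (ℝ ∙ ((‖v‖ • e0) - v))ᗮ, ?_⟩
  apply Submodule.reflection_sub
  rw [norm_smul, norm_e0]
  simp

end KA

open KA

theorem vR_pos {R : ℝ} (hR : 0 < R) : 0 < vR R := by
  unfold vR
  apply ENNReal.toReal_pos
  · exact (Metric.measure_closedBall_pos volume _ (by positivity)).ne'
  · exact vol_cb_ne_top _ _

theorem vR_eq {R : ℝ} (hR : 0 < R) : vR R = vR 1 * R ^ 3 := by
  unfold vR
  rw [vol_cb _ (by positivity : (0:ℝ) ≤ R / 2), vol_cb _ (by positivity : (0:ℝ) ≤ 1 / 2)]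
  rw [ENNReal.toReal_mul, ENNReal.toReal_mul, ENNReal.toReal_ofReal (by positivity),
    ENNReal.toReal_ofReal (by positivity)]
  ring

theorem kap_dist {R : ℝ} (x y : Pt) : kap R (dist x y) =
    (volume (Metric.closedBall x (R / 2) ∩ Metric.closedBall y (R / 2))).toReal / vR R ^ 2 := by
  unfold kap
  congr 2
  obtain ⟨U, hU⟩ := exists_iso (y - x)
  have hd : dist x y = ‖y - x‖ := by rw [dist_comm, dist_eq_norm]
  have hmp : MeasurePreserving (fun z : Pt => x + U z) volume volume :=
    (measurePreserving_add_left volume x).comp U.measurePreserving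
  have hms : MeasurableSet (Metric.closedBall x (R / 2) ∩ Metric.closedBall y (R / 2)) :=
    Metric.isClosed_closedBall.measurableSet.inter Metric.isClosed_closedBall.measurableSet
  rw [← hmp.measure_preimage hms.nullMeasurableSet]
  congr 1
  ext z
  simp only [mem_inter_iff, Metric.mem_closedBall, mem_preimage, dist_eq_norm]
  have h1 : ‖x + U z - x‖ = ‖z - 0‖ := by simp
  have h2 : ‖x + U z - y‖ = ‖z - ‖x - y‖ • e0‖ := by
    have h3 : x + U z - y = U (z - ‖y - x‖ • e0) := by
      rw [map_sub, hU]; abel
    rw [h3, LinearIsometryEquiv.norm_map, norm_sub_rev x y]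
  rw [h1, h2]

theorem kap_nonneg (R r : ℝ) : 0 ≤ kap R r :=
  div_nonneg ENNReal.toReal_nonneg (sq_nonneg _)

theorem kap_le {R : ℝ} (hR : 0 < R) (r : ℝ) : kap R r ≤ 1 / vR R := by
  have h := vR_pos hR
  unfold kap
  rw [div_le_div_iff₀ (by positivity) h]
  have h1 : (volume (Metric.closedBall (0 : Pt) (R / 2) ∩
      Metric.closedBall (r • e0) (R / 2))).toReal ≤ vR R := by
    unfold vR
    exact ENNReal.toReal_mono (vol_cb_ne_top _ _) (measure_mono inter_subset_left)
  nlinarith

theorem kap_zero {R : ℝ} (hR : 0 < R) : kap R 0 = 1 / vR R := by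
  have h := vR_pos hR
  unfold kap
  rw [zero_smul, inter_self]
  change vR R / vR R ^ 2 = 1 / vR R
  field_simp

theorem kap_eq_zero {R r : ℝ} (hR : 0 < R) (hr : R < |r|) : kap R r = 0 := by
  unfold kap
  have hd : Disjoint (Metric.closedBall (0 : Pt) (R / 2)) (Metric.closedBall (r • e0) (R / 2)) := by
    apply Metric.closedBall_disjoint_closedBall
    rw [dist_eq_norm, zero_sub, norm_neg, norm_smul, norm_e0, Real.norm_eq_abs]
    linarith
  rw [hd.inter_eq]
  simp

theorem kap_pos {R r : ℝ} (hR : 0 < R) (hr : |r| < R) : 0 < kap R r := by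
  unfold kap
  have h := vR_pos hR
  apply div_pos _ (by positivity)
  apply ENNReal.toReal_pos
  · have hsub : Metric.closedBall ((r / 2) • e0) ((R - |r|) / 2) ⊆
        Metric.closedBall (0 : Pt) (R / 2) ∩ Metric.closedBall (r • e0) (R / 2) := by
      intro z hz
      rw [Metric.mem_closedBall, dist_eq_norm] at hz
      constructor
      · rw [Metric.mem_closedBall, dist_eq_norm]
        calc ‖z - 0‖ = ‖(z - (r / 2) • e0) + (r / 2) • e0‖ := by congr 1; abel
          _ ≤ ‖z - (r / 2) • e0‖ + ‖(r / 2) • e0‖ := norm_add_le _ _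
          _ ≤ (R - |r|) / 2 + |r| / 2 := by
              apply add_le_add hz
              rw [norm_smul, norm_e0, Real.norm_eq_abs, abs_div]; simp
          _ = R / 2 := by ring
      · rw [Metric.mem_closedBall, dist_eq_norm]
        calc ‖z - r • e0‖ = ‖(z - (r / 2) • e0) + (-(r / 2)) • e0‖ := by
              congr 1
              have : r • e0 = (r/2) • e0 + (r/2) • e0 := by rw [← add_smul]; ring_nf
              rw [this, neg_smul]; abel
          _ ≤ ‖z - (r / 2) • e0‖ + ‖(-(r / 2)) • e0‖ := norm_add_le _ _
          _ ≤ (R - |r|) / 2 + |r| / 2 := by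
              apply add_le_add hz
              rw [norm_smul, norm_e0, Real.norm_eq_abs, abs_neg, abs_div]; simp
          _ = R / 2 := by ring
    exact ((Metric.measure_closedBall_pos volume _ (by linarith)).trans_le (measure_mono hsub)).ne'
  · exact (lt_of_le_of_lt (measure_mono inter_subset_left)
      (measure_closedBall_lt_top)).ne

theorem kap_cont {R : ℝ} (hR : 0 < R) : Continuous (kap R) := by
  have key : Continuous (fun r : ℝ => (volume (Metric.closedBall (0 : Pt) (R / 2) ∩
      Metric.closedBall (r • e0) (R / 2))).toReal) := by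
    rw [continuous_iff_continuousAt]
    intro r0
    set F : ℝ → Pt → ℝ := fun r => (Metric.closedBall (0 : Pt) (R / 2) ∩
      Metric.closedBall (r • e0) (R / 2)).indicator (fun _ => (1 : ℝ)) with hF
    have hms : ∀ r : ℝ, MeasurableSet (Metric.closedBall (0 : Pt) (R / 2) ∩
      Metric.closedBall (r • e0) (R / 2)) := fun r =>
      Metric.isClosed_closedBall.measurableSet.inter Metric.isClosed_closedBall.measurableSet
    have hint : ∀ r : ℝ, (volume (Metric.closedBall (0 : Pt) (R / 2) ∩
      Metric.closedBall (r • e0) (R / 2))).toReal = ∫ z, F r z := by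
      intro r
      rw [hF]
      simp only []
      rw [integral_indicator (hms r)]
      simp [Measure.real]
    simp_rw [hint]
    apply continuousAt_of_dominated
      (bound := (Metric.closedBall (0 : Pt) (R / 2)).indicator (fun _ => (1 : ℝ)))
    · exact Eventually.of_forall fun r =>
        ((measurable_const.indicator (hms r)).aestronglyMeasurable)
    · refine Eventually.of_forall fun r => Eventually.of_forall fun z => ?_
      rw [hF]
      simp only [indicator]
      split_ifs with h1 h2 <;> simp_all
    · rw [integrable_indicator_iff Metric.isClosed_closedBall.measurableSet]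
      exact integrableOn_const (vol_cb_ne_top _ _)
    · have hs : volume (Metric.sphere (r0 • e0) (R / 2)) = 0 :=
        Measure.addHaar_sphere_of_ne_zero _ _ (by positivity)
      have hae : ∀ᵐ z : Pt, z ∉ Metric.sphere (r0 • e0) (R / 2) := by
        rw [ae_iff]
        have hset : {a : Pt | ¬ a ∉ Metric.sphere (r0 • e0) (R / 2)} =
            Metric.sphere (r0 • e0) (R / 2) := by ext a; simp
        rw [hset]; exact hs
      filter_upwards [hae] with z hz
      have hz' : dist z (r0 • e0) ≠ R / 2 := fun h => hz (Metric.mem_sphere.mpr h)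
      have hc : Continuous (fun r : ℝ => dist z (r • e0)) := by fun_prop
      rcases lt_or_gt_of_ne hz' with h | h
      · have hev : ∀ᶠ r in 𝓝 r0, dist z (r • e0) < R / 2 :=
          hc.continuousAt.eventually_lt continuousAt_const h
        have hev2 : ∀ᶠ r in 𝓝 r0, F r z =
            (Metric.closedBall (0 : Pt) (R / 2)).indicator (fun _ => (1 : ℝ)) z := by
          filter_upwards [hev] with r hr
          rw [hF]
          simp only [indicator, mem_inter_iff, Metric.mem_closedBall]
          simp [hr.le]
        exact (continuousAt_const.congr (EventuallyEq.symm hev2))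
      · have hev : ∀ᶠ r in 𝓝 r0, R / 2 < dist z (r • e0) :=
          continuousAt_const.eventually_lt hc.continuousAt h
        have hev2 : ∀ᶠ r in 𝓝 r0, F r z = 0 := by
          filter_upwards [hev] with r hr
          rw [hF]
          simp only [indicator, mem_inter_iff, Metric.mem_closedBall]
          simp [not_le.mpr hr]
        exact (continuousAt_const.congr (EventuallyEq.symm hev2))
  exact key.div_const _

end Crest.Agent.Kac
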