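import Crest.Agent.Kac.KernelA

open MeasureTheory Crest.ProbabilityR.Continuum Filter Topology Set
open scoped ENNReal

namespace Crest.Agent.Kac

namespace KB

/-- sum over pairs of a symmetric function -/
theorem sum_pairs {n : ℕ} (f : Fin n → Fin n → ℝ) (hf : ∀ i j, f i j = f j i) :
    ∑ i, ∑ j, f i j = 2 * ∑ p : {p : Fin n × Fin n // p.1 < p.2}, f p.1.1 p.1.2 + ∑ i, f i i := by
  classical
  have h0 : ∑ p : {p : Fin n × Fin n // p.1 < p.2}, f p.1.1 p.1.2
      = ∑ p ∈ Finset.univ.filter (fun p : Fin n × Fin n => p.1 < p.2), f p.1 p.2 := by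
    rw [Finset.sum_subtype (Finset.univ.filter (fun p : Fin n × Fin n => p.1 < p.2))
      (p := fun p : Fin n × Fin n => p.1 < p.2) (by simp)]
  have h1 : ∑ p ∈ Finset.univ.filter (fun p : Fin n × Fin n => p.2 < p.1), f p.1 p.2
      = ∑ p ∈ Finset.univ.filter (fun p : Fin n × Fin n => p.1 < p.2), f p.1 p.2 := by
    refine Finset.sum_bij' (fun p _ => (p.2, p.1)) (fun p _ => (p.2, p.1)) ?_ ?_ ?_ ?_ ?_
    · intro p hp; simpa using hp
    · intro p hp; simpa using hp
    · intro p _; rfl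
    · intro p _; rfl
    · intro p _; exact hf _ _
  have h2 : ∑ p ∈ Finset.univ.filter (fun p : Fin n × Fin n => p.1 = p.2), f p.1 p.2
      = ∑ i, f i i := by
    refine Finset.sum_bij' (fun p _ => p.1) (fun i _ => (i, i)) ?_ ?_ ?_ ?_ ?_
    · intro p _; simp
    · intro i _; simp
    · rintro ⟨a, c⟩ hp
      have : a = c := by simpa using hp
      subst this; rfl
    · intro i _; rfl
    · rintro ⟨a, c⟩ hp
      have : a = c := by simpa using hp
      subst this; rfl
  have h3 : ∑ i, ∑ j, f i j = ∑ p : Fin n × Fin n, f p.1 p.2 := by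
    rw [Fintype.sum_prod_type]
  rw [h0, h3, ← Finset.sum_filter_add_sum_filter_not Finset.univ (fun p : Fin n × Fin n => p.1 < p.2),
    ← Finset.sum_filter_add_sum_filter_not (Finset.univ.filter fun p : Fin n × Fin n => ¬ p.1 < p.2)
      (fun p : Fin n × Fin n => p.1 = p.2)]
  have e1 : (Finset.univ.filter fun p : Fin n × Fin n => ¬ p.1 < p.2).filter
      (fun p => p.1 = p.2) = Finset.univ.filter (fun p : Fin n × Fin n => p.1 = p.2) := by
    ext p; simp only [Finset.mem_filter, Finset.mem_univ, true_and]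
    constructor
    · exact fun h => h.2
    · exact fun h => ⟨by rw [h]; exact lt_irrefl _, h⟩
  have e2 : (Finset.univ.filter fun p : Fin n × Fin n => ¬ p.1 < p.2).filter
      (fun p => ¬ p.1 = p.2) = Finset.univ.filter (fun p : Fin n × Fin n => p.2 < p.1) := by
    ext p; simp only [Finset.mem_filter, Finset.mem_univ, true_and]
    constructor
    · exact fun h => lt_of_le_of_ne (not_lt.1 h.1) (Ne.symm h.2)
    · exact fun h => ⟨not_lt.2 h.le, (ne_of_lt h).symm⟩
  rw [e1, e2, h1, h2]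
  ring

/-- number of points within distance `R/2` of `y` -/
noncomputable def Nb (R : ℝ) {n : ℕ} (x : Fin n → Pt) (y : Pt) : ℝ :=
  ∑ i, (Metric.closedBall (x i) (R / 2)).indicator (fun _ => (1 : ℝ)) y

theorem Nb_nonneg (R : ℝ) {n : ℕ} (x : Fin n → Pt) (y : Pt) : 0 ≤ Nb R x y :=
  Finset.sum_nonneg fun _ _ => indicator_nonneg (fun _ _ => zero_le_one) _

theorem Nb_le (R : ℝ) {n : ℕ} (x : Fin n → Pt) (y : Pt) : Nb R x y ≤ n := by
  have : Nb R x y ≤ ∑ _i : Fin n, (1 : ℝ) := by
    refine Finset.sum_le_sum fun i _ => ?_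
    exact indicator_le_self' (fun _ _ => zero_le_one) y
  simpa using this

theorem ind_int (R : ℝ) (a : Pt) :
    Integrable ((Metric.closedBall a (R / 2)).indicator (fun _ => (1 : ℝ))) :=
  (integrable_indicator_iff measurableSet_closedBall).2
    (integrableOn_const (isCompact_closedBall _ _).measure_lt_top.ne)

theorem vol_ball (R : ℝ) (a : Pt) :
    (volume (Metric.closedBall a (R / 2))).toReal = vR R := by
  rw [vR, Measure.addHaar_closedBall_center]

theorem integral_ind (R : ℝ) (a : Pt) :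
    ∫ y, (Metric.closedBall a (R / 2)).indicator (fun _ => (1 : ℝ)) y = vR R := by
  rw [integral_indicator measurableSet_closedBall]
  simp [← vol_ball R a, Measure.real]

theorem Nb_integrable (R : ℝ) {n : ℕ} (x : Fin n → Pt) : Integrable (Nb R x) :=
  integrable_finsetSum _ fun i _ => ind_int R (x i)

theorem integral_Nb (R : ℝ) {n : ℕ} (x : Fin n → Pt) : ∫ y, Nb R x y = n * vR R := by
  unfold Nb
  rw [integral_finsetSum _ fun i _ => ind_int R (x i)]
  simp only [integral_ind]
  simp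

theorem ind_mul (R : ℝ) (a c : Pt) (y : Pt) :
    (Metric.closedBall a (R / 2)).indicator (fun _ => (1 : ℝ)) y
      * (Metric.closedBall c (R / 2)).indicator (fun _ => (1 : ℝ)) y
      = (Metric.closedBall a (R / 2) ∩ Metric.closedBall c (R / 2)).indicator (fun _ => (1 : ℝ)) y := by
  by_cases h1 : y ∈ Metric.closedBall a (R / 2) <;> by_cases h2 : y ∈ Metric.closedBall c (R / 2) <;>
    simp [h1, h2, indicator]

theorem inter_int (R : ℝ) (a c : Pt) :
    Integrable ((Metric.closedBall a (R / 2) ∩ Metric.closedBall c (R / 2)).indicator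
      (fun _ => (1 : ℝ))) :=
  (integrable_indicator_iff (measurableSet_closedBall.inter measurableSet_closedBall)).2
    (integrableOn_const (ne_of_lt ((measure_mono inter_subset_left).trans_lt
      (isCompact_closedBall _ _).measure_lt_top)))

theorem Nb_sq (R : ℝ) {n : ℕ} (x : Fin n → Pt) (y : Pt) : Nb R x y ^ 2 = ∑ i, ∑ j,
    (Metric.closedBall (x i) (R / 2) ∩ Metric.closedBall (x j) (R / 2)).indicator
      (fun _ => (1 : ℝ)) y := by
  rw [sq, Nb, Finset.sum_mul_sum]
  refine Finset.sum_congr rfl fun i _ => Finset.sum_congr rfl fun j _ => ?_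
  rw [ind_mul]

theorem Nb_sq_integrable (R : ℝ) {n : ℕ} (x : Fin n → Pt) : Integrable fun y => Nb R x y ^ 2 := by
  simp only [Nb_sq]
  exact integrable_finsetSum _ fun i _ => integrable_finsetSum _ fun j _ => inter_int R _ _

theorem sum_kap (R : ℝ) {n : ℕ} (x : Fin n → Pt) :
    ∑ i, ∑ j, kap R (dist (x i) (x j)) = (∫ y, Nb R x y ^ 2) / vR R ^ 2 := by
  simp only [Nb_sq]
  rw [integral_finsetSum _ fun i _ => integrable_finsetSum _ fun j _ => inter_int R _ _,
    Finset.sum_div]
  refine Finset.sum_congr rfl fun i _ => ?_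
  rw [integral_finsetSum _ fun j _ => inter_int R _ _, Finset.sum_div]
  refine Finset.sum_congr rfl fun j _ => ?_
  rw [kap_dist, integral_indicator (measurableSet_closedBall.inter measurableSet_closedBall)]
  simp [Measure.real]

end KB

open KB

theorem energy_kap {R : ℝ} {n : ℕ} (x : Fin n → Pt) :
    energy (kap R) x = (∑ i, ∑ j, kap R (dist (x i) (x j)) - n * kap R 0) / 2 := by
  have h := sum_pairs (fun i j => kap R (dist (x i) (x j))) (fun i j => by rw [dist_comm])
  rw [h]
  simp only [dist_self, Finset.sum_const, Finset.card_univ, Fintype.card_fin, nsmul_eq_mul]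
  rw [energy]
  ring

namespace KB

theorem box_eq (a c : Fin 3 → ℝ) : {y : Pt | ∀ k, a k ≤ y k ∧ y k ≤ c k}
    = (@WithLp.ofLp 2 (Fin 3 → ℝ)) ⁻¹' (Icc a c) := by
  ext y
  simp only [mem_ofPred_eq, mem_preimage, mem_Icc, Pi.le_def]
  exact ⟨fun h => ⟨fun k => (h k).1, fun k => (h k).2⟩, fun h k => ⟨h.1 k, h.2 k⟩⟩

theorem measurableSet_box (a c : Fin 3 → ℝ) :
    MeasurableSet {y : Pt | ∀ k, a k ≤ y k ∧ y k ≤ c k} := by
  rw [box_eq]
  exact (PiLp.volume_preserving_ofLp (Fin 3)).measurable measurableSet_Icc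

theorem volume_box (a c : Fin 3 → ℝ) : volume {y : Pt | ∀ k, a k ≤ y k ∧ y k ≤ c k}
    = ∏ k, ENNReal.ofReal (c k - a k) := by
  rw [box_eq, (PiLp.volume_preserving_ofLp (Fin 3)).measure_preimage
    measurableSet_Icc.nullMeasurableSet, Real.volume_Icc_pi]

theorem abs_coord_le (x y : Pt) (k : Fin 3) : |x k - y k| ≤ dist x y := by
  rw [dist_eq_norm]
  have := PiLp.norm_apply_le (p := 2) (x - y) k
  simpa using this

end KB

/-- `Σ_{i,j} κ_R(x_i-x_j) ≥ n²/(L+R)³` for points of a cube (Cauchy-Schwarz) -/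
theorem kap_sum_ge {R L : ℝ} (hR : 0 < R) (hL : 0 ≤ L) {n : ℕ} (x : Fin n → Pt)
    (hx : ∀ i, x i ∈ cube L) :
    (n : ℝ) ^ 2 / (L + R) ^ 3 ≤ ∑ i, ∑ j, kap R (dist (x i) (x j)) := by
  have hv := vR_pos hR
  set Q : Set Pt := {y : Pt | ∀ k, (fun _ => -(R / 2)) k ≤ y k ∧ y k ≤ (fun _ => L + R / 2) k}
    with hQ
  have hQm : MeasurableSet Q := measurableSet_box _ _
  have hV : volume Q = ENNReal.ofReal ((L + R) ^ 3) := by
    rw [hQ, volume_box]
    simp only [Finset.prod_const, Finset.card_univ, Fintype.card_fin]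
    rw [← ENNReal.ofReal_pow (by linarith)]
    congr 2; ring
  have hVpos : 0 < (L + R) ^ 3 := by positivity
  have hVr : (volume Q).toReal = (L + R) ^ 3 := by
    rw [hV, ENNReal.toReal_ofReal hVpos.le]
  have hout : ∀ y, y ∉ Q → Nb R x y = 0 := by
    intro y hy
    refine Finset.sum_eq_zero fun i _ => ?_
    refine indicator_of_notMem (fun hyi => hy ?_) _
    intro k
    have h1 : |y k - x i k| ≤ R / 2 := (abs_coord_le y (x i) k).trans (Metric.mem_closedBall.1 hyi)
    have h2 := abs_le.1 h1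
    have h3 := hx i k
    constructor <;> simp only <;> linarith [h3.1, h3.2]
  have hQfin : volume Q ≠ ⊤ := by rw [hV]; exact ENNReal.ofReal_ne_top
  have i1 : IntegrableOn (fun y => Nb R x y ^ 2) Q := (Nb_sq_integrable R x).integrableOn
  have i2 : IntegrableOn (Nb R x) Q := (Nb_integrable R x).integrableOn
  have e1 : ∫ y in Q, Nb R x y ^ 2 = ∫ y, Nb R x y ^ 2 :=
    setIntegral_eq_integral_of_forall_compl_eq_zero fun y hy => by rw [hout y hy]; ring
  have e2 : ∫ y in Q, Nb R x y = n * vR R := by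
    rw [setIntegral_eq_integral_of_forall_compl_eq_zero hout, integral_Nb]
  set t : ℝ := n * vR R / (L + R) ^ 3 with ht
  have key : 0 ≤ ∫ y in Q, (Nb R x y - t) ^ 2 := integral_nonneg fun y => sq_nonneg _
  have e3 : ∫ y in Q, (Nb R x y - t) ^ 2
      = (∫ y, Nb R x y ^ 2) - 2 * t * (n * vR R) + t ^ 2 * (L + R) ^ 3 := by
    have e4 : ∀ y, (Nb R x y - t) ^ 2 = Nb R x y ^ 2 - 2 * t * Nb R x y + t ^ 2 := fun y => by ring
    simp only [e4]
    have i3 : IntegrableOn (fun y => 2 * t * Nb R x y) Q := i2.const_mul (2 * t)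
    have i4 : IntegrableOn (fun y => Nb R x y ^ 2 - 2 * t * Nb R x y) Q := i1.sub i3
    have i5 : IntegrableOn (fun _ : Pt => t ^ 2) Q := integrableOn_const hQfin
    have e5 : ∫ y in Q, (fun _ : Pt => t ^ 2) y = t ^ 2 * (L + R) ^ 3 := by
      simp [Measure.real, hVr, mul_comm]
    rw [integral_add i4 i5, integral_sub i1 i3, integral_const_mul, e1, e2, e5]
  rw [e3] at key
  rw [sum_kap, div_le_div_iff₀ hVpos (by positivity)]
  have h5 : t * (L + R) ^ 3 = n * vR R := by rw [ht]; field_simp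
  have h6 : (n * vR R) ^ 2 ≤ (∫ y, Nb R x y ^ 2) * (L + R) ^ 3 := by
    have h7 : 2 * t * (n * vR R) - t ^ 2 * (L + R) ^ 3 ≤ ∫ y, Nb R x y ^ 2 := by linarith
    have h8 := mul_le_mul_of_nonneg_right h7 hVpos.le
    have h9 : (2 * t * (n * vR R) - t ^ 2 * (L + R) ^ 3) * (L + R) ^ 3
        = 2 * (t * (L + R) ^ 3) * (n * vR R) - (t * (L + R) ^ 3) ^ 2 := by ring
    rw [h9, h5] at h8
    linarith
  linarith

end Crest.Agent.Kac
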