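import Crest.Agent.Kac.KernelB1

open MeasureTheory Crest.ProbabilityR.Continuum Filter Topology Set
open scoped ENNReal

namespace Crest.Agent.Kac

namespace KB

/-- the half-open cell with index `C` -/
def cellBox (l τ : ℝ) (C : Fin 3 → ℤ) : Set Pt :=
  {z : Pt | ∀ k, τ + C k * l ≤ z k ∧ z k < τ + (C k + 1) * l}

theorem mem_cellBox {l : ℝ} (hl : 0 < l) (τ : ℝ) (z : Pt) (C : Fin 3 → ℤ) :
    z ∈ cellBox l τ C ↔ cellIdx l τ z = C := by
  constructor
  · intro h
    funext k
    have hk := h k
    simp only [cellIdx]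
    rw [Int.floor_eq_iff]
    constructor
    · rw [le_div_iff₀ hl]; linarith [hk.1]
    · rw [div_lt_iff₀ hl]; linarith [hk.2]
  · intro h k
    have hk : ⌊(z k - τ) / l⌋ = C k := congrFun h k
    rw [Int.floor_eq_iff] at hk
    constructor
    · have := hk.1; rw [le_div_iff₀ hl] at this; linarith
    · have := hk.2; rw [div_lt_iff₀ hl] at this; linarith

theorem cellBox_eq (l τ : ℝ) (C : Fin 3 → ℤ) : cellBox l τ C
    = (@WithLp.ofLp 2 (Fin 3 → ℝ)) ⁻¹'
      (Set.pi univ fun k => Ico (τ + C k * l) (τ + (C k + 1) * l)) := by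
  ext y
  simp [cellBox]

theorem measurableSet_cellBox (l τ : ℝ) (C : Fin 3 → ℤ) : MeasurableSet (cellBox l τ C) := by
  rw [cellBox_eq]
  exact (PiLp.volume_preserving_ofLp (Fin 3)).measurable
    (MeasurableSet.univ_pi fun _ => measurableSet_Ico)

theorem volume_cellBox {l : ℝ} (hl : 0 < l) (τ : ℝ) (C : Fin 3 → ℤ) :
    volume (cellBox l τ C) = ENNReal.ofReal (l ^ 3) := by
  rw [cellBox_eq, (PiLp.volume_preserving_ofLp (Fin 3)).measure_preimage
    (MeasurableSet.univ_pi fun _ => measurableSet_Ico).nullMeasurableSet, Real.volume_pi_Ico]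
  have e : ∀ k : Fin 3, ENNReal.ofReal (τ + (C k + 1) * l - (τ + C k * l)) = ENNReal.ofReal l := by
    intro k; congr 1; ring
  simp only [e]
  simp only [Finset.prod_const, Finset.card_univ, Fintype.card_fin]
  rw [← ENNReal.ofReal_pow hl.le]

theorem dist_le_of_coord {x y : Pt} {l : ℝ} (hl : 0 ≤ l) (h : ∀ k, |x k - y k| ≤ l) :
    dist x y ≤ 2 * l := by
  rw [EuclideanSpace.dist_eq]
  have h1 : ∑ k, dist (x k) (y k) ^ 2 ≤ (2 * l) ^ 2 := by
    have h2 : ∑ k : Fin 3, dist (x k) (y k) ^ 2 ≤ ∑ _k : Fin 3, l ^ 2 := by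
      refine Finset.sum_le_sum fun k _ => ?_
      rw [Real.dist_eq]
      exact pow_le_pow_left₀ (abs_nonneg _) (h k) 2
    simp only [Finset.sum_const, Finset.card_univ, Fintype.card_fin, nsmul_eq_mul] at h2
    push_cast at h2
    nlinarith [sq_nonneg l]
  exact (Real.sqrt_le_sqrt h1).trans (by rw [Real.sqrt_sq (by positivity)])

/-- a family of cells which meet a ball -/
theorem card_cells {R l : ℝ} (hR : 0 < R) (hl : 0 < l) (τ : ℝ) (y : Pt)
    (K : Finset (Fin 3 → ℤ))
    (hK : ∀ C ∈ K, ∃ z : Pt, cellIdx l τ z = C ∧ dist z y ≤ R / 2) :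
    (K.card : ℝ) * l ^ 3 ≤ vR R * (1 + 4 * l / R) ^ 3 := by
  have hsub : (⋃ C ∈ K, cellBox l τ C) ⊆ Metric.closedBall y ((R + 4 * l) / 2) := by
    intro w hw
    simp only [mem_iUnion] at hw
    obtain ⟨C, hC, hwC⟩ := hw
    obtain ⟨z, hz, hzy⟩ := hK C hC
    have hz' := (mem_cellBox hl τ z C).2 hz
    have h1 : dist w z ≤ 2 * l := by
      refine dist_le_of_coord hl.le fun k => ?_
      have a := hwC k
      have b := hz' k
      rw [abs_le]
      constructor <;> linarith [a.1, a.2, b.1, b.2]
    rw [Metric.mem_closedBall]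
    have := dist_triangle w z y
    linarith
  have hdisj : Set.PairwiseDisjoint (↑K : Set (Fin 3 → ℤ)) (cellBox l τ) := by
    intro C _ C' _ hne
    rw [Function.onFun, Set.disjoint_left]
    intro z h1 h2
    exact hne (((mem_cellBox hl τ z C).1 h1).symm.trans ((mem_cellBox hl τ z C').1 h2))
  have hvol := measure_biUnion_finset hdisj (fun C _ => measurableSet_cellBox l τ C) (μ := volume)
  simp only [volume_cellBox hl] at hvol
  have hle := measure_mono (μ := volume) hsub
  rw [hvol, Finset.sum_const, nsmul_eq_mul] at hle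
  have hR' : 0 < R + 4 * l := by linarith
  have hfin : volume (Metric.closedBall y ((R + 4 * l) / 2)) ≠ ⊤ :=
    (isCompact_closedBall _ _).measure_lt_top.ne
  have h2 := ENNReal.toReal_mono hfin hle
  rw [ENNReal.toReal_mul, ENNReal.toReal_natCast, ENNReal.toReal_ofReal (by positivity),
    vol_ball (R + 4 * l) y, vR_eq hR'] at h2
  rw [vR_eq hR]
  refine h2.trans (le_of_eq ?_)
  field_simp

end KB

open KB

/-- cell upper bound -/
theorem kap_sum_le {R l : ℝ} (hR : 0 < R) (hl : 0 < l) (τ : ℝ) {n : ℕ} (x : Fin n → Pt) :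
    ∑ i, ∑ j, kap R (dist (x i) (x j)) ≤ (1 + 4 * l / R) ^ 6 / l ^ 3 * sqOcc l τ x := by
  classical
  have hv := vR_pos hR
  set M : ℝ := vR R * (1 + 4 * l / R) ^ 3 / l ^ 3 with hM
  have hM0 : 0 ≤ M := by positivity
  have h1l : 1 ≤ 1 + 4 * l / R := by
    have : 0 ≤ 4 * l / R := by positivity
    linarith
  set c : Fin n → Fin 3 → ℤ := fun i => cellIdx l τ (x i) with hc
  set I : Fin n → Pt → ℝ := fun i => (Metric.closedBall (x i) (R / 2)).indicator (fun _ => (1 : ℝ))
    with hI
  -- the pointwise bound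
  have hpt : ∀ y, Nb R x y ^ 2 ≤ M * ∑ i, ∑ j, (if c i = c j then (1 : ℝ) else 0)
      * (Metric.closedBall (x i) (R / 2) ∩ Metric.closedBall (x j) (R / 2)).indicator
        (fun _ => (1 : ℝ)) y := by
    intro y
    set S : Finset (Fin n) := Finset.univ.filter fun i => y ∈ Metric.closedBall (x i) (R / 2)
      with hS
    set K := S.image c with hKdef
    have hN : Nb R x y = (S.card : ℝ) := by
      rw [Nb, hS, Finset.card_filter]
      push_cast
      refine Finset.sum_congr rfl fun i _ => ?_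
      simp [indicator]
    have hcardK : (K.card : ℝ) ≤ M := by
      rw [hM, le_div_iff₀ (by positivity)]
      refine card_cells hR hl τ y K fun C hC => ?_
      obtain ⟨i, hi, rfl⟩ := Finset.mem_image.1 hC
      refine ⟨x i, rfl, ?_⟩
      have := (Finset.mem_filter.1 hi).2
      rw [Metric.mem_closedBall, dist_comm] at this
      exact this
    have h2 : (S.card : ℝ) = ∑ C ∈ K, ((S.filter fun i => c i = C).card : ℝ) := by
      rw [Finset.card_eq_sum_card_image c S]
      push_cast; rfl
    have h3 : (∑ C ∈ K, ((S.filter fun i => c i = C).card : ℝ)) ^ 2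
        ≤ K.card * ∑ C ∈ K, ((S.filter fun i => c i = C).card : ℝ) ^ 2 :=
      sq_sum_le_card_mul_sum_sq
    have h4 : ∑ C ∈ K, ((S.filter fun i => c i = C).card : ℝ) ^ 2
        = ∑ i ∈ S, ∑ j ∈ S, if c i = c j then (1 : ℝ) else 0 := by
      have e1 : ∀ C, ((S.filter fun i => c i = C).card : ℝ) = ∑ i ∈ S, if c i = C then (1 : ℝ) else 0 := by
        intro C; rw [Finset.card_filter]; push_cast; rfl
      have e2 : ∀ C ∈ K, ((S.filter fun i => c i = C).card : ℝ) ^ 2
          = ∑ i ∈ S, ∑ j ∈ S, (if c i = C then (1 : ℝ) else 0) * (if c j = C then (1 : ℝ) else 0) := by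
        intro C _
        rw [e1, sq, Finset.sum_mul_sum]
      rw [Finset.sum_congr rfl e2, Finset.sum_comm]
      refine Finset.sum_congr rfl fun i hi => ?_
      rw [Finset.sum_comm]
      refine Finset.sum_congr rfl fun j _ => ?_
      have hiK : c i ∈ K := Finset.mem_image_of_mem c hi
      rw [Finset.sum_eq_single (c i)]
      · simp [eq_comm]
      · intro C _ hne
        rw [if_neg (Ne.symm hne), zero_mul]
      · intro h; exact absurd hiK h
    have h5 : ∑ i ∈ S, ∑ j ∈ S, (if c i = c j then (1 : ℝ) else 0)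
        = ∑ i, ∑ j, (if c i = c j then (1 : ℝ) else 0)
          * (Metric.closedBall (x i) (R / 2) ∩ Metric.closedBall (x j) (R / 2)).indicator
            (fun _ => (1 : ℝ)) y := by
      rw [hS, Finset.sum_filter]
      refine Finset.sum_congr rfl fun i _ => ?_
      by_cases hi : y ∈ Metric.closedBall (x i) (R / 2)
      · rw [if_pos hi, Finset.sum_filter]
        refine Finset.sum_congr rfl fun j _ => ?_
        by_cases hj : y ∈ Metric.closedBall (x j) (R / 2)
        · rw [if_pos hj, indicator_of_mem (mem_inter hi hj), mul_one]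
        · rw [if_neg hj, indicator_of_notMem (fun h => hj h.2), mul_zero]
      · rw [if_neg hi]
        symm
        refine Finset.sum_eq_zero fun j _ => ?_
        rw [indicator_of_notMem (fun h => hi h.1), mul_zero]
    rw [hN, ← h5, ← h4]
    rw [← h2] at h3
    refine h3.trans (mul_le_mul_of_nonneg_right hcardK ?_)
    exact Finset.sum_nonneg fun _ _ => sq_nonneg _
  have hint : Integrable fun y => M * ∑ i, ∑ j, (if c i = c j then (1 : ℝ) else 0)
      * (Metric.closedBall (x i) (R / 2) ∩ Metric.closedBall (x j) (R / 2)).indicator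
        (fun _ => (1 : ℝ)) y :=
    (integrable_finsetSum _ fun i _ => integrable_finsetSum _ fun j _ =>
      (inter_int R _ _).const_mul _).const_mul M
  have h6 := integral_mono (Nb_sq_integrable R x) hint hpt
  rw [integral_const_mul, integral_finsetSum _ fun i _ => integrable_finsetSum _ fun j _ =>
      (inter_int R _ _).const_mul _] at h6
  have h7 : ∀ i : Fin n, ∫ y, ∑ j, (if c i = c j then (1 : ℝ) else 0)
      * (Metric.closedBall (x i) (R / 2) ∩ Metric.closedBall (x j) (R / 2)).indicator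
        (fun _ => (1 : ℝ)) y ≤ ∑ j, (if c i = c j then (1 : ℝ) else 0) * vR R := by
    intro i
    rw [integral_finsetSum _ fun j _ => (inter_int R _ _).const_mul _]
    refine Finset.sum_le_sum fun j _ => ?_
    rw [integral_const_mul]
    refine mul_le_mul_of_nonneg_left ?_ (by split_ifs <;> norm_num)
    rw [← integral_ind R (x i)]
    refine integral_mono (inter_int R _ _) (ind_int R _) fun y => ?_
    exact indicator_le_indicator_of_subset inter_subset_left (fun _ => zero_le_one) y
  have h8 : ∫ y, Nb R x y ^ 2 ≤ M * (vR R * sqOcc l τ x) := by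
    refine h6.trans (mul_le_mul_of_nonneg_left ?_ hM0)
    refine (Finset.sum_le_sum fun i _ => h7 i).trans (le_of_eq ?_)
    rw [sqOcc, Finset.mul_sum]
    refine Finset.sum_congr rfl fun i _ => ?_
    rw [Finset.mul_sum]
    refine Finset.sum_congr rfl fun j _ => ?_
    rw [mul_comm]
  have hsq : 0 ≤ sqOcc l τ x := by
    refine Finset.sum_nonneg fun i _ => Finset.sum_nonneg fun j _ => ?_
    split_ifs <;> norm_num
  rw [sum_kap, div_le_iff₀ (by positivity)]
  refine h8.trans ?_
  have h9 : M * (vR R * sqOcc l τ x)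
      = (1 + 4 * l / R) ^ 3 / l ^ 3 * sqOcc l τ x * vR R ^ 2 := by
    rw [hM]; ring
  rw [h9]
  have h10 : (1 + 4 * l / R) ^ 3 / l ^ 3 ≤ (1 + 4 * l / R) ^ 6 / l ^ 3 :=
    div_le_div_of_nonneg_right (pow_le_pow_right₀ h1l (by norm_num)) (by positivity)
  exact mul_le_mul_of_nonneg_right (mul_le_mul_of_nonneg_right h10 hsq) (by positivity)

end Crest.Agent.Kac
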