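import Mathlib

open Filter Topology Set

namespace Crest.Agent.Kac

/-- a local subgradient of a convex function is global -/
theorem kink_global {P : ℝ → ℝ → ℝ} {βc μc : ℝ} (hβc : 0 < βc)
    (hconv : ConvexOn ℝ (Ioi 0 ×ˢ univ) (fun z : ℝ × ℝ => P z.1 z.2))
    {a d ν : ℝ} (hν : 0 < ν)
    (hsub : ∀ β μ, |β - βc| ≤ ν → |μ - μc| ≤ ν →
      P βc μc + a * (β - βc) + d * (μ - μc) ≤ P β μ) :
    ∀ β, 0 < β → ∀ μ, P βc μc + a * (β - βc) + d * (μ - μc) ≤ P β μ := by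
  intro β hβ μ
  obtain ⟨M, hM⟩ : ∃ M, M = |β - βc| + |μ - μc| + ν := ⟨_, rfl⟩
  have hM1 : |β - βc| ≤ M := by have := abs_nonneg (μ - μc); linarith
  have hM2 : |μ - μc| ≤ M := by have := abs_nonneg (β - βc); linarith
  have hM3 : ν ≤ M := by have := abs_nonneg (β - βc); have := abs_nonneg (μ - μc); linarith
  have hM0 : 0 < M := by linarith
  obtain ⟨t, ht⟩ : ∃ t, t = ν / M := ⟨_, rfl⟩
  have ht0 : 0 < t := by rw [ht]; positivity
  have ht1 : t ≤ 1 := by rw [ht]; exact (div_le_one hM0).2 hM3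
  have htM : t * M = ν := by rw [ht]; field_simp
  have h1 := hsub (βc + t * (β - βc)) (μc + t * (μ - μc))
    (by rw [add_sub_cancel_left, abs_mul, abs_of_pos ht0, ← htM]
        exact mul_le_mul_of_nonneg_left hM1 ht0.le)
    (by rw [add_sub_cancel_left, abs_mul, abs_of_pos ht0, ← htM]
        exact mul_le_mul_of_nonneg_left hM2 ht0.le)
  have hz : ((βc, μc) : ℝ × ℝ) ∈ Ioi (0 : ℝ) ×ˢ (univ : Set ℝ) := ⟨hβc, trivial⟩
  have hw : ((β, μ) : ℝ × ℝ) ∈ Ioi (0 : ℝ) ×ˢ (univ : Set ℝ) := ⟨hβ, trivial⟩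
  have h2 := hconv.2 hz hw (by linarith : (0:ℝ) ≤ 1 - t) ht0.le (by ring)
  simp only [Prod.smul_mk, smul_eq_mul, Prod.mk_add_mk] at h2
  have e1 : (1 - t) * βc + t * β = βc + t * (β - βc) := by ring
  have e2 : (1 - t) * μc + t * μ = μc + t * (μ - μc) := by ring
  rw [e1, e2] at h2
  have h3 : t * (P βc μc + a * (β - βc) + d * (μ - μc)) ≤ t * P β μ := by linarith
  exact le_of_mul_le_mul_left h3 ht0

theorem kink_super {F P : ℝ → ℝ → ℝ} {βc μc : ℝ} (hβc : 0 < βc)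
    (hle : ∀ β, 0 < β → ∀ ρ, 0 < ρ → ∀ μ, μ * ρ - F β ρ ≤ P β μ)
    (hatt : ∀ β, 0 < β → ∀ ρ, 0 < ρ → ∃ μ, P β μ = μ * ρ - F β ρ)
    {a1 a2 d1 d2 : ℝ}
    (hs1 : ∀ β, 0 < β → ∀ μ, P βc μc + a1 * (β - βc) + d1 * (μ - μc) ≤ P β μ)
    (hs2 : ∀ β, 0 < β → ∀ μ, P βc μc + a2 * (β - βc) + d2 * (μ - μc) ≤ P β μ)
    {ρ t : ℝ} (hρ0 : 0 < ρ) (ht0 : 0 ≤ t) (ht1 : t ≤ 1) (hρt : ρ = (1 - t) * d1 + t * d2) :
    ∀ β, 0 < β → F β ρ ≤ F βc ρ - ((1 - t) * a1 + t * a2) * (β - βc) := by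
  intro β hβ
  obtain ⟨μ, hμ⟩ := hatt β hβ ρ hρ0
  have h1 := hle βc hβc ρ hρ0 μc
  have h2 := mul_le_mul_of_nonneg_left (hs1 β hβ μ) (by linarith : (0:ℝ) ≤ 1 - t)
  have h3 := mul_le_mul_of_nonneg_left (hs2 β hβ μ) ht0
  have h4 : (1 - t) * (P βc μc + a1 * (β - βc) + d1 * (μ - μc)) +
      t * (P βc μc + a2 * (β - βc) + d2 * (μ - μc)) =
      P βc μc + ((1 - t) * a1 + t * a2) * (β - βc) + ((1 - t) * d1 + t * d2) * (μ - μc) := by
    ring
  rw [← hρt] at h4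
  have h5 : (1 - t) * P β μ + t * P β μ = P β μ := by ring
  linarith

theorem kink {F P : ℝ → ℝ → ℝ} {βc μc : ℝ} (hβc : 0 < βc)
    (hconc : ∀ ρ, 0 < ρ → ConcaveOn ℝ (Ioi 0) (fun β => F β ρ))
    (hle : ∀ β, 0 < β → ∀ ρ, 0 < ρ → ∀ μ, μ * ρ - F β ρ ≤ P β μ)
    (hatt : ∀ β, 0 < β → ∀ ρ, 0 < ρ → ∃ μ, P β μ = μ * ρ - F β ρ)
    (hconv : ConvexOn ℝ (Ioi 0 ×ˢ univ) (fun z : ℝ × ℝ => P z.1 z.2))
    {a d : Fin 3 → ℝ} {ν : ℝ} (hν : 0 < ν)
    (hsub : ∀ i, ∀ β μ, |β - βc| ≤ ν → |μ - μc| ≤ ν →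
      P βc μc + a i * (β - βc) + d i * (μ - μc) ≤ P β μ)
    (hd01 : d 0 < d 1) (hd12 : d 1 < d 2)
    (haff : a 1 * (d 2 - d 0) ≠ a 0 * (d 2 - d 1) + a 2 * (d 1 - d 0))
    {ρ : ℝ} (hρ0 : 0 < ρ) (hρ : d 0 < ρ) (hρ2 : ρ < d 2) :
    ∃ Dl Dr : ℝ, HasDerivWithinAt (fun β => (1 / β) * F β ρ) Dl (Iio βc) βc ∧
      HasDerivWithinAt (fun β => (1 / β) * F β ρ) Dr (Ioi βc) βc ∧ Dr < Dl := by
  have hglob : ∀ i, ∀ β, 0 < β → ∀ μ, P βc μc + a i * (β - βc) + d i * (μ - μc) ≤ P β μ :=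
    fun i => kink_global hβc hconv hν (hsub i)
  -- two different supergradients
  have hd02 : 0 < d 2 - d 0 := by linarith
  have hd01' : 0 < d 1 - d 0 := by linarith
  have hd12' : 0 < d 2 - d 1 := by linarith
  obtain ⟨A, B, hAB, hA, hB⟩ : ∃ A B : ℝ, A ≠ B ∧
      (∀ β, 0 < β → F β ρ ≤ F βc ρ - A * (β - βc)) ∧
      (∀ β, 0 < β → F β ρ ≤ F βc ρ - B * (β - βc)) := by
    have t1 : 0 ≤ (ρ - d 0) / (d 2 - d 0) := div_nonneg (by linarith) hd02.le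
    have t2 : (ρ - d 0) / (d 2 - d 0) ≤ 1 := (div_le_one hd02).2 (by linarith)
    have S02 := kink_super hβc hle hatt (hglob 0) (hglob 2) (t := (ρ - d 0) / (d 2 - d 0)) hρ0
      t1 t2 (by field_simp; ring)
    rcases le_total ρ (d 1) with h | h
    · have s1 : 0 ≤ (ρ - d 0) / (d 1 - d 0) := div_nonneg (by linarith) hd01'.le
      have s2 : (ρ - d 0) / (d 1 - d 0) ≤ 1 := (div_le_one hd01').2 (by linarith)
      have S01 := kink_super hβc hle hatt (hglob 0) (hglob 1) (t := (ρ - d 0) / (d 1 - d 0)) hρ0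
        s1 s2 (by field_simp; ring)
      refine ⟨_, _, ?_, S02, S01⟩
      intro heq
      apply haff
      have hne : ρ - d 0 ≠ 0 := by linarith
      have e1 : (ρ - d 0) * ((a 2 - a 0) / (d 2 - d 0)) =
          (ρ - d 0) * ((a 1 - a 0) / (d 1 - d 0)) := by
        have : (ρ - d 0) * ((a 2 - a 0) / (d 2 - d 0)) =
          (1 - (ρ - d 0) / (d 2 - d 0)) * a 0 + (ρ - d 0) / (d 2 - d 0) * a 2 - a 0 := by ring
        rw [this, heq]; ring
      have e2 := mul_left_cancel₀ hne e1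
      rw [div_eq_div_iff hd02.ne' hd01'.ne'] at e2
      linarith
    · have s1 : 0 ≤ (ρ - d 1) / (d 2 - d 1) := div_nonneg (by linarith) hd12'.le
      have s2 : (ρ - d 1) / (d 2 - d 1) ≤ 1 := (div_le_one hd12').2 (by linarith)
      have S12 := kink_super hβc hle hatt (hglob 1) (hglob 2) (t := (ρ - d 1) / (d 2 - d 1)) hρ0
        s1 s2 (by field_simp; ring)
      refine ⟨_, _, ?_, S02, S12⟩
      intro heq
      apply haff
      have hne : d 2 - ρ ≠ 0 := by linarith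
      have e1 : (d 2 - ρ) * ((a 2 - a 0) / (d 2 - d 0)) =
          (d 2 - ρ) * ((a 2 - a 1) / (d 2 - d 1)) := by
        have f1 : (d 2 - ρ) * ((a 2 - a 0) / (d 2 - d 0)) =
          a 2 - ((1 - (ρ - d 0) / (d 2 - d 0)) * a 0 + (ρ - d 0) / (d 2 - d 0) * a 2) := by
          field_simp; ring
        rw [f1, heq]
        field_simp
        ring
      have e2 := mul_left_cancel₀ hne e1
      rw [div_eq_div_iff hd02.ne' hd12'.ne'] at e2
      linarith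
  -- one-sided derivatives
  have hcv : ConvexOn ℝ (Ioi 0) (-(fun β => F β ρ)) := (hconc ρ hρ0).neg
  have hint : βc ∈ interior (Ioi (0:ℝ)) := by rw [interior_Ioi]; exact hβc
  have hdr : DifferentiableWithinAt ℝ (fun β => F β ρ) (Ioi βc) βc := by
    have := (hcv.differentiableWithinAt_Ioi_of_mem_interior hint).neg
    rwa [neg_neg] at this
  have hdl : DifferentiableWithinAt ℝ (fun β => F β ρ) (Iio βc) βc := by
    have := (hcv.differentiableWithinAt_Iio_of_mem_interior hint).neg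
    rwa [neg_neg] at this
  have hR := hdr.hasDerivWithinAt
  have hL := hdl.hasDerivWithinAt
  set R := derivWithin (fun β => F β ρ) (Ioi βc) βc with hRdef
  set Lf := derivWithin (fun β => F β ρ) (Iio βc) βc with hLdef
  have hRle : ∀ A : ℝ, (∀ β, 0 < β → F β ρ ≤ F βc ρ - A * (β - βc)) → R ≤ -A := by
    intro A hA
    have h1 := (hasDerivWithinAt_iff_tendsto_slope' (by simp)).1 hR
    apply le_of_tendsto h1
    filter_upwards [self_mem_nhdsWithin] with β hβ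
    have hβ' : βc < β := hβ
    rw [slope_def_field, div_le_iff₀ (by linarith)]
    have := hA β (by linarith)
    linarith
  have hLge : ∀ A : ℝ, (∀ β, 0 < β → F β ρ ≤ F βc ρ - A * (β - βc)) → -A ≤ Lf := by
    intro A hA
    have h1 := (hasDerivWithinAt_iff_tendsto_slope' (by simp)).1 hL
    apply ge_of_tendsto h1
    have hpos : ∀ᶠ β in 𝓝[<] βc, 0 < β := nhdsWithin_le_nhds (lt_mem_nhds hβc)
    filter_upwards [self_mem_nhdsWithin, hpos] with β hβ hβ0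
    have hβ' : β < βc := hβ
    rw [slope_def_field, le_div_iff_of_neg (by linarith)]
    have := hA β hβ0
    linarith
  have hRL : R < Lf := by
    rcases lt_or_gt_of_ne hAB with h | h
    · have := hRle B hB
      have := hLge A hA
      linarith
    · have := hRle A hA
      have := hLge B hB
      linarith
  have hinv : HasDerivAt (fun β : ℝ => 1 / β) (-(βc ^ 2)⁻¹) βc := by
    simpa [one_div] using hasDerivAt_inv hβc.ne'
  refine ⟨-(βc ^ 2)⁻¹ * F βc ρ + 1 / βc * Lf, -(βc ^ 2)⁻¹ * F βc ρ + 1 / βc * R, ?_, ?_, ?_⟩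
  · exact hinv.hasDerivWithinAt.mul hL
  · exact hinv.hasDerivWithinAt.mul hR
  · have : 1 / βc * R < 1 / βc * Lf := mul_lt_mul_of_pos_left hRL (by positivity)
    linarith

end Crest.Agent.Kac
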