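import Crest.Agent.Kac.Thermo

/-!
# Lipschitz bounds for bounded convex functions, and for the pressure
-/

open MeasureTheory Crest.ProbabilityR.Continuum Filter Topology Set
open scoped ENNReal

namespace Crest.Agent.Kac

/-- a bounded convex function on `[a-δ,b+δ]` is `C/δ`-Lipschitz on `[a,b]` -/
theorem lip1 {f : ℝ → ℝ} {a b δ C : ℝ} (hδ : 0 < δ)
    (hf : ConvexOn ℝ (Icc (a - δ) (b + δ)) f)
    (h0 : ∀ x ∈ Icc (a - δ) (b + δ), 0 ≤ f x ∧ f x ≤ C) :
    ∀ x ∈ Icc a b, ∀ y ∈ Icc a b, f x - f y ≤ C / δ * |x - y| := by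
  intro x hx y hy
  rcases lt_trichotomy x y with hxy | hxy | hxy
  · have h1 : (f x - f (a - δ)) / (x - (a - δ)) ≤ (f y - f x) / (y - x) := by
      apply hf.slope_mono_adjacent
      · exact ⟨le_refl _, by linarith [hx.1, hx.2]⟩
      · exact ⟨by linarith [hy.1], by linarith [hy.2]⟩
      · linarith [hx.1]
      · exact hxy
    have ha := h0 (a - δ) ⟨le_refl _, by linarith [hx.1, hx.2]⟩
    have hxx := h0 x ⟨by linarith [hx.1], by linarith [hx.2]⟩
    have hC : 0 ≤ C := ha.1.trans ha.2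
    have h2 : -(C / δ) ≤ (f x - f (a - δ)) / (x - (a - δ)) := by
      have hd : δ ≤ x - (a - δ) := by linarith [hx.1]
      rw [le_div_iff₀ (by linarith)]
      have h3 : C ≤ C / δ * (x - (a - δ)) := by
        rw [div_mul_eq_mul_div, le_div_iff₀ hδ]
        nlinarith
      nlinarith
    have h3 : -(C / δ) ≤ (f y - f x) / (y - x) := h2.trans h1
    rw [le_div_iff₀ (by linarith)] at h3
    rw [abs_of_neg (by linarith)]
    nlinarith
  · subst hxy
    simp
  · have h1 : (f x - f y) / (x - y) ≤ (f (b + δ) - f x) / ((b + δ) - x) := by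
      apply hf.slope_mono_adjacent
      · exact ⟨by linarith [hy.1], by linarith [hy.2]⟩
      · exact ⟨by linarith [hx.1, hx.2], le_refl _⟩
      · exact hxy
      · linarith [hx.2]
    have hb := h0 (b + δ) ⟨by linarith [hx.1, hx.2], le_refl _⟩
    have hxx := h0 x ⟨by linarith [hx.1], by linarith [hx.2]⟩
    have hC : 0 ≤ C := hb.1.trans hb.2
    have h2 : (f (b + δ) - f x) / ((b + δ) - x) ≤ C / δ := by
      have hd : δ ≤ (b + δ) - x := by linarith [hx.2]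
      rw [div_le_iff₀ (by linarith)]
      have h3 : C ≤ C / δ * ((b + δ) - x) := by
        rw [div_mul_eq_mul_div, le_div_iff₀ hδ]
        nlinarith
      nlinarith
    have h3 : (f x - f y) / (x - y) ≤ C / δ := h1.trans h2
    rw [div_le_iff₀ (by linarith)] at h3
    rw [abs_of_pos (by linarith)]
    exact h3

/-- explicit bound for the pressure on `[β0/2,β1+β0/2] × [-M-1,M+1]` -/
noncomputable def prC (B c β0 β1 M : ℝ) : ℝ :=
  1 + (M + 1 + 2 * (β1 + β0 / 2) * B) ^ 2 / (β0 * c)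

/-- explicit Lipschitz constant for the pressure on `[β0,β1] × [-M,M]` -/
noncomputable def prL (B c β0 β1 M : ℝ) : ℝ := prC B c β0 β1 M * (2 / β0 + 1)

theorem prC_pos {B c β0 β1 M : ℝ} (hβ0 : 0 < β0) (hc : 0 < c) : 0 < prC B c β0 β1 M := by
  unfold prC
  positivity

theorem prL_pos {B c β0 β1 M : ℝ} (hβ0 : 0 < β0) (hc : 0 < c) : 0 < prL B c β0 β1 M := by
  unfold prL
  have := prC_pos (B := B) (β1 := β1) (M := M) hβ0 hc
  positivity

section
variable {φr ψ : ℝ → ℝ} {θ B c : ℝ}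

theorem Pr_le_prC (h : Sys φr ψ θ B c) {β0 β1 M : ℝ} (hβ0 : 0 < β0) (hβ1 : β0 ≤ β1)
    (hM : 0 ≤ M) {β μ : ℝ} (hβ : β ∈ Icc (β0 / 2) (β1 + β0 / 2)) (hμ : μ ∈ Icc (-(M + 1)) (M + 1)) :
    Pr (tot φr ψ) β μ ≤ prC B c β0 β1 M := by
  have hβp : 0 < β := by linarith [hβ.1]
  refine (Pr_bound h hβp).trans ?_
  unfold prC
  have h1 : (μ + 2 * β * B) ^ 2 ≤ (M + 1 + 2 * (β1 + β0 / 2) * B) ^ 2 := by
    have hBB := h.B0
    have h2 : β * B ≤ (β1 + β0 / 2) * B := mul_le_mul_of_nonneg_right hβ.2 hBB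
    have h3 : 0 ≤ β * B := by positivity
    apply sq_le_sq'
    · nlinarith [hμ.1]
    · nlinarith [hμ.2]
  have hc := h.c0
  have h4 : β0 * c ≤ 2 * β * c := by nlinarith [hβ.1]
  have : (μ + 2 * β * B) ^ 2 / (2 * β * c) ≤ (M + 1 + 2 * (β1 + β0 / 2) * B) ^ 2 / (β0 * c) := by
    apply div_le_div₀ (by positivity) h1 (by positivity) h4
  linarith

/-- Lipschitz bound for the pressure, with constant depending only on `B, c, β0, β1, M` -/
theorem Pr_lip (h : Sys φr ψ θ B c) {β0 β1 M : ℝ} (hβ0 : 0 < β0) (hβ1 : β0 ≤ β1)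
    (hM : 0 ≤ M) {β β' μ μ' : ℝ} (hβ : β ∈ Icc β0 β1) (hβ' : β' ∈ Icc β0 β1)
    (hμ : μ ∈ Icc (-M) M) (hμ' : μ' ∈ Icc (-M) M) :
    Pr (tot φr ψ) β μ - Pr (tot φr ψ) β' μ' ≤ prL B c β0 β1 M * (|β - β'| + |μ - μ'|) := by
  have hconv := Pr_convex h
  have hCpos := prC_pos (B := B) (β1 := β1) (M := M) hβ0 h.c0
  -- β direction
  have hA : Pr (tot φr ψ) β μ - Pr (tot φr ψ) β' μ ≤
      prC B c β0 β1 M / (β0 / 2) * |β - β'| := by
    have hcv : ConvexOn ℝ (Icc (β0 - β0 / 2) (β1 + β0 / 2)) (fun t => Pr (tot φr ψ) t μ) := by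
      refine ⟨convex_Icc _ _, ?_⟩
      intro x hx y hy s t hs ht hst
      have := hconv.2 (x := ((x, μ) : ℝ × ℝ)) (y := ((y, μ) : ℝ × ℝ))
        ⟨by simp only [mem_Ioi]; linarith [hx.1], mem_univ _⟩
        ⟨by simp only [mem_Ioi]; linarith [hy.1], mem_univ _⟩ hs ht hst
      simp only [smul_eq_mul, Prod.smul_mk, Prod.mk_add_mk] at this
      have e : s * μ + t * μ = μ := by rw [← add_mul, hst, one_mul]
      rw [e] at this
      simpa [smul_eq_mul] using this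
    refine lip1 (by positivity) hcv ?_ β hβ β' hβ'
    intro x hx
    have hx' : x ∈ Icc (β0 / 2) (β1 + β0 / 2) := ⟨by linarith [hx.1], hx.2⟩
    exact ⟨Pr_nonneg h (by linarith [hx'.1]), Pr_le_prC h hβ0 hβ1 hM hx'
      ⟨by linarith [hμ.1], by linarith [hμ.2]⟩⟩
  have hBd : Pr (tot φr ψ) β' μ - Pr (tot φr ψ) β' μ' ≤
      prC B c β0 β1 M / 1 * |μ - μ'| := by
    have hcv : ConvexOn ℝ (Icc (-M - 1) (M + 1)) (fun t => Pr (tot φr ψ) β' t) := by
      refine ⟨convex_Icc _ _, ?_⟩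
      intro x hx y hy s t hs ht hst
      have := hconv.2 (x := ((β', x) : ℝ × ℝ)) (y := ((β', y) : ℝ × ℝ))
        ⟨by simp only [mem_Ioi]; linarith [hβ'.1], mem_univ _⟩
        ⟨by simp only [mem_Ioi]; linarith [hβ'.1], mem_univ _⟩ hs ht hst
      simp only [smul_eq_mul, Prod.smul_mk, Prod.mk_add_mk] at this
      have e : s * β' + t * β' = β' := by rw [← add_mul, hst, one_mul]
      rw [e] at this
      simpa [smul_eq_mul] using this
    refine lip1 one_pos hcv ?_ μ hμ μ' hμ'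
    intro x hx
    exact ⟨Pr_nonneg h (by linarith [hβ'.1]), Pr_le_prC h hβ0 hβ1 hM
      ⟨by linarith [hβ'.1], by linarith [hβ'.2]⟩ ⟨by linarith [hx.1], by linarith [hx.2]⟩⟩
  have e1 : prC B c β0 β1 M / (β0 / 2) = prC B c β0 β1 M * (2 / β0) := by
    field_simp
  have h1 : 0 ≤ |β - β'| := abs_nonneg _
  have h2 : 0 ≤ |μ - μ'| := abs_nonneg _
  have h3 : 0 ≤ prC B c β0 β1 M * (2 / β0) := by positivity
  unfold prL
  rw [e1] at hA
  rw [div_one] at hBd
  have : prC B c β0 β1 M * (2 / β0 + 1) * (|β - β'| + |μ - μ'|) =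
    prC B c β0 β1 M * (2 / β0) * |β - β'| + prC B c β0 β1 M * |μ - μ'| +
    (prC B c β0 β1 M * (2 / β0) * |μ - μ'| + prC B c β0 β1 M * |β - β'|) := by ring
  rw [this]
  have h4 : 0 ≤ prC B c β0 β1 M * (2 / β0) * |μ - μ'| + prC B c β0 β1 M * |β - β'| := by
    positivity
  linarith

end

end Crest.Agent.Kac
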