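import Crest.Agent.Kac.ConfigB

/-!
# Small lemmas on energies and partition functions used by the mean-field bounds
-/

open MeasureTheory Crest.ProbabilityR.Continuum Filter Topology Set
open scoped ENNReal

namespace Crest.Agent.Kac.MF

theorem energy_tot (φr ψ : ℝ → ℝ) {n : ℕ} (x : Fin n → Pt) :
    energy (tot φr ψ) x = energy φr x - energy ψ x := by
  unfold energy tot
  rw [Finset.sum_sub_distrib]

theorem energy_add (f g : ℝ → ℝ) {n : ℕ} (x : Fin n → Pt) :
    energy (fun r => f r + g r) x = energy f x + energy g x := by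
  unfold energy
  rw [Finset.sum_add_distrib]

theorem energy_smul (a : ℝ) (g : ℝ → ℝ) {n : ℕ} (x : Fin n → Pt) :
    energy (fun r => a * g r) x = a * energy g x := by
  unfold energy
  rw [Finset.mul_sum]

theorem energy_nonneg {f : ℝ → ℝ} (hf : ∀ r, 0 ≤ f r) {n : ℕ} (x : Fin n → Pt) :
    0 ≤ energy f x := Finset.sum_nonneg (fun _ _ => hf _)

theorem pairE_rad (β : ℝ) (φ : ℝ → ℝ) {n : ℕ} (x : Fin n → Pt) :
    pairE (rad β φ) x = β * energy φ x := by
  unfold pairE rad energy
  rw [Finset.mul_sum]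

theorem sys_meas {φr ψ : ℝ → ℝ} {θ B c : ℝ} (h : Sys φr ψ θ B c) : Measurable (tot φr ψ) :=
  h.mr.sub h.mψ

theorem sys_stable {φr ψ : ℝ → ℝ} {θ B c : ℝ} (h : Sys φr ψ θ B c) :
    ∀ (n : ℕ) (x : Fin n → Pt), -B * n ≤ energy (tot φr ψ) x := by
  intro n x
  rw [energy_tot]
  have h1 := h.dom n x
  have h2 : 0 ≤ energy φr x := energy_nonneg h.r0 x
  have h3 := h.θ1
  nlinarith

/-- comparison of partition functions from a pointwise comparison of energies -/
theorem partitionFn_ge {φ φ' : ℝ → ℝ} (hφ : Measurable φ) (hφ' : Measurable φ') {B B' : ℝ}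
    (hst : ∀ (n : ℕ) (x : Fin n → Pt), -B * n ≤ energy φ x)
    (hst' : ∀ (n : ℕ) (x : Fin n → Pt), -B' * n ≤ energy φ' x) {L β : ℝ} (hL : 0 < L)
    (hβ : 0 < β) (n : ℕ) (e : ℝ)
    (h : ∀ x : Fin n → Pt, (∀ i, x i ∈ cube L) → energy φ' x ≤ energy φ x - e) :
    Real.exp (β * e) * partitionFn φ L n β ≤ partitionFn φ' L n β := by
  have h1 := ofReal_partitionFn hφ hst (L := L) hβ n
  have h2 := ofReal_partitionFn hφ' hst' (L := L) hβ n
  have hp := partitionFn_pos hφ hst hL hβ n
  have hp' := partitionFn_pos hφ' hst' hL hβ n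
  rw [← ENNReal.ofReal_le_ofReal_iff hp'.le, ENNReal.ofReal_mul (Real.exp_pos _).le, h1, h2]
  unfold ZW
  rw [mul_left_comm]
  refine mul_le_mul_right ?_ _
  rw [← lintegral_const_mul' _ _ ENNReal.ofReal_ne_top]
  have hms : MeasurableSet (Set.pi Set.univ (fun _ : Fin n => cube L)) := by
    have hc : MeasurableSet (cube L) := by
      have : cube L = ⋂ k : Fin 3, {x : Pt | 0 ≤ x k ∧ x k ≤ L} := by
        ext x; simp [cube]
      rw [this]
      refine MeasurableSet.iInter (fun k => ?_)
      have hk : Measurable (fun x : Pt => x k) := by fun_prop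
      exact (measurableSet_le measurable_const hk).inter (measurableSet_le hk measurable_const)
    exact MeasurableSet.univ_pi (fun _ => hc)
  refine setLIntegral_mono' hms ?_
  intro x hx
  rw [← ENNReal.ofReal_mul (Real.exp_pos _).le, ← Real.exp_add]
  apply ENNReal.ofReal_le_ofReal
  apply Real.exp_le_exp.2
  rw [pairE_rad, pairE_rad]
  have := h x (fun i => hx i (mem_univ i))
  nlinarith


end Crest.Agent.Kac.MF
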