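import Crest.Agent.Kac.Thermo
import Crest.Agent.Kac.KernelB
import Crest.Agent.Kac.MFbase

open MeasureTheory Crest.ProbabilityR.Continuum Filter Topology Set
open scoped ENNReal

namespace Crest.Agent.Kac

open MF

theorem MF_lo {φr ψ : ℝ → ℝ} {θ B c θ' B' c' R b β μ y : ℝ} (h1 : Sys φr ψ θ B c)
    (h2 : Sys φr (fun r => ψ r + b * kap R r) θ' B' c') (hb : 0 ≤ b) (hR : 1 ≤ R) (hβ : 0 < β) :
    Pr (tot φr ψ) β (μ - β * b / (2 * vR R) + β * b * y) - β * b * y ^ 2 / 2 ≤
      Pr (tot φr (fun r => ψ r + b * kap R r)) β μ := by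
  set ψ' : ℝ → ℝ := fun r => ψ r + b * kap R r with hψ'
  have hv : 0 < vR R := vR_pos (by linarith)
  rw [sub_le_iff_le_add]
  apply Pr_le
  intro ρ hρ
  have hle := le_Pr h2 (μ := μ) hβ hρ
  -- Fe' ≤ Fe - β b ρ²/2 + β b ρ / (2 v)
  have key : Fe (tot φr ψ') β ρ ≤ Fe (tot φr ψ) β ρ -
      (β * b / 2) * (ρ ^ 2 - ρ / vR R) := by
    have t1 := thermo_limit h1 hβ hρ
    have t2 := thermo_limit h2 hβ hρ
    have hlim1 : Tendsto (fun L : ℝ => ((⌊ρ * L ^ 3⌋₊ : ℕ) : ℝ) / L ^ 3) atTop (𝓝 ρ) := by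
      have hL3 : Tendsto (fun L : ℝ => L ^ 3) atTop atTop := tendsto_pow_atTop (by norm_num)
      have := (tendsto_nat_floor_mul_div_atTop hρ).comp hL3
      exact this
    have hlim2 : Tendsto (fun L : ℝ => L / (L + R)) atTop (𝓝 1) := by
      have e : (fun L : ℝ => 1 - R / (L + R)) =ᶠ[atTop] fun L : ℝ => L / (L + R) := by
        filter_upwards [eventually_gt_atTop 0] with L hL
        have : L + R ≠ 0 := by positivity
        field_simp
        ring
      refine Tendsto.congr' e ?_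
      have : Tendsto (fun L : ℝ => R / (L + R)) atTop (𝓝 0) :=
        Tendsto.div_atTop tendsto_const_nhds (tendsto_atTop_add_const_right _ _ tendsto_id)
      simpa using tendsto_const_nhds.sub this
    have hlim3 : Tendsto (fun L : ℝ => (β * b / 2) *
        ((((⌊ρ * L ^ 3⌋₊ : ℕ) : ℝ) / L ^ 3) ^ 2 * (L / (L + R)) ^ 3 -
          (((⌊ρ * L ^ 3⌋₊ : ℕ) : ℝ) / L ^ 3) / vR R)) atTop
        (𝓝 ((β * b / 2) * (ρ ^ 2 * 1 ^ 3 - ρ / vR R))) := by
      exact (((hlim1.pow 2).mul (hlim2.pow 3)).sub (hlim1.div_const _)).const_mul _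
    have t3 := t1.sub hlim3
    have hle' : ∀ᶠ L : ℝ in atTop,
        -(1 / L ^ 3) * Real.log (partitionFn (tot φr ψ') L ⌊ρ * L ^ 3⌋₊ β) ≤
        -(1 / L ^ 3) * Real.log (partitionFn (tot φr ψ) L ⌊ρ * L ^ 3⌋₊ β) -
        (β * b / 2) *
        ((((⌊ρ * L ^ 3⌋₊ : ℕ) : ℝ) / L ^ 3) ^ 2 * (L / (L + R)) ^ 3 -
          (((⌊ρ * L ^ 3⌋₊ : ℕ) : ℝ) / L ^ 3) / vR R) := by
      filter_upwards [eventually_gt_atTop 0] with L hL
      set n := ⌊ρ * L ^ 3⌋₊ with hn
      have hp := partitionFn_pos (sys_meas h1) (sys_stable h1) hL hβ n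
      have hp' := partitionFn_pos (sys_meas h2) (sys_stable h2) hL hβ n
      have hge := partitionFn_ge (sys_meas h1) (sys_meas h2) (sys_stable h1) (sys_stable h2) hL hβ n
        (b / 2 * ((n : ℝ) ^ 2 / (L + R) ^ 3 - n / vR R)) (by
          intro x hx
          rw [energy_tot, energy_tot, hψ', energy_add, energy_smul, energy_kap,
            kap_zero (by linarith)]
          have hk := kap_sum_ge (R := R) (L := L) (by linarith) hL.le x hx
          have : b / 2 * ((n : ℝ) ^ 2 / (L + R) ^ 3) ≤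
              b / 2 * ∑ i, ∑ j, kap R (dist (x i) (x j)) :=
            mul_le_mul_of_nonneg_left hk (by positivity)
          have e : (n : ℝ) * (1 / vR R) = n / vR R := by ring
          rw [e]
          nlinarith)
      have hlog := Real.log_le_log (by positivity) hge
      rw [Real.log_mul (Real.exp_pos _).ne' hp.ne', Real.log_exp] at hlog
      have hL3 : 0 < 1 / L ^ 3 := by positivity
      have hLR : (L + R) ≠ 0 := by positivity
      have e2 : (β * b / 2) * ((((n : ℕ) : ℝ) / L ^ 3) ^ 2 * (L / (L + R)) ^ 3 -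
          (((n : ℕ) : ℝ) / L ^ 3) / vR R) =
          (1 / L ^ 3) * (β * (b / 2 * ((n : ℝ) ^ 2 / (L + R) ^ 3 - n / vR R))) := by
        have := hv.ne'
        field_simp
      rw [e2]
      have := mul_le_mul_of_nonneg_left hlog hL3.le
      linarith
    have := le_of_tendsto_of_tendsto t2 t3 hle'
    simpa using this
  have hsq : β * b * (ρ * y) - β * b * y ^ 2 / 2 ≤ β * b * ρ ^ 2 / 2 := by
    have : 0 ≤ β * b * (ρ - y) ^ 2 := by positivity
    nlinarith
  have e3 : (β * b / 2) * (ρ ^ 2 - ρ / vR R) = β * b * ρ ^ 2 / 2 - β * b / (2 * vR R) * ρ := by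
    have := hv.ne'
    field_simp
  rw [e3] at key
  nlinarith

end Crest.Agent.Kac
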