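import Crest.Agent.Kac.Defs

open MeasureTheory Crest.ProbabilityR.Continuum Filter Topology Set
open scoped ENNReal

namespace Crest.Agent.Kac

/-- one-dimensional counting lemma: two reals `a ≤ b` are separated by the grid of side `l`
shifted by `t l / M` for at most `(b-a) M / l + 1` values `t < M` -/
theorem count_sep_le {l : ℝ} (hl : 0 < l) {M : ℕ} (hM : 0 < M) {a b : ℝ} (hab : a ≤ b) :
    (((Finset.range M).filter (fun t : ℕ => ⌊(a - t * l / M) / l⌋ ≠ ⌊(b - t * l / M) / l⌋)).card : ℝ)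
      ≤ (b - a) * M / l + 1 := by
  have hM' : (0 : ℝ) < M := Nat.cast_pos.2 hM
  have key : ∀ (c : ℝ) (t : ℕ), (c - t * l / M) / l = (c * M / l - t) / M := by
    intro c t
    field_simp
  set α := a * M / l with hα
  set β := b * M / l with hβ
  have hαβ : α ≤ β := by
    rw [hα, hβ]
    gcongr
  have hcard : ((Finset.range M).filter
      (fun t : ℕ => ⌊(a - t * l / M) / l⌋ ≠ ⌊(b - t * l / M) / l⌋)).card
      ≤ (Finset.Ioc ⌊α⌋ ⌊β⌋).card := by
    refine Finset.card_le_card_of_injOn (fun t : ℕ => (M : ℤ) * ⌊(β - t) / M⌋ + t) ?_ ?_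
    · intro t ht
      rw [Finset.mem_coe, Finset.mem_filter, key, key] at ht
      obtain ⟨-, hne⟩ := ht
      have hle : (α - t) / M ≤ (β - t) / M := by gcongr
      have hlt : ⌊(α - t) / M⌋ < ⌊(β - t) / M⌋ := lt_of_le_of_ne (Int.floor_mono hle) hne
      have h1 : (α - t) / M < (⌊(β - t) / M⌋ : ℝ) := Int.floor_lt.1 hlt
      have h2 : ((⌊(β - t) / M⌋ : ℤ) : ℝ) ≤ (β - t) / M := Int.floor_le _
      rw [Finset.mem_coe, Finset.mem_Ioc]
      constructor
      · rw [Int.floor_lt]
        push_cast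
        rw [div_lt_iff₀ hM'] at h1
        linarith
      · rw [Int.le_floor]
        push_cast
        rw [le_div_iff₀ hM'] at h2
        linarith
    · intro t ht t' ht' heq
      rw [Finset.mem_coe, Finset.mem_filter, Finset.mem_range] at ht ht'
      have heq' : (M : ℤ) * ⌊(β - t) / M⌋ + t = (M : ℤ) * ⌊(β - t') / M⌋ + t' := heq
      have h1 : ((M : ℤ) * ⌊(β - t) / M⌋ + t) % M = (t : ℤ) := by
        rw [Int.mul_add_emod_self_left]
        exact Int.emod_eq_of_lt (by positivity) (by exact_mod_cast ht.1)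
      have h2 : ((M : ℤ) * ⌊(β - t') / M⌋ + t') % M = (t' : ℤ) := by
        rw [Int.mul_add_emod_self_left]
        exact Int.emod_eq_of_lt (by positivity) (by exact_mod_cast ht'.1)
      rw [heq', h2] at h1
      exact_mod_cast h1.symm
  have h2 : ((Finset.Ioc ⌊α⌋ ⌊β⌋).card : ℝ) ≤ β - α + 1 := by
    rw [Int.card_Ioc]
    have h3 : (0 : ℤ) ≤ ⌊β⌋ - ⌊α⌋ := sub_nonneg.2 (Int.floor_mono hαβ)
    have h4 : (((⌊β⌋ - ⌊α⌋).toNat : ℕ) : ℝ) = ((⌊β⌋ - ⌊α⌋ : ℤ) : ℝ) := by
      rw [← Int.cast_natCast, Int.toNat_of_nonneg h3]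
    rw [h4]
    push_cast
    have h5 := Int.floor_le β
    have h6 := Int.lt_floor_add_one α
    linarith
  have h7 : β - α = (b - a) * M / l := by
    rw [hα, hβ]; ring
  rw [← h7]
  exact (Nat.cast_le.2 hcard).trans h2

theorem count_sep_le' {l : ℝ} (hl : 0 < l) {M : ℕ} (hM : 0 < M) (a b : ℝ) :
    (((Finset.range M).filter (fun t : ℕ => ⌊(a - t * l / M) / l⌋ ≠ ⌊(b - t * l / M) / l⌋)).card : ℝ)
      ≤ |b - a| * M / l + 1 := by
  rcases le_total a b with h | h
  · rw [abs_of_nonneg (sub_nonneg.2 h)]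
    exact count_sep_le hl hM h
  · rw [abs_of_nonpos (sub_nonpos.2 h), neg_sub]
    have := count_sep_le hl hM h
    simp_rw [ne_comm (a := ⌊(a - _ * l / M) / l⌋)]
    exact this

theorem abs_coord_sub_le (x y : Pt) (k : Fin 3) : |y k - x k| ≤ dist x y := by
  rw [dist_comm, dist_eq_norm]
  have := PiLp.norm_apply_le (y - x) k
  simpa [Real.norm_eq_abs] using this

open Classical in
/-- number of shifts whose grid separates `x` and `y` -/
theorem card_sep_le {l : ℝ} (hl : 0 < l) {M : ℕ} (hM : 0 < M) (x y : Pt) :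
    (((Finset.range M).filter
      (fun t : ℕ => cellIdx l (t * l / M) x ≠ cellIdx l (t * l / M) y)).card : ℝ)
      ≤ 3 * (dist x y * M / l + 1) := by
  have hM' : (0 : ℝ) < M := Nat.cast_pos.2 hM
  have hsub : (Finset.range M).filter
      (fun t : ℕ => cellIdx l (t * l / M) x ≠ cellIdx l (t * l / M) y)
      ⊆ Finset.univ.biUnion fun k : Fin 3 => (Finset.range M).filter
        (fun t : ℕ => ⌊(x k - t * l / M) / l⌋ ≠ ⌊(y k - t * l / M) / l⌋) := by
    intro t ht
    rw [Finset.mem_filter] at ht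
    obtain ⟨k, hk⟩ := Function.ne_iff.1 ht.2
    rw [Finset.mem_biUnion]
    exact ⟨k, Finset.mem_univ k, Finset.mem_filter.2 ⟨ht.1, hk⟩⟩
  calc (((Finset.range M).filter
      (fun t : ℕ => cellIdx l (t * l / M) x ≠ cellIdx l (t * l / M) y)).card : ℝ)
      ≤ ((∑ k : Fin 3, ((Finset.range M).filter
        (fun t : ℕ => ⌊(x k - t * l / M) / l⌋ ≠ ⌊(y k - t * l / M) / l⌋)).card : ℕ) : ℝ) :=
        Nat.cast_le.2 ((Finset.card_le_card hsub).trans Finset.card_biUnion_le)
    _ ≤ ∑ k : Fin 3, (dist x y * M / l + 1) := by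
        push_cast
        refine Finset.sum_le_sum fun k _ => ?_
        refine (count_sep_le' hl hM (x k) (y k)).trans ?_
        have := abs_coord_sub_le x y k
        gcongr
    _ = 3 * (dist x y * M / l + 1) := by
        rw [Finset.sum_const, Finset.card_univ, Fintype.card_fin]
        simp
        ring

open Classical in
/-- number of shifts keeping `x` and `y` together, as a fraction of `M` -/
theorem card_same_ge {l : ℝ} (hl : 0 < l) {M : ℕ} (hM : 0 < M) (x y : Pt) {R' : ℝ}
    (h : dist x y ≤ R') :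
    (1 - 3 * (R' / l + 1 / (M : ℝ))) ≤ (((Finset.range M).filter
      (fun t : ℕ => cellIdx l (t * l / M) x = cellIdx l (t * l / M) y)).card : ℝ) / M := by
  have hM' : (0 : ℝ) < M := Nat.cast_pos.2 hM
  have h1 := card_sep_le hl hM x y
  have h2 := Finset.card_filter_add_card_filter_not (s := Finset.range M)
    (fun t : ℕ => cellIdx l (t * l / M) x = cellIdx l (t * l / M) y)
  rw [Finset.card_range] at h2
  have h3 : (((Finset.range M).filter
      (fun t : ℕ => cellIdx l (t * l / M) x = cellIdx l (t * l / M) y)).card : ℝ)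
      + (((Finset.range M).filter
      (fun t : ℕ => cellIdx l (t * l / M) x ≠ cellIdx l (t * l / M) y)).card : ℝ) = M := by
    exact_mod_cast h2
  rw [le_div_iff₀ hM']
  have h4 : 3 * (dist x y * M / l + 1) ≤ 3 * (R' / l + 1 / (M : ℝ)) * M := by
    have : 3 * (R' / l + 1 / (M : ℝ)) * M = 3 * (R' * M / l + 1) := by
      field_simp
    rw [this]
    gcongr
  linarith

end Crest.Agent.Kac
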