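import Crest.Agent.Kac.Thermo
import Crest.Agent.Kac.KernelB
import Crest.Agent.Kac.MFbase
import Crest.Agent.Kac.MFupCnt

/-!
# Mean field upper bound, part (i): grid decoupling
-/

open MeasureTheory Crest.ProbabilityR.Continuum Filter Topology Set
open scoped ENNReal

namespace Crest.Agent.Kac

/-- the one-cell grand canonical sum -/
noncomputable def MFX (φr ψ : ℝ → ℝ) (l β μ b R e : ℝ) : ℝ≥0∞ :=
  ∑' n : ℕ, ENNReal.ofReal (partitionFn (tot φr (fun r => (1 + e) * ψ r)) l n β *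
    Real.exp (μ * n + β * (b * (1 + 4 * l / R) ^ 6) * (n : ℝ) ^ 2 / (2 * l ^ 3)))

theorem partitionFn_zero (φ : ℝ → ℝ) (L β : ℝ) : partitionFn φ L 0 β = 1 := by
  unfold partitionFn energy
  have h : Set.pi Set.univ (fun _ : Fin 0 => cube L) = Set.univ := by
    ext x
    simp
  rw [h, Measure.restrict_univ]
  simp [volume_pi, Measure.real]

theorem MFX_ge_one (φr ψ : ℝ → ℝ) (l β μ b R e : ℝ) : 1 ≤ MFX φr ψ l β μ b R e := by
  unfold MFX
  refine le_trans ?_ (ENNReal.le_tsum 0)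
  rw [partitionFn_zero]
  simp

theorem Sys_scale {φr ψ : ℝ → ℝ} {B c e : ℝ} (h1 : Sys φr ψ (1 / 4) B c) (he0 : 0 ≤ e)
    (he1 : e ≤ 1) : Sys φr (fun r => (1 + e) * ψ r) (1 / 2) (2 * B) c where
  mr := h1.mr
  mψ := h1.mψ.const_mul _
  r0 := h1.r0
  r2 := h1.r2
  rint := h1.rint
  ψ0 := fun r => mul_nonneg (by linarith) (h1.ψ0 r)
  B0 := by have := h1.B0; linarith
  c0 := h1.c0
  θ0 := by norm_num
  θ1 := le_refl _
  dom := by
    intro n x
    rw [MF.energy_smul]
    have h2 := h1.dom n x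
    have h3 := MF.energy_nonneg h1.r0 x
    have h4 := MF.energy_nonneg h1.ψ0 x
    have h5 : 0 ≤ B * n := mul_nonneg h1.B0 (Nat.cast_nonneg _)
    nlinarith
  ss := by
    intro L hL n x hx
    have h2 := h1.ss L hL n x hx
    have h5 : 0 ≤ B * n := mul_nonneg h1.B0 (Nat.cast_nonneg _)
    linarith

/-! ### cells -/

theorem measurable_cellIdx (l τ : ℝ) : Measurable (cellIdx l τ) := by
  refine measurable_pi_lambda _ fun k => ?_
  have hk : Measurable (fun x : Pt => x k) := by fun_prop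
  exact Int.measurable_floor.comp ((hk.sub_const τ).div_const l)

/-- the cell with index `v` -/
def cell (l τ : ℝ) (v : Fin 3 → ℤ) : Set Pt := {x | cellIdx l τ x = v}

theorem measurableSet_cell (l τ : ℝ) (v : Fin 3 → ℤ) : MeasurableSet (cell l τ v) :=
  measurable_cellIdx l τ (measurableSet_singleton v)

theorem measurableSet_cube (L : ℝ) : MeasurableSet (cube L) := by
  have : cube L = ⋂ k : Fin 3, {x : Pt | 0 ≤ x k ∧ x k ≤ L} := by
    ext x; simp [cube]
  rw [this]
  refine MeasurableSet.iInter (fun k => ?_)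
  have hk : Measurable (fun x : Pt => x k) := by fun_prop
  exact (measurableSet_le measurable_const hk).inter (measurableSet_le hk measurable_const)

/-- corner of the cell -/
noncomputable def cellCorner (l τ : ℝ) (v : Fin 3 → ℤ) : Pt := WithLp.toLp 2 fun k => τ + l * v k

theorem cell_subset {l : ℝ} (hl : 0 < l) (τ : ℝ) (v : Fin 3 → ℤ) :
    cell l τ v ⊆ (fun x => x + cellCorner l τ v) '' cube l := by
  intro x hx
  refine ⟨x - cellCorner l τ v, fun k => ?_, by simp⟩
  have hk : ⌊(x k - τ) / l⌋ = v k := congrFun hx k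
  have h1 := Int.floor_le ((x k - τ) / l)
  have h2 := Int.lt_floor_add_one ((x k - τ) / l)
  rw [hk] at h1 h2
  rw [le_div_iff₀ hl] at h1
  rw [div_lt_iff₀ hl] at h2
  have h3 : (x - cellCorner l τ v) k = x k - (τ + l * v k) := by
    simp [cellCorner]
  rw [h3]
  constructor <;> nlinarith

/-- index set of the cells meeting the cube of side `L` -/
noncomputable def cellSet (l L : ℝ) : Finset (Fin 3 → ℤ) :=
  Fintype.piFinset fun _ => Finset.Icc (-1) ⌊L / l⌋

theorem card_cellSet {l L : ℝ} (hl : 0 < l) (hL : 0 ≤ L) :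
    ((cellSet l L).card : ℝ) ≤ (L / l + 2) ^ 3 := by
  unfold cellSet
  rw [Fintype.card_piFinset]
  simp only [Int.card_Icc, Finset.prod_const, Finset.card_univ, Fintype.card_fin]
  have h0 : 0 ≤ L / l := by positivity
  have h1 : (0 : ℤ) ≤ ⌊L / l⌋ + 1 - -1 := by
    have := Int.floor_nonneg.2 h0
    linarith
  have h2 : (((⌊L / l⌋ + 1 - -1).toNat : ℕ) : ℝ) = ((⌊L / l⌋ + 1 - -1 : ℤ) : ℝ) := by
    rw [← Int.cast_natCast, Int.toNat_of_nonneg h1]
  push_cast
  rw [h2]
  push_cast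
  have h3 := Int.floor_le (L / l)
  have h4 : (0 : ℝ) ≤ ⌊L / l⌋ := by exact_mod_cast Int.floor_nonneg.2 h0
  exact pow_le_pow_left₀ (by linarith) (by linarith) 3

theorem cube_subset_cells {l L τ : ℝ} (hl : 0 < l) (hτ0 : 0 ≤ τ) (hτl : τ < l) :
    cube L ⊆ ⋃ v ∈ cellSet l L, cell l τ v := by
  intro x hx
  rw [Set.mem_iUnion₂]
  refine ⟨cellIdx l τ x, ?_, rfl⟩
  unfold cellSet
  rw [Fintype.mem_piFinset]
  intro k
  rw [Finset.mem_Icc]
  obtain ⟨h0, h1⟩ := hx k
  unfold cellIdx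
  constructor
  · rw [Int.le_floor, le_div_iff₀ hl]
    push_cast
    linarith
  · refine Int.floor_mono ?_
    gcongr
    linarith

/-! ### the decoupled pair function -/

open Classical in
/-- decoupled pair function of the grid shifted by `τ` -/
noncomputable def Wsh (f : ℝ → ℝ) (l τ β κ : ℝ) (x y : Pt) : ℝ :=
  if cellIdx l τ x = cellIdx l τ y then β * f (dist x y) - κ else 0

theorem measurable_Wsh {f : ℝ → ℝ} (hf : Measurable f) (l τ β κ : ℝ) :
    Measurable (Function.uncurry (Wsh f l τ β κ)) := by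
  have h1 : MeasurableSet {p : Pt × Pt | cellIdx l τ p.1 = cellIdx l τ p.2} :=
    measurableSet_eq_fun ((measurable_cellIdx l τ).comp measurable_fst)
      ((measurable_cellIdx l τ).comp measurable_snd)
  have h2 : Measurable (fun p : Pt × Pt => β * f (dist p.1 p.2) - κ) :=
    ((hf.comp (measurable_fst.dist measurable_snd)).const_mul β).sub_const κ
  have h3 : Function.uncurry (Wsh f l τ β κ) =
      Set.piecewise {p : Pt × Pt | cellIdx l τ p.1 = cellIdx l τ p.2}
        (fun p : Pt × Pt => β * f (dist p.1 p.2) - κ) (fun _ => 0) := by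
    ext p
    simp only [Function.uncurry, Wsh, Set.piecewise, Set.mem_ofPred_eq]
  rw [h3]
  exact Measurable.piecewise h1 h2 measurable_const

theorem Wsh_symm (f : ℝ → ℝ) (l τ β κ : ℝ) (x y : Pt) :
    Wsh f l τ β κ x y = Wsh f l τ β κ y x := by
  unfold Wsh
  rw [dist_comm x y]
  by_cases h : cellIdx l τ x = cellIdx l τ y
  · rw [if_pos h, if_pos h.symm]
  · rw [if_neg h, if_neg (fun h' => h h'.symm)]

theorem pairE_const (κ : ℝ) {n : ℕ} (x : Fin n → Pt) :
    pairE (fun _ _ => κ) x = κ * ((n : ℝ) * (n - 1) / 2) := by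
  rw [sE_eq_pairE (fun _ _ => rfl)]
  unfold sE
  simp
  ring

/-- inside a cell: partition function with the decoupled pair function -/
theorem ZW_Wsh_cell_le {f : ℝ → ℝ} (hf : Measurable f) {B' : ℝ}
    (hst : ∀ (n : ℕ) (x : Fin n → Pt), -B' * n ≤ energy f x) {l : ℝ} (hl : 0 < l) (τ : ℝ)
    {β : ℝ} (hβ : 0 < β) (κ : ℝ) (v : Fin 3 → ℤ) (n : ℕ) :
    ZW (Wsh f l τ β κ) (cell l τ v) n ≤
      ENNReal.ofReal (Real.exp (κ * ((n : ℝ) * (n - 1) / 2)) * partitionFn f l n β) := by
  have hrad : Measurable (Function.uncurry (rad β f)) := by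
    have : Measurable (fun p : Pt × Pt => β * f (dist p.1 p.2)) :=
      (hf.comp (measurable_fst.dist measurable_snd)).const_mul β
    exact this
  have htr : ZW (rad β f) (cell l τ v) n ≤ ENNReal.ofReal (partitionFn f l n β) := by
    rw [ofReal_partitionFn hf hst hβ n, ← ZW_translate hrad (cellCorner l τ v)
      (fun x y => by unfold rad; rw [dist_add_right]) (cube l) n]
    exact ZW_mono_set _ (cell_subset hl τ v) n
  rw [ENNReal.ofReal_mul (Real.exp_pos _).le]
  refine le_trans ?_ (mul_le_mul_right htr _)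
  unfold ZW
  rw [mul_left_comm]
  refine mul_le_mul_right ?_ _
  rw [← lintegral_const_mul' _ _ ENNReal.ofReal_ne_top]
  refine setLIntegral_mono' (MeasurableSet.univ_pi fun _ => measurableSet_cell l τ v)
    fun x hx => ?_
  rw [← ENNReal.ofReal_mul (Real.exp_pos _).le, ← Real.exp_add]
  refine ENNReal.ofReal_le_ofReal (Real.exp_le_exp.2 (le_of_eq ?_))
  have h1 : pairE (Wsh f l τ β κ) x = pairE (rad β f) x - κ * ((n : ℝ) * (n - 1) / 2) := by
    rw [← pairE_const κ x]
    unfold pairE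
    rw [← Finset.sum_sub_distrib]
    refine Finset.sum_congr rfl fun p _ => ?_
    unfold Wsh rad
    rw [if_pos ((hx p.1.1 (mem_univ _)).trans (hx p.1.2 (mem_univ _)).symm)]
  rw [h1]
  ring

/-- partition function of the decoupled system in the big cube -/
theorem ZW_Wsh_cube_le {f : ℝ → ℝ} (hf : Measurable f) {B' : ℝ}
    (hst : ∀ (n : ℕ) (x : Fin n → Pt), -B' * n ≤ energy f x) {l : ℝ} (hl : 0 < l) {τ : ℝ}
    (hτ0 : 0 ≤ τ) (hτl : τ < l) {β : ℝ} (hβ : 0 < β) (κ μ : ℝ) {L : ℝ} (X : ℝ≥0∞)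
    (hX : ∑' n : ℕ, ENNReal.ofReal (partitionFn f l n β *
      Real.exp (μ * n + κ * (n : ℝ) ^ 2 / 2)) ≤ X) (n : ℕ) :
    ZW (Wsh f l τ β κ) (cube L) n * ENNReal.ofReal (Real.exp (μ + κ / 2)) ^ n
      ≤ X ^ (cellSet l L).card := by
  refine le_trans (mul_le_mul_left (ZW_mono_set _ (cube_subset_cells hl hτ0 hτl) n) _) ?_
  refine ZW_sub_fam (measurable_Wsh hf l τ β κ) (Wsh_symm f l τ β κ) (cellSet l L)
    (fun v => cell l τ v) (fun v => measurableSet_cell l τ v) ?_ ?_ _ X ?_ n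
  · intro v _ w _ hvw
    rw [Set.disjoint_left]
    intro x hx hy
    exact hvw (hx.symm.trans hy)
  · intro v _ w _ hvw x hx y hy
    unfold Wsh
    rw [if_neg]
    intro h
    exact hvw (hx.symm.trans (h.trans hy))
  · intro v _
    refine le_trans (ENNReal.tsum_le_tsum fun m => ?_) hX
    refine le_trans (mul_le_mul_left (ZW_Wsh_cell_le hf hst hl τ hβ κ v m) _) ?_
    rw [← ENNReal.ofReal_pow (Real.exp_pos _).le, ← Real.exp_nat_mul,
      mul_comm (Real.exp _) (partitionFn f l m β), mul_comm, mul_comm (partitionFn f l m β),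
      mul_comm (partitionFn f l m β)]
    rw [← ENNReal.ofReal_mul (Real.exp_pos _).le, ← mul_assoc, ← Real.exp_add]
    refine le_of_eq ?_
    congr 3
    ring

/-! ### decoupling of the energy -/

open Classical in
/-- indicator of "same cell" -/
noncomputable def Isame (l τ : ℝ) (x y : Pt) : ℝ :=
  if cellIdx l τ x = cellIdx l τ y then 1 else 0

theorem Isame_symm (l τ : ℝ) (x y : Pt) : Isame l τ x y = Isame l τ y x := by
  unfold Isame
  by_cases h : cellIdx l τ x = cellIdx l τ y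
  · rw [if_pos h, if_pos h.symm]
  · rw [if_neg h, if_neg (fun h' => h h'.symm)]

theorem Wsh_eq (f : ℝ → ℝ) (l τ β κ : ℝ) (x y : Pt) :
    Wsh f l τ β κ x y = Isame l τ x y * (β * f (dist x y) - κ) := by
  unfold Wsh Isame
  split_ifs <;> simp

theorem sqOcc_eq (l τ : ℝ) {n : ℕ} (x : Fin n → Pt) :
    sqOcc l τ x = n + 2 * pairE (Isame l τ) x := by
  rw [sE_eq_pairE (Isame_symm l τ)]
  unfold sE sqOcc
  have h : ∑ i, Isame l τ (x i) (x i) = (n : ℝ) := by
    unfold Isame
    simp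
  rw [h]
  unfold Isame
  ring

/-- fraction of the shifts for which `x` and `y` are in the same cell -/
noncomputable def qf (l : ℝ) (M : ℕ) (x y : Pt) : ℝ :=
  (1 / (M : ℝ)) * ∑ t ∈ Finset.range M, Isame l (t * l / M) x y

theorem qf_nonneg (l : ℝ) (M : ℕ) (x y : Pt) : 0 ≤ qf l M x y := by
  unfold qf Isame
  refine mul_nonneg (by positivity) (Finset.sum_nonneg fun t _ => ?_)
  split_ifs <;> norm_num

theorem qf_le_one (l : ℝ) {M : ℕ} (hM : 0 < M) (x y : Pt) : qf l M x y ≤ 1 := by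
  have hM' : (0 : ℝ) < M := Nat.cast_pos.2 hM
  unfold qf
  have : ∑ t ∈ Finset.range M, Isame l (t * l / M) x y ≤ ∑ t ∈ Finset.range M, (1 : ℝ) := by
    refine Finset.sum_le_sum fun t _ => ?_
    unfold Isame
    split_ifs <;> norm_num
  rw [Finset.sum_const, Finset.card_range, nsmul_eq_mul, mul_one] at this
  rw [one_div, inv_mul_le_iff₀ hM', mul_one]
  exact this

theorem qf_ge {l : ℝ} (hl : 0 < l) {M : ℕ} (hM : 0 < M) {R' : ℝ} {x y : Pt}
    (h : dist x y ≤ R') : 1 - 3 * (R' / l + 1 / (M : ℝ)) ≤ qf l M x y := by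
  classical
  refine (card_same_ge hl hM x y h).trans (le_of_eq ?_)
  unfold qf Isame
  rw [Finset.sum_boole, one_div, inv_mul_eq_div]

theorem avg_pairE (g : Pt → Pt → ℝ) (l : ℝ) (M : ℕ) {n : ℕ} (x : Fin n → Pt) :
    (1 / (M : ℝ)) * ∑ t ∈ Finset.range M, pairE (fun u v => Isame l (t * l / M) u v * g u v) x
      = pairE (fun u v => qf l M u v * g u v) x := by
  unfold pairE qf
  rw [Finset.sum_comm, Finset.mul_sum]
  refine Finset.sum_congr rfl fun p _ => ?_
  rw [← Finset.sum_mul]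
  ring

/-- the energy of the interacting system dominates the average over shifts of the decoupled
energies -/
theorem energy_decouple {φr ψ : ℝ → ℝ} {b R R' l β e : ℝ} {M : ℕ}
    (hφ0 : ∀ r, 0 ≤ φr r) (hψ0 : ∀ r, 0 ≤ ψ r) (hr : ∀ r, R' ≤ r → ψ r = 0) (hb : 0 ≤ b)
    (hR : 0 < R) (hl : 0 < l) (hβ : 0 < β) (hM : 0 < M)
    (he : 1 ≤ (1 + e) * (1 - 3 * (R' / l + 1 / (M : ℝ)))) (he0 : 0 ≤ e)
    {n : ℕ} (x : Fin n → Pt) :
    -(β * energy (tot φr (fun r => ψ r + b * kap R r)) x) ≤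
      (∑ t ∈ Finset.range M, (1 / (M : ℝ)) *
        (-pairE (Wsh (tot φr (fun r => (1 + e) * ψ r)) l (t * l / M) β
          (β * (b * (1 + 4 * l / R) ^ 6) / l ^ 3)) x))
      + β * (b * (1 + 4 * l / R) ^ 6) / l ^ 3 / 2 * n := by
  have hM' : (0 : ℝ) < M := Nat.cast_pos.2 hM
  set κ := β * (b * (1 + 4 * l / R) ^ 6) / l ^ 3 with hκ
  set f := tot φr (fun r => (1 + e) * ψ r) with hf
  have hκ0 : 0 ≤ κ := by rw [hκ]; positivity
  -- kernel part
  have hk1 : ∀ t ∈ Finset.range M, β * (b * energy (kap R) x) ≤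
      κ / 2 * sqOcc l (t * l / M) x := by
    intro t _
    rw [energy_kap]
    have h1 := kap_sum_le (R := R) (l := l) hR hl (t * l / M) x
    have h2 : 0 ≤ (n : ℝ) * kap R 0 := mul_nonneg (Nat.cast_nonneg _) (kap_nonneg R 0)
    have h3 : (∑ i, ∑ j, kap R (dist (x i) (x j)) - n * kap R 0) / 2 ≤
        ((1 + 4 * l / R) ^ 6 / l ^ 3 * sqOcc l (t * l / M) x) / 2 := by linarith
    calc β * (b * ((∑ i, ∑ j, kap R (dist (x i) (x j)) - n * kap R 0) / 2))
        ≤ β * (b * (((1 + 4 * l / R) ^ 6 / l ^ 3 * sqOcc l (t * l / M) x) / 2)) := by gcongr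
      _ = κ / 2 * sqOcc l (t * l / M) x := by rw [hκ]; ring
  have hk2 : β * (b * energy (kap R) x) ≤ κ / 2 * n + κ * pairE (fun u v => qf l M u v * 1) x := by
    have h1 : (1 / (M : ℝ)) * ∑ t ∈ Finset.range M, β * (b * energy (kap R) x)
        ≤ (1 / (M : ℝ)) * ∑ t ∈ Finset.range M, κ / 2 * sqOcc l (t * l / M) x := by
      refine mul_le_mul_of_nonneg_left (Finset.sum_le_sum hk1) (by positivity)
    rw [Finset.sum_const, Finset.card_range, nsmul_eq_mul, ← mul_assoc,
      one_div_mul_cancel hM'.ne', one_mul] at h1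
    refine h1.trans (le_of_eq ?_)
    rw [← avg_pairE]
    simp_rw [sqOcc_eq, mul_one, mul_add, Finset.sum_add_distrib]
    rw [Finset.sum_const, Finset.card_range, nsmul_eq_mul, mul_add, Finset.mul_sum,
      Finset.mul_sum, Finset.mul_sum]
    have h4 : (1 / (M : ℝ)) * (M * (κ / 2 * n)) = κ / 2 * n := by
      field_simp
    rw [h4]
    congr 1
    refine Finset.sum_congr rfl fun t _ => ?_
    ring
  -- the other parts
  have hp1 : pairE (fun u v => qf l M u v * φr (dist u v)) x ≤ energy φr x := by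
    unfold pairE energy
    refine Finset.sum_le_sum fun p _ => ?_
    have := qf_le_one l hM (x p.1.1) (x p.1.2)
    have := hφ0 (dist (x p.1.1) (x p.1.2))
    nlinarith
  have hp2 : energy ψ x ≤ pairE (fun u v => qf l M u v * ((1 + e) * ψ (dist u v))) x := by
    unfold pairE energy
    refine Finset.sum_le_sum fun p _ => ?_
    rcases le_total R' (dist (x p.1.1) (x p.1.2)) with h | h
    · simp only [hr _ h, mul_zero, le_refl]
    · have h1 := qf_ge (x := x p.1.1) (y := x p.1.2) hl hM h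
      have h2 := hψ0 (dist (x p.1.1) (x p.1.2))
      have h3 : 1 ≤ (1 + e) * qf l M (x p.1.1) (x p.1.2) :=
        he.trans (mul_le_mul_of_nonneg_left h1 (by linarith))
      nlinarith
  have hE : energy (tot φr (fun r => ψ r + b * kap R r)) x
      = energy φr x - (energy ψ x + b * energy (kap R) x) := by
    rw [MF.energy_tot, MF.energy_add, MF.energy_smul]
  have hW : ∑ t ∈ Finset.range M, (1 / (M : ℝ)) *
        (-pairE (Wsh f l (t * l / M) β κ) x)
      = -(pairE (fun u v => qf l M u v * (β * f (dist u v) - κ)) x) := by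
    have hWs : ∀ t : ℕ, pairE (Wsh f l (t * l / M) β κ) x
        = pairE (fun u v => Isame l (t * l / M) u v * (β * f (dist u v) - κ)) x := by
      intro t
      unfold pairE
      exact Finset.sum_congr rfl fun p _ => Wsh_eq _ _ _ _ _ _ _
    rw [← avg_pairE, ← Finset.mul_sum, Finset.sum_neg_distrib, mul_neg]
    simp_rw [hWs]
  have hW2 : pairE (fun u v => qf l M u v * (β * f (dist u v) - κ)) x
      = β * pairE (fun u v => qf l M u v * φr (dist u v)) x
        - β * pairE (fun u v => qf l M u v * ((1 + e) * ψ (dist u v))) x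
        - κ * pairE (fun u v => qf l M u v * 1) x := by
    unfold pairE
    rw [Finset.mul_sum, Finset.mul_sum, Finset.mul_sum, ← Finset.sum_sub_distrib,
      ← Finset.sum_sub_distrib]
    refine Finset.sum_congr rfl fun p _ => ?_
    rw [hf]
    unfold tot
    ring
  rw [hW, hW2, hE]
  nlinarith

theorem exp_avg_le {M : ℕ} (hM : 0 < M) (a : ℕ → ℝ) :
    Real.exp (∑ t ∈ Finset.range M, (1 / (M : ℝ)) * a t)
      ≤ ∑ t ∈ Finset.range M, (1 / (M : ℝ)) * Real.exp (a t) := by
  have hM' : (0 : ℝ) < M := Nat.cast_pos.2 hM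
  have h := convexOn_exp.map_sum_le (t := Finset.range M) (w := fun _ => 1 / (M : ℝ)) (p := a)
    (fun _ _ => by positivity) (by simp [hM'.ne']) (fun _ _ => mem_univ _)
  simpa [smul_eq_mul] using h

/-- finite-volume bound -/
theorem partitionFn_decouple {φr ψ : ℝ → ℝ} {B c b R R' l β e : ℝ} {M : ℕ}
    (h1 : Sys φr ψ (1 / 4) B c)
    (h2 : Sys φr (fun r => ψ r + b * kap R r) (1 / 4) B c) (hr : ∀ r, R' ≤ r → ψ r = 0)
    (hb : 0 ≤ b) (hR : 0 < R) (hl : 0 < l) (hβ : 0 < β) (hM : 0 < M) (he0 : 0 ≤ e) (he1 : e ≤ 1)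
    (he : 1 ≤ (1 + e) * (1 - 3 * (R' / l + 1 / (M : ℝ)))) (μ : ℝ) {L : ℝ} (n : ℕ) :
    ENNReal.ofReal (partitionFn (tot φr (fun r => ψ r + b * kap R r)) L n β *
        Real.exp (μ * n)) ≤ (MFX φr ψ l β μ b R e) ^ (cellSet l L).card := by
  have hM' : (0 : ℝ) < M := Nat.cast_pos.2 hM
  set κ := β * (b * (1 + 4 * l / R) ^ 6) / l ^ 3 with hκ
  set f := tot φr (fun r => (1 + e) * ψ r) with hf
  have hsc := Sys_scale h1 he0 he1
  have hfm : Measurable f := MF.sys_meas hsc
  have hfst := MF.sys_stable hsc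
  have hX : ∑' m : ℕ, ENNReal.ofReal (partitionFn f l m β *
      Real.exp (μ * m + κ * (m : ℝ) ^ 2 / 2)) ≤ MFX φr ψ l β μ b R e := by
    unfold MFX
    refine ENNReal.tsum_le_tsum fun m => le_of_eq ?_
    congr 4
    rw [hκ]
    field_simp
  -- integral bound
  have hmain : ZW (rad β (tot φr (fun r => ψ r + b * kap R r))) (cube L) n ≤
      ∑ t ∈ Finset.range M, ENNReal.ofReal (1 / (M : ℝ)) *
        (ZW (Wsh f l (t * l / M) β κ) (cube L) n * ENNReal.ofReal (Real.exp (κ / 2)) ^ n) := by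
    have hpt : ∀ x : Fin n → Pt, ENNReal.ofReal
        (Real.exp (-pairE (rad β (tot φr (fun r => ψ r + b * kap R r))) x)) ≤
        ∑ t ∈ Finset.range M, ENNReal.ofReal (1 / (M : ℝ)) *
          (ENNReal.ofReal (Real.exp (-pairE (Wsh f l (t * l / M) β κ) x)) *
            ENNReal.ofReal (Real.exp (κ / 2)) ^ n) := by
      intro x
      have hd := energy_decouple h1.r0 h1.ψ0 hr hb hR hl hβ hM he he0 x
      rw [← hκ, ← hf] at hd
      rw [MF.pairE_rad]
      have h3 : Real.exp (-(β * energy (tot φr (fun r => ψ r + b * kap R r)) x)) ≤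
          ∑ t ∈ Finset.range M, (1 / (M : ℝ)) *
            (Real.exp (-pairE (Wsh f l (t * l / M) β κ) x) * Real.exp (κ / 2) ^ n) := by
        calc Real.exp (-(β * energy (tot φr (fun r => ψ r + b * kap R r)) x))
            ≤ Real.exp ((∑ t ∈ Finset.range M, (1 / (M : ℝ)) *
                (-pairE (Wsh f l (t * l / M) β κ) x)) + κ / 2 * n) := Real.exp_le_exp.2 hd
          _ = Real.exp (∑ t ∈ Finset.range M, (1 / (M : ℝ)) *
                (-pairE (Wsh f l (t * l / M) β κ) x)) * Real.exp (κ / 2) ^ n := by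
              rw [Real.exp_add, ← Real.exp_nat_mul, mul_comm (κ / 2) (n : ℝ)]
          _ ≤ (∑ t ∈ Finset.range M, (1 / (M : ℝ)) *
                Real.exp (-pairE (Wsh f l (t * l / M) β κ) x)) * Real.exp (κ / 2) ^ n := by
              gcongr
              exact exp_avg_le hM _
          _ = _ := by
              rw [Finset.sum_mul]
              refine Finset.sum_congr rfl fun t _ => ?_
              ring
      refine (ENNReal.ofReal_le_ofReal h3).trans (le_of_eq ?_)
      rw [ENNReal.ofReal_sum_of_nonneg (fun t _ => by positivity)]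
      refine Finset.sum_congr rfl fun t _ => ?_
      rw [ENNReal.ofReal_mul (by positivity), ENNReal.ofReal_mul (Real.exp_pos _).le,
        ENNReal.ofReal_pow (Real.exp_pos _).le]
    have hms : ∀ t : ℕ, Measurable (fun x : Fin n → Pt =>
        ENNReal.ofReal (Real.exp (-pairE (Wsh f l (t * l / M) β κ) x))) := by
      intro t
      have h4 : ∀ x : Fin n → Pt, pairE (Wsh f l (t * l / M) β κ) x
          = sE (Wsh f l (t * l / M) β κ) x := fun x =>
        sE_eq_pairE (Wsh_symm f l (t * l / M) β κ) x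
      simp_rw [h4]
      exact measurable_expE (measurable_Wsh hfm l _ β κ)
    calc ZW (rad β (tot φr (fun r => ψ r + b * kap R r))) (cube L) n
        ≤ (n.factorial : ℝ≥0∞)⁻¹ * ∫⁻ x in Set.pi Set.univ (fun _ : Fin n => cube L),
            ∑ t ∈ Finset.range M, ENNReal.ofReal (1 / (M : ℝ)) *
              (ENNReal.ofReal (Real.exp (-pairE (Wsh f l (t * l / M) β κ) x)) *
                ENNReal.ofReal (Real.exp (κ / 2)) ^ n) := by
          unfold ZW
          exact mul_le_mul_right (lintegral_mono hpt) _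
      _ = _ := by
          rw [lintegral_finsetSum _ fun t _ =>
            (((hms t).mul_const _).const_mul _), Finset.mul_sum]
          refine Finset.sum_congr rfl fun t _ => ?_
          rw [lintegral_const_mul _ ((hms t).mul_const _), lintegral_mul_const _ (hms t)]
          unfold ZW
          ring
  have hm' : Measurable (tot φr (fun r => ψ r + b * kap R r)) := MF.sys_meas h2
  rw [ENNReal.ofReal_mul' (Real.exp_pos _).le, ofReal_partitionFn hm' (MF.sys_stable h2) hβ n]
  calc ZW (rad β (tot φr (fun r => ψ r + b * kap R r))) (cube L) n *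
        ENNReal.ofReal (Real.exp (μ * n))
      ≤ (∑ t ∈ Finset.range M, ENNReal.ofReal (1 / (M : ℝ)) *
        (ZW (Wsh f l (t * l / M) β κ) (cube L) n * ENNReal.ofReal (Real.exp (κ / 2)) ^ n)) *
        ENNReal.ofReal (Real.exp (μ * n)) := mul_le_mul_left hmain _
    _ = ∑ t ∈ Finset.range M, ENNReal.ofReal (1 / (M : ℝ)) *
        (ZW (Wsh f l (t * l / M) β κ) (cube L) n *
          ENNReal.ofReal (Real.exp (μ + κ / 2)) ^ n) := by
        rw [Finset.sum_mul]
        refine Finset.sum_congr rfl fun t _ => ?_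
        have h5 : ENNReal.ofReal (Real.exp (μ + κ / 2)) ^ n
            = ENNReal.ofReal (Real.exp (κ / 2)) ^ n * ENNReal.ofReal (Real.exp (μ * n)) := by
          rw [← ENNReal.ofReal_pow (Real.exp_pos _).le, ← ENNReal.ofReal_pow (Real.exp_pos _).le,
            ← ENNReal.ofReal_mul (by positivity), ← Real.exp_nat_mul, ← Real.exp_nat_mul,
            ← Real.exp_add]
          congr 2
          ring
        rw [h5]
        ring
    _ ≤ ∑ t ∈ Finset.range M, ENNReal.ofReal (1 / (M : ℝ)) *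
          (MFX φr ψ l β μ b R e) ^ (cellSet l L).card := by
        refine Finset.sum_le_sum fun t ht => mul_le_mul_right ?_ _
        have ht' : (t : ℝ) < M := by exact_mod_cast Finset.mem_range.1 ht
        refine ZW_Wsh_cube_le hfm hfst hl (by positivity) ?_ hβ κ μ _ hX n
        rw [div_lt_iff₀ hM', mul_comm l]
        exact mul_lt_mul_of_pos_right ht' hl
    _ = (MFX φr ψ l β μ b R e) ^ (cellSet l L).card := by
        rw [Finset.sum_const, Finset.card_range, nsmul_eq_mul, ← mul_assoc]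
        have h6 : (M : ℝ≥0∞) * ENNReal.ofReal (1 / (M : ℝ)) = 1 := by
          rw [one_div, ENNReal.ofReal_inv_of_pos hM', ENNReal.ofReal_natCast]
          exact ENNReal.mul_inv_cancel (by exact_mod_cast hM.ne') (ENNReal.natCast_ne_top _)
        rw [h6, one_mul]

theorem MFup_A {φr ψ : ℝ → ℝ} {B c b R R' l β μ e : ℝ} {M' : ℕ}
    (h1 : Sys φr ψ (1 / 4) B c)
    (h2 : Sys φr (fun r => ψ r + b * kap R r) (1 / 4) B c) (hr : ∀ r, R' ≤ r → ψ r = 0)
    (hb : 0 ≤ b) (hR : 0 < R) (hl : 0 < l) (hβ : 0 < β) (hM : 0 < M')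
    (he0 : 0 ≤ e) (he1 : e ≤ 1) (he : 1 ≤ (1 + e) * (1 - 3 * (R' / l + 1 / (M' : ℝ))))
    (hX : MFX φr ψ l β μ b R e ≠ ⊤) :
    Pr (tot φr (fun r => ψ r + b * kap R r)) β μ ≤
      (1 / l ^ 3) * Real.log (MFX φr ψ l β μ b R e).toReal := by
  set X := (MFX φr ψ l β μ b R e).toReal with hXdef
  have hX1 : 1 ≤ X := by
    rw [hXdef, ← ENNReal.toReal_one]
    exact ENNReal.toReal_mono hX (MFX_ge_one _ _ _ _ _ _ _ _)
  have hX0 : 0 < X := by linarith
  have hlog : 0 ≤ Real.log X := Real.log_nonneg hX1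
  refine Pr_upper h2 (A := 2 * l) hβ ?_
  filter_upwards [eventually_gt_atTop (0 : ℝ)] with L hL n
  have h3 := partitionFn_decouple h1 h2 hr hb hR hl hβ hM he0 he1 he μ (L := L) n
  have h4 : MFX φr ψ l β μ b R e = ENNReal.ofReal X := (ENNReal.ofReal_toReal hX).symm
  rw [h4, ← ENNReal.ofReal_pow hX0.le, ENNReal.ofReal_le_ofReal_iff (by positivity)] at h3
  refine h3.trans ?_
  have h5 : X ^ (cellSet l L).card = Real.exp ((cellSet l L).card * Real.log X) := by
    rw [Real.exp_nat_mul, Real.exp_log hX0]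
  rw [h5]
  refine Real.exp_le_exp.2 ?_
  have h6 := card_cellSet hl hL.le
  calc ((cellSet l L).card : ℝ) * Real.log X ≤ (L / l + 2) ^ 3 * Real.log X := by gcongr
    _ = 1 / l ^ 3 * Real.log X * (L + 2 * l) ^ 3 := by
        have h7 : L / l + 2 = (L + 2 * l) / l := by field_simp
        rw [h7, div_pow]
        ring

/-- version with explicit `e`, for real upper bounds `X` of the one-cell sum -/
theorem MF_X {φr ψ : ℝ → ℝ} {B c b R R' l β μ : ℝ}
    (h1 : Sys φr ψ (1 / 4) B c)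
    (h2 : Sys φr (fun r => ψ r + b * kap R r) (1 / 4) B c) (hr : ∀ r, R' ≤ r → ψ r = 0)
    (hb : 0 ≤ b) (hR' : 2 ≤ R') (hl : 12 * R' ≤ l) (hR : 50 * l ≤ R) (hβ : 0 < β) :
    ∃ e : ℝ, 0 ≤ e ∧ e ≤ 12 * R' / l ∧ e ≤ 1 ∧ ∀ X : ℝ, 1 ≤ X →
      ∑' n : ℕ, ENNReal.ofReal (partitionFn (tot φr (fun r => (1 + e) * ψ r)) l n β *
        Real.exp (μ * n + β * (b * (1 + 4 * l / R) ^ 6) * (n : ℝ) ^ 2 / (2 * l ^ 3)))
        ≤ ENNReal.ofReal X →
      Pr (tot φr (fun r => ψ r + b * kap R r)) β μ ≤ (1 / l ^ 3) * Real.log X := by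
  have hl0 : 0 < l := by linarith
  have hR0 : 0 < R := by linarith
  have hR'0 : 0 < R' := by linarith
  set M : ℕ := ⌈l / R'⌉₊ with hMdef
  have hM1 : l / R' ≤ M := Nat.le_ceil _
  have hlR : 12 ≤ l / R' := by rw [le_div_iff₀ hR'0]; exact hl
  have hM0 : (0 : ℝ) < M := by linarith
  have hMn : 0 < M := by exact_mod_cast hM0
  have hinv : 1 / (M : ℝ) ≤ R' / l := by
    rw [div_le_div_iff₀ hM0 hl0]
    rw [div_le_iff₀ hR'0] at hM1
    linarith
  set e0 := R' / l with he0def
  have he0pos : 0 < e0 := by positivity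
  have he0le : e0 ≤ 1 / 12 := by
    rw [he0def, div_le_iff₀ hl0]
    linarith
  refine ⟨12 * e0, by positivity, le_of_eq (by rw [he0def]; ring), by linarith, ?_⟩
  intro X hX1 hX
  have he : 1 ≤ (1 + 12 * e0) * (1 - 3 * (R' / l + 1 / (M : ℝ))) := by
    have h3 : 1 - 6 * e0 ≤ 1 - 3 * (R' / l + 1 / (M : ℝ)) := by
      rw [← he0def]
      linarith
    have h4 : 1 ≤ (1 + 12 * e0) * (1 - 6 * e0) := by nlinarith
    exact h4.trans (mul_le_mul_of_nonneg_left h3 (by positivity))
  have hXtop : MFX φr ψ l β μ b R (12 * e0) ≠ ⊤ :=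
    ne_top_of_le_ne_top ENNReal.ofReal_ne_top hX
  have h5 := MFup_A (μ := μ) h1 h2 hr hb hR0 hl0 hβ hMn (by positivity) (by linarith) he hXtop
  refine h5.trans ?_
  have h6 : (MFX φr ψ l β μ b R (12 * e0)).toReal ≤ X :=
    ENNReal.toReal_le_of_le_ofReal (by linarith) hX
  have h7 : 0 < (MFX φr ψ l β μ b R (12 * e0)).toReal := by
    have : (1 : ℝ≥0∞).toReal ≤ (MFX φr ψ l β μ b R (12 * e0)).toReal :=
      ENNReal.toReal_mono hXtop (MFX_ge_one _ _ _ _ _ _ _ _)
    rw [ENNReal.toReal_one] at this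
    linarith
  have h8 := Real.log_le_log h7 h6
  gcongr

end Crest.Agent.Kac
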