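import Crest.Agent.Kac.MFbase

/-!
# Crude upper bounds on partition functions, used in the mean-field upper bound
-/

open MeasureTheory Crest.ProbabilityR.Continuum Filter Topology Set
open scoped ENNReal

namespace Crest.Agent.Kac.MF

theorem partitionFn_le {φ : ℝ → ℝ} (hφ : Measurable φ) {B : ℝ}
    (hst : ∀ (n : ℕ) (x : Fin n → Pt), -B * n ≤ energy φ x) {L β : ℝ} (hL : 0 < L)
    (hβ : 0 < β) (n : ℕ) (e : ℝ)
    (h : ∀ x : Fin n → Pt, (∀ i, x i ∈ cube L) → e ≤ energy φ x) :
    partitionFn φ L n β ≤ Real.exp (L ^ 3 - β * e) := by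
  have h1 := ofReal_partitionFn hφ hst (L := L) hβ n
  have hp := partitionFn_pos hφ hst hL hβ n
  rw [← ENNReal.ofReal_le_ofReal_iff (Real.exp_pos _).le, h1]
  unfold ZW
  have hms : MeasurableSet (Set.pi Set.univ (fun _ : Fin n => cube L)) := by
    have hc : MeasurableSet (cube L) := by
      have : cube L = ⋂ k : Fin 3, {x : Pt | 0 ≤ x k ∧ x k ≤ L} := by
        ext x; simp [cube]
      rw [this]
      refine MeasurableSet.iInter (fun k => ?_)
      have hk : Measurable (fun x : Pt => x k) := by fun_prop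
      exact (measurableSet_le measurable_const hk).inter (measurableSet_le hk measurable_const)
    exact MeasurableSet.univ_pi (fun _ => hc)
  have h2 : ∫⁻ x in Set.pi Set.univ (fun _ : Fin n => cube L),
      ENNReal.ofReal (Real.exp (-pairE (rad β φ) x)) ≤
      ∫⁻ _x in Set.pi Set.univ (fun _ : Fin n => cube L), ENNReal.ofReal (Real.exp (-(β * e))) := by
    refine setLIntegral_mono' hms ?_
    intro x hx
    apply ENNReal.ofReal_le_ofReal
    apply Real.exp_le_exp.2
    rw [pairE_rad]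
    have := h x (fun i => hx i (mem_univ i))
    nlinarith
  have hvol : volume (Set.pi Set.univ (fun _ : Fin n => cube L)) = ENNReal.ofReal ((L ^ 3) ^ n) := by
    rw [volume_pi_pi]
    simp only [volume_cube hL.le, Finset.prod_const, Finset.card_univ, Fintype.card_fin]
    exact (ENNReal.ofReal_pow (by positivity) n).symm
  calc (n.factorial : ℝ≥0∞)⁻¹ * ∫⁻ x in Set.pi Set.univ (fun _ : Fin n => cube L),
      ENNReal.ofReal (Real.exp (-pairE (rad β φ) x))
      ≤ (n.factorial : ℝ≥0∞)⁻¹ * (ENNReal.ofReal (Real.exp (-(β * e))) *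
          ENNReal.ofReal ((L ^ 3) ^ n)) := by
        refine mul_le_mul_right ?_ _
        refine h2.trans ?_
        rw [setLIntegral_const, hvol]
    _ = ENNReal.ofReal ((n.factorial : ℝ)⁻¹ * (Real.exp (-(β * e)) * (L ^ 3) ^ n)) := by
        rw [ENNReal.ofReal_mul (by positivity), ENNReal.ofReal_mul (Real.exp_pos _).le,
          ENNReal.ofReal_inv_of_pos (by positivity), ENNReal.ofReal_natCast]
    _ ≤ ENNReal.ofReal (Real.exp (L ^ 3 - β * e)) := by
        apply ENNReal.ofReal_le_ofReal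
        have h3 : (L ^ 3) ^ n / (n.factorial : ℝ) ≤ Real.exp (L ^ 3) :=
          Real.pow_div_factorial_le_exp _ (by positivity) n
        have e1 : Real.exp (L ^ 3 - β * e) = Real.exp (L ^ 3) * Real.exp (-(β * e)) := by
          rw [← Real.exp_add]; ring_nf
        rw [e1]
        have := mul_le_mul_of_nonneg_right h3 (Real.exp_pos (-(β * e))).le
        calc (n.factorial : ℝ)⁻¹ * (Real.exp (-(β * e)) * (L ^ 3) ^ n)
            = (L ^ 3) ^ n / (n.factorial : ℝ) * Real.exp (-(β * e)) := by ring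
          _ ≤ _ := this

/-- the system with scaled attraction -/
theorem sys_scale' {φr ψ : ℝ → ℝ} {B c e : ℝ} (h1 : Sys φr ψ (1 / 4) B c) (he0 : 0 ≤ e)
    (he1 : e ≤ 1) : Sys φr (fun r => (1 + e) * ψ r) (1 / 2) (2 * B) c := by
  refine ⟨h1.mr, measurable_const.mul h1.mψ, h1.r0, h1.r2, h1.rint,
    fun r => mul_nonneg (by linarith) (h1.ψ0 r), by linarith [h1.B0], h1.c0, by norm_num,
    le_refl _, ?_, ?_⟩
  · intro n x
    rw [energy_smul]
    have h2 := h1.dom n x
    have h3 : 0 ≤ energy ψ x := energy_nonneg h1.ψ0 x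
    have h4 : 0 ≤ energy φr x := energy_nonneg h1.r0 x
    have h5 : (0 : ℝ) ≤ B * n := mul_nonneg h1.B0 (Nat.cast_nonneg n)
    nlinarith
  · intro L hL n x hx
    have h2 := h1.ss L hL n x hx
    have h5 : (0 : ℝ) ≤ B * n := mul_nonneg h1.B0 (Nat.cast_nonneg n)
    linarith

/-- energy lower bound in a cube for the scaled system -/
theorem energy_ge_cube {φr ψ : ℝ → ℝ} {B c e : ℝ} (h1 : Sys φr ψ (1 / 4) B c) (he0 : 0 ≤ e)
    (he1 : e ≤ 1) {l : ℝ} (hl : 1 ≤ l) (n : ℕ) (x : Fin n → Pt) (hx : ∀ i, x i ∈ cube l) :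
    c * (n : ℝ) ^ 2 / (2 * l ^ 3) - 5 / 2 * B * n ≤
      energy (tot φr (fun r => (1 + e) * ψ r)) x := by
  have hs := sys_scale' h1 he0 he1
  rw [energy_tot]
  have h2 := hs.dom n x
  have h3 := h1.ss l hl n x hx
  have e1 : c * (n : ℝ) ^ 2 / (2 * l ^ 3) = (c * (n : ℝ) ^ 2 / l ^ 3) / 2 := by
    rw [div_div]; ring_nf
  rw [e1]
  linarith

end Crest.Agent.Kac.MF
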