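import Crest.Agent.Kac.MFupA
import Crest.Agent.Kac.MFupB
import Crest.Agent.Kac.Lip

/-!
# Mean-field upper bound, part (ii): bound on the one-cell grand-canonical sum
-/

open MeasureTheory Crest.ProbabilityR.Continuum Filter Topology Set
open scoped ENNReal

namespace Crest.Agent.Kac.MF

theorem pow6_le {x : ℝ} (h0 : 0 ≤ x) (h1 : x ≤ 2 / 25) : (1 + x) ^ 6 ≤ 1 + 9 * x := by
  have h2 : 0 ≤ x ^ 2 := by positivity
  have h3 : x ^ 2 ≤ 2 / 25 * x := by nlinarith
  have h4 : x ^ 3 ≤ (2 / 25) ^ 2 * x := by nlinarith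
  have h5 : x ^ 4 ≤ (2 / 25) ^ 3 * x := by
    have : 0 ≤ x ^ 3 := by positivity
    nlinarith
  have h6 : x ^ 5 ≤ (2 / 25) ^ 4 * x := by
    have : 0 ≤ x ^ 4 := by positivity
    nlinarith
  have h7 : x ^ 6 ≤ (2 / 25) ^ 5 * x := by
    have : 0 ≤ x ^ 5 := by positivity
    nlinarith
  have e : (1 + x) ^ 6 = 1 + 6 * x + 15 * x ^ 2 + 20 * x ^ 3 + 15 * x ^ 4 + 6 * x ^ 5 + x ^ 6 := by
    ring
  rw [e]
  nlinarith

theorem tsum_exp_neg_le : ∑' n : ℕ, ENNReal.ofReal (Real.exp (-(n : ℝ))) ≤ ENNReal.ofReal 2 := by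
  have h0 : 0 ≤ Real.exp (-1) := (Real.exp_pos _).le
  have h1 : Real.exp (-1) ≤ 1 / 2 := by
    rw [Real.exp_neg, one_div]
    apply inv_anti₀ (by norm_num)
    have := Real.add_one_le_exp (1 : ℝ)
    linarith
  have hs : HasSum (fun n : ℕ => Real.exp (-(n : ℝ))) (1 - Real.exp (-1))⁻¹ := by
    have := hasSum_geometric_of_lt_one h0 (by linarith)
    refine this.congr_fun ?_ |> fun h => h
    intro n
    rw [← Real.exp_nat_mul]
    ring_nf
  rw [← ENNReal.ofReal_tsum_of_nonneg (fun n => (Real.exp_pos _).le) hs.summable, hs.tsum_eq]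
  apply ENNReal.ofReal_le_ofReal
  rw [inv_le_comm₀ (by linarith) (by norm_num)]
  linarith

theorem log_floor_le {Y l : ℝ} (hY : 1 ≤ Y) (hl : 1 ≤ l) :
    Real.log ((⌊Y * l ^ 3⌋₊ : ℕ) + 3 : ℝ) ≤ (Y + 6) * l ^ 2 := by
  have hl3 : 1 ≤ l ^ 3 := one_le_pow₀ hl
  have h1 : ((⌊Y * l ^ 3⌋₊ : ℕ) : ℝ) ≤ Y * l ^ 3 := Nat.floor_le (by positivity)
  have h2 : ((⌊Y * l ^ 3⌋₊ : ℕ) + 3 : ℝ) ≤ (Y + 3) * l ^ 3 := by nlinarith
  have h3 := Real.log_le_log (by positivity) h2
  rw [Real.log_mul (by positivity) (by positivity), Real.log_pow] at h3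
  have h4 := Real.log_le_sub_one_of_pos (show 0 < Y + 3 by linarith)
  have h5 := Real.log_le_sub_one_of_pos (show 0 < l by linarith)
  push_cast at h3
  have h6 : l ≤ l ^ 2 := by nlinarith
  nlinarith

theorem MFX_le {φr ψ : ℝ → ℝ} {B c β0 β1 M Y b R l β μ e : ℝ} (h1 : Sys φr ψ (1 / 4) B c)
    (hβ0 : 0 < β0) (hβ : β ∈ Icc β0 β1) (hM : 0 ≤ M) (hμ : μ ∈ Icc (-M) M) (hY1 : 1 ≤ Y)
    (hY : M + 3 * β1 * B + 2 ≤ β0 * c * Y / 4) (hb0 : 0 ≤ b) (hbc : b ≤ c / 4) (hl : 24 ≤ l)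
    (hR : 50 * l ≤ R) (he0 : 0 ≤ e) (he1 : e ≤ 1) :
    MFX φr ψ l β μ b R e ≠ ⊤ ∧ ∃ y ∈ Icc 0 Y,
      (1 / l ^ 3) * Real.log (MFX φr ψ l β μ b R e).toReal ≤ (Y + 6) / l +
        ((l + 2) / l) ^ 3 *
          Pr (tot φr (fun r => (1 + e) * ψ r)) β (μ + β * (b * (1 + 4 * l / R) ^ 6) * y) -
        β * (b * (1 + 4 * l / R) ^ 6) * y ^ 2 / 2 := by
  have hβp : 0 < β := hβ0.trans_le hβ.1
  have hlp : 0 < l := by linarith
  have hs := sys_scale' h1 he0 he1
  set ψe : ℝ → ℝ := fun r => (1 + e) * ψ r with hψe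
  set b' : ℝ := b * (1 + 4 * l / R) ^ 6 with hb'
  have hRp : 0 < R := by linarith
  have hx1 : 4 * l / R ≤ 2 / 25 := by
    rw [div_le_div_iff₀ hRp (by norm_num)]
    linarith
  have hx0 : 0 ≤ 4 * l / R := by positivity
  have hb'0 : 0 ≤ b' := by positivity
  have hb'c : b' ≤ 43 / 100 * c := by
    have h2 : (1 + 4 * l / R) ^ 6 ≤ 43 / 25 := by
      have := pow6_le hx0 hx1
      linarith
    have hc := h1.c0
    have : b' ≤ b * (43 / 25) := mul_le_mul_of_nonneg_left h2 hb0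
    nlinarith
  have hl3 : 0 < l ^ 3 := by positivity
  set t : ℕ → ℝ := fun n => partitionFn (tot φr ψe) l n β *
    Real.exp (μ * n + β * b' * (n : ℝ) ^ 2 / (2 * l ^ 3)) with ht
  have hMFX : MFX φr ψ l β μ b R e = ∑' n : ℕ, ENNReal.ofReal (t n) := rfl
  set A : ℝ → ℝ := fun ν => (l + 2) ^ 3 * Pr (tot φr ψe) β (μ + β * b' * ν) -
    l ^ 3 * (β * b' * ν ^ 2 / 2) with hA
  set N0 : ℕ := ⌊Y * l ^ 3⌋₊ with hN0
  -- small n
  have hsmall : ∀ n : ℕ, t n ≤ Real.exp (A (n / l ^ 3)) := by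
    intro n
    have hc := Pr_cell hs hβp (μ + β * b' * (n / l ^ 3)) hlp n
    have : t n ≤ Real.exp ((l + 2) ^ 3 * Pr (tot φr ψe) β (μ + β * b' * (n / l ^ 3)) -
        (μ + β * b' * (n / l ^ 3)) * n) *
        Real.exp (μ * n + β * b' * (n : ℝ) ^ 2 / (2 * l ^ 3)) :=
      mul_le_mul_of_nonneg_right hc (Real.exp_pos _).le
    refine this.trans ?_
    rw [← Real.exp_add]
    apply Real.exp_le_exp.2
    rw [hA]
    apply le_of_eq
    field_simp
    ring
  -- large n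
  have hlarge : ∀ n : ℕ, N0 < n → t n ≤ Real.exp (-(n : ℝ)) := by
    intro n hn
    have hnY : Y * l ^ 3 < n := Nat.lt_of_floor_lt hn
    have hle := partitionFn_le (sys_meas hs) (sys_stable hs) hlp hβp n
      (c * (n : ℝ) ^ 2 / (2 * l ^ 3) - 5 / 2 * B * n)
      (fun x hx => energy_ge_cube h1 he0 he1 (by linarith) n x hx)
    have : t n ≤ Real.exp (l ^ 3 - β * (c * (n : ℝ) ^ 2 / (2 * l ^ 3) - 5 / 2 * B * n)) *
        Real.exp (μ * n + β * b' * (n : ℝ) ^ 2 / (2 * l ^ 3)) :=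
      mul_le_mul_of_nonneg_right hle (Real.exp_pos _).le
    refine this.trans ?_
    rw [← Real.exp_add]
    apply Real.exp_le_exp.2
    set q : ℝ := (n : ℝ) ^ 2 / l ^ 3 with hq
    have hn0 : (0 : ℝ) < n := by
      have : 0 < Y * l ^ 3 := by positivity
      linarith
    have hqn : Y * n ≤ q := by
      rw [hq, le_div_iff₀ hl3]
      nlinarith
    have e1 : c * (n : ℝ) ^ 2 / (2 * l ^ 3) = c * q / 2 := by rw [hq]; field_simp
    have e2 : β * b' * (n : ℝ) ^ 2 / (2 * l ^ 3) = β * b' * q / 2 := by rw [hq]; field_simp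
    rw [e1, e2]
    have hc0 := h1.c0
    have hB0 := h1.B0
    have hl3n : l ^ 3 ≤ n := by nlinarith
    have hq0 : 0 ≤ q := by positivity
    -- β (c - b') q / 2 ≥ β0 c Y n / 4
    have k1 : c / 2 ≤ c - b' := by
      linarith
    have k2 : β0 * (c / 2) * (Y * n) ≤ β * (c - b') * q := by
      apply mul_le_mul _ hqn (by positivity)
      · exact mul_nonneg hβp.le (by linarith)
      · exact mul_le_mul hβ.1 k1 (by positivity) hβp.le
    have k3 : (M + 3 * β1 * B + 2) * n ≤ β0 * c * Y / 4 * n :=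
      mul_le_mul_of_nonneg_right hY hn0.le
    have k4 : μ * n ≤ M * n := mul_le_mul_of_nonneg_right hμ.2 hn0.le
    have k5 : β * B * n ≤ β1 * B * n :=
      mul_le_mul_of_nonneg_right (mul_le_mul_of_nonneg_right hβ.2 hB0) hn0.le
    have k6 : 0 ≤ β * B * n := by positivity
    nlinarith
  obtain ⟨m, hm, hmax⟩ := Finset.exists_max_image (Finset.range (N0 + 1))
    (fun n : ℕ => A (n / l ^ 3)) ⟨0, by simp⟩
  set As : ℝ := A (m / l ^ 3) with hAs
  have hAs0 : 0 ≤ As := by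
    have h2 := hmax 0 (by simp)
    have h3 : 0 ≤ A ((0 : ℕ) / l ^ 3) := by
      simp only [hA, Nat.cast_zero, zero_div, mul_zero, add_zero]
      have := Pr_nonneg hs hβp (μ := μ)
      have h4 : 0 ≤ (l + 2) ^ 3 * Pr (tot φr ψe) β μ := by positivity
      simpa using h4
    exact h3.trans h2
  have hbound : MFX φr ψ l β μ b R e ≤ ENNReal.ofReal (((N0 : ℝ) + 3) * Real.exp As) := by
    rw [hMFX]
    have h2 : ∀ n : ℕ, ENNReal.ofReal (t n) ≤
        (if n ∈ Finset.range (N0 + 1) then ENNReal.ofReal (Real.exp As) else 0) +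
          ENNReal.ofReal (Real.exp (-(n : ℝ))) := by
      intro n
      by_cases hn : n ∈ Finset.range (N0 + 1)
      · rw [if_pos hn]
        refine le_add_right ?_
        apply ENNReal.ofReal_le_ofReal
        exact (hsmall n).trans (Real.exp_le_exp.2 (hmax n hn))
      · rw [if_neg hn, zero_add]
        apply ENNReal.ofReal_le_ofReal
        apply hlarge n
        simpa using hn
    have h3 : ∑' n : ℕ, (if n ∈ Finset.range (N0 + 1) then ENNReal.ofReal (Real.exp As) else 0) =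
        ENNReal.ofReal (((N0 : ℝ) + 1) * Real.exp As) := by
      rw [tsum_eq_sum (s := Finset.range (N0 + 1)) (fun n hn => by rw [if_neg hn])]
      rw [Finset.sum_congr rfl (fun n hn => if_pos hn)]
      rw [Finset.sum_const, Finset.card_range, nsmul_eq_mul,
        ENNReal.ofReal_mul (by positivity)]
      congr 1
      rw [ENNReal.ofReal_add (by positivity) (by norm_num)]
      push_cast
      simp
    calc ∑' n : ℕ, ENNReal.ofReal (t n) ≤ ∑' n : ℕ,
        ((if n ∈ Finset.range (N0 + 1) then ENNReal.ofReal (Real.exp As) else 0) +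
          ENNReal.ofReal (Real.exp (-(n : ℝ)))) := ENNReal.tsum_le_tsum h2
      _ = ENNReal.ofReal (((N0 : ℝ) + 1) * Real.exp As) +
          ∑' n : ℕ, ENNReal.ofReal (Real.exp (-(n : ℝ))) := by rw [ENNReal.tsum_add, h3]
      _ ≤ ENNReal.ofReal (((N0 : ℝ) + 1) * Real.exp As) + ENNReal.ofReal 2 := by
          gcongr
          exact tsum_exp_neg_le
      _ = ENNReal.ofReal (((N0 : ℝ) + 1) * Real.exp As + 2) := by
          rw [ENNReal.ofReal_add (by positivity) (by norm_num)]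
      _ ≤ _ := by
          apply ENNReal.ofReal_le_ofReal
          have : 1 ≤ Real.exp As := Real.one_le_exp hAs0
          nlinarith
  have hne : MFX φr ψ l β μ b R e ≠ ⊤ := ne_top_of_le_ne_top ENNReal.ofReal_ne_top hbound
  refine ⟨hne, m / l ^ 3, ⟨by positivity, ?_⟩, ?_⟩
  · rw [div_le_iff₀ hl3]
    have h2 : m ≤ N0 := by simpa [Nat.lt_succ_iff] using hm
    have h3 : ((N0 : ℕ) : ℝ) ≤ Y * l ^ 3 := Nat.floor_le (by positivity)
    have h4 : (m : ℝ) ≤ N0 := by exact_mod_cast h2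
    linarith
  · have hpos : 0 < (MFX φr ψ l β μ b R e).toReal := by
      apply ENNReal.toReal_pos _ hne
      intro h0
      rw [hMFX, ENNReal.tsum_eq_zero] at h0
      have h2 := h0 0
      rw [ENNReal.ofReal_eq_zero] at h2
      have h3 : 0 < t 0 := mul_pos (partitionFn_pos (sys_meas hs) (sys_stable hs) hlp hβp 0)
        (Real.exp_pos _)
      linarith
    have h2 : (MFX φr ψ l β μ b R e).toReal ≤ ((N0 : ℝ) + 3) * Real.exp As := by
      have := ENNReal.toReal_mono ENNReal.ofReal_ne_top hbound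
      rwa [ENNReal.toReal_ofReal (by positivity)] at this
    have h3 := Real.log_le_log hpos h2
    rw [Real.log_mul (by positivity) (Real.exp_pos _).ne', Real.log_exp] at h3
    have h4 := log_floor_le hY1 (show 1 ≤ l by linarith)
    have h5 : Real.log (MFX φr ψ l β μ b R e).toReal ≤ (Y + 6) * l ^ 2 + As := by
      linarith
    have h6 := mul_le_mul_of_nonneg_left h5 (show 0 ≤ 1 / l ^ 3 by positivity)
    refine h6.trans (le_of_eq ?_)
    rw [hAs, hA]
    field_simp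
    ring

end Crest.Agent.Kac.MF
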