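import Crest.Agent.Kac.MainA
import Crest.Agent.Kac.Corner
import Crest.Agent.Kac.Kink
import Crest.Agent.Kac.Lip

/-!
S0209: assembly of the main theorem.
-/

open MeasureTheory Crest.ProbabilityR.Continuum Filter Topology Set
open scoped ENNReal

namespace Crest.Agent.Kac

/-- from the corner of the limit pressure to the kink of the free energy -/
theorem kink_of_corner {φr ψ : ℝ → ℝ} {θ B c : ℝ} (h : Sys φr ψ θ B c) {p Λ X0 : ℝ} {J : ℕ}
    (hp0 : 0 < p) (hJ2 : 2 ≤ J) (hΛ : 0 < Λ) (hX1 : X0 ≤ 1 / 2) {uc xc : ℝ} {a d : Fin 3 → ℝ}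
    (huc : |uc| < X0 / 2) (hxc : |xc| < X0 / 2)
    (ha0 : |a 0| ≤ p / 32) (hd0 : |d 0| ≤ p / 32) (ha1 : |a 1 + p * (1 - 1 / J)| ≤ p / 32)
    (hd1 : |d 1 - p| ≤ p / 32) (ha2 : |a 2| ≤ p / 32) (hd2 : |d 2 - J * p| ≤ p / 32)
    (hsub : ∀ i, ∀ u x : ℝ, |u| ≤ X0 / 2 → |x| ≤ X0 / 2 →
      pS φr ψ Λ J uc xc + a i * (u - uc) + d i * (x - xc) ≤ pS φr ψ Λ J u x) :
    ∀ ρ, p / 4 < ρ → ρ < p → ∃ Dl Dr : ℝ,
      HasDerivWithinAt (fun β => (1 / β) * Fe (tot φr ψ) β ρ) Dl (Iio (Λ * (1 + uc)))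
        (Λ * (1 + uc)) ∧
      HasDerivWithinAt (fun β => (1 / β) * Fe (tot φr ψ) β ρ) Dr (Ioi (Λ * (1 + uc)))
        (Λ * (1 + uc)) ∧ Dr < Dl := by
  intro ρ hρ1 hρ2
  have hJ0 : (2 : ℝ) ≤ J := by exact_mod_cast hJ2
  have hJpos : (0 : ℝ) < J := by linarith
  have hJinv2 : 1 / (J : ℝ) ≤ 1 / 2 := one_div_le_one_div_of_le (by norm_num) hJ0
  rw [abs_le] at ha0 hd0 ha1 hd1 ha2 hd2
  rw [abs_lt] at huc hxc
  have h2p : 2 * p ≤ J * p := mul_le_mul_of_nonneg_right hJ0 hp0.le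
  have hd01 : d 0 < d 1 := by linarith [hd0.2, hd1.1]
  have hd12 : d 1 < d 2 := by linarith [hd1.2, hd2.1]
  set ν : ℝ := Λ * (min (X0 / 2 - |uc|) (X0 / 2 - |xc|) / 2) with hν
  have huc' : |uc| < X0 / 2 := abs_lt.mpr huc
  have hxc' : |xc| < X0 / 2 := abs_lt.mpr hxc
  have hmin0 : 0 < min (X0 / 2 - |uc|) (X0 / 2 - |xc|) := lt_min (by linarith) (by linarith)
  have hν0 : 0 < ν := mul_pos hΛ (by linarith)
  have hmu := min_le_left (X0 / 2 - |uc|) (X0 / 2 - |xc|)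
  have hmx := min_le_right (X0 / 2 - |uc|) (X0 / 2 - |xc|)
  refine kink (F := Fe (tot φr ψ)) (P := Pr (tot φr ψ)) (βc := Λ * (1 + uc))
    (μc := Λ * mm J uc xc) (a := fun i => a i + d i) (d := d) (ν := ν)
    (mul_pos hΛ (by linarith)) ?_ ?_ ?_ (Pr_convex h) hν0 ?_ hd01 hd12 ?_ (by linarith)
    (by linarith [hd0.2]) (by linarith [hd2.1])
  · intro ρ hρ; exact Fe_concave h hρ.le
  · intro β hβ ρ hρ μ; exact le_Pr h hβ hρ.le
  · intro β hβ ρ hρ; exact Pr_attained h hβ hρ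
  · intro i β μ hβ hμ
    -- coordinates
    set u : ℝ := β / Λ - 1 with hu
    set x : ℝ := μ / Λ + (1 + u) - (1 - 1 / J) with hx
    have e1 : Λ * (1 + u) = β := by rw [hu]; field_simp; ring
    have e2 : Λ * mm J u x = μ := by unfold mm; rw [hx]; field_simp; ring
    have e3 : Λ * (u - uc) = β - Λ * (1 + uc) := by rw [hu]; field_simp; ring
    have e4 : Λ * (x - xc) = (μ - Λ * mm J uc xc) + (β - Λ * (1 + uc)) := by
      have : x - xc = (mm J u x - mm J uc xc) + (u - uc) := by unfold mm; ring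
      rw [this, mul_add, mul_sub, e2, e3]
    have e5 : |u - uc| ≤ min (X0 / 2 - |uc|) (X0 / 2 - |xc|) / 2 := by
      have h1 : Λ * |u - uc| ≤ Λ * (min (X0 / 2 - |uc|) (X0 / 2 - |xc|) / 2) := by
        rw [← abs_of_pos hΛ, ← abs_mul, abs_of_pos hΛ, e3]; exact hβ
      exact le_of_mul_le_mul_left h1 hΛ
    have e6 : |x - xc| ≤ min (X0 / 2 - |uc|) (X0 / 2 - |xc|) := by
      have h1 : Λ * |x - xc| ≤ Λ * min (X0 / 2 - |uc|) (X0 / 2 - |xc|) := by
        have h2 : Λ * |x - xc| = |Λ * (x - xc)| := by rw [abs_mul, abs_of_pos hΛ]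
        rw [h2, e4]
        refine (abs_add_le _ _).trans ?_
        have : Λ * min (X0 / 2 - |uc|) (X0 / 2 - |xc|) = ν + ν := by rw [hν]; ring
        rw [this]
        exact add_le_add hμ hβ
      exact le_of_mul_le_mul_left h1 hΛ
    have e7 : |u| ≤ X0 / 2 := by
      have : |u| ≤ |u - uc| + |uc| := by
        have := abs_add_le (u - uc) uc
        rwa [sub_add_cancel] at this
      linarith
    have e8 : |x| ≤ X0 / 2 := by
      have : |x| ≤ |x - xc| + |xc| := by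
        have := abs_add_le (x - xc) xc
        rwa [sub_add_cancel] at this
      linarith
    have h1 := hsub i u x e7 e8
    unfold pS at h1
    rw [e1, e2] at h1
    have h2 := mul_le_mul_of_nonneg_left h1 hΛ.le
    have h3 : Λ * (1 / Λ * Pr (tot φr ψ) (Λ * (1 + uc)) (Λ * mm J uc xc) + a i * (u - uc) +
        d i * (x - xc)) = Pr (tot φr ψ) (Λ * (1 + uc)) (Λ * mm J uc xc) +
        a i * (Λ * (u - uc)) + d i * (Λ * (x - xc)) := by
      field_simp
    have h4 : Λ * (1 / Λ * Pr (tot φr ψ) β μ) = Pr (tot φr ψ) β μ := by field_simp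
    rw [h3, h4, e3, e4] at h2
    calc Pr (tot φr ψ) (Λ * (1 + uc)) (Λ * mm J uc xc) + (a i + d i) * (β - Λ * (1 + uc)) +
        d i * (μ - Λ * mm J uc xc) = Pr (tot φr ψ) (Λ * (1 + uc)) (Λ * mm J uc xc) +
          a i * (β - Λ * (1 + uc)) +
          d i * ((μ - Λ * mm J uc xc) + (β - Λ * (1 + uc))) := by ring
      _ ≤ _ := h2
  · -- affine independence
    apply ne_of_lt
    have h1 : a 1 ≤ -(p * (15 / 32)) := by
      have h2 : p * (1 / 2) ≤ p * (1 - 1 / J) := mul_le_mul_of_nonneg_left (by linarith) hp0.le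
      linarith [ha1.2]
    have h20 : 0 < d 2 - d 0 := by linarith
    have h3 : (J * p - p / 16) ≤ d 2 - d 0 := by linarith [hd0.2, hd2.1]
    have h4 : a 1 * (d 2 - d 0) ≤ -(p * (15 / 32)) * (J * p - p / 16) := by
      have h5 : a 1 * (d 2 - d 0) ≤ -(p * (15 / 32)) * (d 2 - d 0) :=
        mul_le_mul_of_nonneg_right h1 h20.le
      have h6 : -(p * (15 / 32)) * (d 2 - d 0) ≤ -(p * (15 / 32)) * (J * p - p / 16) := by
        have h7 : p * (15 / 32) * (J * p - p / 16) ≤ p * (15 / 32) * (d 2 - d 0) :=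
          mul_le_mul_of_nonneg_left h3 (by positivity)
        linarith
      exact h5.trans h6
    have h5 : -(p / 32 * (J * p)) ≤ a 0 * (d 2 - d 1) := by
      have h6 : -(p / 32) * (d 2 - d 1) ≤ a 0 * (d 2 - d 1) :=
        mul_le_mul_of_nonneg_right ha0.1 (by linarith)
      have h7 : p / 32 * (d 2 - d 1) ≤ p / 32 * (J * p) :=
        mul_le_mul_of_nonneg_left (by linarith [hd1.1, hd2.2]) (by positivity)
      linarith
    have h6 : -(p / 32 * (J * p)) ≤ a 2 * (d 1 - d 0) := by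
      have h7 : -(p / 32) * (d 1 - d 0) ≤ a 2 * (d 1 - d 0) :=
        mul_le_mul_of_nonneg_right ha2.1 (by linarith)
      have h8 : p / 32 * (d 1 - d 0) ≤ p / 32 * (J * p) :=
        mul_le_mul_of_nonneg_left (by linarith [hd1.2, hd0.1]) (by positivity)
      linarith
    have h7 : (a 1 + d 1) * (d 2 - d 0) - ((a 0 + d 0) * (d 2 - d 1) + (a 2 + d 2) * (d 1 - d 0)) =
        a 1 * (d 2 - d 0) - a 0 * (d 2 - d 1) - a 2 * (d 1 - d 0) := by ring
    have h8 : 0 < p * p := mul_pos hp0 hp0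
    have h9 : 2 * (p * p) ≤ J * (p * p) := mul_le_mul_of_nonneg_right hJ0 h8.le
    have h10 : -(p * (15 / 32)) * (J * p - p / 16) = -(15 / 32) * (J * (p * p)) +
      15 / 512 * (p * p) := by ring
    have h11 : p / 32 * (J * p) = 1 / 32 * (J * (p * p)) := by ring
    rw [h10] at h4
    rw [h11] at h5 h6
    have h12 : a 1 * (d 2 - d 0) - a 0 * (d 2 - d 1) - a 2 * (d 1 - d 0) < 0 := by
      linarith
    linarith

/-- core of the main theorem -/
theorem main_core : ∃ (K s0 s1 s2 s3 η : ℝ), 0 < s0 ∧ s0 < s1 ∧ s1 < s2 ∧ s2 < s3 ∧ s3 ≤ 1 / 8 ∧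
    0 < η ∧ η ≤ 1 ∧ 0 < K ∧ ∃ B c : ℝ, ∀ φr : ℝ → ℝ, RefData φr K s0 s1 s2 s3 η →
      ∃ b R : ℕ → ℝ, (∀ k, 0 < b k) ∧ (∀ k, 4 ≤ R k) ∧ Summable b ∧
        Summable (fun k => b k * R k ^ (1 / 32 : ℝ)) ∧ Sys φr (tail b R) (1 / 4) B c ∧
        ∃ βc ρ1 ρ2 : ℝ, 0 < βc ∧ 0 < ρ1 ∧ ρ1 < ρ2 ∧ ∀ ρ, ρ1 < ρ → ρ < ρ2 → ∃ Dl Dr : ℝ,
          HasDerivWithinAt (fun β => (1 / β) * Fe (tot φr (tail b R)) β ρ) Dl (Iio βc) βc ∧
          HasDerivWithinAt (fun β => (1 / β) * Fe (tot φr (tail b R)) β ρ) Dr (Ioi βc) βc ∧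
          Dr < Dl := by
  obtain ⟨p, hp0, hp⟩ := packing_limit
  obtain ⟨J, t1, t2, t3, κ, xc, hJ2, ht1, ht12, ht23, ht3, hκ, hClus, hx, hx3⟩ := clus_exists
  have hJ0 : (2 : ℝ) ≤ J := by exact_mod_cast hJ2
  have hJ1 : 1 ≤ J := by omega
  have hJpos : (0 : ℝ) < J := by linarith
  have hJp : 0 < (J : ℝ) * p := mul_pos hJpos hp0
  have hJinv : 0 < 1 / (J : ℝ) := by positivity
  have hJinv2 : 1 / (J : ℝ) ≤ 1 / 2 := one_div_le_one_div_of_le (by norm_num) hJ0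
  obtain ⟨a, ha⟩ : ∃ a : ℝ, a = 2 / (J * p) := ⟨_, rfl⟩
  have ha0 : 0 < a := by rw [ha]; positivity
  obtain ⟨S1, hS1⟩ : ∃ S1 : ℝ, S1 = a + 1 := ⟨_, rfl⟩
  have hS10 : 1 ≤ S1 := by linarith
  obtain ⟨K, hK⟩ : ∃ K : ℝ, K = 368 * J * S1 := ⟨_, rfl⟩
  have hK736 : 736 ≤ K := by
    rw [hK]
    calc (736 : ℝ) = 368 * 2 * 1 := by norm_num
      _ ≤ 368 * J * S1 := mul_le_mul (by linarith) hS10 (by norm_num) (by positivity)
  have hK0 : 0 < K := by linarith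
  obtain ⟨c, hc⟩ : ∃ c : ℝ, c = K / (54 * J) := ⟨_, rfl⟩
  have hc' : c = 184 / 27 * S1 := by rw [hc, hK]; field_simp; norm_num
  have hc0 : 0 < c := by rw [hc']; linarith
  obtain ⟨B, hB⟩ : ∃ B : ℝ, B = K / 2 := ⟨_, rfl⟩
  have hB0 : 0 ≤ B := by rw [hB]; linarith
  have hB1 : K / 2 ≤ B := hB.ge
  have hB2 : 46 * S1 * J ≤ B := by rw [hB, hK]; nlinarith
  have hac : a ≤ c / 4 := by rw [hc']; linarith
  -- geometry of the rectangle
  obtain ⟨X0, hX0⟩ : ∃ X0 : ℝ, X0 = 1 / (4 * J) := ⟨_, rfl⟩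
  have hX00 : 0 < X0 := by rw [hX0]; positivity
  have hX0' : X0 = 1 / J / 4 := by rw [hX0]; field_simp
  have hX01 : X0 ≤ 1 / 8 := by rw [hX0']; linarith
  have hJX : J * X0 = 1 / 4 := by rw [hX0]; field_simp
  obtain ⟨C, hC⟩ : ∃ C : ℝ, C = 1 + (4 + 3 * B) ^ 2 / c := ⟨_, rfl⟩
  have hC0 : 0 < C := by rw [hC]; positivity
  obtain ⟨Y, hY1, hYC, hYm⟩ : ∃ Y : ℝ, 1 ≤ Y ∧ 2 * C / X0 ≤ Y ∧ 8 * (6 + 9 / 2 * B) / c ≤ Y :=
    ⟨max 1 (max (2 * C / X0) (8 * (6 + 9 / 2 * B) / c)), le_max_left _ _,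
      le_trans (le_max_left _ _) (le_max_right _ _), le_trans (le_max_right _ _) (le_max_right _ _)⟩
  have hYm' : 6 + 9 / 2 * B ≤ c * Y / 8 := by
    rw [div_le_iff₀ hc0] at hYm; linarith
  have hc01 : 0 < p * (1 - 1 / J) := mul_pos hp0 (by linarith)
  have hc02 : p * (1 - 1 / J) < p := by
    have : 0 < p * (1 / J) := mul_pos hp0 hJinv
    linarith
  have hpJ : 2 * p ≤ J * p := mul_le_mul_of_nonneg_right hJ0 hp0.le
  obtain ⟨η, hη, hcorner⟩ := corner (c0 := p * (1 - 1 / J)) (c1 := p) (c2 := J * p) (U0 := X0)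
    (X0 := X0) (C := C) (Y := Y) (r := p / 32) hc01 hp0 (by linarith) hX00 (by linarith) hX00 hC0
    hYC (mul_lt_mul_of_pos_right hc02 hX00)
    (mul_lt_mul_of_pos_right (by linarith) hX00) (by linarith)
  obtain ⟨bb, hbb0, hbbη, hbbh, hbbY⟩ : ∃ bb : ℝ, 0 < bb ∧ bb ≤ η ∧ bb ≤ 1 / 2 ∧
      3 / 2 * bb * Y ≤ X0 / 2 := by
    refine ⟨min η (min (1 / 2) (X0 / (3 * Y))), lt_min hη (lt_min (by norm_num) (by positivity)),
      min_le_left _ _, le_trans (min_le_right _ _) (min_le_left _ _), ?_⟩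
    have h1 : min η (min (1 / 2) (X0 / (3 * Y))) ≤ X0 / (3 * Y) :=
      le_trans (min_le_right _ _) (min_le_right _ _)
    rw [le_div_iff₀ (by positivity)] at h1
    linarith
  have hacr : 2 / (J * p) ≤ c / 4 := by rw [← ha]; exact hac
  obtain ⟨ηr, σ, Λ, hηr0, hηr1, hσ0, hσ8, hΛ1, hfl⟩ := first_level hp0 hp hJ2 xc ht1 ht12 ht23 ht3
    hκ hClus hx hx3 (K := K) (B := B) (c := c) (by linarith) hB0 hc0 hacr
    (ε := η * bb) (mul_pos hη hbb0)
  rw [← ha] at hfl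
  have hΛ0 : 0 < Λ := by linarith
  refine ⟨K, σ, σ * t1, σ * t2, σ * t3, ηr, hσ0, ?_, ?_, ?_, hσ8, hηr0, hηr1, hK0, B, c, ?_⟩
  · calc σ = σ * 1 := (mul_one σ).symm
      _ < σ * t1 := mul_lt_mul_of_pos_left ht1 hσ0
  · exact mul_lt_mul_of_pos_left ht12 hσ0
  · exact mul_lt_mul_of_pos_left ht23 hσ0
  intro φr hR
  have hClusσ : ClusLe J σ (σ * t3) := hClus.scale hσ0
  have hKS : 368 * J * S1 ≤ K := hK.ge
  have hS0 : Sys φr (fun _ => 0) (1 / 4) B c := by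
    rw [hc]; exact sys_zero hR hJ1 hClusσ (by linarith) hKS hB1 hB2
  obtain ⟨T0, hT0⟩ := hfl φr hR hS0
  -- mean-field constant
  have hYmf : 4 * Λ + 3 * (3 * Λ / 2) * B + 2 ≤ (Λ / 2) * c * Y / 4 := by
    have h1 : Λ * (6 + 9 / 2 * B) ≤ Λ * (c * Y / 8) := mul_le_mul_of_nonneg_left hYm' hΛ0.le
    have h2 : (Λ / 2) * c * Y / 4 = Λ * (c * Y / 8) := by ring
    rw [h2]
    linarith
  obtain ⟨Km, hKm0, hKm⟩ := MF_up (φr := φr) (B := B) (c := c) (β0 := Λ / 2) (β1 := 3 * Λ / 2)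
    (M := 4 * Λ) (Y := Y) (by positivity) (by linarith) (by positivity) hY1 hB0 hc0 hYmf
  have hv1 := vR_pos one_pos
  -- the scale parameter
  obtain ⟨D, hD⟩ : ∃ D : ℝ, D = 3 * Km + 2 * C / X0 / vR 1 := ⟨_, rfl⟩
  have hD0 : 0 ≤ D := by rw [hD]; positivity
  obtain ⟨S, hS2, hST0, hSD, hSv⟩ : ∃ S : ℝ, 2 ≤ S ∧ T0 ≤ S ∧ D ≤ S * (η * bb) ∧
      1 / (vR 1 * X0) ≤ S := by
    refine ⟨max (max 2 T0) (max (D / (η * bb)) (1 / (vR 1 * X0))),
      le_trans (le_max_left _ _) (le_max_left _ _), le_trans (le_max_right _ _) (le_max_left _ _),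
      ?_, le_trans (le_max_right _ _) (le_max_right _ _)⟩
    rw [← div_le_iff₀ (mul_pos hη hbb0)]
    exact le_trans (le_max_left _ _) (le_max_right _ _)
  have hS0' : 0 < S := by linarith
  have hbpos := fun k => bS_pos (S := S) ha0 hbb0 hS2 k
  have hb0 : ∀ k, 0 ≤ bS a bb S k := fun k => (hbpos k).le
  have hR4 := fun k => RS_ge hS2 k
  have hsum := bS_summable (a := a) hbb0 hS2
  have hts : ∑' k, bS a bb S k ≤ S1 := (bS_tsum_le hbb0 hS2).trans (by linarith)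
  have hPs : ∀ k, Sys φr (psum (bS a bb S) (RS S) k) (1 / 4) B c := fun k => by
    rw [hc]; exact sys_psum hR hJ1 hClusσ hb0 hR4 hsum hts hKS hB1 hB2 k
  have hTs : Sys φr (tail (bS a bb S) (RS S)) (1 / 4) B c := by
    rw [hc]; exact sys_tail hR hJ1 hClusσ hb0 hR4 hsum hts hKS hB1 hB2
  refine ⟨bS a bb S, RS S, hbpos, hR4, hsum, bS_RS_summable hbb0 hS2, hTs, ?_⟩
  have hbs : ∀ k, bS a bb S (k + 1) ≤ bb := fun k =>
    (bS_succ_le hbb0 hS2 k).trans (div_le_self hbb0.le (one_le_pow₀ (by norm_num)))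
  have hps1 : psum (bS a bb S) (RS S) 1 = fun r => a * kap (RS S 0) r := by
    have h1 := psum_succ (bS a bb S) (RS S) 0
    rw [zero_add] at h1
    rw [h1, psum_zero]
    funext r
    simp [bS_zero]
  have hR0T : T0 ≤ RS S 0 := by
    have : S ≤ RS S 0 := by
      unfold RS
      calc S = S ^ 1 := (pow_one S).symm
        _ ≤ S ^ (32 * 2 ^ 0) := pow_le_pow_right₀ (by linarith) (by norm_num)
    linarith
  have hmm4 : ∀ u x : ℝ, |u| ≤ 1 / 2 → |x| ≤ 1 → |mm J u x| ≤ 4 := by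
    intro u x hu hx
    obtain ⟨h1, h2⟩ := abs_le.mp hu
    obtain ⟨h3, h4⟩ := abs_le.mp hx
    unfold mm
    rw [abs_le]
    constructor <;> linarith
  have hvR : ∀ k, bS a bb S (k + 1) / vR (RS S (k + 1)) ≤ 1 / vR 1 / S ^ (16 * 2 ^ k) := by
    intro k
    have hRk : 0 < RS S (k + 1) := by linarith [hR4 (k + 1)]
    rw [vR_eq hRk, div_div]
    apply div_le_div₀ (by norm_num) ((hbs k).trans (by linarith)) (by positivity)
    apply mul_le_mul_of_nonneg_left _ hv1.le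
    unfold RS
    rw [← pow_mul]
    apply pow_le_pow_right₀ (by linarith)
    have : 2 ^ (k + 1) = 2 * 2 ^ k := by ring
    omega
  -- apply the corner theorem
  obtain ⟨uc, xc', av, dv, huc, hxc, ha0', hd0, ha1, hd1, ha2, hd2, hsub⟩ := hcorner
    (fun k u x => pS φr (psum (bS a bb S) (RS S) (k + 1)) Λ J u x)
    (fun u x => pS φr (tail (bS a bb S) (RS S)) Λ J u x)
    (fun k => bS a bb S (k + 1))
    (fun k => D / S ^ (16 * 2 ^ k)) (η * bb)
    (fun k => pS_convex (hPs (k + 1)) hΛ0 (by linarith))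
    (by
      intro k u hu x hx
      have hu' : |u| ≤ 1 / 2 := abs_le.mpr ⟨by linarith [hu.1], by linarith [hu.2]⟩
      have hx' : |x| ≤ 1 := abs_le.mpr ⟨by linarith [hx.1], by linarith [hx.2]⟩
      refine ⟨pS_nonneg (hPs (k + 1)) hΛ0 hu', ?_⟩
      rw [hC]
      exact pS_le (hPs (k + 1)) hΛ1 hu' (hmm4 u x hu' hx'))
    (by
      intro k u hu
      have hu' : |u| ≤ 1 / 2 := abs_le.mpr ⟨by linarith [hu.1], by linarith [hu.2]⟩
      exact (pS_mono (hPs (k + 1)) hΛ0 hu').monotoneOn _)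
    (by
      intro u hu x hx
      have hu' : |u| ≤ 1 / 2 := abs_le.mpr ⟨by linarith [hu.1], by linarith [hu.2]⟩
      have hx' : |x| ≤ 1 := abs_le.mpr ⟨by linarith [hx.1], by linarith [hx.2]⟩
      have h1 := hT0 (RS S 0) hR0T (by rw [← hps1]; exact hPs 1) u x hu' hx' (by
        calc J * x ≤ J * (2 * X0) := mul_le_mul_of_nonneg_left hx.2 hJpos.le
          _ ≤ 1 := by linarith)
      simp only [zero_add]
      rw [hps1]
      exact h1)
    (fun k => hbpos (k + 1)) (fun k => div_nonneg hD0 (pow_pos hS0' _).le)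
    (by
      intro k u hu x hx y hy
      have hu' : |u| ≤ 1 / 2 := abs_le.mpr ⟨by linarith [hu.1], by linarith [hu.2]⟩
      have hx' : |x| ≤ X0 := abs_le.mpr ⟨hx.1, hx.2⟩
      have h1 := psum_succ (bS a bb S) (RS S) (k + 1)
      have h2 := hPs (k + 2)
      rw [h1] at h2
      have h3 := pS_lower (J := J) (X := X0) (Y := Y) (hPs (k + 1)) h2 hC hΛ1 hJ1 hX00
        (by linarith) (hb0 (k + 1)) (by linarith [hR4 (k + 1)])
        (by
          have h4 : 3 / 2 * bS a bb S (k + 1) * Y ≤ 3 / 2 * bb * Y :=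
            mul_le_mul_of_nonneg_right (mul_le_mul_of_nonneg_left (hbs k) (by norm_num))
              (by linarith)
          linarith)
        (by
          have h4 := hvR k
          have h5 : 1 / vR 1 / S ^ (16 * 2 ^ k) ≤ X0 := by
            rw [div_div, div_le_iff₀ (by positivity)]
            rw [div_le_iff₀ (by positivity)] at hSv
            have h6 : S ≤ S ^ (16 * 2 ^ k) := by
              calc S = S ^ 1 := (pow_one S).symm
                _ ≤ S ^ (16 * 2 ^ k) := pow_le_pow_right₀ (by linarith)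
                    (by have := two_pow_ge k; omega)
            calc 1 ≤ S * (vR 1 * X0) := hSv
              _ ≤ S ^ (16 * 2 ^ k) * (vR 1 * X0) := mul_le_mul_of_nonneg_right h6 (by positivity)
              _ = X0 * (vR 1 * S ^ (16 * 2 ^ k)) := by ring
          linarith) hu' hx' hy
      have h4 : 2 * C / X0 * (bS a bb S (k + 1) / vR (RS S (k + 1))) ≤ D / S ^ (16 * 2 ^ k) := by
        calc 2 * C / X0 * (bS a bb S (k + 1) / vR (RS S (k + 1)))
            ≤ 2 * C / X0 * (1 / vR 1 / S ^ (16 * 2 ^ k)) :=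
              mul_le_mul_of_nonneg_left (hvR k) (by positivity)
          _ = (2 * C / X0 / vR 1) / S ^ (16 * 2 ^ k) := by ring
          _ ≤ D / S ^ (16 * 2 ^ k) := by
              apply div_le_div_of_nonneg_right _ (pow_pos hS0' _).le
              rw [hD]; linarith
      show _ ≤ pS φr (psum (bS a bb S) (RS S) (k + 1 + 1)) Λ J u x
      rw [h1]
      show pS φr (psum (bS a bb S) (RS S) (k + 1)) Λ J u
          (x + (1 + u) * bS a bb S (k + 1) * y) -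
          (1 + u) * bS a bb S (k + 1) * y ^ 2 / 2 - D / S ^ (16 * 2 ^ k) ≤ _
      linarith)
    (by
      intro k u hu x hx
      have hu' : |u| ≤ 1 / 2 := abs_le.mpr ⟨by linarith [hu.1], by linarith [hu.2]⟩
      have hx' : |x| ≤ 1 := abs_le.mpr ⟨by linarith [hx.1], by linarith [hx.2]⟩
      obtain ⟨hu1, hu2⟩ := abs_le.mp hu'
      obtain ⟨hm1, hm2⟩ := abs_le.mp (hmm4 u x hu' hx')
      have h1 := psum_succ (bS a bb S) (RS S) (k + 1)
      have h2 := hPs (k + 2)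
      rw [h1] at h2
      obtain ⟨y, hy, h3⟩ := hKm (psum (bS a bb S) (RS S) (k + 1)) (bS a bb S (k + 1))
        (RS S (k + 1)) (2 * RS S k) (lS S k) (hPs (k + 1)) h2
        (fun r hr => psum_eq_zero (fun j hj => ⟨by linarith [hR4 j], by
          have := RS_mono hS2 (Nat.lt_succ_iff.mp hj)
          linarith [hR4 k]⟩) r hr)
        (hb0 (k + 1)) ((hbs k).trans (by rw [hc']; linarith)) (by linarith [hR4 k])
        (scale_cond1 hS2 k) (scale_cond2 hS2 k) (Λ * (1 + u))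
        ⟨by
          calc Λ / 2 = Λ * (1 / 2) := by ring
            _ ≤ Λ * (1 + u) := mul_le_mul_of_nonneg_left (by linarith) hΛ0.le,
         by
          calc Λ * (1 + u) ≤ Λ * (3 / 2) := mul_le_mul_of_nonneg_left (by linarith) hΛ0.le
            _ = 3 * Λ / 2 := by ring⟩ (Λ * mm J u x)
        ⟨by
          calc -(4 * Λ) = Λ * (-4) := by ring
            _ ≤ Λ * mm J u x := mul_le_mul_of_nonneg_left hm1 hΛ0.le,
         by
          calc Λ * mm J u x ≤ Λ * 4 := mul_le_mul_of_nonneg_left hm2 hΛ0.le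
            _ = 4 * Λ := by ring⟩
      refine ⟨y, hy, ?_⟩
      rw [scale_ratio hS2 k] at h3
      show pS φr (psum (bS a bb S) (RS S) (k + 1 + 1)) Λ J u x ≤
        pS φr (psum (bS a bb S) (RS S) (k + 1)) Λ J u (x + (1 + u) * bS a bb S (k + 1) * y) -
          (1 + u) * bS a bb S (k + 1) * y ^ 2 / 2 + D / S ^ (16 * 2 ^ k)
      rw [h1]
      unfold pS
      have h4 := mul_le_mul_of_nonneg_left h3 (by positivity : 0 ≤ 1 / Λ)
      have h5 : Λ * mm J u x + Λ * (1 + u) * bS a bb S (k + 1) * y =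
          Λ * mm J u (x + (1 + u) * bS a bb S (k + 1) * y) := by rw [mm_add]; ring
      rw [h5] at h4
      have h6 : 1 / Λ * (Pr (tot φr (psum (bS a bb S) (RS S) (k + 1))) (Λ * (1 + u))
          (Λ * mm J u (x + (1 + u) * bS a bb S (k + 1) * y)) -
          Λ * (1 + u) * bS a bb S (k + 1) * y ^ 2 / 2 + Km * (3 / S ^ (16 * 2 ^ k))) =
          1 / Λ * Pr (tot φr (psum (bS a bb S) (RS S) (k + 1))) (Λ * (1 + u))
          (Λ * mm J u (x + (1 + u) * bS a bb S (k + 1) * y)) -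
          (1 + u) * bS a bb S (k + 1) * y ^ 2 / 2 + (1 / Λ) * (3 * Km / S ^ (16 * 2 ^ k)) := by
        field_simp
      rw [h6] at h4
      have h7 : (1 / Λ) * (3 * Km / S ^ (16 * 2 ^ k)) ≤ D / S ^ (16 * 2 ^ k) := by
        have h8 : 1 / Λ ≤ 1 := by rw [div_le_one hΛ0]; exact hΛ1
        have h9 : 0 ≤ 3 * Km / S ^ (16 * 2 ^ k) := by positivity
        calc (1 / Λ) * (3 * Km / S ^ (16 * 2 ^ k)) ≤ 1 * (3 * Km / S ^ (16 * 2 ^ k)) :=
              mul_le_mul_of_nonneg_right h8 h9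
          _ = 3 * Km / S ^ (16 * 2 ^ k) := one_mul _
          _ ≤ D / S ^ (16 * 2 ^ k) := by
              apply div_le_div_of_nonneg_right _ (pow_pos hS0' _).le
              rw [hD]
              have : 0 ≤ 2 * C / X0 / vR 1 := by positivity
              linarith
      linarith)
    (by
      intro u hu x hx
      have h1 : 0 < Λ * (1 + u) := mul_pos hΛ0 (by linarith [hu.1])
      have h2 := Pr_tendsto hR hJ1 hClusσ hb0 hR4 hsum hts hKS hB1 hB2 (μ := Λ * mm J u x) h1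
      have h3 := (h2.const_mul (1 / Λ)).comp (tendsto_add_atTop_nat 1)
      exact h3)
    (by
      show η * bb ≤ η * bS a bb S (0 + 1)
      have : bS a bb S (0 + 1) = bb := by
        show bb / S ^ (2 ^ (0 + 2) - 4) = bb
        norm_num
      rw [this])
    (by
      intro k
      refine (bS_succ_le hbb0 hS2 k).trans ?_
      apply div_le_div_of_nonneg_right hbbη (by positivity))
    (fun k => scale_err hbb0 hη hS2 hSD hD0 k)
  have hkink := kink_of_corner hTs hp0 hJ2 hΛ0 (by linarith) huc hxc ha0' hd0 ha1 hd1 ha2 hd2 hsub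
  have huc2 := abs_lt.mp huc
  exact ⟨Λ * (1 + uc), p / 4, p, mul_pos hΛ0 (by linarith), by linarith, by linarith, hkink⟩

theorem main_thm (sg : Bool) : ∃ (K s0 s1 s2 s3 η : ℝ) (b R : ℕ → ℝ) (θ B c : ℝ),
    0 < s0 ∧ s0 < s1 ∧ s1 < s2 ∧ s2 < s3 ∧ s3 ≤ 1 / 8 ∧ 0 < η ∧ η ≤ 1 ∧ 0 < K ∧
    (∀ k, 0 < b k) ∧ (∀ k, 4 ≤ R k) ∧ Summable b ∧
    Summable (fun k => b k * R k ^ (1 / 32 : ℝ)) ∧
    Sys (fun r => refpot K s0 s1 s2 s3 η r + (if sg then sing s0 r else 0)) (tail b R) θ B c ∧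
    ∃ βc ρ1 ρ2 : ℝ, 0 < βc ∧ 0 < ρ1 ∧ ρ1 < ρ2 ∧ ∀ ρ, ρ1 < ρ → ρ < ρ2 → ∃ Dl Dr : ℝ,
      HasDerivWithinAt (fun β => (1 / β) * Fe (tot (fun r => refpot K s0 s1 s2 s3 η r +
        (if sg then sing s0 r else 0)) (tail b R)) β ρ) Dl (Iio βc) βc ∧
      HasDerivWithinAt (fun β => (1 / β) * Fe (tot (fun r => refpot K s0 s1 s2 s3 η r +
        (if sg then sing s0 r else 0)) (tail b R)) β ρ) Dr (Ioi βc) βc ∧ Dr < Dl := by
  obtain ⟨K, s0, s1, s2, s3, η, h0, h01, h12, h23, h3, hη0, hη1, hK, B, c, hmain⟩ := main_core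
  have hR : RefData (fun r => refpot K s0 s1 s2 s3 η r + (if sg then sing s0 r else 0))
      K s0 s1 s2 s3 η := by
    cases sg with
    | true =>
      simp only [if_true]
      exact refData_sing hK h0 h01 h12 h23 h3 hη0 hη1
    | false =>
      simp only [Bool.false_eq_true, if_false, add_zero]
      exact refData_bdd hK h0 h01 h12 h23 h3 hη0 hη1
  obtain ⟨b, R, hb, hRk, hs, hs2, hSys, hkink⟩ := hmain _ hR
  exact ⟨K, s0, s1, s2, s3, η, b, R, 1 / 4, B, c, h0, h01, h12, h23, h3, hη0, hη1, hK, hb, hRk, hs,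
    hs2, hSys, hkink⟩

end Crest.Agent.Kac
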