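import Mathlib

/-!
S0209: the sequences of couplings and ranges.
-/

open Filter Topology

namespace Crest.Agent.Kac

/-- couplings -/
noncomputable def bS (a bb S : ℝ) : ℕ → ℝ
  | 0 => a
  | (k + 1) => bb / S ^ (2 ^ (k + 2) - 4)

/-- ranges -/
noncomputable def RS (S : ℝ) (k : ℕ) : ℝ := S ^ (32 * 2 ^ k)

/-- intermediate cell sizes -/
noncomputable def lS (S : ℝ) (k : ℕ) : ℝ := S ^ (48 * 2 ^ k)

variable {a bb S : ℝ}

theorem two_pow_ge (k : ℕ) : k + 1 ≤ 2 ^ k := Nat.lt_two_pow_self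

theorem bS_pos (ha : 0 < a) (hb : 0 < bb) (hS : 2 ≤ S) (k : ℕ) : 0 < bS a bb S k := by
  cases k with
  | zero => exact ha
  | succ k => exact div_pos hb (pow_pos (by linarith) _)

theorem RS_ge (hS : 2 ≤ S) (k : ℕ) : 4 ≤ RS S k := by
  unfold RS
  have h1 : (1 : ℝ) ≤ S := by linarith
  calc (4 : ℝ) = 2 ^ 2 := by norm_num
    _ ≤ S ^ 2 := pow_le_pow_left₀ (by norm_num) hS 2
    _ ≤ S ^ (32 * 2 ^ k) := pow_le_pow_right₀ h1 (by have := two_pow_ge k; omega)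

theorem bS_succ_le (hb : 0 < bb) (hS : 2 ≤ S) (k : ℕ) : bS a bb S (k + 1) ≤ bb / 2 ^ k := by
  show bb / S ^ (2 ^ (k + 2) - 4) ≤ bb / 2 ^ k
  apply div_le_div_of_nonneg_left hb.le (by positivity)
  calc (2 : ℝ) ^ k ≤ 2 ^ (2 ^ (k + 2) - 4) := by
        apply pow_le_pow_right₀ (by norm_num)
        have := two_pow_ge k
        have h2 : 2 ^ (k + 2) = 4 * 2 ^ k := by ring
        omega
    _ ≤ S ^ (2 ^ (k + 2) - 4) := pow_le_pow_left₀ (by norm_num) hS _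

theorem bS_summable_tail (hb : 0 < bb) (hS : 2 ≤ S) :
    Summable (fun k => bS a bb S (k + 1)) := by
  refine Summable.of_nonneg_of_le (fun k => ?_) (bS_succ_le hb hS)
    ((summable_geometric_two).mul_left bb |>.congr (fun k => ?_))
  · exact (div_pos hb (pow_pos (by linarith) _)).le
  · rw [one_div, inv_pow]; rfl

theorem bS_summable (hb : 0 < bb) (hS : 2 ≤ S) : Summable (bS a bb S) :=
  (summable_nat_add_iff 1).mp (bS_summable_tail hb hS)

theorem bS_tsum_le (hb : 0 < bb) (hS : 2 ≤ S) : ∑' k, bS a bb S k ≤ a + 2 * bb := by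
  rw [(bS_summable hb hS).tsum_eq_zero_add]
  have h1 : ∑' k, bS a bb S (k + 1) ≤ ∑' k : ℕ, bb * (1 / 2 : ℝ) ^ k := by
    apply Summable.tsum_le_tsum _ (bS_summable_tail hb hS) (summable_geometric_two.mul_left bb)
    intro k
    refine (bS_succ_le hb hS k).trans (le_of_eq ?_)
    rw [one_div, inv_pow]; rfl
  rw [tsum_mul_left, tsum_geometric_two] at h1
  show a + _ ≤ _
  linarith

theorem bS_zero : bS a bb S 0 = a := rfl

theorem bS_RS_summable (hb : 0 < bb) (hS : 2 ≤ S) :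
    Summable (fun k => bS a bb S k * RS S k ^ (1 / 32 : ℝ)) := by
  have hS0 : 0 < S := by linarith
  have hR : ∀ k, RS S k ^ (1 / 32 : ℝ) = S ^ (2 ^ k) := by
    intro k
    unfold RS
    rw [← Real.rpow_natCast, ← Real.rpow_mul hS0.le, ← Real.rpow_natCast S (2 ^ k)]
    congr 1
    push_cast
    ring
  rw [← summable_nat_add_iff 1]
  refine Summable.of_nonneg_of_le (f := fun k => (bb * S ^ 4) * (1 / 2 : ℝ) ^ k) ?_ ?_
    (summable_geometric_two.mul_left _)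
  · intro k
    rw [hR]
    exact mul_nonneg (div_pos hb (pow_pos hS0 _)).le (pow_pos hS0 _).le
  · intro k
    rw [hR]
    show bb / S ^ (2 ^ (k + 2) - 4) * S ^ (2 ^ (k + 1)) ≤ bb * S ^ 4 * (1 / 2 : ℝ) ^ k
    have h4 : 4 ≤ 2 ^ (k + 2) := by
      have := two_pow_ge k
      have h2 : 2 ^ (k + 2) = 4 * 2 ^ k := by ring
      omega
    have h5 : S ^ (2 ^ (k + 2) - 4) * S ^ 4 = S ^ (2 ^ (k + 1)) * S ^ (2 ^ (k + 1)) := by
      rw [← pow_add, ← pow_add]
      congr 1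
      have : 2 ^ (k + 2) = 2 ^ (k + 1) + 2 ^ (k + 1) := by ring
      omega
    have h6 : bb / S ^ (2 ^ (k + 2) - 4) * S ^ (2 ^ (k + 1)) = bb * S ^ 4 / S ^ (2 ^ (k + 1)) := by
      rw [div_mul_eq_mul_div, div_eq_div_iff (pow_pos hS0 _).ne' (pow_pos hS0 _).ne']
      calc bb * S ^ 2 ^ (k + 1) * S ^ 2 ^ (k + 1) = bb * (S ^ 2 ^ (k + 1) * S ^ 2 ^ (k + 1)) := by
            ring
        _ = bb * S ^ 4 * S ^ (2 ^ (k + 2) - 4) := by rw [← h5]; ring
    rw [h6, div_eq_mul_inv]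
    apply mul_le_mul_of_nonneg_left _ (by positivity)
    rw [one_div, inv_pow]
    apply inv_anti₀ (by positivity)
    calc (2 : ℝ) ^ k ≤ 2 ^ (2 ^ (k + 1)) := by
          apply pow_le_pow_right₀ (by norm_num)
          have := two_pow_ge (k + 1)
          omega
      _ ≤ S ^ (2 ^ (k + 1)) := pow_le_pow_left₀ (by norm_num) hS _

theorem RS_mono (hS : 2 ≤ S) {j k : ℕ} (h : j ≤ k) : RS S j ≤ RS S k := by
  unfold RS
  apply pow_le_pow_right₀ (by linarith)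
  exact Nat.mul_le_mul_left _ (Nat.pow_le_pow_right (by norm_num) h)

theorem pow16_ge (hS : 2 ≤ S) (k : ℕ) : 64 ≤ S ^ (16 * 2 ^ k) := by
  calc (64 : ℝ) = 2 ^ 6 := by norm_num
    _ ≤ S ^ 6 := pow_le_pow_left₀ (by norm_num) hS 6
    _ ≤ S ^ (16 * 2 ^ k) := pow_le_pow_right₀ (by linarith) (by have := two_pow_ge k; omega)

theorem lS_eq (hS : 2 ≤ S) (k : ℕ) : lS S k = RS S k * S ^ (16 * 2 ^ k) := by
  unfold lS RS
  rw [← pow_add]; congr 1; ring

theorem RS_succ (k : ℕ) : RS S (k + 1) = lS S k * S ^ (16 * 2 ^ k) := by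
  unfold lS RS
  rw [← pow_add]; congr 1; ring

theorem lS_pos (hS : 2 ≤ S) (k : ℕ) : 0 < lS S k := pow_pos (by linarith) _

theorem scale_cond1 (hS : 2 ≤ S) (k : ℕ) : 12 * (2 * RS S k) ≤ lS S k := by
  have h1 := pow16_ge hS k
  have h2 : 0 < RS S k := by have := RS_ge hS k; linarith
  rw [lS_eq hS]
  calc 12 * (2 * RS S k) = RS S k * 24 := by ring
    _ ≤ RS S k * S ^ (16 * 2 ^ k) := mul_le_mul_of_nonneg_left (by linarith) h2.le

theorem scale_cond2 (hS : 2 ≤ S) (k : ℕ) : 50 * lS S k ≤ RS S (k + 1) := by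
  have h1 := pow16_ge hS k
  have h2 := lS_pos hS k
  rw [RS_succ]
  calc 50 * lS S k = lS S k * 50 := by ring
    _ ≤ lS S k * S ^ (16 * 2 ^ k) := mul_le_mul_of_nonneg_left (by linarith) h2.le

theorem scale_ratio (hS : 2 ≤ S) (k : ℕ) :
    2 * RS S k / lS S k + lS S k / RS S (k + 1) = 3 / S ^ (16 * 2 ^ k) := by
  have h2 : 0 < RS S k := by have := RS_ge hS k; linarith
  have h3 := lS_pos hS k
  have h4 : 0 < S ^ (16 * 2 ^ k) := pow_pos (by linarith) _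
  rw [RS_succ]
  have e1 : 2 * RS S k / lS S k = 2 / S ^ (16 * 2 ^ k) := by
    rw [lS_eq hS, div_eq_div_iff (by positivity) (by positivity)]; ring
  have e2 : lS S k / (lS S k * S ^ (16 * 2 ^ k)) = 1 / S ^ (16 * 2 ^ k) := by
    rw [div_eq_div_iff (by positivity) (by positivity)]; ring
  rw [e1, e2]; ring

/-- the errors are much smaller than the next coupling -/
theorem scale_err {η D : ℝ} (hb : 0 < bb) (hη : 0 < η) (hS : 2 ≤ S) (hD : D ≤ S * (η * bb))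
    (hD0 : 0 ≤ D) (k : ℕ) : D / S ^ (16 * 2 ^ k) ≤ η * bS a bb S (k + 2) / 2 ^ k := by
  have hS0 : 0 < S := by linarith
  show D / S ^ (16 * 2 ^ k) ≤ η * (bb / S ^ (2 ^ (k + 1 + 2) - 4)) / 2 ^ k
  have h8 : 2 ^ (k + 1 + 2) = 8 * 2 ^ k := by ring
  rw [h8]
  have h1 := two_pow_ge k
  have e1 : η * (bb / S ^ (8 * 2 ^ k - 4)) / 2 ^ k = η * bb / (S ^ (8 * 2 ^ k - 4) * 2 ^ k) := by
    field_simp
  rw [e1, div_le_div_iff₀ (by positivity) (by positivity)]
  have h2 : (2 : ℝ) ^ k ≤ S ^ (8 * 2 ^ k) := by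
    calc (2 : ℝ) ^ k ≤ 2 ^ (8 * 2 ^ k) := pow_le_pow_right₀ (by norm_num) (by omega)
      _ ≤ S ^ (8 * 2 ^ k) := pow_le_pow_left₀ (by norm_num) hS _
  calc D * (S ^ (8 * 2 ^ k - 4) * 2 ^ k)
      ≤ (S * (η * bb)) * (S ^ (8 * 2 ^ k - 4) * S ^ (8 * 2 ^ k)) := by
        apply mul_le_mul hD _ (by positivity) (by positivity)
        exact mul_le_mul_of_nonneg_left h2 (by positivity)
    _ = η * bb * S ^ (1 + (8 * 2 ^ k - 4) + 8 * 2 ^ k) := by
        rw [pow_add, pow_add, pow_one]; ring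
    _ ≤ η * bb * S ^ (16 * 2 ^ k) := by
        apply mul_le_mul_of_nonneg_left _ (by positivity)
        exact pow_le_pow_right₀ (by linarith) (by omega)

end Crest.Agent.Kac
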