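import Crest.Agent.Kac.Tail
import Crest.Agent.Kac.FirstLevel
import Crest.Agent.Kac.Scales

/-!
S0209: properties of the rescaled pressures used in the assembly.
-/

open MeasureTheory Crest.ProbabilityR.Continuum Filter Topology Set
open scoped ENNReal

namespace Crest.Agent.Kac

/-- rescaled pressure in the coordinates `(u,x)` -/
noncomputable def pS (φr ψ : ℝ → ℝ) (Λ : ℝ) (J : ℕ) (u x : ℝ) : ℝ :=
  1 / Λ * Pr (tot φr ψ) (Λ * (1 + u)) (Λ * mm J u x)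

section
variable {φr ψ ψ' : ℝ → ℝ} {θ B c θ' B' c' Λ : ℝ} {J : ℕ}

theorem mm_add (J : ℕ) (u x s : ℝ) : mm J u (x + s) = mm J u x + s := by unfold mm; ring

theorem pS_convex (h : Sys φr ψ θ B c) (hΛ : 0 < Λ) {U X : ℝ} (hU : U ≤ 1 / 2) :
    ConvexOn ℝ (Icc (-U) U ×ˢ Icc (-X) X) (fun z : ℝ × ℝ => pS φr ψ Λ J z.1 z.2) := by
  have h0 := Pr_convex h
  refine ⟨(convex_Icc _ _).prod (convex_Icc _ _), ?_⟩
  intro z hz w hw s t hs ht hst
  have hz1 : 0 < Λ * (1 + z.1) := mul_pos hΛ (by linarith [hz.1.1])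
  have hw1 : 0 < Λ * (1 + w.1) := mul_pos hΛ (by linarith [hw.1.1])
  have h1 := h0.2 (x := (Λ * (1 + z.1), Λ * mm J z.1 z.2)) ⟨hz1, mem_univ _⟩
    (y := (Λ * (1 + w.1), Λ * mm J w.1 w.2)) ⟨hw1, mem_univ _⟩ hs ht hst
  have e : s • ((Λ * (1 + z.1), Λ * mm J z.1 z.2) : ℝ × ℝ) + t • (Λ * (1 + w.1), Λ * mm J w.1 w.2) =
      (Λ * (1 + (s • z + t • w).1), Λ * mm J (s • z + t • w).1 (s • z + t • w).2) := by
    have ht' : t = 1 - s := by linarith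
    subst ht'
    ext
    · simp; ring
    · simp [mm]; ring
  rw [e] at h1
  have h2 : (0 : ℝ) ≤ 1 / Λ := by positivity
  have h3 := mul_le_mul_of_nonneg_left h1 h2
  simp only [smul_eq_mul] at h3 ⊢
  unfold pS
  calc _ ≤ _ := h3
    _ = _ := by ring

theorem pS_nonneg (h : Sys φr ψ θ B c) (hΛ : 0 < Λ) {u x : ℝ} (hu : |u| ≤ 1 / 2) :
    0 ≤ pS φr ψ Λ J u x := by
  obtain ⟨h1, h2⟩ := abs_le.mp hu
  exact mul_nonneg (by positivity) (Pr_nonneg h (mul_pos hΛ (by linarith)))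

theorem pS_le (h : Sys φr ψ θ B c) (hΛ : 1 ≤ Λ) {u x : ℝ} (hu : |u| ≤ 1 / 2)
    (hm : |mm J u x| ≤ 4) : pS φr ψ Λ J u x ≤ 1 + (4 + 3 * B) ^ 2 / c := by
  obtain ⟨h1, h2⟩ := abs_le.mp hu
  obtain ⟨h3, h4⟩ := abs_le.mp hm
  have hΛ0 : 0 < Λ := by linarith
  have hB := h.B0
  have hc := h.c0
  have hβ : 0 < Λ * (1 + u) := mul_pos hΛ0 (by linarith)
  have h5 := Pr_bound h (μ := Λ * mm J u x) hβ
  have hv : 0 < 1 + u := by linarith
  have e1 : (Λ * mm J u x + 2 * (Λ * (1 + u)) * B) ^ 2 / (2 * (Λ * (1 + u)) * c) =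
      Λ * ((mm J u x + 2 * (1 + u) * B) ^ 2 / (2 * (1 + u) * c)) := by
    field_simp
  have e2 : (mm J u x + 2 * (1 + u) * B) ^ 2 ≤ (4 + 3 * B) ^ 2 := by
    apply sq_le_sq'
    · have : 0 ≤ (1 + u) * B := mul_nonneg hv.le hB
      linarith
    · have : (1 + u) * B ≤ 3 / 2 * B := mul_le_mul_of_nonneg_right (by linarith) hB
      linarith
  have e3 : (mm J u x + 2 * (1 + u) * B) ^ 2 / (2 * (1 + u) * c) ≤ (4 + 3 * B) ^ 2 / c := by
    apply div_le_div₀ (by positivity) e2 hc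
    calc c = 1 * c := (one_mul c).symm
      _ ≤ (2 * (1 + u)) * c := mul_le_mul_of_nonneg_right (by linarith) hc.le
  rw [e1] at h5
  unfold pS
  rw [one_div, inv_mul_le_iff₀ hΛ0]
  have h6 := mul_le_mul_of_nonneg_left e3 hΛ0.le
  linarith

theorem pS_mono (h : Sys φr ψ θ B c) (hΛ : 0 < Λ) {u : ℝ} (hu : |u| ≤ 1 / 2) :
    Monotone (pS φr ψ Λ J u) := by
  obtain ⟨h1, h2⟩ := abs_le.mp hu
  intro x y hxy
  unfold pS
  apply mul_le_mul_of_nonneg_left _ (by positivity)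
  apply Pr_mono h (mul_pos hΛ (by linarith))
  apply mul_le_mul_of_nonneg_left _ hΛ.le
  unfold mm; linarith

/-- slope bound for a convex bounded function of one variable -/
theorem slope_bound {f : ℝ → ℝ} {X C : ℝ} (hX : 0 < X)
    (hf : ConvexOn ℝ (Icc (-(2 * X)) (2 * X)) f)
    (h0 : ∀ x ∈ Icc (-(2 * X)) (2 * X), 0 ≤ f x ∧ f x ≤ C) {x s : ℝ} (hs : 0 ≤ s)
    (hx1 : -(2 * X) ≤ x - s) (hx2 : x ≤ 3 / 2 * X) :
    f x - 2 * C / X * s ≤ f (x - s) := by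
  rcases eq_or_lt_of_le hs with h | h
  · rw [← h]; simp
  have m1 : x - s ∈ Icc (-(2 * X)) (2 * X) := ⟨hx1, by linarith⟩
  have m2 : x ∈ Icc (-(2 * X)) (2 * X) := ⟨by linarith, by linarith⟩
  have m3 : 2 * X ∈ Icc (-(2 * X)) (2 * X) := ⟨by linarith, le_rfl⟩
  have h1 := hf.slope_mono_adjacent m1 m3 (by linarith : x - s < x) (by linarith : x < 2 * X)
  have h2 : (f (2 * X) - f x) / (2 * X - x) ≤ 2 * C / X := by
    have hC : 0 ≤ C := le_trans (h0 _ m2).1 (h0 _ m2).2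
    rw [div_le_div_iff₀ (by linarith) hX]
    have h3 : f (2 * X) - f x ≤ C := by linarith [(h0 _ m2).1, (h0 _ m3).2]
    calc (f (2 * X) - f x) * X ≤ C * X := mul_le_mul_of_nonneg_right h3 hX.le
      _ = 2 * C * (X / 2) := by ring
      _ ≤ 2 * C * (2 * X - x) := mul_le_mul_of_nonneg_left (by linarith) (by linarith)
  have h4 := h1.trans h2
  rw [sub_sub_cancel, div_le_iff₀ h] at h4
  linarith

theorem pS_slope (h : Sys φr ψ θ B c) (hΛ : 1 ≤ Λ) (hJ : 1 ≤ J) {X : ℝ} (hX : 0 < X)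
    (hX1 : X ≤ 1 / 2) {u x s : ℝ} (hu : |u| ≤ 1 / 2) (hs : 0 ≤ s) (hx1 : -(2 * X) ≤ x - s)
    (hx2 : x ≤ 3 / 2 * X) :
    pS φr ψ Λ J u x - 2 * (1 + (4 + 3 * B) ^ 2 / c) / X * s ≤ pS φr ψ Λ J u (x - s) := by
  have hΛ0 : 0 < Λ := by linarith
  obtain ⟨h1, h2⟩ := abs_le.mp hu
  have hJ' : (1 : ℝ) ≤ J := by exact_mod_cast hJ
  have hJinv : 0 ≤ 1 / (J : ℝ) := by positivity
  have hJinv2 : 1 / (J : ℝ) ≤ 1 := by
    rw [div_le_one (by linarith)]; exact hJ'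
  have hconv : ConvexOn ℝ (Icc (-(2 * X)) (2 * X)) (pS φr ψ Λ J u) := by
    have h0 := pS_convex (J := J) h hΛ0 (U := 1 / 2) (X := 2 * X) le_rfl
    refine ⟨convex_Icc _ _, ?_⟩
    intro z hz w hw s t hs ht hst
    have h3 := h0.2 (x := (u, z)) ⟨⟨h1, h2⟩, hz⟩ (y := (u, w)) ⟨⟨h1, h2⟩, hw⟩ hs ht hst
    have e : s • ((u, z) : ℝ × ℝ) + t • (u, w) = (u, s • z + t • w) := by
      ext
      · simp; rw [← add_mul, hst, one_mul]
      · simp
    rw [e] at h3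
    exact h3
  apply slope_bound hX hconv _ hs hx1 hx2
  intro y hy
  refine ⟨pS_nonneg h hΛ0 hu, pS_le h hΛ hu ?_⟩
  unfold mm
  rw [abs_le]
  constructor <;> linarith [hy.1, hy.2]

/-- lower closeness -/
theorem pS_lower {b R Y X C : ℝ} (h : Sys φr ψ θ B c)
    (h' : Sys φr (fun r => ψ r + b * kap R r) θ' B' c') (hC : C = 1 + (4 + 3 * B) ^ 2 / c)
    (hΛ : 1 ≤ Λ) (hJ : 1 ≤ J) (hX : 0 < X) (hX1 : X ≤ 1 / 2) (hb : 0 ≤ b) (hR : 1 ≤ R)
    (hbY : 3 / 2 * b * Y ≤ X / 2) (hbR : b / vR R ≤ X) {u x y : ℝ}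
    (hu : |u| ≤ 1 / 2) (hx : |x| ≤ X) (hy : y ∈ Icc 0 Y) :
    pS φr ψ Λ J u (x + (1 + u) * b * y) - (1 + u) * b * y ^ 2 / 2 - 2 * C / X * (b / vR R) ≤
      pS φr (fun r => ψ r + b * kap R r) Λ J u x := by
  have hΛ0 : 0 < Λ := by linarith
  obtain ⟨h1, h2⟩ := abs_le.mp hu
  obtain ⟨h3, h4⟩ := abs_le.mp hx
  have hv : 0 < vR R := vR_pos (by linarith)
  have hβ : 0 < Λ * (1 + u) := mul_pos hΛ0 (by linarith)
  have e1 := MF_lo (μ := Λ * mm J u x) (y := y) h h' hb hR hβ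
  set s : ℝ := (1 + u) * b / (2 * vR R) with hs
  have hs0 : 0 ≤ s := by
    apply div_nonneg (mul_nonneg (by linarith) hb) (by positivity)
  have hs1 : s ≤ b / vR R := by
    have : s = (1 + u) / 2 * (b / vR R) := by rw [hs]; field_simp
    rw [this]
    have h5 : 0 ≤ b / vR R := div_nonneg hb hv.le
    calc (1 + u) / 2 * (b / vR R) ≤ 1 * (b / vR R) := mul_le_mul_of_nonneg_right (by linarith) h5
      _ = b / vR R := one_mul _
  have e2 : Λ * mm J u x - Λ * (1 + u) * b / (2 * vR R) + Λ * (1 + u) * b * y =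
      Λ * mm J u (x + (1 + u) * b * y - s) := by
    unfold mm; rw [hs]; field_simp; ring
  rw [e2] at e1
  have hby : 0 ≤ (1 + u) * b * y := mul_nonneg (mul_nonneg (by linarith) hb) hy.1
  have hby2 : (1 + u) * b * y ≤ X / 2 := by
    calc (1 + u) * b * y ≤ (3 / 2) * b * Y := by
          apply mul_le_mul _ hy.2 hy.1 (by positivity)
          exact mul_le_mul_of_nonneg_right (by linarith) hb
      _ ≤ X / 2 := hbY
  have e3 := pS_slope (J := J) h hΛ hJ hX hX1 (u := u) (x := x + (1 + u) * b * y) (s := s) hu hs0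
    (by linarith) (by linarith)
  have e4 : 2 * C / X * s ≤ 2 * C / X * (b / vR R) := by
    apply mul_le_mul_of_nonneg_left hs1
    rw [hC]
    have := h.c0
    positivity
  rw [← hC] at e3
  have e5 : 1 / Λ * (Pr (tot φr ψ) (Λ * (1 + u)) (Λ * mm J u (x + (1 + u) * b * y - s)) -
      Λ * (1 + u) * b * y ^ 2 / 2) ≤
      1 / Λ * Pr (tot φr (fun r => ψ r + b * kap R r)) (Λ * (1 + u)) (Λ * mm J u x) :=
    mul_le_mul_of_nonneg_left e1 (by positivity)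
  have e6 : 1 / Λ * (Pr (tot φr ψ) (Λ * (1 + u)) (Λ * mm J u (x + (1 + u) * b * y - s)) -
      Λ * (1 + u) * b * y ^ 2 / 2) = pS φr ψ Λ J u (x + (1 + u) * b * y - s) -
      (1 + u) * b * y ^ 2 / 2 := by
    unfold pS; field_simp
  rw [e6] at e5
  change _ ≤ pS φr (fun r => ψ r + b * kap R r) Λ J u x at e5
  linarith

end

/-- convergence of the pressures -/
theorem Pr_tendsto {φr : ℝ → ℝ} {K s0 s1 s2 s3 η B S : ℝ} {J : ℕ} {b R : ℕ → ℝ}
    (h : RefData φr K s0 s1 s2 s3 η) (hJ1 : 1 ≤ J) (hJ : ClusLe J s0 s3)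
    (hb : ∀ k, 0 ≤ b k) (hR : ∀ k, 4 ≤ R k) (hs : Summable b) (hS : ∑' k, b k ≤ S)
    (hKS : 368 * J * S ≤ K) (hB1 : K / 2 ≤ B) (hB2 : 46 * S * J ≤ B) {β μ : ℝ} (hβ : 0 < β) :
    Tendsto (fun k => Pr (tot φr (psum b R k)) β μ) atTop (𝓝 (Pr (tot φr (tail b R)) β μ)) := by
  have hK0 := h.K0
  have hT := sys_tail h hJ1 hJ hb hR hs hS hKS hB1 hB2
  have hP := fun k => sys_psum h hJ1 hJ hb hR hs hS hKS hB1 hB2 k
  set μ' : ℝ := μ + β / 2 * (K + 1) with hμ'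
  set C : ℝ := 1 + (μ' + 2 * (β / 2) * B) ^ 2 / (2 * (β / 2) * (K / (54 * J))) with hC
  have hC0 : 0 ≤ C := by
    have := (hP 0).c0
    positivity
  have hup : ∀ k, Pr (tot φr (psum b R k)) β μ ≤ Pr (tot φr (tail b R)) β μ := by
    intro k
    have h1 := Pr_comp hT (hP k) (μ := μ) (ε := 0) (K := 0) hβ le_rfl one_pos (by
      intro n x
      have := energy_tail_le hb hR hs φr k x
      linarith)
    simpa using h1
  have hlow : ∀ ε : ℝ, 0 < ε → ε ≤ 1 / 2 → ∃ k0, ∀ k, k0 ≤ k →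
      Pr (tot φr (tail b R)) β μ ≤ Pr (tot φr (psum b R k)) β μ + 2 * ε * C := by
    intro ε hε hε2
    obtain ⟨k0, hk0⟩ := energy_tail_ge h hJ1 hJ hb hR hs hS hKS hε
    refine ⟨k0, fun k hk => ?_⟩
    have h1 := Pr_comp (hP k) hT (μ := μ) (ε := ε) (K := ε * (K + 1)) hβ hε.le (by linarith)
      (hk0 k hk)
    have h0 := Pr_convex (hP k)
    have h2 := h0.2 (x := ((β, μ) : ℝ × ℝ)) ⟨hβ, mem_univ _⟩
      (y := (β / 2, μ')) ⟨by show (0:ℝ) < β / 2; linarith, mem_univ _⟩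
      (by linarith : (0 : ℝ) ≤ 1 - 2 * ε) (by linarith : (0 : ℝ) ≤ 2 * ε)
      (by ring : 1 - 2 * ε + 2 * ε = 1)
    have e : (1 - 2 * ε) • ((β, μ) : ℝ × ℝ) + (2 * ε) • (β / 2, μ') =
        ((1 - ε) * β, μ + β * (ε * (K + 1))) := by
      ext
      · simp; ring
      · simp [hμ']; ring
    rw [e] at h2
    simp only [smul_eq_mul] at h2
    have h3 := Pr_bound (hP k) (β := β / 2) (μ := μ') (by linarith)
    have h4 := Pr_nonneg (hP k) (β := β) (μ := μ) hβ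
    have h5 : 2 * ε * Pr (tot φr (psum b R k)) (β / 2) μ' ≤ 2 * ε * C :=
      mul_le_mul_of_nonneg_left h3 (by linarith)
    have h6 : (1 - 2 * ε) * Pr (tot φr (psum b R k)) β μ ≤ Pr (tot φr (psum b R k)) β μ := by
      have : 0 ≤ 2 * ε * Pr (tot φr (psum b R k)) β μ := mul_nonneg (by linarith) h4
      linarith
    linarith
  rw [Metric.tendsto_atTop]
  intro δ hδ
  obtain ⟨ε, hε, hε2, hεδ⟩ : ∃ ε : ℝ, 0 < ε ∧ ε ≤ 1 / 2 ∧ 2 * ε * C < δ := by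
    refine ⟨min (1 / 2) (δ / (4 * (C + 1))), lt_min (by norm_num) (by positivity),
      min_le_left _ _, ?_⟩
    have h1 : min (1 / 2) (δ / (4 * (C + 1))) ≤ δ / (4 * (C + 1)) := min_le_right _ _
    calc 2 * min (1 / 2) (δ / (4 * (C + 1))) * C ≤ 2 * (δ / (4 * (C + 1))) * C := by
          apply mul_le_mul_of_nonneg_right _ hC0
          linarith
      _ = δ * (C / (2 * (C + 1))) := by field_simp; ring
      _ < δ * 1 := by
          apply mul_lt_mul_of_pos_left _ hδ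
          rw [div_lt_one (by positivity)]
          linarith
      _ = δ := mul_one _
  obtain ⟨k0, hk0⟩ := hlow ε hε hε2
  refine ⟨k0, fun k hk => ?_⟩
  rw [Real.dist_eq, abs_lt]
  constructor
  · linarith [hk0 k hk]
  · linarith [hup k]

end Crest.Agent.Kac
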