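import Crest.Agent.Kac.Defs

/-!
Packing numbers of cubes: attained maximum, superadditivity with a corridor, existence of the
packing density.
-/

open MeasureTheory Crest.ProbabilityR.Continuum Filter Topology Set
open scoped ENNReal

namespace Crest.Agent.Kac

/-- coarse cells of side one half -/
private noncomputable def cellHalf (x : Pt) : Fin 3 → ℤ := fun k => ⌊2 * x k⌋

private theorem dist_lt_one_of_cellHalf {x y : Pt} (h : cellHalf x = cellHalf y) :
    dist x y < 1 := by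
  have hk : ∀ k, |x k - y k| ≤ 1 / 2 := by
    intro k
    have h1 := congrFun h k
    simp only [cellHalf] at h1
    have h2 := Int.abs_sub_lt_one_of_floor_eq_floor h1
    rw [← mul_sub, abs_mul, abs_of_pos (by norm_num : (0:ℝ) < 2)] at h2
    linarith
  rw [EuclideanSpace.dist_eq]
  have h3 : ∑ i : Fin 3, dist (x i) (y i) ^ 2 ≤ 3 / 4 := by
    have : ∀ i : Fin 3, dist (x i) (y i) ^ 2 ≤ 1 / 4 := by
      intro i
      rw [Real.dist_eq]
      have h4 := hk i
      have h5 := abs_nonneg (x i - y i)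
      nlinarith
    calc ∑ i : Fin 3, dist (x i) (y i) ^ 2 ≤ ∑ _i : Fin 3, (1 / 4 : ℝ) :=
          Finset.sum_le_sum fun i _ => this i
      _ = 3 / 4 := by norm_num [Finset.sum_const]
  calc √(∑ i : Fin 3, dist (x i) (y i) ^ 2) ≤ √(3 / 4) := Real.sqrt_le_sqrt h3
    _ < 1 := by
      rw [Real.sqrt_lt' (by norm_num)]
      norm_num

theorem card_le_of_sep {L : ℝ} (hL : 0 ≤ L) (X : Finset Pt) (hX : ∀ x ∈ X, x ∈ cube L)
    (hd : ∀ x ∈ X, ∀ y ∈ X, x ≠ y → 1 ≤ dist x y) :
    X.card ≤ (⌊2 * L⌋₊ + 1) ^ 3 := by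
  classical
  have hmaps : ∀ x ∈ X, cellHalf x ∈
      (Fintype.piFinset fun _ : Fin 3 => Finset.Icc (0 : ℤ) (⌊2 * L⌋₊ : ℤ)) := by
    intro x hx
    rw [Fintype.mem_piFinset]
    intro k
    have h1 := hX x hx k
    rw [Finset.mem_Icc]
    constructor
    · simp only [cellHalf]
      exact Int.floor_nonneg.2 (by linarith [h1.1])
    · simp only [cellHalf]
      have h2 : ((⌊2 * L⌋₊ : ℕ) : ℤ) = ⌊2 * L⌋ := Int.natCast_floor_eq_floor (by linarith)
      rw [h2]
      exact Int.floor_le_floor (by linarith [h1.2])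
  have hinj : Set.InjOn cellHalf (X : Set Pt) := by
    intro x hx y hy hxy
    by_contra hne
    have h1 := hd x hx y hy hne
    have h2 := dist_lt_one_of_cellHalf hxy
    linarith
  have h3 := Finset.card_le_card_of_injOn cellHalf hmaps hinj
  refine h3.trans (le_of_eq ?_)
  rw [Fintype.card_piFinset]
  simp

theorem bddAbove_packingSet (L : ℝ) : BddAbove (packingSet L) := by
  rcases le_or_gt 0 L with hL | hL
  · refine ⟨(⌊2 * L⌋₊ + 1) ^ 3, ?_⟩
    rintro n ⟨X, rfl, hX, hd⟩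
    exact card_le_of_sep hL X hX hd
  · refine ⟨0, ?_⟩
    rintro n ⟨X, rfl, hX, hd⟩
    rw [Nat.le_zero, Finset.card_eq_zero]
    by_contra hne
    obtain ⟨x, hx⟩ := Finset.nonempty_iff_ne_empty.2 hne
    have h1 := hX x hx 0
    linarith [h1.1, h1.2]

theorem packingNumber_mem (L : ℝ) : packingNumber L ∈ packingSet L := by
  have hne : (packingSet L).Nonempty := ⟨0, ∅, by simp⟩
  exact Nat.sSup_mem hne (bddAbove_packingSet L)

theorem packing_le {L : ℝ} {n : ℕ} (x : Fin n → Pt) (hx : ∀ i, x i ∈ cube L)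
    (hd : ∀ i j, i ≠ j → 1 ≤ dist (x i) (x j)) : n ≤ packingNumber L := by
  classical
  refine le_csSup (bddAbove_packingSet L) ⟨Finset.univ.image x, ?_, ?_, ?_⟩
  · rw [Finset.card_image_of_injective, Finset.card_univ, Fintype.card_fin]
    intro i j hij
    by_contra hne
    have := hd i j hne
    rw [hij, dist_self] at this
    linarith
  · intro y hy
    obtain ⟨i, -, rfl⟩ := Finset.mem_image.1 hy
    exact hx i
  · intro y hy z hz hyz
    obtain ⟨i, -, rfl⟩ := Finset.mem_image.1 hy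
    obtain ⟨j, -, rfl⟩ := Finset.mem_image.1 hz
    exact hd i j fun h => hyz (by rw [h])

theorem packing_attained (L : ℝ) : ∃ x : Fin (packingNumber L) → Pt, (∀ i, x i ∈ cube L) ∧
    ∀ i j, i ≠ j → 1 ≤ dist (x i) (x j) := by
  obtain ⟨X, hc, hX, hd⟩ := packingNumber_mem L
  have e : Fin (packingNumber L) ≃ X := (Fintype.equivFinOfCardEq (by simpa using hc)).symm
  refine ⟨fun i => (e i : Pt), fun i => hX _ (e i).2, fun i j hij => hd _ (e i).2 _ (e j).2 ?_⟩
  intro h
  exact hij (e.injective (Subtype.ext h))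

/-- any finite index type -/
theorem packing_le_fintype {L : ℝ} {ι : Type*} [Fintype ι] (x : ι → Pt)
    (hx : ∀ i, x i ∈ cube L) (hd : ∀ i j, i ≠ j → 1 ≤ dist (x i) (x j)) :
    Fintype.card ι ≤ packingNumber L := by
  let e := (Fintype.equivFin ι).symm
  exact packing_le (fun i => x (e i)) (fun i => hx _)
    fun i j hij => hd _ _ fun h => hij (e.injective h)

theorem packing_one_le {L : ℝ} (hL : 0 ≤ L) : 1 ≤ packingNumber L := by
  refine packing_le (n := 1) (fun _ => 0) (fun _ k => ?_) ?_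
  · exact ⟨le_of_eq rfl, hL⟩
  · intro i j hij
    exact absurd (Subsingleton.elim i j) hij

theorem packing_mono {L L' : ℝ} (h : L ≤ L') : packingNumber L ≤ packingNumber L' := by
  obtain ⟨x, hx, hd⟩ := packing_attained L
  exact packing_le x (fun i k => ⟨(hx i k).1, (hx i k).2.trans h⟩) hd

theorem packing_upper {L : ℝ} (hL : 0 ≤ L) : packingNumber L ≤ (⌊2 * L⌋₊ + 1) ^ 3 := by
  obtain ⟨X, hc, hX, hd⟩ := packingNumber_mem L
  rw [← hc]
  exact card_le_of_sep hL X hX hd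

private theorem abs_coord_le_dist (x y : Pt) (k : Fin 3) : |x k - y k| ≤ dist x y := by
  rw [EuclideanSpace.dist_eq, ← Real.sqrt_sq_eq_abs]
  apply Real.sqrt_le_sqrt
  have := Finset.single_le_sum (f := fun i : Fin 3 => dist (x i) (y i) ^ 2)
    (fun i _ => sq_nonneg _) (Finset.mem_univ k)
  simpa [Real.dist_eq, sq_abs] using this

theorem packing_mul {L : ℝ} (hL : 0 ≤ L) (m : ℕ) :
    m ^ 3 * packingNumber L ≤ packingNumber (m * (L + 1)) := by
  obtain ⟨x, hx, hd⟩ := packing_attained L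
  let y : (Fin 3 → Fin m) × Fin (packingNumber L) → Pt := fun p =>
    WithLp.toLp 2 (fun k => x p.2 k + ((p.1 k : ℕ) : ℝ) * (L + 1))
  have hy : ∀ p k, y p k = x p.2 k + ((p.1 k : ℕ) : ℝ) * (L + 1) := fun p k => rfl
  have h1 := packing_le_fintype (L := m * (L + 1)) y ?_ ?_
  · simpa using h1
  · intro p k
    rw [hy]
    have h2 := hx p.2 k
    have h3 : ((p.1 k : ℕ) : ℝ) + 1 ≤ m := by exact_mod_cast (p.1 k).2
    have h4 : (0 : ℝ) ≤ ((p.1 k : ℕ) : ℝ) := Nat.cast_nonneg _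
    constructor
    · nlinarith [h2.1]
    · nlinarith [h2.2]
  · intro p q hpq
    by_cases h : p.1 = q.1
    · have h5 : p.2 ≠ q.2 := fun h' => hpq (Prod.ext h h')
      have h6 := hd _ _ h5
      refine h6.trans (le_of_eq ?_)
      rw [EuclideanSpace.dist_eq, EuclideanSpace.dist_eq]
      congr 1
      refine Finset.sum_congr rfl fun k _ => ?_
      rw [hy, hy, h]
      simp [Real.dist_eq]
    · obtain ⟨k, hk⟩ := Function.ne_iff.1 h
      refine le_trans ?_ (abs_coord_le_dist (y p) (y q) k)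
      rw [hy, hy]
      have hx1 := hx p.2 k
      have hx2 := hx q.2 k
      have hne : ((p.1 k : ℕ) : ℤ) ≠ ((q.1 k : ℕ) : ℤ) := by
        intro h'
        exact hk (Fin.ext (by exact_mod_cast h'))
      rcases lt_or_gt_of_ne hne with hlt | hlt
      · have h7 : ((p.1 k : ℕ) : ℝ) + 1 ≤ ((q.1 k : ℕ) : ℝ) := by exact_mod_cast hlt
        rw [abs_sub_comm]
        refine le_trans ?_ (le_abs_self _)
        nlinarith [hx1.1, hx1.2, hx2.1, hx2.2]
      · have h7 : ((q.1 k : ℕ) : ℝ) + 1 ≤ ((p.1 k : ℕ) : ℝ) := by exact_mod_cast hlt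
        refine le_trans ?_ (le_abs_self _)
        nlinarith [hx1.1, hx1.2, hx2.1, hx2.2]

/-- superadditivity with corridor one -/
theorem packing_super {p : ℝ} (hp : Tendsto (fun L : ℝ => (packingNumber L : ℝ) / L ^ 3) atTop (𝓝 p))
    {L : ℝ} (hL : 0 ≤ L) : (packingNumber L : ℝ) ≤ p * (L + 1) ^ 3 := by
  have hL1 : 0 < L + 1 := by linarith
  have h1 : Tendsto (fun m : ℕ => (m : ℝ) * (L + 1)) atTop atTop :=
    Tendsto.atTop_mul_const hL1 tendsto_natCast_atTop_atTop
  have h2 := hp.comp h1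
  have h3 : (packingNumber L : ℝ) / (L + 1) ^ 3 ≤ p := by
    refine ge_of_tendsto h2 ?_
    filter_upwards [eventually_ge_atTop 1] with m hm
    have hm' : (0 : ℝ) < m := by exact_mod_cast hm
    simp only [Function.comp]
    rw [div_le_div_iff₀ (by positivity) (by positivity)]
    have h4 : ((m : ℝ)) ^ 3 * packingNumber L ≤ packingNumber (m * (L + 1)) := by
      exact_mod_cast packing_mul hL m
    calc (packingNumber L : ℝ) * (m * (L + 1)) ^ 3
        = ((m : ℝ) ^ 3 * packingNumber L) * (L + 1) ^ 3 := by ring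
      _ ≤ packingNumber (m * (L + 1)) * (L + 1) ^ 3 := by gcongr
  rwa [div_le_iff₀ (by positivity)] at h3

theorem packing_lower {L : ℝ} (hL : 0 ≤ L) : (L : ℝ) ^ 3 ≤ packingNumber L := by
  -- lattice points `0, …, ⌊L⌋` in every direction
  let y : (Fin 3 → Fin (⌊L⌋₊ + 1)) → Pt := fun p => WithLp.toLp 2 (fun k => ((p k : ℕ) : ℝ))
  have hy : ∀ p k, y p k = ((p k : ℕ) : ℝ) := fun p k => rfl
  have h2 := packing_le_fintype (L := L) y ?_ ?_
  · have h3 : (⌊L⌋₊ + 1) ^ 3 ≤ packingNumber L := by simpa using h2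
    have h4 : ((⌊L⌋₊ + 1 : ℕ) : ℝ) ^ 3 ≤ packingNumber L := by exact_mod_cast h3
    refine le_trans ?_ h4
    have h5 := (Nat.lt_floor_add_one L).le
    push_cast
    gcongr
  · intro p k
    rw [hy]
    refine ⟨Nat.cast_nonneg _, ?_⟩
    have h3 : (p k : ℕ) ≤ ⌊L⌋₊ := Nat.lt_succ_iff.1 (p k).2
    exact (Nat.cast_le.2 h3).trans (Nat.floor_le hL)
  · intro p q hpq
    obtain ⟨k, hk⟩ := Function.ne_iff.1 hpq
    refine le_trans ?_ (abs_coord_le_dist (y p) (y q) k)
    rw [hy, hy]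
    have hne : (p k : ℕ) ≠ (q k : ℕ) := fun h' => hk (Fin.ext h')
    rcases lt_or_gt_of_ne hne with hlt | hlt
    · have h7 : ((p k : ℕ) : ℝ) + 1 ≤ ((q k : ℕ) : ℝ) := by exact_mod_cast hlt
      rw [abs_sub_comm]
      refine le_trans ?_ (le_abs_self _)
      linarith
    · have h7 : ((q k : ℕ) : ℝ) + 1 ≤ ((p k : ℕ) : ℝ) := by exact_mod_cast hlt
      refine le_trans ?_ (le_abs_self _)
      linarith

theorem packing_limit : ∃ p : ℝ, 0 < p ∧
    Tendsto (fun L : ℝ => (packingNumber L : ℝ) / L ^ 3) atTop (𝓝 p) := by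
  set S : Set ℝ := (fun L : ℝ => (packingNumber L : ℝ) / (L + 1) ^ 3) '' Ici 0 with hS
  have hSne : S.Nonempty := ⟨_, 0, le_refl (0 : ℝ), rfl⟩
  have hSb : BddAbove S := by
    refine ⟨8, ?_⟩
    rintro _ ⟨L, hL, rfl⟩
    have hL0 : (0 : ℝ) ≤ L := hL
    simp only
    rw [div_le_iff₀ (by positivity)]
    have h1 := packing_upper hL0
    have h2 : (packingNumber L : ℝ) ≤ ((⌊2 * L⌋₊ : ℝ) + 1) ^ 3 := by exact_mod_cast h1
    have h3 : (⌊2 * L⌋₊ : ℝ) ≤ 2 * L := Nat.floor_le (by linarith)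
    calc (packingNumber L : ℝ) ≤ ((⌊2 * L⌋₊ : ℝ) + 1) ^ 3 := h2
      _ ≤ (2 * (L + 1)) ^ 3 := by gcongr; linarith
      _ = 8 * (L + 1) ^ 3 := by ring
  set p := sSup S with hp
  have hle : ∀ L : ℝ, 0 ≤ L → (packingNumber L : ℝ) / (L + 1) ^ 3 ≤ p := fun L hL =>
    le_csSup hSb ⟨L, hL, rfl⟩
  have hp0 : 0 < p := by
    have h1 := hle 0 le_rfl
    have h2 := packing_one_le (le_refl (0 : ℝ))
    have h3 : (1 : ℝ) ≤ packingNumber 0 := by exact_mod_cast h2
    simp at h1
    linarith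
  refine ⟨p, hp0, ?_⟩
  rw [tendsto_order]
  constructor
  · intro a ha
    -- choose a good `L0`
    obtain ⟨_, ⟨L0, hL0, rfl⟩, hlt⟩ := exists_lt_of_lt_csSup hSne ha
    have hL0' : (0 : ℝ) ≤ L0 := hL0
    have hL1 : 0 < L0 + 1 := by linarith
    simp only at hlt
    -- `(⌊L/(L0+1)⌋ / L)^3 * packingNumber L0 → packingNumber L0 / (L0+1)^3`
    have h1 : Tendsto (fun L : ℝ => ((⌊L / (L0 + 1)⌋₊ : ℝ) / L) ^ 3 * packingNumber L0) atTop
        (𝓝 ((packingNumber L0 : ℝ) / (L0 + 1) ^ 3)) := by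
      have h2 : Tendsto (fun L : ℝ => (⌊(1 / (L0 + 1)) * L⌋₊ : ℝ) / L) atTop
          (𝓝 (1 / (L0 + 1))) := tendsto_nat_floor_mul_div_atTop (by positivity)
      have h3 := (h2.pow 3).mul_const (packingNumber L0 : ℝ)
      have h4 : (1 / (L0 + 1)) ^ 3 * (packingNumber L0 : ℝ) =
          (packingNumber L0 : ℝ) / (L0 + 1) ^ 3 := by
        field_simp
      rw [h4] at h3
      refine h3.congr fun L => ?_
      rw [one_div, inv_mul_eq_div]
    have h5 := (tendsto_order.1 h1).1 a hlt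
    filter_upwards [h5, eventually_gt_atTop 0] with L hL hLpos
    refine lt_of_lt_of_le hL ?_
    rw [div_pow, div_mul_eq_mul_div]
    gcongr
    set m := ⌊L / (L0 + 1)⌋₊ with hm
    have h6 : (m : ℝ) * (L0 + 1) ≤ L := by
      have h7 : (m : ℝ) ≤ L / (L0 + 1) := Nat.floor_le (by positivity)
      rwa [le_div_iff₀ hL1] at h7
    have h8 := (packing_mul hL0' m).trans (packing_mono h6)
    exact_mod_cast h8
  · intro a ha
    have h1 : Tendsto (fun L : ℝ => p * ((L + 1) / L) ^ 3) atTop (𝓝 (p * 1 ^ 3)) := by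
      refine Tendsto.const_mul _ (Tendsto.pow ?_ 3)
      have h2 : Tendsto (fun L : ℝ => 1 + L⁻¹) atTop (𝓝 (1 + 0)) :=
        tendsto_const_nhds.add tendsto_inv_atTop_zero
      rw [add_zero] at h2
      refine h2.congr' ?_
      filter_upwards [eventually_gt_atTop 0] with L hL
      field_simp
    rw [one_pow, mul_one] at h1
    filter_upwards [(tendsto_order.1 h1).2 a ha, eventually_gt_atTop 0] with L hL hLpos
    refine lt_of_le_of_lt ?_ hL
    have h3 := hle L hLpos.le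
    rw [div_le_iff₀ (by positivity)] at h3
    rw [div_pow, mul_div_assoc']
    gcongr

end Crest.Agent.Kac
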