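import Crest.Agent.Kac.RefPot
import Crest.Agent.Kac.Comb
import Crest.Agent.Kac.Clus
import Crest.Agent.Kac.Packing

open MeasureTheory Crest.ProbabilityR.Continuum Filter Topology Set
open scoped ENNReal

namespace Crest.Agent.Kac

namespace RE

/-- pairs with interaction at least `K` -/
def Big (s0 s3 : ℝ) (x y : Pt) : Prop := dist x y < s0 ∨ (s3 < dist x y ∧ dist x y < 1)

theorem Big.symm {s0 s3 : ℝ} {x y : Pt} (h : Big s0 s3 x y) : Big s0 s3 y x := by
  unfold Big at h ⊢
  rwa [dist_comm]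

open Classical in
theorem card_sub {n : ℕ} (P : Fin n × Fin n → Prop) :
    (Finset.univ.filter (fun p : {p : Fin n × Fin n // p.1 < p.2} => P p.1)).card
      = (Finset.univ.filter (fun p : Fin n × Fin n => p.1 < p.2 ∧ P p)).card := by
  apply Finset.card_bij (fun p _ => p.1)
  · intro p hp
    rw [Finset.mem_filter] at hp
    rw [Finset.mem_filter]
    exact ⟨by simp, p.2, hp.2⟩
  · intro p _ q _ h
    exact Subtype.ext h
  · intro p hp
    rw [Finset.mem_filter] at hp
    exact ⟨⟨p, hp.2.1⟩, by rw [Finset.mem_filter]; exact ⟨Finset.mem_univ _, hp.2.2⟩, rfl⟩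

open Classical in
theorem energy_ge_big {φr : ℝ → ℝ} {K s0 s1 s2 s3 η : ℝ} (h : RefData φr K s0 s1 s2 s3 η)
    {n : ℕ} (x : Fin n → Pt) :
    K * (Finset.univ.filter (fun p : {p : Fin n × Fin n // p.1 < p.2} =>
      Big s0 s3 (x p.1.1) (x p.1.2))).card ≤ energy φr x := by
  unfold energy
  calc K * (Finset.univ.filter (fun p : {p : Fin n × Fin n // p.1 < p.2} =>
        Big s0 s3 (x p.1.1) (x p.1.2))).card
      = ∑ p ∈ Finset.univ.filter (fun p : {p : Fin n × Fin n // p.1 < p.2} =>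
        Big s0 s3 (x p.1.1) (x p.1.2)), K := by
        rw [Finset.sum_const, nsmul_eq_mul, mul_comm]
    _ ≤ ∑ p ∈ Finset.univ.filter (fun p : {p : Fin n × Fin n // p.1 < p.2} =>
        Big s0 s3 (x p.1.1) (x p.1.2)), φr (dist (x p.1.1) (x p.1.2)) := by
        apply Finset.sum_le_sum
        intro p hp
        rw [Finset.mem_filter] at hp
        rcases hp.2 with h1 | ⟨h1, h2⟩
        · exact h.big1 _ dist_nonneg h1.le
        · exact h.big2 _ h1.le h2.le
    _ ≤ ∑ p : {p : Fin n × Fin n // p.1 < p.2}, φr (dist (x p.1.1) (x p.1.2)) := by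
        apply Finset.sum_le_sum_of_subset_of_nonneg (Finset.filter_subset _ _)
        intro p _ _
        exact h.nonneg _

/-- finsets of indices with pairwise distances in `[s0,s3]` -/
theorem card_le_of_clus {J : ℕ} {s0 s3 : ℝ} (hJ : ClusLe J s0 s3) {n : ℕ} (x : Fin n → Pt)
    (A : Finset (Fin n))
    (hA : ∀ i ∈ A, ∀ j ∈ A, i ≠ j → s0 ≤ dist (x i) (x j) ∧ dist (x i) (x j) ≤ s3) :
    A.card ≤ J := by
  apply hJ A.card (fun k => x (A.orderEmbOfFin rfl k))
  intro i j hij
  apply hA _ (A.orderEmbOfFin_mem rfl i) _ (A.orderEmbOfFin_mem rfl j)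
  intro h
  exact hij ((A.orderEmbOfFin rfl).injective h)

theorem card_le_of_sep {L : ℝ} {n : ℕ} (x : Fin n → Pt) (hx : ∀ i, x i ∈ cube L)
    (A : Finset (Fin n)) (hA : ∀ i ∈ A, ∀ j ∈ A, i ≠ j → 1 ≤ dist (x i) (x j)) :
    A.card ≤ packingNumber L := by
  apply packing_le (fun k => x (A.orderEmbOfFin rfl k)) (fun k => hx _)
  intro i j hij
  apply hA _ (A.orderEmbOfFin_mem rfl i) _ (A.orderEmbOfFin_mem rfl j)
  intro h
  exact hij ((A.orderEmbOfFin rfl).injective h)

theorem free_card_le {φr : ℝ → ℝ} {K s0 s1 s2 s3 η : ℝ} (h : RefData φr K s0 s1 s2 s3 η) {J : ℕ}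
    (hJ : ClusLe J s0 s3) {L : ℝ} {n : ℕ} (x : Fin n → Pt) (hx : ∀ i, x i ∈ cube L)
    (A : Finset (Fin n)) (hA : ∀ i ∈ A, ∀ j ∈ A, i ≠ j → ¬ Big s0 s3 (x i) (x j)) :
    A.card ≤ J * packingNumber L := by
  classical
  obtain ⟨M, hM, hMmax⟩ := Finset.exists_max_image
    (A.powerset.filter (fun M => ∀ i ∈ M, ∀ j ∈ M, i ≠ j → 1 ≤ dist (x i) (x j))) Finset.card
    ⟨∅, by simp⟩
  rw [Finset.mem_filter, Finset.mem_powerset] at hM
  obtain ⟨hMA, hMs⟩ := hM
  have hnear : ∀ a ∈ A, ∃ m ∈ M, dist (x a) (x m) < 1 := by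
    intro a ha
    by_cases haM : a ∈ M
    · exact ⟨a, haM, by rw [dist_self]; norm_num⟩
    · by_contra hcon
      push Not at hcon
      have h1 : insert a M ∈ A.powerset.filter
          (fun M => ∀ i ∈ M, ∀ j ∈ M, i ≠ j → 1 ≤ dist (x i) (x j)) := by
        rw [Finset.mem_filter, Finset.mem_powerset]
        refine ⟨Finset.insert_subset ha hMA, ?_⟩
        intro i hi j hj hij
        rw [Finset.mem_insert] at hi hj
        rcases hi with rfl | hi
        · rcases hj with rfl | hj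
          · exact absurd rfl hij
          · exact hcon j hj
        · rcases hj with rfl | hj
          · rw [dist_comm]
            exact hcon i hi
          · exact hMs i hi j hj hij
      have h2 := hMmax _ h1
      rw [Finset.card_insert_of_notMem haM] at h2
      omega
  choose! f hfM hf1 using hnear
  have hs3 : 0 < s3 := by linarith [h.s0pos, h.s01, h.s12, h.s23]
  have hfs : ∀ a ∈ A, dist (x a) (x (f a)) ≤ s3 := by
    intro a ha
    by_cases haf : a = f a
    · rw [← haf, dist_self]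
      exact hs3.le
    · by_contra hcon
      exact hA a ha (f a) (hMA (hfM a ha)) haf (Or.inr ⟨not_le.1 hcon, hf1 a ha⟩)
  have hcard := Finset.card_le_mul_card_image_of_maps_to (s := A) (t := M) (f := f) hfM J ?_
  · exact hcard.trans (Nat.mul_le_mul_left _ (card_le_of_sep x hx M hMs))
  · intro m _
    apply card_le_of_clus hJ x
    intro i hi j hj hij
    rw [Finset.mem_filter] at hi hj
    have h1 := hfs i hi.1
    have h2 := hfs j hj.1
    rw [hi.2] at h1
    rw [hj.2] at h2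
    have h3 : dist (x i) (x j) ≤ dist (x i) (x m) + dist (x j) (x m) := dist_triangle_right _ _ _
    have h4 := hA i hi.1 j hj.1 hij
    unfold Big at h4
    push Not at h4
    have h5 := h.s3h
    refine ⟨h4.1, ?_⟩
    by_contra hcon
    have := h4.2 (not_le.1 hcon)
    linarith

end RE

open RE

/-- `energy φr x ≥ K · Xn (J·packing) n` -/
theorem ref_energy_Xn {φr : ℝ → ℝ} {K s0 s1 s2 s3 η : ℝ} (h : RefData φr K s0 s1 s2 s3 η) {J : ℕ}
    (hJ : ClusLe J s0 s3) {L : ℝ} {n : ℕ} (x : Fin n → Pt) (hx : ∀ i, x i ∈ cube L) :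
    K * Xn (J * packingNumber L) n ≤ energy φr x := by
  classical
  have h1 := greedy (fun i j => Big s0 s3 (x i) (x j)) (fun i j hij => hij.symm)
    (J * packingNumber L) (fun A hA => free_card_le h hJ x hx A hA)
  refine le_trans ?_ (energy_ge_big h x)
  apply mul_le_mul_of_nonneg_left _ h.K0.le
  exact_mod_cast h1

namespace RE

/-- points of the same cell of side `1/2` have distance less than one -/
theorem dist_lt_of_cell {x y : Pt} (h : cellIdx (1 / 2) 0 x = cellIdx (1 / 2) 0 y) :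
    dist x y < 1 := by
  have hk : ∀ k, (x k - y k) ^ 2 ≤ 1 / 4 := by
    intro k
    have h1 := congrFun h k
    simp only [cellIdx, sub_zero] at h1
    have h2 := Int.floor_le (x k / (1 / 2))
    have h3 := Int.lt_floor_add_one (x k / (1 / 2))
    have h4 := Int.floor_le (y k / (1 / 2))
    have h5 := Int.lt_floor_add_one (y k / (1 / 2))
    rw [h1] at h2 h3
    have h6 : |x k - y k| ≤ 1 / 2 := by
      rw [abs_le]
      constructor <;> linarith
    rw [← sq_abs]
    calc |x k - y k| ^ 2 ≤ (1 / 2) ^ 2 := by gcongr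
      _ = 1 / 4 := by norm_num
  rw [EuclideanSpace.dist_eq, Real.sqrt_lt' one_pos]
  have h1 : ∀ k, dist (x k) (y k) ^ 2 ≤ 1 / 4 := by
    intro k
    rw [Real.dist_eq, sq_abs]
    exact hk k
  rw [Fin.sum_univ_three]
  have := h1 0
  have := h1 1
  have := h1 2
  linarith

open Classical in
/-- the indices in the cell `C` -/
noncomputable def cellFin {n : ℕ} (x : Fin n → Pt) (C : Fin 3 → ℤ) : Finset (Fin n) :=
  Finset.univ.filter (fun i => cellIdx (1 / 2) 0 (x i) = C)

open Classical in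
theorem sqOcc_eq_sum {n : ℕ} (x : Fin n → Pt) (T : Finset (Fin 3 → ℤ))
    (hT : ∀ i, cellIdx (1 / 2) 0 (x i) ∈ T) :
    sqOcc (1 / 2) 0 x = ∑ C ∈ T, ((cellFin x C).card : ℝ) ^ 2 := by
  have h1 : ∀ C, ((cellFin x C).card : ℝ)
      = ∑ i, if cellIdx (1 / 2) 0 (x i) = C then (1 : ℝ) else 0 := by
    intro C
    unfold cellFin
    rw [Finset.card_filter]
    push_cast
    rfl
  have h2 : ∀ C ∈ T, ((cellFin x C).card : ℝ) ^ 2 = ∑ i, ∑ j,
      if cellIdx (1 / 2) 0 (x i) = C then
        (if cellIdx (1 / 2) 0 (x i) = cellIdx (1 / 2) 0 (x j) then (1 : ℝ) else 0) else 0 := by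
    intro C _
    rw [sq, h1, Finset.sum_mul_sum]
    apply Finset.sum_congr rfl
    intro i _
    apply Finset.sum_congr rfl
    intro j _
    by_cases hi : cellIdx (1 / 2) 0 (x i) = C
    · rw [if_pos hi, if_pos hi, one_mul, hi]
      by_cases hj : cellIdx (1 / 2) 0 (x j) = C
      · rw [if_pos hj, if_pos hj.symm]
      · rw [if_neg hj, if_neg (fun h => hj h.symm)]
    · rw [if_neg hi, if_neg hi, zero_mul]
  rw [Finset.sum_congr rfl h2, Finset.sum_comm]
  unfold sqOcc
  apply Finset.sum_congr rfl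
  intro i _
  rw [Finset.sum_comm]
  apply Finset.sum_congr rfl
  intro j _
  rw [Finset.sum_ite_eq]
  rw [if_pos (hT i)]

theorem sum_card_cell {n : ℕ} (x : Fin n → Pt) (T : Finset (Fin 3 → ℤ))
    (hT : ∀ i, cellIdx (1 / 2) 0 (x i) ∈ T) : ∑ C ∈ T, (cellFin x C).card = n := by
  classical
  have := Finset.card_eq_sum_card_fiberwise (s := (Finset.univ : Finset (Fin n))) (t := T)
    (f := fun i => cellIdx (1 / 2) 0 (x i)) (fun i _ => hT i)
  rw [Finset.card_univ, Fintype.card_fin] at this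
  refine Eq.trans ?_ this.symm
  apply Finset.sum_congr rfl
  intro C _
  unfold cellFin
  congr

end RE

/-- local superstability on the grid of side `1/2` -/
theorem ref_sqOcc {φr : ℝ → ℝ} {K s0 s1 s2 s3 η : ℝ} (h : RefData φr K s0 s1 s2 s3 η) {J : ℕ}
    (hJ1 : 1 ≤ J) (hJ : ClusLe J s0 s3) {n : ℕ} (x : Fin n → Pt) :
    sqOcc (1 / 2) 0 x ≤ 2 * J / K * energy φr x + J * n := by
  classical
  let T : Finset (Fin 3 → ℤ) := Finset.univ.image (fun i => cellIdx (1 / 2) 0 (x i))
  have hT : ∀ i, cellIdx (1 / 2) 0 (x i) ∈ T := fun i =>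
    Finset.mem_image_of_mem _ (Finset.mem_univ i)
  -- the modified relation
  obtain ⟨big', hbig'⟩ : ∃ b : Fin n → Fin n → Prop, ∀ i j, b i j ↔
      (Big s0 s3 (x i) (x j) ∨ cellIdx (1 / 2) 0 (x i) ≠ cellIdx (1 / 2) 0 (x j)) :=
    ⟨fun i j => Big s0 s3 (x i) (x j) ∨ cellIdx (1 / 2) 0 (x i) ≠ cellIdx (1 / 2) 0 (x j),
      fun i j => Iff.rfl⟩
  have hsymm : ∀ i j, big' i j → big' j i := by
    intro i j hij
    rw [hbig'] at hij ⊢
    rcases hij with h1 | h1
    · exact Or.inl h1.symm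
    · exact Or.inr h1.symm
  have hfree : ∀ A : Finset (Fin n), (∀ i ∈ A, ∀ j ∈ A, i ≠ j → ¬ big' i j) → A.card ≤ J := by
    intro A hA
    apply card_le_of_clus hJ x
    intro i hi j hj hij
    have h1 := hA i hi j hj hij
    rw [hbig'] at h1
    push Not at h1
    have h2 := dist_lt_of_cell h1.2
    have h3 := h1.1
    unfold Big at h3
    push Not at h3
    refine ⟨h3.1, ?_⟩
    by_contra hcon
    have := h3.2 (not_le.1 hcon)
    linarith
  have hcell : ∀ C, Xn J (cellFin x C).card ≤ ((cellFin x C ×ˢ cellFin x C).filter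
      (fun p => p.1 < p.2 ∧ Big s0 s3 (x p.1) (x p.2))).card := by
    intro C
    refine (greedy_aux big' hsymm J hfree _ (cellFin x C) rfl).trans ?_
    apply Finset.card_le_card
    intro p hp
    rw [Finset.mem_filter, Finset.mem_product] at hp ⊢
    refine ⟨hp.1, hp.2.1, ?_⟩
    rcases (hbig' _ _).1 hp.2.2 with h1 | h1
    · exact h1
    · exfalso
      apply h1
      have h2 := hp.1.1
      have h3 := hp.1.2
      unfold cellFin at h2 h3
      rw [Finset.mem_filter] at h2 h3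
      rw [h2.2, h3.2]
  -- sum over the cells
  have hsum : ∑ C ∈ T, Xn J (cellFin x C).card ≤ (Finset.univ.filter
      (fun p : {p : Fin n × Fin n // p.1 < p.2} => Big s0 s3 (x p.1.1) (x p.1.2))).card := by
    rw [card_sub (fun p : Fin n × Fin n => Big s0 s3 (x p.1) (x p.2))]
    calc ∑ C ∈ T, Xn J (cellFin x C).card
        ≤ ∑ C ∈ T, ((cellFin x C ×ˢ cellFin x C).filter
          (fun p => p.1 < p.2 ∧ Big s0 s3 (x p.1) (x p.2))).card :=
          Finset.sum_le_sum fun C _ => hcell C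
      _ = (T.biUnion (fun C => (cellFin x C ×ˢ cellFin x C).filter
          (fun p => p.1 < p.2 ∧ Big s0 s3 (x p.1) (x p.2)))).card := by
          symm
          apply Finset.card_biUnion
          intro C _ C' _ hCC'
          rw [Function.onFun, Finset.disjoint_left]
          intro p hp hp'
          rw [Finset.mem_filter, Finset.mem_product] at hp hp'
          apply hCC'
          have h2 := hp.1.1
          have h3 := hp'.1.1
          unfold cellFin at h2 h3
          rw [Finset.mem_filter] at h2 h3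
          rw [← h2.2, h3.2]
      _ ≤ (Finset.univ.filter (fun p : Fin n × Fin n => p.1 < p.2 ∧
          Big s0 s3 (x p.1) (x p.2))).card := by
          apply Finset.card_le_card
          intro p hp
          rw [Finset.mem_biUnion] at hp
          obtain ⟨C, _, hp⟩ := hp
          rw [Finset.mem_filter] at hp ⊢
          exact ⟨Finset.mem_univ _, hp.2⟩
  have hJ0 : (0 : ℝ) < J := by exact_mod_cast hJ1
  have hK := h.K0
  have hlow : sqOcc (1 / 2) 0 x / (2 * J) - n / 2 ≤ (∑ C ∈ T, Xn J (cellFin x C).card : ℕ) := by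
    rw [sqOcc_eq_sum x T hT]
    have hn : (n : ℝ) = ∑ C ∈ T, ((cellFin x C).card : ℝ) := by
      rw [← Nat.cast_sum, sum_card_cell x T hT]
    rw [hn, Finset.sum_div, Finset.sum_div, ← Finset.sum_sub_distrib]
    push_cast
    apply Finset.sum_le_sum
    intro C _
    exact Xn_ge_quad hJ1 _
  have hE : K * (sqOcc (1 / 2) 0 x / (2 * J) - n / 2) ≤ energy φr x := by
    refine le_trans ?_ (energy_ge_big h x)
    apply mul_le_mul_of_nonneg_left _ hK.le
    refine hlow.trans ?_
    exact_mod_cast hsum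
  have h1 : sqOcc (1 / 2) 0 x = 2 * J / K * (K * (sqOcc (1 / 2) 0 x / (2 * J) - n / 2))
      + J * n := by
    field_simp
    ring
  rw [h1]
  have h2 : 2 * J / K * (K * (sqOcc (1 / 2) 0 x / (2 * J) - n / 2))
      ≤ 2 * J / K * energy φr x := by gcongr
  linarith

/-- hence global superstability: `Σ n_u² ≥ n²/#cells` -/
theorem sqOcc_ge {L : ℝ} (hL : 1 ≤ L) {n : ℕ} (x : Fin n → Pt) (hx : ∀ i, x i ∈ cube L) :
    (n : ℝ) ^ 2 / (27 * L ^ 3) ≤ sqOcc (1 / 2) 0 x := by
  classical
  obtain ⟨T, hTdef⟩ : ∃ T : Finset (Fin 3 → ℤ),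
    T = Fintype.piFinset (fun _ => Finset.Icc (0 : ℤ) ⌊2 * L⌋) := ⟨_, rfl⟩
  have hT : ∀ i, cellIdx (1 / 2) 0 (x i) ∈ T := by
    intro i
    rw [hTdef, Fintype.mem_piFinset]
    intro k
    rw [Finset.mem_Icc]
    obtain ⟨h1, h2⟩ := hx i k
    simp only [cellIdx, sub_zero]
    constructor
    · apply Int.floor_nonneg.2
      positivity
    · apply Int.floor_le_floor
      linarith
  have hfl : (0 : ℤ) ≤ ⌊2 * L⌋ := Int.floor_nonneg.2 (by linarith)
  have hcard : (T.card : ℝ) ≤ 27 * L ^ 3 := by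
    have h1 : T.card = (⌊2 * L⌋ + 1).toNat ^ 3 := by
      rw [hTdef]
      simp only [Fintype.card_piFinset, Int.card_Icc, sub_zero, Finset.prod_const,
        Finset.card_univ, Fintype.card_fin]
    have h2 : (((⌊2 * L⌋ + 1).toNat : ℕ) : ℝ) ≤ 3 * L := by
      have h3 : (((⌊2 * L⌋ + 1).toNat : ℕ) : ℝ) = ((⌊2 * L⌋ + 1 : ℤ) : ℝ) := by
        rw [← Int.cast_natCast, Int.toNat_of_nonneg (by omega)]
      rw [h3]
      push_cast
      have := Int.floor_le (2 * L)
      linarith
    rw [h1]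
    push_cast
    calc (((⌊2 * L⌋ + 1).toNat : ℕ) : ℝ) ^ 3 ≤ (3 * L) ^ 3 := by gcongr
      _ = 27 * L ^ 3 := by ring
  rw [sqOcc_eq_sum x T hT, div_le_iff₀ (by positivity)]
  have hn : (n : ℝ) = ∑ C ∈ T, ((cellFin x C).card : ℝ) := by
    rw [← Nat.cast_sum, sum_card_cell x T hT]
  have h0 : 0 ≤ ∑ C ∈ T, ((cellFin x C).card : ℝ) ^ 2 := Finset.sum_nonneg fun C _ => by positivity
  calc (n : ℝ) ^ 2 = (∑ C ∈ T, ((cellFin x C).card : ℝ)) ^ 2 := by rw [← hn]
    _ ≤ T.card * ∑ C ∈ T, ((cellFin x C).card : ℝ) ^ 2 := sq_sum_le_card_mul_sum_sq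
    _ ≤ (27 * L ^ 3) * ∑ C ∈ T, ((cellFin x C).card : ℝ) ^ 2 := by gcongr
    _ = (∑ C ∈ T, ((cellFin x C).card : ℝ) ^ 2) * (27 * L ^ 3) := mul_comm _ _

end Crest.Agent.Kac
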