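import Crest.Agent.Kac.ThermoA

/-!
S0209/S0210, module Thermo, part 2: consequences of the existence and convexity of the free energy.
-/

set_option autoImplicit false

open MeasureTheory Crest.ProbabilityR.Continuum Filter Topology Set
open scoped ENNReal

namespace Crest.Agent.Kac

namespace ThB

/-- support line of a convex function at an interior point of the half line -/
theorem exists_support {f : ℝ → ℝ} (hf : ConvexOn ℝ (Ici 0) f) {x : ℝ} (hx : 0 < x) :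
    ∃ m : ℝ, ∀ y, 0 ≤ y → f x + m * (y - x) ≤ f y := by
  have hxi : x ∈ interior (Ici (0 : ℝ)) := by rw [interior_Ici]; exact hx
  refine ⟨derivWithin f (Ioi x) x, fun y hy => ?_⟩
  rcases lt_trichotomy y x with h | h | h
  · have h1 := hf.slope_le_leftDeriv_of_mem_interior (x := y) (y := x) hy hxi h
    have h2 := h1.trans (hf.leftDeriv_le_rightDeriv_of_mem_interior hxi)
    rw [slope_def_field, div_le_iff₀ (by linarith)] at h2
    linarith
  · rw [h]; simp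
  · have h1 := hf.rightDeriv_le_slope_of_mem_interior hxi (y := y) hy h
    rw [slope_def_field, le_div_iff₀ (by linarith)] at h1
    linarith

/-- number of particles over volume -/
theorem tendsto_density (ρ : ℝ) :
    Tendsto (fun L : ℝ => ((⌊ρ * L ^ 3⌋₊ : ℕ) : ℝ) / L ^ 3) atTop (𝓝 (max ρ 0)) := by
  have h3 : Tendsto (fun L : ℝ => L ^ 3) atTop atTop := tendsto_pow_atTop (by norm_num)
  rcases le_or_gt 0 ρ with hρ | hρ
  · rw [max_eq_left hρ]
    exact (tendsto_nat_floor_mul_div_atTop hρ).comp h3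
  · rw [max_eq_right hρ.le]
    refine tendsto_const_nhds.congr' ?_
    filter_upwards [eventually_gt_atTop 0] with L hL
    have : ⌊ρ * L ^ 3⌋₊ = 0 := Nat.floor_eq_zero.2 (by
      have : ρ * L ^ 3 ≤ 0 := mul_nonpos_of_nonpos_of_nonneg hρ.le (by positivity)
      linarith)
    rw [this]; simp

theorem tendsto_density' {ρ : ℝ} (hρ : 0 ≤ ρ) :
    Tendsto (fun L : ℝ => ((⌊ρ * L ^ 3⌋₊ : ℕ) : ℝ) / L ^ 3) atTop (𝓝 ρ) := by
  have := tendsto_density ρ
  rwa [max_eq_left hρ] at this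

end ThB

section Thermo
variable {φr ψ ψ' : ℝ → ℝ} {θ B c θ' B' c' : ℝ}

theorem Fe_concave (h : Sys φr ψ θ B c) {ρ : ℝ} (hρ : 0 ≤ ρ) :
    ConcaveOn ℝ (Ioi 0) (fun β => Fe (tot φr ψ) β ρ) := by
  refine ⟨convex_Ioi 0, fun β0 h0 β1 h1 s t hs ht hst => ?_⟩
  simp only [Set.mem_Ioi] at h0 h1
  simp only [smul_eq_mul]
  rcases hs.eq_or_lt with hs0 | hs0
  · have ht1 : t = 1 := by linarith
    rw [← hs0, ht1]; simp
  rcases ht.eq_or_lt with ht0 | ht0
  · have hs1 : s = 1 := by linarith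
    rw [← ht0, hs1]; simp
  have hβ : 0 < s * β0 + t * β1 := by positivity
  have hs1 : s = 1 - t := by linarith
  refine le_of_tendsto_of_tendsto (((thermo_limit h h0 hρ).const_mul s).add
    ((thermo_limit h h1 hρ).const_mul t)) (thermo_limit h hβ hρ) ?_
  filter_upwards [eventually_gt_atTop 0] with L hL
  set n := ⌊ρ * L ^ 3⌋₊
  have hZ0 := ThA.Z_pos h hL h0 n
  have hZ1 := ThA.Z_pos h hL h1 n
  have hZ := ThA.Z_pos h hL hβ n
  have hcube : MeasurableSet (cube L) := by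
    have : cube L = ⋂ k : Fin 3, {x : Pt | 0 ≤ x k} ∩ {x : Pt | x k ≤ L} := by
      ext x
      simp [cube]
    rw [this]
    exact MeasurableSet.iInter fun k => (measurableSet_le measurable_const
      (ThA.measurable_coord k)).inter (measurableSet_le (ThA.measurable_coord k) measurable_const)
  have hW : (fun x y => (1 - t) * rad β0 (tot φr ψ) x y + t * rad β1 (tot φr ψ) x y) =
      rad (s * β0 + t * β1) (tot φr ψ) := by
    funext x y
    simp only [rad, hs1]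
    ring
  have h2 := ZW_holder (W0 := rad β0 (tot φr ψ)) (W1 := rad β1 (tot φr ψ))
    (ThA.measurable_rad (ThA.measurable_tot h) β0) (ThA.measurable_rad (ThA.measurable_tot h) β1)
    hcube n ht0 (by linarith : t < 1)
  rw [hW, ← ThA.ofReal_Z h hβ, ← ThA.ofReal_Z h h0, ← ThA.ofReal_Z h h1,
    ENNReal.ofReal_rpow_of_pos hZ0, ENNReal.ofReal_rpow_of_pos hZ1,
    ← ENNReal.ofReal_mul (by positivity), ENNReal.ofReal_le_ofReal_iff (by positivity)] at h2
  have h3 := Real.log_le_log hZ h2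
  rw [Real.log_mul (by positivity) (by positivity), Real.log_rpow hZ0, Real.log_rpow hZ1] at h3
  have h4 : 0 < 1 / L ^ 3 := by positivity
  rw [hs1] at h3 ⊢
  nlinarith [mul_le_mul_of_nonneg_left h3 h4.le]

/-- finite volume superstability bound -/
theorem Z_super (h : Sys φr ψ θ B c) {β L : ℝ} (hL : 1 ≤ L) (hβ : 0 < β) (n : ℕ) :
    partitionFn (tot φr ψ) L n β ≤
      Real.exp (L ^ 3 - β * (c * (n : ℝ) ^ 2 / (2 * L ^ 3) - 3 / 2 * B * n)) := by
  have hL0 : 0 < L := by linarith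
  rw [← ENNReal.ofReal_le_ofReal_iff (Real.exp_pos _).le, ThA.ofReal_Z h hβ]
  unfold ZW
  set E : ℝ := β * (c * (n : ℝ) ^ 2 / (2 * L ^ 3) - 3 / 2 * B * n) with hE
  have hcm : MeasurableSet (Set.pi Set.univ (fun _ : Fin n => cube L)) := by
    refine MeasurableSet.univ_pi fun _ => ?_
    have : cube L = ⋂ k : Fin 3, {x : Pt | 0 ≤ x k} ∩ {x : Pt | x k ≤ L} := by
      ext x
      simp [cube]
    rw [this]
    exact MeasurableSet.iInter fun k => (measurableSet_le measurable_const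
      (ThA.measurable_coord k)).inter (measurableSet_le (ThA.measurable_coord k) measurable_const)
  have h1 : ∫⁻ x in Set.pi Set.univ (fun _ : Fin n => cube L),
      ENNReal.ofReal (Real.exp (-pairE (rad β (tot φr ψ)) x))
      ≤ ENNReal.ofReal (Real.exp (-E)) * ENNReal.ofReal ((L ^ 3) ^ n) := by
    calc _ ≤ ∫⁻ x in Set.pi Set.univ (fun _ : Fin n => cube L),
          ENNReal.ofReal (Real.exp (-E)) := by
          refine setLIntegral_mono' hcm fun x hx => ENNReal.ofReal_le_ofReal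
            (Real.exp_le_exp.2 ?_)
          rw [ThA.pairE_rad, neg_le_neg_iff, hE]
          refine mul_le_mul_of_nonneg_left ?_ hβ.le
          rw [ThA.energy_tot]
          have h2 := h.dom n x
          have h3 := h.ss L hL n x (fun i => hx i (Set.mem_univ i))
          have h4 : 0 ≤ energy φr x := ThA.energy_nonneg h.r0 x
          have h5 := h.θ1
          have h6 : c * (n : ℝ) ^ 2 / (2 * L ^ 3) = (c * (n : ℝ) ^ 2 / L ^ 3) / 2 := by
            rw [div_div, mul_comm (L ^ 3) 2]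
          rw [h6]
          nlinarith [mul_nonneg (sub_nonneg.2 h5) h4]
      _ = _ := by
          rw [setLIntegral_const, volume_pi_pi]
          simp only [volume_cube hL0.le, Finset.prod_const, Finset.card_univ, Fintype.card_fin]
          rw [ENNReal.ofReal_pow (pow_nonneg hL0.le 3)]
  refine (mul_le_mul_right h1 _).trans ?_
  have h5 : (0 : ℝ) < n.factorial := by exact_mod_cast n.factorial_pos
  rw [show ((n.factorial : ℝ≥0∞))⁻¹ = ENNReal.ofReal ((n.factorial : ℝ)⁻¹) by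
    rw [ENNReal.ofReal_inv_of_pos h5, ENNReal.ofReal_natCast],
    ← ENNReal.ofReal_mul (Real.exp_pos _).le, ← ENNReal.ofReal_mul (by positivity)]
  refine ENNReal.ofReal_le_ofReal ?_
  rw [sub_eq_add_neg, Real.exp_add]
  have h6 := Real.pow_div_factorial_le_exp (L ^ 3) (by positivity) n
  calc (n.factorial : ℝ)⁻¹ * (Real.exp (-E) * (L ^ 3) ^ n)
      = ((L ^ 3) ^ n / n.factorial) * Real.exp (-E) := by
        rw [div_eq_mul_inv]; ring
    _ ≤ Real.exp (L ^ 3) * Real.exp (-E) := by gcongr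

theorem Fe_lower (h : Sys φr ψ θ B c) {β ρ : ℝ} (hβ : 0 < β) (hρ : 0 ≤ ρ) :
    β * c / 2 * ρ ^ 2 - 2 * β * B * ρ - 1 ≤ Fe (tot φr ψ) β ρ := by
  have h1 : β * c / 2 * ρ ^ 2 - 2 * β * B * ρ - 1 ≤
      β * c / 2 * ρ ^ 2 - 3 / 2 * (β * B) * ρ - 1 := by
    have := h.B0
    have h2 : 0 ≤ β * B * ρ := by positivity
    linarith
  refine h1.trans ?_
  have hd := ThB.tendsto_density' hρ
  have h2 : Tendsto (fun L : ℝ => β * c / 2 * (((⌊ρ * L ^ 3⌋₊ : ℕ) : ℝ) / L ^ 3) ^ 2 -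
      3 / 2 * (β * B) * (((⌊ρ * L ^ 3⌋₊ : ℕ) : ℝ) / L ^ 3) - 1) atTop
      (𝓝 (β * c / 2 * ρ ^ 2 - 3 / 2 * (β * B) * ρ - 1)) :=
    (((hd.pow 2).const_mul _).sub (hd.const_mul _)).sub_const 1
  refine le_of_tendsto_of_tendsto h2 (thermo_limit h hβ hρ) ?_
  filter_upwards [eventually_ge_atTop 1] with L hL
  have hL0 : 0 < L := by linarith
  set n := ⌊ρ * L ^ 3⌋₊
  have h3 := Real.log_le_log (ThA.Z_pos h hL0 hβ n) (Z_super h hL hβ n)
  rw [Real.log_exp] at h3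
  have h4 : 0 < 1 / L ^ 3 := by positivity
  have h5 := mul_le_mul_of_nonneg_left h3 h4.le
  rw [neg_mul]
  refine le_neg_of_le_neg ?_
  refine h5.trans (le_of_eq ?_)
  field_simp
  ring

theorem Fe_zero (h : Sys φr ψ θ B c) {β : ℝ} (hβ : 0 < β) : Fe (tot φr ψ) β 0 = 0 := by
  refine tendsto_nhds_unique (thermo_limit h hβ le_rfl) (tendsto_const_nhds.congr' ?_)
  filter_upwards [eventually_gt_atTop 0] with L hL
  rw [zero_mul, Nat.floor_zero, ThA.Z_zero h hL hβ]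
  simp

theorem quad_bound {β c B μ ρ : ℝ} (hβ : 0 < β) (hc : 0 < c) :
    μ * ρ - (β * c / 2 * ρ ^ 2 - 2 * β * B * ρ - 1) ≤ 1 + (μ + 2 * β * B) ^ 2 / (2 * β * c) := by
  have h1 : 0 < 2 * β * c := by positivity
  rw [← sub_nonneg]
  have h2 : 1 + (μ + 2 * β * B) ^ 2 / (2 * β * c) -
      (μ * ρ - (β * c / 2 * ρ ^ 2 - 2 * β * B * ρ - 1)) =
      (μ + 2 * β * B - β * c * ρ) ^ 2 / (2 * β * c) := by
    field_simp
    ring
  rw [h2]
  positivity

theorem Pr_bddAbove (h : Sys φr ψ θ B c) {β : ℝ} (μ : ℝ) (hβ : 0 < β) :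
    BddAbove (range fun ρ : Set.Ici (0 : ℝ) => (μ * (ρ : ℝ) - Fe (tot φr ψ) β (ρ : ℝ))) := by
  refine ⟨1 + (μ + 2 * β * B) ^ 2 / (2 * β * c), ?_⟩
  rintro _ ⟨⟨ρ, hρ⟩, rfl⟩
  have h1 := Fe_lower h hβ (ρ := ρ) hρ
  have h2 := quad_bound (B := B) (μ := μ) (ρ := ρ) hβ h.c0
  simp only
  linarith

theorem le_Pr (h : Sys φr ψ θ B c) {β μ ρ : ℝ} (hβ : 0 < β) (hρ : 0 ≤ ρ) :
    μ * ρ - Fe (tot φr ψ) β ρ ≤ Pr (tot φr ψ) β μ := by
  unfold Pr
  exact le_ciSup (f := fun ρ : Set.Ici (0 : ℝ) => (μ * (ρ : ℝ) - Fe (tot φr ψ) β (ρ : ℝ)))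
    (Pr_bddAbove h μ hβ) ⟨ρ, hρ⟩

theorem Pr_le {φ : ℝ → ℝ} {β μ a : ℝ} (ha : ∀ ρ, 0 ≤ ρ → μ * ρ - Fe φ β ρ ≤ a) :
    Pr φ β μ ≤ a := by
  unfold Pr
  have : Nonempty (Set.Ici (0 : ℝ)) := ⟨⟨0, le_refl (0 : ℝ)⟩⟩
  exact ciSup_le fun ρ => ha ρ ρ.2

theorem Pr_attained (h : Sys φr ψ θ B c) {β ρ : ℝ} (hβ : 0 < β) (hρ : 0 < ρ) :
    ∃ μ, Pr (tot φr ψ) β μ = μ * ρ - Fe (tot φr ψ) β ρ := by
  obtain ⟨m, hm⟩ := ThB.exists_support (Fe_convex h hβ) hρ
  refine ⟨m, le_antisymm (Pr_le fun y hy => ?_) (le_Pr h hβ hρ.le)⟩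
  have := hm y hy
  linarith

theorem Pr_nonneg (h : Sys φr ψ θ B c) {β μ : ℝ} (hβ : 0 < β) : 0 ≤ Pr (tot φr ψ) β μ := by
  have h1 := le_Pr h (μ := μ) hβ (le_refl (0 : ℝ))
  rw [Fe_zero h hβ] at h1
  simpa using h1

theorem Pr_mono (h : Sys φr ψ θ B c) {β : ℝ} (hβ : 0 < β) : Monotone (Pr (tot φr ψ) β) := by
  intro μ μ' hμ
  refine Pr_le fun ρ hρ => ?_
  have h1 := le_Pr h (μ := μ') hβ hρ
  have h2 := mul_le_mul_of_nonneg_right hμ hρ
  linarith

theorem Pr_convex (h : Sys φr ψ θ B c) :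
    ConvexOn ℝ (Ioi 0 ×ˢ univ) (fun z : ℝ × ℝ => Pr (tot φr ψ) z.1 z.2) := by
  refine ⟨(convex_Ioi 0).prod convex_univ, ?_⟩
  rintro ⟨β0, μ0⟩ h0 ⟨β1, μ1⟩ h1 s t hs ht hst
  have hβ0 : 0 < β0 := h0.1
  have hβ1 : 0 < β1 := h1.1
  simp only [smul_eq_mul, Prod.smul_mk, Prod.mk_add_mk]
  refine Pr_le fun ρ hρ => ?_
  have h2 := (Fe_concave h hρ).2 hβ0 hβ1 hs ht hst
  simp only [smul_eq_mul] at h2
  have h3 := mul_le_mul_of_nonneg_left (le_Pr h (μ := μ0) hβ0 hρ) hs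
  have h4 := mul_le_mul_of_nonneg_left (le_Pr h (μ := μ1) hβ1 hρ) ht
  nlinarith

theorem Pr_bound (h : Sys φr ψ θ B c) {β μ : ℝ} (hβ : 0 < β) :
    Pr (tot φr ψ) β μ ≤ 1 + (μ + 2 * β * B) ^ 2 / (2 * β * c) := by
  refine Pr_le fun ρ hρ => ?_
  have h1 := Fe_lower h hβ hρ
  have h2 := quad_bound (B := B) (μ := μ) (ρ := ρ) hβ h.c0
  linarith

/-- finite volume partition functions are bounded by the pressure -/
theorem Pr_cell (h : Sys φr ψ θ B c) {β : ℝ} (hβ : 0 < β) (μ : ℝ) {L : ℝ} (hL : 0 < L) (n : ℕ) :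
    partitionFn (tot φr ψ) L n β ≤ Real.exp ((L + 2) ^ 3 * Pr (tot φr ψ) β μ - μ * n) := by
  have ha : (2 : ℝ) < L + 2 := by linarith
  have h1 := Fe_cell h hβ ha n
  rw [add_sub_cancel_right] at h1
  have h2 := le_Pr h (μ := μ) hβ (ρ := n / (L + 2) ^ 3) (by positivity)
  have hpos := ThA.Z_pos h hL hβ n
  rw [← Real.log_le_iff_le_exp hpos]
  have h3 : 0 < (L + 2) ^ 3 := by positivity
  have h4 : (1 / (L + 2) ^ 3) * Real.log (partitionFn (tot φr ψ) L n β) ≤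
      Pr (tot φr ψ) β μ - μ * (n / (L + 2) ^ 3) := by
    rw [neg_mul] at h1
    linarith
  rw [one_div, inv_mul_le_iff₀ h3] at h4
  refine h4.trans (le_of_eq ?_)
  field_simp

/-- upper bound criterion for the pressure -/
theorem Pr_upper (h : Sys φr ψ θ B c) {β μ A a : ℝ} (hβ : 0 < β)
    (hz : ∀ᶠ L : ℝ in atTop, ∀ n : ℕ,
      partitionFn (tot φr ψ) L n β * Real.exp (μ * n) ≤ Real.exp (a * (L + A) ^ 3)) :
    Pr (tot φr ψ) β μ ≤ a := by
  refine Pr_le fun ρ hρ => ?_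
  have hd := ThB.tendsto_density' hρ
  have hA : Tendsto (fun L : ℝ => a * ((L + A) / L) ^ 3) atTop (𝓝 (a * 1 ^ 3)) := by
    refine Tendsto.const_mul _ (Tendsto.pow ?_ 3)
    have h2 : Tendsto (fun L : ℝ => 1 + A * L⁻¹) atTop (𝓝 (1 + A * 0)) :=
      tendsto_const_nhds.add (tendsto_inv_atTop_zero.const_mul A)
    rw [mul_zero, add_zero] at h2
    refine h2.congr' ?_
    filter_upwards [eventually_gt_atTop 0] with L hL
    field_simp
  rw [one_pow, mul_one] at hA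
  have h2 : Tendsto (fun L : ℝ => μ * (((⌊ρ * L ^ 3⌋₊ : ℕ) : ℝ) / L ^ 3) -
      a * ((L + A) / L) ^ 3) atTop (𝓝 (μ * ρ - a)) := (hd.const_mul _).sub hA
  have h3 : μ * ρ - a ≤ Fe (tot φr ψ) β ρ := by
    refine le_of_tendsto_of_tendsto h2 (thermo_limit h hβ hρ) ?_
    filter_upwards [hz, eventually_gt_atTop 0] with L hL hL0
    set n := ⌊ρ * L ^ 3⌋₊
    have hpos := ThA.Z_pos h hL0 hβ n
    have h4 := Real.log_le_log (by positivity) (hL n)
    rw [Real.log_exp, Real.log_mul hpos.ne' (Real.exp_pos _).ne', Real.log_exp] at h4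
    have h5 : 0 < 1 / L ^ 3 := by positivity
    have h6 := mul_le_mul_of_nonneg_left h4 h5.le
    have h7 : 1 / L ^ 3 * (a * (L + A) ^ 3) = a * ((L + A) / L) ^ 3 := by
      rw [div_pow]; ring
    have h8 : 1 / L ^ 3 * (Real.log (partitionFn (tot φr ψ) L n β) + μ * n) =
        1 / L ^ 3 * Real.log (partitionFn (tot φr ψ) L n β) + μ * (n / L ^ 3) := by
      ring
    rw [h7, h8] at h6
    linarith
  linarith

/-- comparison of the partition functions of two systems -/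
theorem Z_comp (h : Sys φr ψ θ B c) (h' : Sys φr ψ' θ' B' c') {β ε K L : ℝ} (hβ : 0 < β)
    (hL : 0 < L) (hε1 : ε < 1)
    (hcomp : ∀ (n : ℕ) (x : Fin n → Pt),
      (1 - ε) * energy (tot φr ψ) x - K * n ≤ energy (tot φr ψ') x) (n : ℕ) :
    partitionFn (tot φr ψ') L n β ≤
      Real.exp (β * K * n) * partitionFn (tot φr ψ) L n ((1 - ε) * β) := by
  have hβ' : 0 < (1 - ε) * β := mul_pos (by linarith) hβ
  have hpos := ThA.Z_pos h hL hβ' n
  rw [← ENNReal.ofReal_le_ofReal_iff (by positivity), ThA.ofReal_Z h' hβ,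
    ENNReal.ofReal_mul (Real.exp_pos _).le, ThA.ofReal_Z h hβ']
  unfold ZW
  rw [mul_left_comm]
  refine mul_le_mul_right ?_ _
  rw [← lintegral_const_mul' _ _ ENNReal.ofReal_ne_top]
  refine lintegral_mono fun x => ?_
  rw [← ENNReal.ofReal_mul (Real.exp_pos _).le, ← Real.exp_add]
  refine ENNReal.ofReal_le_ofReal (Real.exp_le_exp.2 ?_)
  rw [ThA.pairE_rad, ThA.pairE_rad]
  have h1 := mul_le_mul_of_nonneg_left (hcomp n x) hβ.le
  nlinarith

/-- comparison of two systems -/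
theorem Pr_comp (h : Sys φr ψ θ B c) (h' : Sys φr ψ' θ' B' c') {β μ ε K : ℝ} (hβ : 0 < β)
    (hε0 : 0 ≤ ε) (hε1 : ε < 1)
    (hcomp : ∀ (n : ℕ) (x : Fin n → Pt),
      (1 - ε) * energy (tot φr ψ) x - K * n ≤ energy (tot φr ψ') x) :
    Pr (tot φr ψ') β μ ≤ Pr (tot φr ψ) ((1 - ε) * β) (μ + β * K) := by
  have hβ' : 0 < (1 - ε) * β := mul_pos (by linarith) hβ
  refine Pr_le fun ρ hρ => ?_
  have hd := ThB.tendsto_density' hρ
  have h2 : Fe (tot φr ψ) ((1 - ε) * β) ρ - β * K * ρ ≤ Fe (tot φr ψ') β ρ := by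
    refine le_of_tendsto_of_tendsto ((thermo_limit h hβ' hρ).sub (hd.const_mul (β * K)))
      (thermo_limit h' hβ hρ) ?_
    filter_upwards [eventually_gt_atTop 0] with L hL
    set n := ⌊ρ * L ^ 3⌋₊
    have hpos := ThA.Z_pos h hL hβ' n
    have h3 := Real.log_le_log (ThA.Z_pos h' hL hβ n) (Z_comp h h' hβ hL hε1 hcomp n)
    rw [Real.log_mul (Real.exp_pos _).ne' hpos.ne', Real.log_exp] at h3
    have h5 : 0 < 1 / L ^ 3 := by positivity
    have h6 := mul_le_mul_of_nonneg_left h3 h5.le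
    have h7 : 1 / L ^ 3 * (β * K * n + Real.log (partitionFn (tot φr ψ) L n ((1 - ε) * β))) =
      β * K * (n / L ^ 3) +
        1 / L ^ 3 * Real.log (partitionFn (tot φr ψ) L n ((1 - ε) * β)) := by ring
    rw [h7] at h6
    linarith
  have h3 := le_Pr h (μ := μ + β * K) hβ' hρ
  nlinarith

end Thermo

end Crest.Agent.Kac
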