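import Crest.Agent.Kac.RefPot
import Crest.Agent.Kac.Packing
import Crest.Agent.Kac.Thermo

/-!
Lower bounds for the reference system: site bound and phase A.
-/

open MeasureTheory Crest.ProbabilityR.Continuum Filter Topology Set
open scoped ENNReal

namespace Crest.Agent.Kac

namespace RefLo

/-- side length of the cell made from a packing of the cube `L0` -/
noncomputable def side (δ L0 : ℝ) : ℝ := (1 + 11 * δ) * L0 + 10 * δ + 2

theorem side_ge {δ L0 : ℝ} (hδ : 0 < δ) (hL0 : 0 ≤ L0) : L0 + 2 ≤ side δ L0 := by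
  unfold side; nlinarith

/-- choice of the cell -/
theorem choose_sites {p : ℝ} (hp0 : 0 < p)
    (hp : Tendsto (fun L : ℝ => (packingNumber L : ℝ) / L ^ 3) atTop (𝓝 p)) {ε : ℝ} (hε : 0 < ε) :
    ∃ δ > 0, ∃ L0 ≥ 0, p - ε ≤ (packingNumber L0 : ℝ) / side δ L0 ^ 3 ∧
      (packingNumber L0 : ℝ) / side δ L0 ^ 3 ≤ p := by
  -- choose `δ`
  have h1 : ContinuousAt (fun δ : ℝ => p / (1 + 11 * δ) ^ 3) 0 := by
    refine ContinuousAt.div continuousAt_const (by fun_prop) (by norm_num)
  have h2 : ∀ᶠ δ : ℝ in 𝓝 0, p - ε < p / (1 + 11 * δ) ^ 3 := by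
    have := h1.tendsto
    refine (tendsto_order.1 this).1 _ ?_
    norm_num
    linarith
  have h3 : ∀ᶠ δ : ℝ in 𝓝[>] 0, p - ε < p / (1 + 11 * δ) ^ 3 := nhdsWithin_le_nhds h2
  obtain ⟨δ, hδ1, hδ⟩ := (h3.and self_mem_nhdsWithin).exists
  have hδ0 : (0 : ℝ) < δ := hδ
  refine ⟨δ, hδ0, ?_⟩
  -- choose `L0`
  have h4 : Tendsto (fun L : ℝ => (packingNumber L : ℝ) / side δ L ^ 3) atTop
      (𝓝 (p / (1 + 11 * δ) ^ 3)) := by
    have h5 : Tendsto (fun L : ℝ => ((1 + 11 * δ) + (10 * δ + 2) * L⁻¹) ^ 3) atTop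
        (𝓝 (((1 + 11 * δ) + (10 * δ + 2) * 0) ^ 3)) :=
      ((tendsto_inv_atTop_zero.const_mul _).const_add _).pow 3
    rw [mul_zero, add_zero] at h5
    have h6 := hp.div h5 (by positivity)
    refine h6.congr' ?_
    filter_upwards [eventually_gt_atTop 0] with L hL
    simp only [Pi.div_apply]
    have h7 : side δ L = L * ((1 + 11 * δ) + (10 * δ + 2) * L⁻¹) := by
      unfold side; field_simp; ring
    rw [h7, mul_pow, div_div]
  have h8 := (tendsto_order.1 h4).1 _ hδ1
  obtain ⟨L0, hL0, hL0'⟩ := (h8.and (eventually_ge_atTop 0)).exists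
  refine ⟨L0, hL0', hL0.le, ?_⟩
  have h9 := packing_super hp hL0'
  have h10 := side_ge hδ0 hL0'
  rw [div_le_iff₀ (by have : 0 < side δ L0 := by linarith
                      positivity)]
  refine h9.trans ?_
  gcongr
  linarith

/-- the centres of the site regions -/
noncomputable def cen (δ : ℝ) (x : Pt) : Pt := WithLp.toLp 2 (fun k => (1 + 11 * δ) * x k + 5 * δ)

theorem dist_cen (δ : ℝ) (hδ : 0 < δ) (x y : Pt) :
    dist (cen δ x) (cen δ y) = (1 + 11 * δ) * dist x y := by
  rw [EuclideanSpace.dist_eq, EuclideanSpace.dist_eq]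
  rw [← Real.sqrt_sq (by positivity : (0:ℝ) ≤ 1 + 11 * δ), ← Real.sqrt_mul (by positivity),
    Finset.mul_sum]
  congr 1
  refine Finset.sum_congr rfl fun k _ => ?_
  have : (cen δ x) k - (cen δ y) k = (1 + 11 * δ) * (x k - y k) := by
    simp only [cen]; ring
  rw [Real.dist_eq, Real.dist_eq, this, sq_abs, sq_abs]
  ring

theorem abs_coord_le_dist (x y : Pt) (k : Fin 3) : |x k - y k| ≤ dist x y := by
  rw [EuclideanSpace.dist_eq, ← Real.sqrt_sq_eq_abs]
  apply Real.sqrt_le_sqrt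
  have := Finset.single_le_sum (f := fun i : Fin 3 => dist (x i) (y i) ^ 2)
    (fun i _ => sq_nonneg _) (Finset.mem_univ k)
  simpa [Real.dist_eq, sq_abs] using this

theorem energy_nonneg' {φ : ℝ → ℝ} (h : ∀ r, 0 ≤ φ r) {n : ℕ} (x : Fin n → Pt) :
    0 ≤ energy (tot φ (fun _ => 0)) x :=
  Finset.sum_nonneg fun p _ => by simpa [tot] using h _

theorem measurable_tot {φ : ℝ → ℝ} (h : Measurable φ) : Measurable (tot φ (fun _ => 0)) := by
  unfold tot; fun_prop

theorem measurable_rad {φ : ℝ → ℝ} (h : Measurable φ) (β : ℝ) :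
    Measurable (Function.uncurry (rad β φ)) := by
  unfold rad Function.uncurry
  fun_prop

/-- if every site ball of radius `5δ` has `ZW ≥ q` for `k` particles then the free energy at the
density `k · packingNumber / side^3` is at most `- (packingNumber/side^3) log q` -/
theorem site_bound {φr : ℝ → ℝ} {η θ B c : ℝ} (h : Sys φr (fun _ => 0) θ B c)
    (hz : ∀ r, 1 + η ≤ r → φr r = 0) {δ L0 β q : ℝ} (hδ : 0 < δ) (hη : η ≤ δ) (hL0 : 0 ≤ L0)
    (hβ : 0 < β) (hq : 0 < q) (k : ℕ)
    (hsite : ∀ z : Pt, ENNReal.ofReal q ≤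
      ZW (rad β (tot φr (fun _ => 0))) (Metric.closedBall z (5 * δ)) k) :
    Fe (tot φr (fun _ => 0)) β ((k : ℝ) * ((packingNumber L0 : ℝ) / side δ L0 ^ 3)) ≤
      -((packingNumber L0 : ℝ) / side δ L0 ^ 3) * Real.log q := by
  set φ := tot φr (fun _ => 0) with hφ
  set n0 := packingNumber L0 with hn0
  set a := side δ L0 with ha
  have ha2 : 2 < a := by
    rw [ha]; unfold side; nlinarith
  have hapos : 0 < a := by linarith
  have ha' : a - 2 = (1 + 11 * δ) * L0 + 10 * δ := by rw [ha]; unfold side; ring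
  -- lower bound for the partition function
  have hkey : q ^ n0 ≤ partitionFn φ (a - 2) (n0 * k) β := by
    obtain ⟨x, hx, hd⟩ := packing_attained L0
    have h1 := ofReal_partitionFn (φ := φ) (B := 0) (measurable_tot h.mr)
      (fun n x => by simpa using energy_nonneg' h.r0 x) (L := a - 2) hβ (n0 * k)
    have hdc : ∀ i j : Fin n0, i ≠ j → 1 + 11 * δ ≤ dist (cen δ (x i)) (cen δ (x j)) := by
      intro i j hij
      rw [dist_cen δ hδ]
      nlinarith [hd i j hij]
    have hdz : ∀ i j : Fin n0, i ≠ j → ∀ y ∈ Metric.closedBall (cen δ (x i)) (5 * δ),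
        ∀ z ∈ Metric.closedBall (cen δ (x j)) (5 * δ), 1 + δ ≤ dist y z := by
      intro i j hij y hy z hz
      have h2 := hdc i j hij
      have h3 : dist (cen δ (x i)) (cen δ (x j)) ≤
          dist (cen δ (x i)) y + dist y z + dist z (cen δ (x j)) := dist_triangle4 _ _ _ _
      rw [Metric.mem_closedBall] at hy hz
      rw [dist_comm] at hy
      linarith
    have h2 := ZW_super_fam (W := rad β φ) (measurable_rad (measurable_tot h.mr) β)
      (fun x y => by simp only [rad, dist_comm]) (Finset.univ : Finset (Fin n0))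
      (fun i => Metric.closedBall (cen δ (x i)) (5 * δ))
      (fun i => measurableSet_closedBall)
      (fun i _ j _ hij => Set.disjoint_left.2 fun y hy hy' => by
        have := hdz i j hij y hy y hy'
        rw [dist_self] at this
        linarith)
      (fun i _ j _ hij y hy z hz' => by
        have h3 := hdz i j hij y hy z hz'
        have h4 : φr (dist y z) = 0 := hz _ (by linarith)
        simp [rad, hφ, tot, h4]) (fun _ => k)
    have h3 : ZW (rad β φ) (⋃ i ∈ (Finset.univ : Finset (Fin n0)),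
        Metric.closedBall (cen δ (x i)) (5 * δ)) (∑ _i ∈ (Finset.univ : Finset (Fin n0)), k) ≤
        ZW (rad β φ) (cube (a - 2)) (n0 * k) := by
      have h4 : ∑ _i ∈ (Finset.univ : Finset (Fin n0)), k = n0 * k := by simp
      rw [h4]
      refine ZW_mono_set _ (Set.iUnion₂_subset fun i _ y hy kk => ?_) _
      rw [Metric.mem_closedBall] at hy
      have h5 := (abs_coord_le_dist y (cen δ (x i)) kk).trans hy
      have h6 : (cen δ (x i)) kk = (1 + 11 * δ) * x i kk + 5 * δ := rfl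
      rw [h6] at h5
      have h7 := hx i kk
      rw [abs_le] at h5
      constructor
      · nlinarith [h7.1]
      · rw [ha']; nlinarith [h7.2]
    have h4 : ENNReal.ofReal (q ^ n0) ≤ ENNReal.ofReal (partitionFn φ (a - 2) (n0 * k) β) := by
      rw [h1]
      refine le_trans ?_ (h2.trans h3)
      rw [ENNReal.ofReal_pow hq.le]
      calc ENNReal.ofReal q ^ n0 = ∏ _i : Fin n0, ENNReal.ofReal q := by simp
        _ ≤ _ := Finset.prod_le_prod' fun i _ => hsite _
    rcases ENNReal.ofReal_le_ofReal_iff'.1 h4 with h5 | h5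
    · exact h5
    · exact absurd h5 (not_le.2 (by positivity))
  have h1 := Fe_cell h hβ ha2 (n0 * k)
  have h2 : ((n0 * k : ℕ) : ℝ) / a ^ 3 = (k : ℝ) * ((n0 : ℝ) / a ^ 3) := by
    push_cast; ring
  rw [h2] at h1
  refine h1.trans ?_
  have h3 : Real.log (q ^ n0) ≤ Real.log (partitionFn φ (a - 2) (n0 * k) β) :=
    Real.log_le_log (by positivity) hkey
  rw [Real.log_pow] at h3
  have h4 : 0 < 1 / a ^ 3 := by positivity
  calc -(1 / a ^ 3) * Real.log (partitionFn φ (a - 2) (n0 * k) β)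
      ≤ -(1 / a ^ 3) * (n0 * Real.log q) := by
        rw [neg_mul, neg_mul, neg_le_neg_iff]
        exact mul_le_mul_of_nonneg_left h3 h4.le
    _ = -((n0 : ℝ) / a ^ 3) * Real.log q := by ring

theorem vball_pos {r : ℝ} (hr : 0 < r) :
    0 < (volume (Metric.closedBall (0 : Pt) r)).toReal :=
  ENNReal.toReal_pos (Metric.measure_closedBall_pos _ _ hr).ne' measure_closedBall_lt_top.ne

theorem ZW_one_eq (W : Pt → Pt → ℝ) (Λ : Set Pt) : ZW W Λ 1 = volume Λ := by
  unfold ZW
  have h1 : ∀ x : Fin 1 → Pt, pairE W x = 0 := by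
    intro x
    unfold pairE
    refine Finset.sum_eq_zero fun p _ => ?_
    exact absurd p.2 (by rw [Subsingleton.elim p.1.1 p.1.2]; exact lt_irrefl _)
  simp only [h1, neg_zero, Real.exp_zero, ENNReal.ofReal_one, lintegral_const,
    Measure.restrict_apply MeasurableSet.univ, univ_inter, one_mul, Nat.factorial_one,
    Nat.cast_one, inv_one]
  rw [volume_pi, Measure.pi_pi]
  simp

end RefLo

open RefLo

/-- phase A: density close to `p` at bounded cost, uniformly in everything -/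
theorem ref_phaseA {p : ℝ} (hp0 : 0 < p)
    (hp : Tendsto (fun L : ℝ => (packingNumber L : ℝ) / L ^ 3) atTop (𝓝 p)) {ε : ℝ} (hε : 0 < ε) :
    ∃ ηbar > 0, ∃ Cst : ℝ, ∀ (φr : ℝ → ℝ) (K s0 s1 s2 s3 η θ B c : ℝ),
      RefData φr K s0 s1 s2 s3 η → Sys φr (fun _ => 0) θ B c → η ≤ ηbar →
      ∃ ρ, p - ε ≤ ρ ∧ ρ ≤ p ∧ ∀ β, 0 < β → Fe (tot φr (fun _ => 0)) β ρ ≤ Cst := by
  obtain ⟨δ, hδ, L0, hL0, h1, h2⟩ := choose_sites hp0 hp hε
  refine ⟨δ, hδ, -((packingNumber L0 : ℝ) / side δ L0 ^ 3) *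
    Real.log (volume (Metric.closedBall (0 : Pt) (5 * δ))).toReal, ?_⟩
  intro φr K s0 s1 s2 s3 η θ B c hr hs hη
  refine ⟨(packingNumber L0 : ℝ) / side δ L0 ^ 3, h1, h2, fun β hβ => ?_⟩
  have h3 := site_bound hs hr.zero2 hδ hη hL0 hβ (vball_pos (by positivity : 0 < 5 * δ)) 1
    (fun z => by
      rw [ZW_one_eq, ENNReal.ofReal_toReal measure_closedBall_lt_top.ne]
      exact (Measure.addHaar_closedBall_center volume z (5 * δ)).ge)
  simpa using h3

end Crest.Agent.Kac
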