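import Crest.Agent.Kac.Defs

open MeasureTheory Crest.ProbabilityR.Continuum Filter Topology Set
open scoped ENNReal

namespace Crest.Agent.Kac

/-- clamp to `[0,1]` -/
noncomputable def clamp (t : ℝ) : ℝ := max 0 (min 1 t)

/-- piecewise linear reference potential -/
noncomputable def refpot (K s0 s1 s2 s3 η : ℝ) (r : ℝ) : ℝ :=
  K * (clamp ((s1 - r) / (s1 - s0)) +
    clamp ((r - s2) / (s3 - s2)) * clamp ((1 + η - r) / η))

/-- the singular part -/
noncomputable def sing (s0 r : ℝ) : ℝ := max 0 (r⁻¹ - s0⁻¹)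

/-- abstract properties of the reference potential -/
structure RefData (φr : ℝ → ℝ) (K s0 s1 s2 s3 η : ℝ) : Prop where
  K0 : 0 < K
  s0pos : 0 < s0
  s01 : s0 < s1
  s12 : s1 < s2
  s23 : s2 < s3
  s3h : s3 ≤ 1 / 8
  η0 : 0 < η
  η1 : η ≤ 1
  meas : Measurable φr
  nonneg : ∀ r, 0 ≤ φr r
  big1 : ∀ r, 0 ≤ r → r ≤ s0 → K ≤ φr r
  big2 : ∀ r, s3 ≤ r → r ≤ 1 → K ≤ φr r
  zero1 : ∀ r, s1 ≤ r → r ≤ s2 → φr r = 0
  zero2 : ∀ r, 1 + η ≤ r → φr r = 0
  int : Integrable (fun x : Pt => φr ‖x‖)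

theorem clamp_nonneg (t : ℝ) : 0 ≤ clamp t := le_max_left _ _
theorem clamp_le_one (t : ℝ) : clamp t ≤ 1 := max_le zero_le_one (min_le_left _ _)
theorem clamp_of_nonpos {t : ℝ} (h : t ≤ 0) : clamp t = 0 :=
  max_eq_left ((min_le_right _ _).trans h)
theorem clamp_of_one_le {t : ℝ} (h : 1 ≤ t) : clamp t = 1 := by
  rw [clamp, min_eq_left h]; exact max_eq_right zero_le_one
theorem clamp_continuous : Continuous clamp :=
  continuous_const.max (continuous_const.min continuous_id)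

theorem refpot_cont {K s0 s1 s2 s3 η : ℝ} (h01 : s0 < s1) (h23 : s2 < s3) (hη0 : 0 < η) :
    Continuous (refpot K s0 s1 s2 s3 η) := by
  have _ := h01
  have _ := h23
  have _ := hη0
  unfold refpot
  refine continuous_const.mul (Continuous.add ?_ (Continuous.mul ?_ ?_))
  · exact clamp_continuous.comp ((continuous_const.sub continuous_id).div_const _)
  · exact clamp_continuous.comp ((continuous_id.sub continuous_const).div_const _)
  · exact clamp_continuous.comp ((continuous_const.sub continuous_id).div_const _)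

theorem refpot_nonneg {K s0 s1 s2 s3 η : ℝ} (K0 : 0 < K) (r : ℝ) :
    0 ≤ refpot K s0 s1 s2 s3 η r :=
  mul_nonneg K0.le (add_nonneg (clamp_nonneg _) (mul_nonneg (clamp_nonneg _) (clamp_nonneg _)))

theorem refpot_le {K s0 s1 s2 s3 η : ℝ} (K0 : 0 < K) (r : ℝ) :
    refpot K s0 s1 s2 s3 η r ≤ 2 * K := by
  have h1 := clamp_le_one ((s1 - r) / (s1 - s0))
  have h2 : clamp ((r - s2) / (s3 - s2)) * clamp ((1 + η - r) / η) ≤ 1 :=
    mul_le_one₀ (clamp_le_one _) (clamp_nonneg _) (clamp_le_one _)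
  unfold refpot
  nlinarith

theorem refpot_bdd {K s0 s1 s2 s3 η : ℝ} (K0 : 0 < K) (r : ℝ) :
    |refpot K s0 s1 s2 s3 η r| ≤ 2 * K := by
  rw [abs_of_nonneg (refpot_nonneg K0 r)]
  exact refpot_le K0 r

theorem refpot_zero2 {K s0 s1 s2 s3 η : ℝ} (h01 : s0 < s1)
    (h12 : s1 < s2) (h23 : s2 < s3) (h3 : s3 ≤ 1 / 8) (hη0 : 0 < η) {r : ℝ} (hr : 1 + η ≤ r) :
    refpot K s0 s1 s2 s3 η r = 0 := by
  unfold refpot
  rw [clamp_of_nonpos (t := (s1 - r) / (s1 - s0))
      (div_nonpos_of_nonpos_of_nonneg (by linarith) (by linarith)),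
    clamp_of_nonpos (t := (1 + η - r) / η)
      (div_nonpos_of_nonpos_of_nonneg (by linarith) hη0.le)]
  ring

theorem refpot_integrable {K s0 s1 s2 s3 η : ℝ} (h01 : s0 < s1)
    (h12 : s1 < s2) (h23 : s2 < s3) (h3 : s3 ≤ 1 / 8) (hη0 : 0 < η) :
    Integrable (fun x : Pt => refpot K s0 s1 s2 s3 η ‖x‖) := by
  have hc : Continuous fun x : Pt => refpot K s0 s1 s2 s3 η ‖x‖ :=
    (refpot_cont h01 h23 hη0).comp continuous_norm
  refine hc.integrable_of_hasCompactSupport
    (HasCompactSupport.intro (isCompact_closedBall (0 : Pt) (1 + η)) fun x hx => ?_)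
  exact refpot_zero2 h01 h12 h23 h3 hη0 (by simpa using (not_le.1 (by simpa using hx)).le)

theorem refData_bdd {K s0 s1 s2 s3 η : ℝ} (K0 : 0 < K) (h0 : 0 < s0) (h01 : s0 < s1)
    (h12 : s1 < s2) (h23 : s2 < s3) (h3 : s3 ≤ 1 / 8) (hη0 : 0 < η) (hη1 : η ≤ 1) :
    RefData (refpot K s0 s1 s2 s3 η) K s0 s1 s2 s3 η where
  K0 := K0
  s0pos := h0
  s01 := h01
  s12 := h12
  s23 := h23
  s3h := h3
  η0 := hη0
  η1 := hη1
  meas := (refpot_cont h01 h23 hη0).measurable
  nonneg := refpot_nonneg K0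
  big1 := by
    intro r _ hr
    unfold refpot
    rw [clamp_of_one_le (t := (s1 - r) / (s1 - s0)) (by rw [one_le_div (by linarith)]; linarith)]
    have := mul_nonneg (clamp_nonneg ((r - s2) / (s3 - s2))) (clamp_nonneg ((1 + η - r) / η))
    nlinarith
  big2 := by
    intro r hr hr1
    unfold refpot
    rw [clamp_of_one_le (t := (r - s2) / (s3 - s2)) (by rw [one_le_div (by linarith)]; linarith),
      clamp_of_one_le (t := (1 + η - r) / η) (by rw [one_le_div hη0]; linarith)]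
    have := clamp_nonneg ((s1 - r) / (s1 - s0))
    nlinarith
  zero1 := by
    intro r hr hr2
    unfold refpot
    rw [clamp_of_nonpos (t := (s1 - r) / (s1 - s0))
        (div_nonpos_of_nonpos_of_nonneg (by linarith) (by linarith)),
      clamp_of_nonpos (t := (r - s2) / (s3 - s2))
        (div_nonpos_of_nonpos_of_nonneg (by linarith) (by linarith))]
    ring
  zero2 := fun r hr => refpot_zero2 h01 h12 h23 h3 hη0 hr
  int := refpot_integrable h01 h12 h23 h3 hη0

theorem sing_nonneg (s0 r : ℝ) : 0 ≤ sing s0 r := le_max_left _ _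

theorem sing_zero {s0 r : ℝ} (h0 : 0 < s0) (hr : s0 ≤ r) : sing s0 r = 0 := by
  refine max_eq_left ?_
  have : r⁻¹ ≤ s0⁻¹ := inv_anti₀ h0 hr
  linarith

theorem sing_measurable (s0 : ℝ) : Measurable (sing s0) :=
  measurable_const.max (measurable_inv.sub measurable_const)

theorem sing_integrable {s0 : ℝ} (h0 : 0 < s0) : Integrable (fun x : Pt => sing s0 ‖x‖) := by
  rw [integrable_fun_norm_addHaar (volume : Measure Pt) (f := sing s0)]
  have hd : Module.finrank ℝ Pt = 3 := by simp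
  rw [hd]
  have hm : Measurable fun y : ℝ => y ^ (3 - 1) • sing s0 y :=
    (measurable_id.pow_const _).smul (sing_measurable s0)
  have h1 : IntegrableOn (fun y : ℝ => y ^ (3 - 1) • sing s0 y) (Ioc 0 s0) := by
    refine Measure.integrableOn_of_bounded (M := s0) (by simp) hm.aestronglyMeasurable ?_
    refine (ae_restrict_iff' measurableSet_Ioc).2 (Eventually.of_forall fun y hy => ?_)
    have hy0 : 0 < y := hy.1
    have hs : sing s0 y = y⁻¹ - s0⁻¹ := by
      refine max_eq_right ?_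
      have : s0⁻¹ ≤ y⁻¹ := inv_anti₀ hy0 hy.2
      linarith
    rw [hs, smul_eq_mul, Real.norm_eq_abs, abs_of_nonneg]
    · have e : y ^ (3 - 1) * (y⁻¹ - s0⁻¹) = y - y ^ 2 * s0⁻¹ := by
        field_simp
      rw [e]
      have : 0 ≤ y ^ 2 * s0⁻¹ := by positivity
      linarith [hy.2]
    · refine mul_nonneg (by positivity) ?_
      have : s0⁻¹ ≤ y⁻¹ := inv_anti₀ hy0 hy.2
      linarith
  have h2 : IntegrableOn (fun y : ℝ => y ^ (3 - 1) • sing s0 y) (Ioi s0) := by
    refine (integrableOn_zero (ε' := ℝ)).congr_fun (fun y hy => ?_) measurableSet_Ioi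
    simp [sing_zero h0 (le_of_lt (mem_Ioi.1 hy))]
  rw [← Ioc_union_Ioi_eq_Ioi h0.le]
  exact h1.union h2

theorem refData_sing {K s0 s1 s2 s3 η : ℝ} (K0 : 0 < K) (h0 : 0 < s0) (h01 : s0 < s1)
    (h12 : s1 < s2) (h23 : s2 < s3) (h3 : s3 ≤ 1 / 8) (hη0 : 0 < η) (hη1 : η ≤ 1) :
    RefData (fun r => refpot K s0 s1 s2 s3 η r + sing s0 r) K s0 s1 s2 s3 η := by
  have D := refData_bdd K0 h0 h01 h12 h23 h3 hη0 hη1
  exact
  { K0 := K0
    s0pos := h0
    s01 := h01
    s12 := h12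
    s23 := h23
    s3h := h3
    η0 := hη0
    η1 := hη1
    meas := D.meas.add (sing_measurable s0)
    nonneg := fun r => add_nonneg (D.nonneg r) (sing_nonneg _ _)
    big1 := fun r h h' => le_add_of_le_of_nonneg (D.big1 r h h') (sing_nonneg _ _)
    big2 := fun r h h' => le_add_of_le_of_nonneg (D.big2 r h h') (sing_nonneg _ _)
    zero1 := fun r h h' => by
      rw [D.zero1 r h h', sing_zero h0 (h01.le.trans h), add_zero]
    zero2 := fun r h => by
      rw [D.zero2 r h, sing_zero h0 (by linarith), add_zero]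
    int := D.int.add (sing_integrable h0) }

end Crest.Agent.Kac
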