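import Crest.Agent.Kac.RefEnergy
import Crest.Agent.Kac.Thermo

open MeasureTheory Crest.ProbabilityR.Continuum Filter Topology Set
open scoped ENNReal

namespace Crest.Agent.Kac

namespace RUp

/-- maximal one-separated index set -/
theorem exists_max_sep {L : ℝ} {n : ℕ} (x : Fin n → Pt) (hx : ∀ i, x i ∈ cube L) :
    ∃ I : Finset (Fin n), I.card ≤ packingNumber L ∧
      (∀ j, j ∉ I → ∃ i ∈ I, dist (x j) (x i) < 1) := by
  classical
  let sep : Finset (Fin n) → Prop := fun I => ∀ i ∈ I, ∀ j ∈ I, i ≠ j → 1 ≤ dist (x i) (x j)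
  obtain ⟨I, hI, hmax⟩ := Finset.exists_max_image
    ((Finset.univ : Finset (Fin n)).powerset.filter sep) Finset.card
    ⟨∅, by simp [sep]⟩
  have hsep : sep I := (Finset.mem_filter.1 hI).2
  refine ⟨I, ?_, ?_⟩
  · have := packing_le_fintype (ι := I) (fun i => x i) (fun i => hx _)
      (fun i j hij => hsep i i.2 j j.2 (fun h => hij (Subtype.ext h)))
    simpa using this
  · intro j hj
    by_contra hcon
    push Not at hcon
    have hsep' : sep (insert j I) := by
      intro a ha b hb hab
      rcases Finset.mem_insert.1 ha with ha1 | ha1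
      · rcases Finset.mem_insert.1 hb with hb1 | hb1
        · exact absurd (ha1.trans hb1.symm) hab
        · rw [ha1]
          exact hcon b hb1
      · rcases Finset.mem_insert.1 hb with hb1 | hb1
        · rw [dist_comm, hb1]
          exact hcon a ha1
        · exact hsep a ha1 b hb1 hab
    have := hmax (insert j I) (Finset.mem_filter.2 ⟨by simp, hsep'⟩)
    rw [Finset.card_insert_of_notMem hj] at this
    omega

/-- energy bound by the number of indices having a partner at distance in `[s3,1]` in `I` -/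
theorem energy_ge_card {φr : ℝ → ℝ} {K s0 s1 s2 s3 η : ℝ} (h : RefData φr K s0 s1 s2 s3 η)
    {n : ℕ} (x : Fin n → Pt) (I T : Finset (Fin n)) (hT : ∀ j ∈ T, j ∉ I ∧ ∃ i ∈ I,
      s3 ≤ dist (x j) (x i) ∧ dist (x j) (x i) ≤ 1) :
    K * (T.card : ℝ) ≤ energy φr x := by
  classical
  choose! f hf using fun j (hj : j ∈ T) => (hT j hj).2
  have hfne : ∀ j ∈ T, j ≠ f j := fun j hj h1 => (hT j hj).1 (h1 ▸ (hf j hj).1)
  let g : Fin n → Fin n × Fin n := fun j => if j < f j then (j, f j) else (f j, j)
  have hg : ∀ j ∈ T, (g j).1 < (g j).2 := by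
    intro j hj
    simp only [g]
    split_ifs with h1
    · exact h1
    · exact lt_of_le_of_ne (not_lt.1 h1) (hfne j hj).symm
  have hinj : Set.InjOn g T := by
    intro a ha b hb hab
    have ha' := hT a ha
    have hb' := hT b hb
    have hfa := (hf a ha).1
    have hfb := (hf b hb).1
    simp only [g] at hab
    split_ifs at hab with h1 h2 h2
    · exact (Prod.mk.injEq _ _ _ _ ▸ hab).1
    · obtain ⟨h3, h4⟩ := Prod.mk.inj hab
      exact absurd (h3 ▸ hfb) ha'.1
    · obtain ⟨h3, h4⟩ := Prod.mk.inj hab
      exact absurd (h4 ▸ hfb) ha'.1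
    · exact (Prod.mk.inj hab).2
  have hval : ∀ j ∈ T, K ≤ φr (dist (x (g j).1) (x (g j).2)) := by
    intro j hj
    obtain ⟨-, h1, h2⟩ := hf j hj
    simp only [g]
    split_ifs
    · exact h.big2 _ h1 h2
    · rw [dist_comm]
      exact h.big2 _ h1 h2
  have he : energy φr x = ∑ p ∈ (Finset.univ : Finset (Fin n × Fin n)).filter
      (fun p => p.1 < p.2), φr (dist (x p.1) (x p.2)) := by
    unfold energy
    exact Finset.sum_subtype (Finset.univ.filter fun p : Fin n × Fin n => p.1 < p.2)
      (by intro p; simp) (fun p : Fin n × Fin n => φr (dist (x p.1) (x p.2))) |>.symm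
  rw [he]
  calc K * (T.card : ℝ) = ∑ j ∈ T, K := by rw [Finset.sum_const, nsmul_eq_mul, mul_comm]
    _ ≤ ∑ j ∈ T, φr (dist (x (g j).1) (x (g j).2)) := Finset.sum_le_sum hval
    _ = ∑ p ∈ T.image g, φr (dist (x p.1) (x p.2)) := by
        rw [Finset.sum_image hinj]
    _ ≤ _ := by
        refine Finset.sum_le_sum_of_subset_of_nonneg ?_ fun p _ _ => h.nonneg _
        intro p hp
        obtain ⟨j, hj, rfl⟩ := Finset.mem_image.1 hp
        exact Finset.mem_filter.2 ⟨Finset.mem_univ _, hg j hj⟩

/-- the weight attached to `I`, product over `T` -/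
noncomputable def wF {n : ℕ} (s : ℝ) (e : ℝ≥0∞) (I T : Finset (Fin n)) (x : Fin n → Pt) : ℝ≥0∞ :=
  ∏ j ∈ T, ((∑ i ∈ I, (Metric.closedBall (x i) s).indicator 1 (x j)) + e)

theorem measurable_wF {n : ℕ} (s : ℝ) (e : ℝ≥0∞) (I T : Finset (Fin n)) :
    Measurable (wF s e I T) := by
  classical
  unfold wF
  refine Finset.measurable_prod _ fun j _ => Measurable.add ?_ measurable_const
  refine Finset.measurable_sum _ fun i _ => ?_
  have : (fun x : Fin n → Pt => (Metric.closedBall (x i) s).indicator (1 : Pt → ℝ≥0∞) (x j))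
      = {x : Fin n → Pt | dist (x j) (x i) ≤ s}.indicator 1 := by
    ext x
    simp [Set.indicator_apply, Metric.mem_closedBall]
  rw [this]
  refine Measurable.indicator measurable_one (measurableSet_le ?_ measurable_const)
  exact (measurable_pi_apply j).dist (measurable_pi_apply i)

theorem lint_wF {n : ℕ} {L s : ℝ} (hL : 1 ≤ L) (e v : ℝ≥0∞)
    (hv : volume (Metric.closedBall (0 : Pt) s) ≤ v) (I T : Finset (Fin n)) (hIT : Disjoint T I) :
    ∫⁻ x, wF s e I T x ∂(Measure.pi (fun _ : Fin n => (volume : Measure Pt).restrict (cube L)))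
      ≤ ((I.card * v + e * ENNReal.ofReal (L ^ 3)) / ENNReal.ofReal (L ^ 3)) ^ T.card *
        ENNReal.ofReal (L ^ 3) ^ n := by
  classical
  set V := ENNReal.ofReal (L ^ 3) with hV
  have hV0 : V ≠ 0 := by
    rw [hV]
    have : 0 < L ^ 3 := by positivity
    simpa using this
  have hVt : V ≠ ∞ := ENNReal.ofReal_ne_top
  set μ : Fin n → Measure Pt := fun _ => (volume : Measure Pt).restrict (cube L) with hμ
  have hμu : ∀ i, μ i Set.univ = V := by
    intro i
    rw [hμ]
    simp only [Measure.restrict_apply_univ]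
    exact volume_cube (by linarith)
  set C := (I.card * v + e * V) / V with hC
  have : ∀ i, IsFiniteMeasure (μ i) := fun i => ⟨by rw [hμu i]; exact hVt.lt_top⟩
  induction T using Finset.induction_on with
  | empty =>
    simp only [wF, Finset.prod_empty, lintegral_const, Measure.pi_univ, hμu, Finset.card_empty,
      pow_zero, one_mul, Finset.prod_const, Finset.card_univ, Fintype.card_fin, le_refl]
  | insert j T hj ih =>
    have hjI : j ∉ I := fun h1 => Finset.disjoint_left.1 hIT (Finset.mem_insert_self _ _) h1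
    have hTI : Disjoint T I := hIT.mono_left (Finset.subset_insert _ _)
    have hstep : ∫⁻ x, wF s e I (insert j T) x ∂(Measure.pi μ)
        ≤ ∫⁻ x, C * wF s e I T x ∂(Measure.pi μ) := by
      refine lintegral_le_of_lmarginal_le ({j} : Finset (Fin n)) (measurable_wF _ _ _ _)
        ((measurable_wF _ _ _ _).const_mul _) ?_
      rw [lmarginal_singleton, lmarginal_singleton]
      intro x
      have hupd : ∀ z, wF s e I T (Function.update x j z) = wF s e I T x := by
        intro z
        unfold wF
        refine Finset.prod_congr rfl fun k hk => ?_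
        have hkj : k ≠ j := fun h1 => hj (h1 ▸ hk)
        rw [Function.update_of_ne hkj]
        congr 1
        refine Finset.sum_congr rfl fun i hi => ?_
        have hij : i ≠ j := fun h1 => hjI (h1 ▸ hi)
        rw [Function.update_of_ne hij]
      have hins : ∀ z, wF s e I (insert j T) (Function.update x j z) =
          ((∑ i ∈ I, (Metric.closedBall (x i) s).indicator (1 : Pt → ℝ≥0∞) z) + e) *
            wF s e I T x := by
        intro z
        rw [← hupd z]
        unfold wF
        rw [Finset.prod_insert hj, Function.update_self]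
        congr 2
        refine Finset.sum_congr rfl fun i hi => ?_
        have hij : i ≠ j := fun h1 => hjI (h1 ▸ hi)
        rw [Function.update_of_ne hij]
      simp only [hupd, hins]
      rw [lintegral_const, hμu j, lintegral_mul_const]
      swap
      · refine Measurable.add ?_ measurable_const
        refine Finset.measurable_sum _ fun i _ => ?_
        exact Measurable.indicator measurable_one Metric.isClosed_closedBall.measurableSet
      have hint : ∫⁻ z, ((∑ i ∈ I, (Metric.closedBall (x i) s).indicator (1 : Pt → ℝ≥0∞) z) + e)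
          ∂(μ j) ≤ C * V := by
        rw [lintegral_add_right _ measurable_const, lintegral_const, hμu j]
        rw [hC, ENNReal.div_mul_cancel hV0 hVt]
        refine add_le_add ?_ le_rfl
        rw [lintegral_finsetSum _ fun (i : Fin n) _ =>
          (Measurable.indicator measurable_one Metric.isClosed_closedBall.measurableSet :
            Measurable ((Metric.closedBall (x i) s).indicator (1 : Pt → ℝ≥0∞)))]
        calc ∑ i ∈ I, ∫⁻ z, (Metric.closedBall (x i) s).indicator (1 : Pt → ℝ≥0∞) z ∂(μ j)
            ≤ ∑ i ∈ I, v := by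
              refine Finset.sum_le_sum fun i _ => ?_
              rw [lintegral_indicator_one Metric.isClosed_closedBall.measurableSet]
              refine (Measure.restrict_apply_le _ _).trans ?_
              rwa [Measure.addHaar_closedBall_center]
          _ = I.card * v := by rw [Finset.sum_const, nsmul_eq_mul]
      calc _ ≤ C * V * wF s e I T x := mul_le_mul_left hint _
        _ = C * wF s e I T x * V := by ring
    refine hstep.trans ?_
    rw [lintegral_const_mul _ (measurable_wF _ _ _ _), Finset.card_insert_of_notMem hj, pow_succ]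
    calc C * ∫⁻ x, wF s e I T x ∂(Measure.pi μ) ≤ C * (C ^ T.card * V ^ n) :=
          mul_le_mul_right (ih hTI) _
      _ = C ^ T.card * C * V ^ n := by ring

/-- pointwise bound of the Boltzmann factor -/
theorem pointwise {φr : ℝ → ℝ} {K s0 s1 s2 s3 η : ℝ} (h : RefData φr K s0 s1 s2 s3 η) {J : ℕ}
    (hJ : ClusLe J s0 s3) {L β Λ : ℝ} (hΛ0 : 0 ≤ Λ) (hK : Λ ≤ β * K) {n : ℕ} (x : Fin n → Pt)
    (hx : ∀ i, x i ∈ cube L) :
    ENNReal.ofReal (Real.exp (-pairE (rad β φr) x)) ≤
      ENNReal.ofReal (Real.exp (-((β * K - Λ) * (Xn (J * packingNumber L) n : ℝ)))) *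
        ∑ I ∈ (Finset.univ : Finset (Fin n)).powerset,
          (if I.card ≤ packingNumber L then
            wF s3 (ENNReal.ofReal (Real.exp (-Λ))) I (Finset.univ \ I) x else 0) := by
  classical
  obtain ⟨I, hIc, hI⟩ := exists_max_sep x hx
  set e : ℝ≥0∞ := ENNReal.ofReal (Real.exp (-Λ)) with he
  set T : Finset (Fin n) := (Finset.univ \ I).filter (fun j => ∀ i ∈ I, s3 < dist (x j) (x i))
    with hT
  have h1 : K * (T.card : ℝ) ≤ energy φr x := by
    refine energy_ge_card h x I T fun j hj => ?_
    obtain ⟨hj1, hj2⟩ := Finset.mem_filter.1 hj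
    have hjI : j ∉ I := (Finset.mem_sdiff.1 hj1).2
    obtain ⟨i, hi, hd⟩ := hI j hjI
    exact ⟨hjI, i, hi, (hj2 i hi).le, hd.le⟩
  have h2 := ref_energy_Xn h hJ x hx
  have hK0 := h.K0
  have h3 : Λ * (T.card : ℝ) + (β * K - Λ) * (Xn (J * packingNumber L) n : ℝ)
      ≤ β * energy φr x := by
    have ha : Λ / K * (K * (T.card : ℝ)) ≤ Λ / K * energy φr x :=
      mul_le_mul_of_nonneg_left h1 (by positivity)
    have hb : (β - Λ / K) * (K * Xn (J * packingNumber L) n) ≤ (β - Λ / K) * energy φr x := by
      refine mul_le_mul_of_nonneg_left h2 ?_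
      rw [sub_nonneg, div_le_iff₀ hK0]
      exact hK
    have hc : Λ / K * (K * (T.card : ℝ)) = Λ * T.card := by
      field_simp
    have hd : (β - Λ / K) * (K * Xn (J * packingNumber L) n)
        = (β * K - Λ) * (Xn (J * packingNumber L) n : ℝ) := by
      field_simp
    rw [hc] at ha
    rw [hd] at hb
    linarith
  have h4 : ENNReal.ofReal (Real.exp (-(Λ * (T.card : ℝ)))) ≤ wF s3 e I (Finset.univ \ I) x := by
    have h5 : ENNReal.ofReal (Real.exp (-(Λ * (T.card : ℝ))))
        = ∏ j ∈ (Finset.univ \ I), (if (∀ i ∈ I, s3 < dist (x j) (x i)) then e else 1) := by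
      rw [Finset.prod_ite, Finset.prod_const, Finset.prod_const_one, mul_one, ← hT, he,
        ← ENNReal.ofReal_pow (Real.exp_pos _).le, ← Real.exp_nat_mul]
      congr 2
      ring
    rw [h5]
    unfold wF
    refine Finset.prod_le_prod' fun j hj => ?_
    split_ifs with h6
    · exact le_add_self
    · push Not at h6
      obtain ⟨i, hi, hd⟩ := h6
      refine le_trans ?_ le_self_add
      refine le_trans ?_ (Finset.single_le_sum
        (f := fun i => (Metric.closedBall (x i) s3).indicator (1 : Pt → ℝ≥0∞) (x j))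
        (fun _ _ => zero_le) hi)
      rw [Set.indicator_of_mem (Metric.mem_closedBall.2 hd)]
      exact le_rfl
  calc ENNReal.ofReal (Real.exp (-pairE (rad β φr) x))
      ≤ ENNReal.ofReal (Real.exp (-((β * K - Λ) * (Xn (J * packingNumber L) n : ℝ))) *
          Real.exp (-(Λ * (T.card : ℝ)))) := by
        refine ENNReal.ofReal_le_ofReal ?_
        rw [← Real.exp_add, CB.pairE_rad]
        refine Real.exp_le_exp.2 ?_
        linarith
    _ = ENNReal.ofReal (Real.exp (-((β * K - Λ) * (Xn (J * packingNumber L) n : ℝ)))) *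
          ENNReal.ofReal (Real.exp (-(Λ * (T.card : ℝ)))) := by
        rw [ENNReal.ofReal_mul (Real.exp_pos _).le]
    _ ≤ _ := by
        refine mul_le_mul_right ?_ _
        refine le_trans ?_ (Finset.single_le_sum (f := fun I => (if I.card ≤ packingNumber L then
            wF s3 e I (Finset.univ \ I) x else 0)) (fun _ _ => zero_le)
            (Finset.mem_powerset.2 (Finset.subset_univ I)))
        rw [if_pos hIc]
        exact h4

/-- the real sum estimate -/
theorem sum_est {V ε Λ : ℝ} (hV : 0 ≤ V) (hε : ε = Real.exp (-Λ)) (hΛ0 : 0 ≤ Λ) (n P : ℕ) :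
    (n.factorial : ℝ)⁻¹ * ∑ k ∈ Finset.range (n + 1), (n.choose k : ℝ) *
      (if k ≤ P then V ^ k * (ε * (k + V)) ^ (n - k) else 0) ≤
      Real.exp (4 * V) * Real.exp (-(Λ * ((n - P : ℕ) : ℝ))) := by
  have hε0 : 0 ≤ ε := hε ▸ (Real.exp_pos _).le
  have hε1 : ε ≤ 1 := by
    rw [hε]
    exact Real.exp_le_one_iff.2 (by linarith)
  have hterm : ∀ k ∈ Finset.range (n + 1), (n.factorial : ℝ)⁻¹ * ((n.choose k : ℝ) *
      (if k ≤ P then V ^ k * (ε * (k + V)) ^ (n - k) else 0)) ≤
      Real.exp (-(Λ * ((n - P : ℕ) : ℝ))) * Real.exp V *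
        ((Real.exp 1 * V) ^ k / (k.factorial : ℝ)) := by
    intro k hk
    have hkn : k ≤ n := Nat.lt_succ_iff.1 (Finset.mem_range.1 hk)
    split_ifs with hkP
    · obtain ⟨m, rfl⟩ := Nat.exists_eq_add_of_le hkn
      rw [Nat.add_sub_cancel_left]
      have hfac : ((k + m).factorial : ℝ)⁻¹ * ((k + m).choose k : ℝ)
          = (k.factorial : ℝ)⁻¹ * (m.factorial : ℝ)⁻¹ := by
        have hf : ((k + m).factorial : ℝ)
            = ((k + m).choose k : ℝ) * ((k.factorial : ℝ) * (m.factorial : ℝ)) := by
          rw [← Nat.add_choose_mul_factorial_mul_factorial k m, ← Nat.choose_symm_add]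
          push_cast
          ring
        have hc : ((k + m).choose k : ℝ) ≠ 0 := by
          exact_mod_cast (Nat.choose_pos (Nat.le_add_right k m)).ne'
        rw [hf, mul_inv, mul_inv]
        field_simp
      have he1 : ε ^ m ≤ Real.exp (-(Λ * ((k + m - P : ℕ) : ℝ))) := by
        have : Real.exp (-(Λ * ((k + m - P : ℕ) : ℝ))) = ε ^ (k + m - P) := by
          rw [hε, ← Real.exp_nat_mul]
          congr 1
          ring
        rw [this]
        exact pow_le_pow_of_le_one hε0 hε1 (by omega)
      have he2 : ((k : ℝ) + V) ^ m / (m.factorial : ℝ) ≤ Real.exp (k + V) :=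
        Real.pow_div_factorial_le_exp _ (by positivity) m
      have he3 : Real.exp ((k : ℝ) + V) = Real.exp 1 ^ k * Real.exp V := by
        rw [Real.exp_add, ← Real.exp_nat_mul, mul_one]
      calc ((k + m).factorial : ℝ)⁻¹ * (((k + m).choose k : ℝ) * (V ^ k * (ε * (k + V)) ^ m))
          = (((k + m).factorial : ℝ)⁻¹ * ((k + m).choose k : ℝ)) * (V ^ k * (ε * (k + V)) ^ m) := by
            ring
        _ = V ^ k * (k.factorial : ℝ)⁻¹ * (ε ^ m * (((k : ℝ) + V) ^ m / (m.factorial : ℝ))) := by
            rw [hfac, mul_pow, div_eq_mul_inv]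
            ring
        _ ≤ V ^ k * (k.factorial : ℝ)⁻¹ *
              (Real.exp (-(Λ * ((k + m - P : ℕ) : ℝ))) * Real.exp (k + V)) := by
            refine mul_le_mul_of_nonneg_left ?_ (by positivity)
            exact mul_le_mul he1 he2 (by positivity) (Real.exp_pos _).le
        _ = _ := by
            rw [he3, mul_pow, div_eq_mul_inv]
            ring
    · rw [mul_zero, mul_zero]
      positivity
  rw [Finset.mul_sum]
  refine (Finset.sum_le_sum hterm).trans ?_
  rw [← Finset.mul_sum]
  have h1 : ∑ k ∈ Finset.range (n + 1), (Real.exp 1 * V) ^ k / (k.factorial : ℝ)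
      ≤ Real.exp (Real.exp 1 * V) := Real.sum_le_exp_of_nonneg (by positivity) _
  calc Real.exp (-(Λ * ((n - P : ℕ) : ℝ))) * Real.exp V *
        ∑ k ∈ Finset.range (n + 1), (Real.exp 1 * V) ^ k / (k.factorial : ℝ)
      ≤ Real.exp (-(Λ * ((n - P : ℕ) : ℝ))) * Real.exp V * Real.exp (Real.exp 1 * V) :=
        mul_le_mul_of_nonneg_left h1 (by positivity)
    _ = Real.exp (V + Real.exp 1 * V) * Real.exp (-(Λ * ((n - P : ℕ) : ℝ))) := by
        rw [Real.exp_add]
        ring
    _ ≤ _ := by
        refine mul_le_mul_of_nonneg_right (Real.exp_le_exp.2 ?_) (Real.exp_pos _).le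
        have := Real.exp_one_lt_d9
        nlinarith

end RUp

open RUp

/-- finite volume upper bound on the reference partition function; `Λ = log (1/|B(s3)|)` -/
theorem ref_Z_upper {φr : ℝ → ℝ} {K s0 s1 s2 s3 η : ℝ} (h : RefData φr K s0 s1 s2 s3 η) {J : ℕ}
    (hJ : ClusLe J s0 s3) {L β Λ : ℝ} (hL : 1 ≤ L) (hβ : 0 < β) (hΛ0 : 0 ≤ Λ)
    (hΛ : volume (Metric.closedBall (0 : Pt) s3) ≤ ENNReal.ofReal (Real.exp (-Λ)))
    (hK : Λ ≤ β * K) (n : ℕ) :
    partitionFn φr L n β ≤ Real.exp (4 * L ^ 3) *
      Real.exp (-(Λ * ((n - packingNumber L : ℕ) : ℝ) +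
        (β * K - Λ) * (Xn (J * packingNumber L) n : ℝ))) := by
  classical
  set P := packingNumber L with hP
  set X : ℝ := (β * K - Λ) * (Xn (J * P) n : ℝ) with hX
  set e : ℝ≥0∞ := ENNReal.ofReal (Real.exp (-Λ)) with he
  set V : ℝ := L ^ 3 with hV
  have hV0 : 0 < V := by positivity
  have hst : ∀ (n : ℕ) (x : Fin n → Pt), -0 * (n : ℝ) ≤ energy φr x := by
    intro n x
    rw [neg_zero, zero_mul]
    exact Finset.sum_nonneg fun p _ => h.nonneg _
  have hZ := ofReal_partitionFn (L := L) h.meas hst hβ n
  have hmain : ZW (rad β φr) (cube L) n ≤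
      ENNReal.ofReal (Real.exp (-X) * ((n.factorial : ℝ)⁻¹ *
        ∑ k ∈ Finset.range (n + 1), (n.choose k : ℝ) *
          (if k ≤ P then V ^ k * (Real.exp (-Λ) * (k + V)) ^ (n - k) else 0))) := by
    have hmc : MeasurableSet (Set.pi Set.univ (fun _ : Fin n => cube L)) :=
      MeasurableSet.univ_pi fun _ => CB.measurableSet_cube L
    have hpi : (volume : Measure (Fin n → Pt)).restrict (Set.pi Set.univ (fun _ : Fin n => cube L))
        = Measure.pi (fun _ : Fin n => (volume : Measure Pt).restrict (cube L)) := by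
      rw [volume_pi, Measure.restrict_pi_pi]
    have hI : ∀ I ∈ (Finset.univ : Finset (Fin n)).powerset,
        ∫⁻ x in Set.pi Set.univ (fun _ : Fin n => cube L),
          (if I.card ≤ P then wF s3 e I (Finset.univ \ I) x else 0) ≤
        (fun k : ℕ => ENNReal.ofReal
          (if k ≤ P then V ^ k * (Real.exp (-Λ) * (k + V)) ^ (n - k) else 0)) I.card := by
      intro I _
      simp only
      split_ifs with hc
      · rw [hpi]
        refine (lint_wF hL e e hΛ I (Finset.univ \ I) Finset.sdiff_disjoint).trans ?_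
        have hcard : (Finset.univ \ I).card = n - I.card := by
          rw [Finset.card_sdiff_of_subset (Finset.subset_univ _), Finset.card_univ,
            Fintype.card_fin]
        have hle : I.card ≤ n := by
          simpa using Finset.card_le_univ I
        rw [hcard, ← hV]
        refine le_of_eq ?_
        have h1 : ((I.card : ℝ≥0∞) * e + e * ENNReal.ofReal V) / ENNReal.ofReal V
            = ENNReal.ofReal (Real.exp (-Λ) * (I.card + V) / V) := by
          rw [ENNReal.ofReal_div_of_pos hV0, ENNReal.ofReal_mul (Real.exp_pos _).le,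
            ENNReal.ofReal_add (by positivity) hV0.le, ENNReal.ofReal_natCast, ← he]
          congr 1
          ring
        rw [h1, ← ENNReal.ofReal_pow (by positivity), ← ENNReal.ofReal_pow hV0.le,
          ← ENNReal.ofReal_mul (by positivity)]
        congr 1
        obtain ⟨m, hm⟩ := Nat.exists_eq_add_of_le hle
        have hm' : n - I.card = m := by omega
        rw [hm', div_pow]
        have : V ^ n = V ^ I.card * V ^ m := by rw [← pow_add, ← hm]
        rw [this]
        have hVm : V ^ m ≠ 0 := (pow_pos hV0 m).ne'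
        generalize (Real.exp (-Λ) * ((I.card : ℝ) + V)) ^ m = y
        rw [div_mul_eq_mul_div, div_eq_iff hVm]
        ring
      · rw [lintegral_zero]
        exact zero_le
    unfold ZW
    calc (n.factorial : ℝ≥0∞)⁻¹ * ∫⁻ x in Set.pi Set.univ (fun _ : Fin n => cube L),
          ENNReal.ofReal (Real.exp (-pairE (rad β φr) x))
        ≤ (n.factorial : ℝ≥0∞)⁻¹ * ∫⁻ x in Set.pi Set.univ (fun _ : Fin n => cube L),
          (ENNReal.ofReal (Real.exp (-X)) *
            ∑ I ∈ (Finset.univ : Finset (Fin n)).powerset,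
              (if I.card ≤ P then wF s3 e I (Finset.univ \ I) x else 0)) := by
          refine mul_le_mul_right (setLIntegral_mono' hmc fun x hx => ?_) _
          exact pointwise h hJ hΛ0 hK x (fun i => Set.mem_univ_pi.1 hx i)
      _ = (n.factorial : ℝ≥0∞)⁻¹ * (ENNReal.ofReal (Real.exp (-X)) *
            ∑ I ∈ (Finset.univ : Finset (Fin n)).powerset,
              ∫⁻ x in Set.pi Set.univ (fun _ : Fin n => cube L),
              (if I.card ≤ P then wF s3 e I (Finset.univ \ I) x else 0)) := by
          have hm : ∀ I : Finset (Fin n), Measurable (fun x : Fin n → Pt =>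
              (if I.card ≤ P then wF s3 e I (Finset.univ \ I) x else 0)) := by
            intro I
            split_ifs
            · exact measurable_wF _ _ _ _
            · exact measurable_const
          rw [lintegral_const_mul _ (Finset.measurable_sum _ fun I _ => hm I),
            lintegral_finsetSum _ fun I _ => hm I]
      _ ≤ (n.factorial : ℝ≥0∞)⁻¹ * (ENNReal.ofReal (Real.exp (-X)) *
            ∑ I ∈ (Finset.univ : Finset (Fin n)).powerset,
              (fun k : ℕ => ENNReal.ofReal
                (if k ≤ P then V ^ k * (Real.exp (-Λ) * (k + V)) ^ (n - k) else 0)) I.card) := by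
          refine mul_le_mul_right (mul_le_mul_right (Finset.sum_le_sum hI) _) _
      _ = _ := by
          rw [Finset.sum_powerset_apply_card (fun k : ℕ => ENNReal.ofReal
            (if k ≤ P then V ^ k * (Real.exp (-Λ) * (k + V)) ^ (n - k) else 0)),
            Finset.card_univ, Fintype.card_fin]
          have hnn : ∀ k : ℕ, 0 ≤ (if k ≤ P then V ^ k * (Real.exp (-Λ) * (k + V)) ^ (n - k)
              else (0 : ℝ)) := by
            intro k
            split_ifs
            · positivity
            · exact le_rfl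
          rw [ENNReal.ofReal_mul (Real.exp_pos _).le, ENNReal.ofReal_mul (by positivity),
            ENNReal.ofReal_inv_of_pos (by exact_mod_cast n.factorial_pos),
            ENNReal.ofReal_natCast, ENNReal.ofReal_sum_of_nonneg
              (fun k _ => mul_nonneg (Nat.cast_nonneg _) (hnn k))]
          have : ∀ k ∈ Finset.range (n + 1), (n.choose k) • ENNReal.ofReal
              (if k ≤ P then V ^ k * (Real.exp (-Λ) * (k + V)) ^ (n - k) else (0 : ℝ))
              = ENNReal.ofReal ((n.choose k : ℝ) *
                (if k ≤ P then V ^ k * (Real.exp (-Λ) * (k + V)) ^ (n - k) else (0 : ℝ))) := by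
            intro k _
            rw [ENNReal.ofReal_mul (Nat.cast_nonneg _), ENNReal.ofReal_natCast, nsmul_eq_mul]
          rw [Finset.sum_congr rfl this]
          ring
  have hfin : Real.exp (-X) * ((n.factorial : ℝ)⁻¹ *
        ∑ k ∈ Finset.range (n + 1), (n.choose k : ℝ) *
          (if k ≤ P then V ^ k * (Real.exp (-Λ) * (k + V)) ^ (n - k) else 0)) ≤
      Real.exp (4 * V) * Real.exp (-(Λ * ((n - P : ℕ) : ℝ) + X)) := by
    calc _ ≤ Real.exp (-X) * (Real.exp (4 * V) * Real.exp (-(Λ * ((n - P : ℕ) : ℝ)))) :=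
          mul_le_mul_of_nonneg_left (sum_est hV0.le rfl hΛ0 n P) (Real.exp_pos _).le
      _ = Real.exp (4 * V) * Real.exp (-(Λ * ((n - P : ℕ) : ℝ) + X)) := by
          rw [neg_add, Real.exp_add]
          ring
  have hle : ENNReal.ofReal (partitionFn φr L n β) ≤
      ENNReal.ofReal (Real.exp (4 * V) * Real.exp (-(Λ * ((n - P : ℕ) : ℝ) + X))) := by
    rw [hZ]
    exact hmain.trans (ENNReal.ofReal_le_ofReal hfin)
  exact (ENNReal.ofReal_le_ofReal_iff (by positivity)).1 hle

end Crest.Agent.Kac
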