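import Crest.Agent.Kac.KernelB
import Crest.Agent.Kac.RefEnergy

open MeasureTheory Crest.ProbabilityR.Continuum Filter Topology Set
open scoped ENNReal

namespace Crest.Agent.Kac

/-- the multi-scale attractive tail -/
noncomputable def tail (b R : ℕ → ℝ) (r : ℝ) : ℝ := ∑' k, b k * kap (R k) r

/-- the first `k` terms of the tail -/
noncomputable def psum (b R : ℕ → ℝ) (k : ℕ) (r : ℝ) : ℝ :=
  ∑ j ∈ Finset.range k, b j * kap (R j) r

/-! ### energies -/

theorem energy_mono {φ φ' : ℝ → ℝ} (h : ∀ r, φ r ≤ φ' r) {n : ℕ} (x : Fin n → Pt) :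
    energy φ x ≤ energy φ' x := Finset.sum_le_sum fun _ _ => h _

theorem energy_nonneg {φ : ℝ → ℝ} (h : ∀ r, 0 ≤ φ r) {n : ℕ} (x : Fin n → Pt) :
    0 ≤ energy φ x := Finset.sum_nonneg fun _ _ => h _

theorem energy_tot (φr ψ : ℝ → ℝ) {n : ℕ} (x : Fin n → Pt) :
    energy (tot φr ψ) x = energy φr x - energy ψ x := by
  simp only [energy, tot, Finset.sum_sub_distrib]

theorem energy_add (φ ψ : ℝ → ℝ) {n : ℕ} (x : Fin n → Pt) :
    energy (fun r => φ r + ψ r) x = energy φ x + energy ψ x := by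
  simp only [energy, Finset.sum_add_distrib]

theorem energy_const_mul (a : ℝ) (φ : ℝ → ℝ) {n : ℕ} (x : Fin n → Pt) :
    energy (fun r => a * φ r) x = a * energy φ x := by
  simp only [energy, Finset.mul_sum]

theorem sqOcc_nonneg (h τ : ℝ) {n : ℕ} (x : Fin n → Pt) : 0 ≤ sqOcc h τ x := by
  classical
  refine Finset.sum_nonneg fun i _ => Finset.sum_nonneg fun j _ => ?_
  split_ifs <;> norm_num

/-- one kernel of range `≥ 4` costs at most `46` squared occupation numbers -/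
theorem energy_kap_le {R : ℝ} (hR : 4 ≤ R) {n : ℕ} (x : Fin n → Pt) :
    energy (kap R) x ≤ 46 * sqOcc (1 / 2) 0 x := by
  have hR0 : 0 < R := by linarith
  have h1 := kap_sum_le hR0 (show (0 : ℝ) < 1 / 2 by norm_num) 0 x
  have h2 := kap_nonneg R 0
  have h3 := sqOcc_nonneg (1 / 2) 0 x
  have h4 : (1 + 4 * (1 / 2) / R) ^ 6 / (1 / 2) ^ 3 ≤ (92 : ℝ) := by
    have h5 : 1 + 4 * (1 / 2) / R ≤ (3 / 2 : ℝ) := by
      have : 4 * (1 / 2) / R ≤ (1 / 2 : ℝ) := by
        rw [div_le_iff₀ hR0]; linarith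
      linarith
    have h6 : (0 : ℝ) ≤ 1 + 4 * (1 / 2) / R := by positivity
    have h7 := pow_le_pow_left₀ h6 h5 6
    have h8 : ((3 / 2 : ℝ)) ^ 6 / (1 / 2) ^ 3 ≤ 92 := by norm_num
    refine le_trans ?_ h8
    exact div_le_div_of_nonneg_right h7 (by positivity)
  rw [energy_kap]
  have h9 : (0 : ℝ) ≤ n * kap R 0 := mul_nonneg (Nat.cast_nonneg n) h2
  nlinarith [mul_le_mul_of_nonneg_right h4 h3]

section tails

variable {b R : ℕ → ℝ}

theorem kap_le_inv {R : ℝ} (hR : 4 ≤ R) (r : ℝ) : kap R r ≤ 1 / vR 1 := by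
  have hR0 : 0 < R := by linarith
  have h1 := vR_pos (show (0 : ℝ) < 1 by norm_num)
  refine (kap_le hR0 r).trans (one_div_le_one_div_of_le h1 ?_)
  rw [vR_eq hR0]
  exact le_mul_of_one_le_right h1.le (one_le_pow₀ (by linarith))

theorem tail_summable (hb : ∀ k, 0 ≤ b k) (hR : ∀ k, 4 ≤ R k) (hs : Summable b) (r : ℝ) :
    Summable fun k => b k * kap (R k) r := by
  refine Summable.of_nonneg_of_le (fun k => mul_nonneg (hb k) (kap_nonneg _ _)) (fun k => ?_)
    (hs.mul_right (1 / vR 1))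
  exact mul_le_mul_of_nonneg_left (kap_le_inv (hR k) r) (hb k)

theorem tail_nonneg (hb : ∀ k, 0 ≤ b k) (r : ℝ) : 0 ≤ tail b R r :=
  tsum_nonneg fun k => mul_nonneg (hb k) (kap_nonneg _ _)

theorem psum_nonneg (hb : ∀ k, 0 ≤ b k) (k : ℕ) (r : ℝ) : 0 ≤ psum b R k r :=
  Finset.sum_nonneg fun j _ => mul_nonneg (hb j) (kap_nonneg _ _)

theorem psum_zero (b R : ℕ → ℝ) : psum b R 0 = fun _ => 0 := by
  funext r; simp [psum]

theorem psum_succ (b R : ℕ → ℝ) (k : ℕ) :
    psum b R (k + 1) = fun r => psum b R k r + b k * kap (R k) r := by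
  funext r; simp [psum, Finset.sum_range_succ]

theorem psum_le_tail (hb : ∀ k, 0 ≤ b k) (hR : ∀ k, 4 ≤ R k) (hs : Summable b) (k : ℕ) (r : ℝ) :
    psum b R k r ≤ tail b R r :=
  (tail_summable hb hR hs r).sum_le_tsum _ fun j _ => mul_nonneg (hb j) (kap_nonneg _ _)

theorem psum_mono (hb : ∀ k, 0 ≤ b k) {k k' : ℕ} (hk : k ≤ k') (r : ℝ) :
    psum b R k r ≤ psum b R k' r :=
  Finset.sum_le_sum_of_subset_of_nonneg (Finset.range_mono hk) fun j _ _ =>
    mul_nonneg (hb j) (kap_nonneg _ _)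

/-- the partial sums have finite range -/
theorem psum_range (hR : ∀ k, 4 ≤ R k) {k : ℕ} {R' : ℝ} (h : ∀ j < k, R j < R') {r : ℝ}
    (hr : R' ≤ r) : psum b R k r = 0 := by
  refine Finset.sum_eq_zero fun j hj => ?_
  have hj' := h j (Finset.mem_range.1 hj)
  rw [kap_eq_zero (by linarith [hR j]) (lt_of_lt_of_le (lt_of_lt_of_le hj' hr) (le_abs_self r)),
    mul_zero]

theorem psum_eq_zero {k : ℕ} {R' : ℝ} (hR : ∀ j < k, 0 < R j ∧ R j < R') (r : ℝ)
    (h : R' ≤ r) : psum b R k r = 0 := by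
  refine Finset.sum_eq_zero fun j hj => ?_
  have hj' := hR j (Finset.mem_range.1 hj)
  rw [kap_eq_zero hj'.1 (lt_of_lt_of_le (lt_of_lt_of_le hj'.2 h) (le_abs_self r)),
    mul_zero]

theorem tail_continuous (hb : ∀ k, 0 ≤ b k) (hR : ∀ k, 4 ≤ R k) (hs : Summable b) :
    Continuous (tail b R) := by
  refine continuous_tsum (fun k => continuous_const.mul (kap_cont (by linarith [hR k])))
    (hs.mul_right (1 / vR 1)) fun k r => ?_
  rw [Real.norm_eq_abs, abs_of_nonneg (mul_nonneg (hb k) (kap_nonneg _ _))]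
  exact mul_le_mul_of_nonneg_left (kap_le_inv (hR k) r) (hb k)

theorem psum_continuous (hR : ∀ k, 4 ≤ R k) (k : ℕ) : Continuous (psum b R k) :=
  continuous_finsetSum _ fun j _ => continuous_const.mul (kap_cont (by linarith [hR j]))

theorem tail_le (hb : ∀ k, 0 ≤ b k) (hR : ∀ k, 4 ≤ R k) (hs : Summable b) (r : ℝ) :
    tail b R r ≤ (∑' k, b k) / vR 1 := by
  have h1 : (∑' k, b k) / vR 1 = ∑' k, b k * (1 / vR 1) := by
    rw [tsum_mul_right]; ring
  rw [h1]
  exact (tail_summable hb hR hs r).tsum_le_tsum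
    (fun k => mul_le_mul_of_nonneg_left (kap_le_inv (hR k) r) (hb k)) (hs.mul_right _)

theorem tail_pos (hb : ∀ k, 0 < b k) (hR : ∀ k, 4 ≤ R k) (hs : Summable b) {r : ℝ}
    (hr : |r| < 4) : 0 < tail b R r := by
  have hb' : ∀ k, 0 ≤ b k := fun k => (hb k).le
  have h1 : 0 < b 0 * kap (R 0) r := mul_pos (hb 0) (kap_pos (by linarith [hR 0]) (by linarith [hR 0]))
  refine h1.trans_le ?_
  exact (tail_summable hb' hR hs r).le_tsum 0 fun j _ => mul_nonneg (hb' j) (kap_nonneg _ _)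

/-- decay of the tail -/
theorem tail_decay_gen (hb : ∀ k, 0 ≤ b k) (hR : ∀ k, 4 ≤ R k) {a : ℝ} (ha : 0 ≤ a)
    (hs : Summable fun k => b k * R k ^ a) {r : ℝ} (hr : 0 < r) :
    tail b R r ≤ (∑' k, b k * R k ^ a) / vR 1 * r ^ (-(3 + a)) := by
  have hv := vR_pos (show (0 : ℝ) < 1 by norm_num)
  have hs' : Summable b := by
    refine Summable.of_nonneg_of_le hb (fun k => ?_) hs
    exact le_mul_of_one_le_right (hb k) (Real.one_le_rpow (by linarith [hR k]) ha)
  have h1 : (∑' k, b k * R k ^ a) / vR 1 * r ^ (-(3 + a))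
      = ∑' k, b k * R k ^ a * (1 / vR 1 * r ^ (-(3 + a))) := by
    rw [tsum_mul_right]; ring
  rw [h1]
  refine (tail_summable hb hR hs' r).tsum_le_tsum (fun k => ?_) (hs.mul_right _)
  have hRk : 0 < R k := by linarith [hR k]
  rcases lt_or_ge (R k) r with hlt | hge
  · rw [kap_eq_zero hRk (lt_of_lt_of_le hlt (le_abs_self r)), mul_zero]
    exact mul_nonneg (mul_nonneg (hb k) (Real.rpow_nonneg hRk.le _))
      (mul_nonneg (by positivity) (Real.rpow_nonneg hr.le _))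
  · rw [mul_assoc]
    refine mul_le_mul_of_nonneg_left ?_ (hb k)
    refine (kap_le hRk r).trans ?_
    rw [vR_eq hRk, one_div, mul_inv, one_div]
    have e1 : (R k ^ 3)⁻¹ = R k ^ a * R k ^ (-(3 + a)) := by
      rw [← Real.rpow_add hRk, show a + -(3 + a) = -(3 : ℕ) by push_cast; ring,
        Real.rpow_neg hRk.le, Real.rpow_natCast]
    rw [e1]
    have e2 : R k ^ (-(3 + a)) ≤ r ^ (-(3 + a)) :=
      Real.rpow_le_rpow_of_nonpos hr hge (by linarith)
    have e3 : 0 ≤ (vR 1)⁻¹ * R k ^ a := mul_nonneg (by positivity) (Real.rpow_nonneg hRk.le _)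
    nlinarith [mul_le_mul_of_nonneg_left e2 e3]

theorem energy_psum (k : ℕ) {n : ℕ} (x : Fin n → Pt) :
    energy (psum b R k) x = ∑ j ∈ Finset.range k, b j * energy (kap (R j)) x := by
  simp only [energy, psum, Finset.mul_sum]
  rw [Finset.sum_comm]

theorem energy_tail (hb : ∀ k, 0 ≤ b k) (hR : ∀ k, 4 ≤ R k) (hs : Summable b) {n : ℕ}
    (x : Fin n → Pt) : HasSum (fun k => b k * energy (kap (R k)) x) (energy (tail b R) x) := by
  have h : ∀ p ∈ (Finset.univ : Finset {p : Fin n × Fin n // p.1 < p.2}),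
      HasSum (fun k => b k * kap (R k) (dist (x p.1.1) (x p.1.2)))
        (tail b R (dist (x p.1.1) (x p.1.2))) := fun p _ => (tail_summable hb hR hs _).hasSum
  have h2 := hasSum_sum h
  have e : (fun k => b k * energy (kap (R k)) x)
      = fun k => ∑ p : {p : Fin n × Fin n // p.1 < p.2},
        b k * kap (R k) (dist (x p.1.1) (x p.1.2)) := by
    funext k; rw [energy, Finset.mul_sum]
  rw [e]
  exact h2

/-- the remainder of the tail after `k` terms -/
theorem energy_tail_sub (hb : ∀ k, 0 ≤ b k) (hR : ∀ k, 4 ≤ R k) (hs : Summable b) (k : ℕ) {n : ℕ}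
    (x : Fin n → Pt) :
    energy (tail b R) x ≤ energy (psum b R k) x + 46 * (∑' j, b (j + k)) * sqOcc (1 / 2) 0 x := by
  have h := energy_tail hb hR hs x
  obtain ⟨f, hf⟩ : ∃ f : ℕ → ℝ, f = fun k => b k * energy (kap (R k)) x := ⟨_, rfl⟩
  rw [← hf] at h
  have h1 := h.summable.sum_add_tsum_nat_add k
  have h2 := h.tsum_eq
  have h0 : energy (psum b R k) x = ∑ j ∈ Finset.range k, f j := by
    rw [energy_psum, hf]
  have h3 : Summable fun j => b (j + k) := (summable_nat_add_iff (f := b) k).2 hs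
  have h4 : Summable fun j => f (j + k) := (summable_nat_add_iff (f := f) k).2 h.summable
  have h6 : ∀ j, f (j + k) ≤ b (j + k) * (46 * sqOcc (1 / 2) 0 x) := by
    intro j; rw [hf]
    exact mul_le_mul_of_nonneg_left (energy_kap_le (hR _) x) (hb _)
  have h5 : ∑' j, f (j + k) ≤ ∑' j, b (j + k) * (46 * sqOcc (1 / 2) 0 x) :=
    h4.tsum_le_tsum h6 (h3.mul_right _)
  rw [tsum_mul_right] at h5
  linarith

theorem energy_tail_le_sqOcc (hb : ∀ k, 0 ≤ b k) (hR : ∀ k, 4 ≤ R k) (hs : Summable b) {n : ℕ}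
    (x : Fin n → Pt) : energy (tail b R) x ≤ 46 * (∑' j, b j) * sqOcc (1 / 2) 0 x := by
  have h := energy_tail_sub hb hR hs 0 x
  have h0 : energy (psum b R 0) x = 0 := by
    rw [energy_psum]; simp
  simpa [h0] using h

end tails

section systems

variable {φr : ℝ → ℝ} {K s0 s1 s2 s3 η : ℝ} {b R : ℕ → ℝ} {J : ℕ} {S : ℝ}

/-- any attraction below the tail gives a system, with uniform constants -/
theorem sys_of_le (h : RefData φr K s0 s1 s2 s3 η) (hJ1 : 1 ≤ J) (hJ : ClusLe J s0 s3)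
    (hb : ∀ k, 0 ≤ b k) (hR : ∀ k, 4 ≤ R k) (hs : Summable b) (hS : ∑' k, b k ≤ S)
    (hK : 368 * J * S ≤ K) {B : ℝ} (hB1 : K / 2 ≤ B) {ψ : ℝ → ℝ} (hm : Measurable ψ)
    (h0 : ∀ r, 0 ≤ ψ r) (hle : ∀ r, ψ r ≤ tail b R r) : Sys φr ψ (1 / 4) B (K / (54 * J)) := by
  have hJ0 : (0 : ℝ) < J := by exact_mod_cast hJ1
  have hS0 : 0 ≤ S := (tsum_nonneg hb).trans hS
  have hK0 := h.K0
  exact
  { mr := h.meas
    mψ := hm
    r0 := h.nonneg
    r2 := fun r hr => h.zero2 r (by linarith [h.η1])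
    rint := h.int
    ψ0 := h0
    B0 := by linarith
    c0 := by positivity
    θ0 := by norm_num
    θ1 := by norm_num
    dom := by
      intro n x
      have e1 := energy_mono hle x
      have e2 := energy_tail_le_sqOcc hb hR hs x
      have e3 := ref_sqOcc h hJ1 hJ x
      have e4 := sqOcc_nonneg (1 / 2) 0 x
      have e5 : 0 ≤ energy φr x := energy_nonneg h.nonneg x
      have hn : (0 : ℝ) ≤ n := Nat.cast_nonneg n
      have e6 : 46 * (∑' j, b j) * sqOcc (1 / 2) 0 x ≤ 46 * S * sqOcc (1 / 2) 0 x :=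
        mul_le_mul_of_nonneg_right (by linarith) e4
      have e7 : 46 * S * sqOcc (1 / 2) 0 x ≤ 46 * S * (2 * J / K * energy φr x + J * n) :=
        mul_le_mul_of_nonneg_left e3 (by positivity)
      have e8 : 46 * S * (2 * J / K * energy φr x) ≤ 1 / 4 * energy φr x := by
        have : 46 * S * (2 * J / K) ≤ 1 / 4 := by
          rw [show 46 * S * (2 * J / K) = 92 * J * S / K by ring, div_le_iff₀ hK0]
          linarith
        nlinarith
      have e9 : 46 * S * (J * n) ≤ B * n := by nlinarith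
      nlinarith
    ss := by
      intro L hL n x hx
      have e1 := sqOcc_ge hL x hx
      have e2 := ref_sqOcc h hJ1 hJ x
      have hL3 : 0 < L ^ 3 := by positivity
      have e3 : (n : ℝ) ^ 2 / (27 * L ^ 3) ≤ 2 * J / K * energy φr x + J * n := e1.trans e2
      have e4 : K / (2 * J) * ((n : ℝ) ^ 2 / (27 * L ^ 3))
          ≤ K / (2 * J) * (2 * J / K * energy φr x + J * n) :=
        mul_le_mul_of_nonneg_left e3 (by positivity)
      have e5 : K / (2 * J) * ((n : ℝ) ^ 2 / (27 * L ^ 3)) = K / (54 * J) * (n : ℝ) ^ 2 / L ^ 3 := by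
        field_simp
        ring
      have e6 : K / (2 * J) * (2 * J / K * energy φr x + J * n) = energy φr x + K / 2 * n := by
        field_simp
      have e7 : K / 2 * (n : ℝ) ≤ B * n := mul_le_mul_of_nonneg_right hB1 (Nat.cast_nonneg n)
      linarith }

theorem sys_tail (h : RefData φr K s0 s1 s2 s3 η) (hJ1 : 1 ≤ J) (hJ : ClusLe J s0 s3)
    (hb : ∀ k, 0 ≤ b k) (hR : ∀ k, 4 ≤ R k) (hs : Summable b) (hS : ∑' k, b k ≤ S)
    (hKS : 368 * J * S ≤ K) {B : ℝ} (hB1 : K / 2 ≤ B) (_hB2 : 46 * S * J ≤ B) :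
    Sys φr (tail b R) (1 / 4) B (K / (54 * J)) :=
  sys_of_le h hJ1 hJ hb hR hs hS hKS hB1 (tail_continuous hb hR hs).measurable (tail_nonneg hb)
    fun _ => le_rfl

theorem sys_psum (h : RefData φr K s0 s1 s2 s3 η) (hJ1 : 1 ≤ J) (hJ : ClusLe J s0 s3)
    (hb : ∀ k, 0 ≤ b k) (hR : ∀ k, 4 ≤ R k) (hs : Summable b) (hS : ∑' k, b k ≤ S)
    (hKS : 368 * J * S ≤ K) {B : ℝ} (hB1 : K / 2 ≤ B) (_hB2 : 46 * S * J ≤ B) (k : ℕ) :
    Sys φr (psum b R k) (1 / 4) B (K / (54 * J)) :=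
  sys_of_le h hJ1 hJ hb hR hs hS hKS hB1 (psum_continuous hR k).measurable (psum_nonneg hb k)
    fun r => psum_le_tail hb hR hs k r

/-- a single kernel -/
theorem sys_one (h : RefData φr K s0 s1 s2 s3 η) (hJ1 : 1 ≤ J) (hJ : ClusLe J s0 s3)
    {b0 R0 : ℝ} (hb0 : 0 ≤ b0) (hbS : b0 ≤ S) (hR0 : 4 ≤ R0) (hKS : 368 * J * S ≤ K) {B : ℝ}
    (hB1 : K / 2 ≤ B) (hB2 : 46 * S * J ≤ B) :
    Sys φr (fun r => b0 * kap R0 r) (1 / 4) B (K / (54 * J)) := by
  have hb : ∀ k : ℕ, 0 ≤ (fun k : ℕ => if k = 0 then b0 else 0) k := by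
    intro k; simp only; split_ifs <;> simp [hb0]
  have hs : HasSum (fun k : ℕ => if k = 0 then b0 else 0) b0 := hasSum_ite_eq 0 b0
  have h1 := sys_psum (R := fun _ => R0) h hJ1 hJ hb (fun _ => hR0) hs.summable
    (hs.tsum_eq.le.trans hbS) hKS hB1 hB2 1
  have e : psum (fun k : ℕ => if k = 0 then b0 else 0) (fun _ => R0) 1
      = fun r => b0 * kap R0 r := by
    funext r; simp [psum]
  rw [e] at h1
  exact h1

theorem sys_zero (h : RefData φr K s0 s1 s2 s3 η) (hJ1 : 1 ≤ J) (hJ : ClusLe J s0 s3)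
    (hS0 : 0 ≤ S) (hKS : 368 * J * S ≤ K) {B : ℝ}
    (hB1 : K / 2 ≤ B) (hB2 : 46 * S * J ≤ B) :
    Sys φr (fun _ => 0) (1 / 4) B (K / (54 * J)) := by
  have h1 := sys_one h hJ1 hJ le_rfl hS0 (le_refl (4 : ℝ)) hKS hB1 hB2
  simpa using h1

/-- comparison of the full tail with the partial sums (for `Pr_comp`) -/
theorem tail_comp (h : RefData φr K s0 s1 s2 s3 η) (hJ1 : 1 ≤ J) (hJ : ClusLe J s0 s3)
    (hb : ∀ k, 0 ≤ b k) (hR : ∀ k, 4 ≤ R k) (hs : Summable b) (hS : ∑' k, b k ≤ S)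
    (hK : 368 * J * S ≤ K) (k n : ℕ) (x : Fin n → Pt) :
    (1 - 123 * J * (∑' j, b (j + k)) / K) * energy (tot φr (psum b R k)) x
        - 108 * J * (∑' j, b (j + k)) * n ≤ energy (tot φr (tail b R)) x := by
  have hJ0 : (0 : ℝ) < J := by exact_mod_cast hJ1
  have hK0 := h.K0
  have hT0 : 0 ≤ ∑' j, b (j + k) := tsum_nonneg fun j => hb _
  set T := ∑' j, b (j + k) with hT
  have hS0 : 0 ≤ S := (tsum_nonneg hb).trans hS
  have hsys := sys_psum h hJ1 hJ hb hR hs hS hK (B := K / 2) le_rfl (by nlinarith) k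
  have d := hsys.dom n x
  have e1 := energy_tail_sub hb hR hs k x
  have e2 := ref_sqOcc h hJ1 hJ x
  have e0 : 0 ≤ energy φr x := energy_nonneg h.nonneg x
  have hn : (0 : ℝ) ≤ n := Nat.cast_nonneg n
  rw [energy_tot, energy_tot]
  rw [← hT] at e1
  -- energy φr ≤ 4/3 (energy (tot) + B n)
  have e3 : energy φr x ≤ 4 / 3 * (energy φr x - energy (psum b R k) x + K / 2 * n) := by
    linarith
  have e4 : 46 * T * sqOcc (1 / 2) 0 x ≤ 46 * T * (2 * J / K * energy φr x + J * n) :=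
    mul_le_mul_of_nonneg_left e2 (by positivity)
  have e5 : 46 * T * (2 * J / K * energy φr x) ≤
      46 * T * (2 * J / K * (4 / 3 * (energy φr x - energy (psum b R k) x + K / 2 * n))) := by
    refine mul_le_mul_of_nonneg_left (mul_le_mul_of_nonneg_left e3 (by positivity)) (by positivity)
  have e6 : 46 * T * (2 * J / K * (4 / 3 * (energy φr x - energy (psum b R k) x + K / 2 * n)))
      = 368 / 3 * J * T / K * (energy φr x - energy (psum b R k) x)
        + 184 / 3 * J * T * n := by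
    field_simp
    ring
  have e7 : 0 ≤ energy φr x - energy (psum b R k) x + K / 2 * n := by linarith
  -- replace the constant 368/3 by 123 : the difference is absorbed by the linear term
  have e8 : 0 ≤ 1 / 3 * J * T / K * (energy φr x - energy (psum b R k) x + K / 2 * n) := by
    positivity
  have e9 : 1 / 3 * J * T / K * (energy φr x - energy (psum b R k) x + K / 2 * n)
      = 1 / 3 * J * T / K * (energy φr x - energy (psum b R k) x) + 1 / 6 * J * T * n := by
    field_simp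
    ring
  have e10 : 123 * J * T / K * (energy φr x - energy (psum b R k) x)
      = 368 / 3 * J * T / K * (energy φr x - energy (psum b R k) x)
        + 1 / 3 * J * T / K * (energy φr x - energy (psum b R k) x) := by ring
  have e11 : 0 ≤ J * T * n := by positivity
  nlinarith

theorem energy_tail_le (hb : ∀ k, 0 ≤ b k) (hR : ∀ k, 4 ≤ R k) (hs : Summable b) (φr : ℝ → ℝ)
    (k : ℕ) {n : ℕ} (x : Fin n → Pt) :
    energy (tot φr (tail b R)) x ≤ energy (tot φr (psum b R k)) x := by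
  rw [energy_tot, energy_tot]
  have := energy_mono (fun r => psum_le_tail hb hR hs k r) x
  linarith

/-- the full tail is close to the partial sums; note the factor `K + 1` in front of `n` -/
theorem energy_tail_ge (h : RefData φr K s0 s1 s2 s3 η) (hJ1 : 1 ≤ J) (hJ : ClusLe J s0 s3)
    (hb : ∀ k, 0 ≤ b k) (hR : ∀ k, 4 ≤ R k) (hs : Summable b) (hS : ∑' k, b k ≤ S)
    (hKS : 368 * J * S ≤ K) {ε : ℝ} (hε : 0 < ε) :
    ∃ k0, ∀ k ≥ k0, ∀ (n : ℕ) (x : Fin n → Pt),
      (1 - ε) * energy (tot φr (psum b R k)) x - ε * (K + 1) * n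
        ≤ energy (tot φr (tail b R)) x := by
  have hJ0 : (0 : ℝ) < J := by exact_mod_cast hJ1
  have hK0 := h.K0
  have hS0 : 0 ≤ S := (tsum_nonneg hb).trans hS
  -- choose the tail small
  have ht : Tendsto (fun k => ∑' j, b (j + k)) atTop (𝓝 0) := tendsto_sum_nat_add b
  have hc : 0 < ε / (108 * J + 123 * J / K) := by positivity
  obtain ⟨k0, hk0⟩ := eventually_atTop.1 (ht.eventually (gt_mem_nhds hc))
  refine ⟨k0, fun k hk n x => ?_⟩
  have hT := hk0 k hk
  have hT0 : 0 ≤ ∑' j, b (j + k) := tsum_nonneg fun j => hb _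
  have h1 := tail_comp h hJ1 hJ hb hR hs hS hKS k n x
  set T := ∑' j, b (j + k) with hTd
  have hn : (0 : ℝ) ≤ n := Nat.cast_nonneg n
  have hsys := sys_psum h hJ1 hJ hb hR hs hS hKS (B := K / 2) le_rfl (by nlinarith) k
  have d := hsys.dom n x
  have e0 : 0 ≤ energy φr x := energy_nonneg h.nonneg x
  rw [lt_div_iff₀ (by positivity)] at hT
  have b1 : 0 ≤ J * T := mul_nonneg hJ0.le hT0
  have b2 : 0 ≤ 123 * J / K * T := by positivity
  have a0 : T * (108 * J + 123 * J / K) = 108 * (J * T) + 123 * J / K * T := by ring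
  rw [a0] at hT
  have a1 : 123 * J * T / K ≤ ε := by
    have : 123 * J * T / K = 123 * J / K * T := by ring
    rw [this]; linarith
  have a3 : 108 * (J * T) ≤ ε := by linarith
  have hE : -(K / 2 * n) ≤ energy (tot φr (psum b R k)) x := by
    rw [energy_tot]; linarith
  set a := 123 * J * T / K with ha
  refine le_trans ?_ h1
  have c1 : -((ε - a) * (K / 2 * n)) ≤ (ε - a) * energy (tot φr (psum b R k)) x := by
    have := mul_le_mul_of_nonneg_left hE (sub_nonneg.2 a1)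
    linarith
  have c2 : 0 ≤ a * (K / 2 * n) := by positivity
  have c3 : 108 * J * T * n ≤ ε * n := by
    have := mul_le_mul_of_nonneg_right a3 hn
    linarith
  have c4 : 0 ≤ ε * (K * n) := by positivity
  nlinarith

/-! ### for the final theorems -/

theorem tail_cont (hb : ∀ k, 0 ≤ b k) (hR : ∀ k, 4 ≤ R k) (hs : Summable b) :
    Continuous (tail b R) := tail_continuous hb hR hs

theorem tail_bdd (hb : ∀ k, 0 ≤ b k) (hR : ∀ k, 4 ≤ R k) (hs : Summable b) :
    ∃ M : ℝ, ∀ r, tail b R r ≤ M :=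
  ⟨(∑' k, b k) / vR 1, fun r => tail_le hb hR hs r⟩

theorem tail_decay (hb : ∀ k, 0 ≤ b k) (hR : ∀ k, 4 ≤ R k) (_hs : Summable b)
    (hs2 : Summable fun k => b k * R k ^ (1 / 32 : ℝ)) :
    ∃ C, 0 ≤ C ∧ ∀ r, 1 ≤ r → tail b R r ≤ C * r ^ (-(3 + 1 / 32 : ℝ)) := by
  refine ⟨(∑' k, b k * R k ^ (1 / 32 : ℝ)) / vR 1, ?_, fun r hr => ?_⟩
  · refine div_nonneg (tsum_nonneg fun k => mul_nonneg (hb k) (Real.rpow_nonneg ?_ _))
      (vR_pos one_pos).le
    linarith [hR k]
  · exact tail_decay_gen hb hR (by norm_num) hs2 (by linarith)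

theorem tail_pos_interval (hb : ∀ k, 0 < b k) (hR : ∀ k, 4 ≤ R k) (hs : Summable b) :
    ∃ a > 0, ∀ r ∈ Icc (2 : ℝ) 3, a ≤ tail b R r := by
  have hc := tail_continuous (fun k => (hb k).le) hR hs
  obtain ⟨r0, hr0, hmin⟩ := isCompact_Icc.exists_isMinOn (nonempty_Icc.2 (by norm_num : (2 : ℝ) ≤ 3))
    hc.continuousOn
  refine ⟨tail b R r0, tail_pos hb hR hs ?_, fun r hr => hmin hr⟩
  rw [abs_of_nonneg (by linarith [hr0.1])]
  linarith [hr0.2]

end systems

end Crest.Agent.Kac
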