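import Crest.Agent.Kac.ThermoA1

/-!
S0209/S0210, module ThermoA: existence and convexity of the free energy.
-/

set_option autoImplicit false
set_option linter.unusedVariables false

open MeasureTheory Crest.ProbabilityR.Continuum Filter Topology Set
open scoped ENNReal

namespace Crest.Agent.Kac

namespace ThA

variable {φr ψ : ℝ → ℝ} {θ B c : ℝ}

/-- superadditivity: two kinds of cells and a slab -/
theorem cells_ineq (h : Sys φr ψ θ B c) {β : ℝ} (hβ : 0 < β) {b L w : ℝ} (hb : 0 < b) (hw : 0 < w)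
    (hL : 0 < L) {m M1 M2 : ℕ} (n1 n2 r : ℕ) (hm : m * (b + 2) + w ≤ L) (hM : M1 + M2 ≤ m ^ 3) :
    partitionFn (tot φr ψ) b n1 β ^ M1 * partitionFn (tot φr ψ) b n2 β ^ M2 *
      Real.exp (-(CJ φr β * (r : ℝ) ^ 2 / (w * L ^ 2)))
      ≤ partitionFn (tot φr ψ) L (M1 * n1 + M2 * n2 + r) β := by
  classical
  set W := rad β (tot φr ψ) with hW
  have hWm := measurable_rad (measurable_tot h) β
  have hWs := rad_symm β (tot φr ψ)
  have hcard : (Finset.univ : Finset (Fin 3 → Fin m)).card = m ^ 3 := by simp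
  obtain ⟨S1, hS1, hc1⟩ := Finset.exists_subset_card_eq (s := (Finset.univ : Finset (Fin 3 → Fin m)))
    (n := M1) (by omega)
  obtain ⟨S2, hS2, hc2⟩ := Finset.exists_subset_card_eq (s := Finset.univ \ S1)
    (n := M2) (by rw [Finset.card_sdiff_of_subset hS1]; omega)
  have hdisj : Disjoint S1 S2 := by
    rw [Finset.disjoint_left]
    intro x hx1 hx2
    exact (Finset.mem_sdiff.1 (hS2 hx2)).2 hx1
  set n : (Fin 3 → Fin m) → ℕ := fun v => if v ∈ S1 then n1 else n2 with hn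
  set A : (Fin 3 → Fin m) → Set Pt := fun v => cell (b + 2) b v with hA
  have hb2 : 0 ≤ b + 2 := by linarith
  have hAm : ∀ v, MeasurableSet (A v) := fun v => measurableSet_cell _ _ v
  have hAd : ∀ v ∈ S1 ∪ S2, ∀ v' ∈ S1 ∪ S2, v ≠ v' → Disjoint (A v) (A v') := by
    intro v _ v' _ hv
    rw [Set.disjoint_left]
    intro x hx hx'
    have := cell_apart hb2 le_rfl hv hx hx'
    rw [dist_self] at this
    linarith
  have h1 := ZW_super_fam hWm hWs (S1 ∪ S2) A hAm hAd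
    (fun v _ v' _ hv x hx y hy => rad_nonpos h hβ (cell_apart hb2 le_rfl hv hx hy)) n
  have hprod : ∏ v ∈ S1 ∪ S2, ZW W (A v) (n v)
      = ZW W (cube b) n1 ^ M1 * ZW W (cube b) n2 ^ M2 := by
    rw [Finset.prod_union hdisj]
    congr 1
    · rw [Finset.prod_congr rfl (fun v hv => (by simp only [hn, if_pos hv]; exact ZW_cell h β _ _ v n1 :
        ZW W (A v) (n v) = ZW W (cube b) n1)), Finset.prod_const, hc1]
    · rw [Finset.prod_congr rfl (fun v hv => (by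
        have hv1 : v ∉ S1 := fun h' => (Finset.disjoint_left.1 hdisj) h' hv
        simp only [hn, if_neg hv1]; exact ZW_cell h β _ _ v n2 :
        ZW W (A v) (n v) = ZW W (cube b) n2)), Finset.prod_const, hc2]
  have hsum : ∑ v ∈ S1 ∪ S2, n v = M1 * n1 + M2 * n2 := by
    rw [Finset.sum_union hdisj]
    congr 1
    · rw [Finset.sum_congr rfl (fun v hv => (by simp only [hn, if_pos hv] : n v = n1)),
        Finset.sum_const, hc1, smul_eq_mul]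
    · rw [Finset.sum_congr rfl (fun v hv => (by
        have hv1 : v ∉ S1 := fun h' => (Finset.disjoint_left.1 hdisj) h' hv
        simp only [hn, if_neg hv1] : n v = n2)), Finset.sum_const, hc2, smul_eq_mul]
  rw [hprod, hsum] at h1
  -- the slab
  set U : Set Pt := ⋃ v ∈ S1 ∪ S2, A v with hU
  have hUm : MeasurableSet U := Finset.measurableSet_biUnion _ fun v _ => hAm v
  set T : Set Pt := slab (m * (b + 2)) w L with hT
  have hTm : MeasurableSet T := measurableSet_slab _ _ _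
  have hUT : ∀ x ∈ U, ∀ y ∈ T, 2 ≤ dist x y := by
    intro x hx y hy
    simp only [hU, Set.mem_iUnion] at hx
    obtain ⟨v, _, hx⟩ := hx
    exact cell_slab_apart hb2 le_rfl hx hy
  have hUTd : Disjoint U T := by
    rw [Set.disjoint_left]
    intro x hx hx'
    have := hUT x hx x hx'
    rw [dist_self] at this
    linarith
  have h2 := ZW_super hWm hWs hUm hTm hUTd (fun x hx y hy => rad_nonpos h hβ (hUT x hx y hy))
    (M1 * n1 + M2 * n2) r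
  have h3 := jensen_any h hβ hTm (V := w * L ^ 2) (by positivity)
    (volume_slab hw.le hL.le) r
  have hsub : U ∪ T ⊆ cube L := by
    refine Set.union_subset ?_ (slab_subset (by positivity) hm)
    refine Set.iUnion₂_subset fun v _ => cell_subset hb2 le_rfl (by linarith) v
  have h4 := ZW_mono_set W hsub (M1 * n1 + M2 * n2 + r)
  rw [← ENNReal.ofReal_le_ofReal_iff (Z_pos h hL hβ _).le, ofReal_Z h hβ]
  refine le_trans ?_ h4
  refine le_trans ?_ h2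
  rw [ENNReal.ofReal_mul (by have := Z_pos h hb hβ n1; have := Z_pos h hb hβ n2; positivity),
    ENNReal.ofReal_mul (by have := Z_pos h hb hβ n1; positivity),
    ENNReal.ofReal_pow (Z_pos h hb hβ n1).le, ENNReal.ofReal_pow (Z_pos h hb hβ n2).le,
    ofReal_Z h hβ, ofReal_Z h hβ]
  exact mul_le_mul' h1 h3

/-- superadditivity: equal cells -/
theorem cells_pow (h : Sys φr ψ θ B c) {β : ℝ} (hβ : 0 < β) {b L : ℝ} (hb : 0 < b)
    (hL : 0 < L) {m : ℕ} (n : ℕ) (hm : m * (b + 2) - 2 ≤ L) :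
    partitionFn (tot φr ψ) b n β ^ (m ^ 3) ≤ partitionFn (tot φr ψ) L (m ^ 3 * n) β := by
  classical
  set W := rad β (tot φr ψ) with hW
  have hWm := measurable_rad (measurable_tot h) β
  have hWs := rad_symm β (tot φr ψ)
  have hcard : (Finset.univ : Finset (Fin 3 → Fin m)).card = m ^ 3 := by simp
  set A : (Fin 3 → Fin m) → Set Pt := fun v => cell (b + 2) b v with hA
  have hb2 : 0 ≤ b + 2 := by linarith
  have hAm : ∀ v, MeasurableSet (A v) := fun v => measurableSet_cell _ _ v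
  have hAd : ∀ v ∈ (Finset.univ : Finset (Fin 3 → Fin m)), ∀ v' ∈ Finset.univ,
      v ≠ v' → Disjoint (A v) (A v') := by
    intro v _ v' _ hv
    rw [Set.disjoint_left]
    intro x hx hx'
    have := cell_apart hb2 le_rfl hv hx hx'
    rw [dist_self] at this
    linarith
  have h1 := ZW_super_fam hWm hWs Finset.univ A hAm hAd
    (fun v _ v' _ hv x hx y hy => rad_nonpos h hβ (cell_apart hb2 le_rfl hv hx hy)) (fun _ => n)
  have hprod : ∏ v : Fin 3 → Fin m, ZW W (A v) n = ZW W (cube b) n ^ (m ^ 3) := by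
    rw [Finset.prod_congr rfl (fun v _ => (ZW_cell h β _ _ v n :
        ZW W (A v) n = ZW W (cube b) n)), Finset.prod_const, hcard]
  have hsum : ∑ v : Fin 3 → Fin m, n = m ^ 3 * n := by
    rw [Finset.sum_const, hcard, smul_eq_mul]
  rw [hprod, hsum] at h1
  have hsub : (⋃ v ∈ (Finset.univ : Finset (Fin 3 → Fin m)), A v) ⊆ cube L :=
    Set.iUnion₂_subset fun v _ => cell_subset hb2 le_rfl hm v
  have h4 := ZW_mono_set W hsub (m ^ 3 * n)
  rw [← ENNReal.ofReal_le_ofReal_iff (Z_pos h hL hβ _).le, ofReal_Z h hβ,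
    ENNReal.ofReal_pow (Z_pos h hb hβ n).le, ofReal_Z h hβ]
  exact h1.trans h4

/-- finite volume free energy per volume -/
noncomputable def fL (φr ψ : ℝ → ℝ) (β ρ L : ℝ) : ℝ :=
  -(1 / L ^ 3) * Real.log (partitionFn (tot φr ψ) L ⌊ρ * L ^ 3⌋₊ β)

theorem log_cells_ineq (h : Sys φr ψ θ B c) {β : ℝ} (hβ : 0 < β) {b L w : ℝ} (hb : 0 < b)
    (hw : 0 < w) (hL : 0 < L) {m M1 M2 : ℕ} (n1 n2 r : ℕ) (hm : m * (b + 2) + w ≤ L)
    (hM : M1 + M2 ≤ m ^ 3) :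
    M1 * Real.log (partitionFn (tot φr ψ) b n1 β) + M2 * Real.log (partitionFn (tot φr ψ) b n2 β)
      - CJ φr β * (r : ℝ) ^ 2 / (w * L ^ 2)
      ≤ Real.log (partitionFn (tot φr ψ) L (M1 * n1 + M2 * n2 + r) β) := by
  have h1 := cells_ineq h hβ hb hw hL n1 n2 r hm hM
  have hp1 := Z_pos h hb hβ n1
  have hp2 := Z_pos h hb hβ n2
  have h2 := Real.log_le_log (by positivity) h1
  rw [Real.log_mul (by positivity) (by positivity), Real.log_mul (by positivity) (by positivity),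
    Real.log_pow, Real.log_pow, Real.log_exp] at h2
  linarith

theorem fL_lower (h : Sys φr ψ θ B c) {β : ℝ} (hβ : 0 < β) {ρ L : ℝ} (hρ : 0 ≤ ρ) (hL : 0 < L) :
    -(1 + β * B * ρ) ≤ fL φr ψ β ρ L := by
  unfold fL
  have h1 := Real.log_le_log (Z_pos h hL hβ _) (Z_upper h hL hβ ⌊ρ * L ^ 3⌋₊)
  rw [Real.log_exp] at h1
  have h2 : ((⌊ρ * L ^ 3⌋₊ : ℕ) : ℝ) ≤ ρ * L ^ 3 := Nat.floor_le (by positivity)
  have h3 : β * B * ((⌊ρ * L ^ 3⌋₊ : ℕ) : ℝ) ≤ β * B * (ρ * L ^ 3) :=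
    mul_le_mul_of_nonneg_left h2 (mul_nonneg hβ.le h.B0)
  have h4 : Real.log (partitionFn (tot φr ψ) L ⌊ρ * L ^ 3⌋₊ β) ≤ (1 + β * B * ρ) * L ^ 3 := by
    linarith
  have h5 : 0 < L ^ 3 := by positivity
  rw [neg_mul, neg_le_neg_iff, one_div, inv_mul_le_iff₀ h5]
  linarith

theorem fL_upper (h : Sys φr ψ θ B c) {β : ℝ} (hβ : 0 < β) {ρ L : ℝ} (hρ : 0 ≤ ρ) (hL : 0 < L) :
    fL φr ψ β ρ L ≤ CJ φr β * ρ ^ 2 := by
  unfold fL
  have h5 : 0 < L ^ 3 := by positivity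
  have h0 := jensen_any h hβ (Λ := cube L) (by
    have : cube L = ⋂ k : Fin 3, {x : Pt | 0 ≤ x k} ∩ {x : Pt | x k ≤ L} := by
      ext x
      simp [cube]
    rw [this]
    exact MeasurableSet.iInter fun k => (measurableSet_le measurable_const
      (measurable_coord k)).inter (measurableSet_le (measurable_coord k) measurable_const))
    h5 (volume_cube hL.le) ⌊ρ * L ^ 3⌋₊
  rw [← ofReal_Z h hβ, ENNReal.ofReal_le_ofReal_iff (Z_pos h hL hβ _).le] at h0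
  have h1 := Real.log_le_log (Real.exp_pos _) h0
  rw [Real.log_exp] at h1
  have h2 : ((⌊ρ * L ^ 3⌋₊ : ℕ) : ℝ) ≤ ρ * L ^ 3 := Nat.floor_le (by positivity)
  have h3 : CJ φr β * ((⌊ρ * L ^ 3⌋₊ : ℕ) : ℝ) ^ 2 / L ^ 3 ≤ CJ φr β * ρ ^ 2 * L ^ 3 := by
    rw [div_le_iff₀ h5]
    calc CJ φr β * ((⌊ρ * L ^ 3⌋₊ : ℕ) : ℝ) ^ 2 ≤ CJ φr β * (ρ * L ^ 3) ^ 2 := by
          have := CJ_nonneg h hβ
          gcongr
      _ = _ := by ring
  rw [neg_mul, neg_le, one_div, le_inv_mul_iff₀ h5]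
  linarith

theorem real_part {b L q s t ρ1 ρ2 F1 F2 f1 f2 C D u1 u2 R : ℝ} (hb : 3 ≤ b)
    (hs : 0 ≤ s) (ht : 0 ≤ t) (hst : s + t = 1) (hF1 : -f1 ≤ F1) (hF2 : -f2 ≤ F2)
    (hF1' : 0 ≤ F1) (hF2' : 0 ≤ F2) (hC : 0 ≤ C)
    (hu1 : u1 ≤ s) (hu1' : s - 13 / b ≤ u1) (hu2 : u2 ≤ t) (hu2' : t - 13 / b ≤ u2)
    (hR0 : 0 ≤ R) (hR : R ≤ D / b) :
    u1 * f1 + u2 * f2 + C * R ^ 2 * b ≤ s * f1 + t * f2 + (13 * (F1 + F2) + C * D ^ 2) / b := by
  have hb0 : 0 < b := by linarith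
  have h1 : (s - u1) * (-f1) ≤ 13 / b * F1 := by
    calc (s - u1) * (-f1) ≤ (s - u1) * F1 := mul_le_mul_of_nonneg_left hF1 (by linarith)
      _ ≤ 13 / b * F1 := mul_le_mul_of_nonneg_right (by linarith) hF1'
  have h2 : (t - u2) * (-f2) ≤ 13 / b * F2 := by
    calc (t - u2) * (-f2) ≤ (t - u2) * F2 := mul_le_mul_of_nonneg_left hF2 (by linarith)
      _ ≤ 13 / b * F2 := mul_le_mul_of_nonneg_right (by linarith) hF2'
  have h3 : C * R ^ 2 * b ≤ C * D ^ 2 / b := by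
    have : R ^ 2 ≤ (D / b) ^ 2 := by gcongr
    calc C * R ^ 2 * b ≤ C * (D / b) ^ 2 * b := by gcongr
      _ = _ := by field_simp
  have h4 : (13 * (F1 + F2) + C * D ^ 2) / b = 13 / b * F1 + 13 / b * F2 + C * D ^ 2 / b := by
    ring
  rw [h4]
  nlinarith

theorem alg1 {m b L : ℝ} (hL : 0 < L) : m ^ 3 * b ^ 3 = (m * b / L) ^ 3 * L ^ 3 := by
  field_simp

theorem alg2 {M1 b L lg : ℝ} (hb : 0 < b) (hL : 0 < L) :
    M1 * lg = -(M1 * b ^ 3 / L ^ 3 * (-(1 / b ^ 3) * lg)) * L ^ 3 := by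
  field_simp

theorem alg3 {C r b L : ℝ} (hb : 0 < b) (hL : 0 < L) :
    C * r ^ 2 / (L / b * L ^ 2) = C * (r / L ^ 3) ^ 2 * b * L ^ 3 := by
  field_simp

theorem aux_bb {b L : ℝ} (hb : 3 ≤ b) (hL : b * (b + 2) ≤ L) : b ^ 3 / L ^ 3 ≤ 1 / b := by
  have hb0 : 0 < b := by linarith
  have hL0 : 0 < L := lt_of_lt_of_le (by positivity) hL
  have hL3 : 0 < L ^ 3 := by positivity
  rw [div_le_div_iff₀ hL3 hb0]
  have e1 : b ^ 2 ≤ L := by nlinarith
  calc b ^ 3 * b = b ^ 4 := by ring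
    _ ≤ b ^ 6 := pow_le_pow_right₀ (by linarith) (by norm_num)
    _ = (b ^ 2) ^ 3 := by ring
    _ ≤ L ^ 3 := by gcongr
    _ = 1 * L ^ 3 := by ring

theorem aux_ML {b L q M : ℝ} (hb : 3 ≤ b) (hL : 0 < L) (hq1 : q ≤ 1) (hq0 : 0 ≤ q)
    (hMq : M * b ^ 3 = q * L ^ 3) : M / L ^ 3 ≤ 1 / b := by
  have hb0 : 0 < b := by linarith
  have hL3 : 0 < L ^ 3 := by positivity
  have e1 : M / L ^ 3 = q / b ^ 3 := by
    rw [div_eq_div_iff hL3.ne' (by positivity), hMq]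
  rw [e1, div_le_div_iff₀ (by positivity) hb0]
  have e3 : b ≤ b ^ 3 := le_self_pow₀ (by linarith) (by norm_num)
  nlinarith

theorem aux_x {m b L : ℝ} (hb : 3 ≤ b) (hL : b * (b + 2) ≤ L)
    (hm2 : L - L / b < (m + 1) * (b + 2)) : 1 - 4 / b ≤ m * b / L := by
  have hb0 : 0 < b := by linarith
  have hL0 : 0 < L := lt_of_lt_of_le (by positivity) hL
  have e1 : L / b * b = L := by field_simp
  have e2 : L * b - L < (m + 1) * (b + 2) * b := by
    have := mul_lt_mul_of_pos_right hm2 hb0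
    nlinarith
  rw [le_div_iff₀ hL0]
  have e3 : (1 - 4 / b) * L = L - 4 * L / b := by ring
  rw [e3, sub_le_iff_le_add', ← sub_le_iff_le_add, le_div_iff₀ hb0]
  -- (L - m b) b ≤ 4 L
  nlinarith

theorem aux_q {b x : ℝ} (hb : 3 ≤ b) (hx0 : 0 ≤ x) (hx2 : 1 - 4 / b ≤ x) :
    1 - x ^ 3 ≤ 12 / b := by
  have hb0 : 0 < b := by linarith
  have e4 : (12 : ℝ) / b = 3 * (4 / b) := by ring
  have e1 : (-2 : ℝ) ≤ -(4 / b) := by
    rw [neg_le_neg_iff, div_le_iff₀ hb0]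
    linarith
  have e2 := one_add_mul_le_pow e1 3
  rw [e4]
  by_cases h4 : 0 ≤ 1 - 4 / b
  · have e3 : (1 + -(4 / b)) ^ 3 ≤ x ^ 3 := by
      gcongr
      linarith
    push_cast at e2
    linarith
  · have : 0 ≤ x ^ 3 := by positivity
    linarith

theorem aux_r {s t M M1 M2 n1 n2 ρ1 ρ2 ρ b3 L3 q r N : ℝ} (hst : s + t = 1)
    (hρ : ρ = s * ρ1 + t * ρ2) (h1 : 0 ≤ ρ1) (h2 : 0 ≤ ρ2) (hb3 : 0 ≤ b3)
    (hM10 : 0 ≤ M1) (hM20 : 0 ≤ M2)
    (hM1a : M1 ≤ s * M) (hM1b : s * M < M1 + 1) (hM2a : M2 ≤ t * M) (hM2b : t * M < M2 + 1)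
    (hn1b : ρ1 * b3 < n1 + 1) (hn2b : ρ2 * b3 < n2 + 1) (hMq : M * b3 = q * L3)
    (hNa : N ≤ ρ * L3) (hrN : r = N - (M1 * n1 + M2 * n2)) :
    r ≤ ρ * (1 - q) * L3 + (ρ1 + ρ2) * b3 + M := by
  have e1 : M1 * (ρ1 * b3) - M1 ≤ M1 * n1 := by
    have : M1 * (ρ1 * b3 - 1) ≤ M1 * n1 := by gcongr; linarith
    linarith
  have e2 : M2 * (ρ2 * b3) - M2 ≤ M2 * n2 := by
    have : M2 * (ρ2 * b3 - 1) ≤ M2 * n2 := by gcongr; linarith
    linarith
  have e3 : (s * M - 1) * (ρ1 * b3) ≤ M1 * (ρ1 * b3) := by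
    gcongr; linarith
  have e4 : (t * M - 1) * (ρ2 * b3) ≤ M2 * (ρ2 * b3) := by
    gcongr; linarith
  have e5 : (s * M) * (ρ1 * b3) + (t * M) * (ρ2 * b3) = ρ * (q * L3) := by
    rw [← hMq, hρ]
    ring
  have e6 : M1 + M2 ≤ M := by
    have : s * M + t * M = M := by rw [← add_mul, hst, one_mul]
    linarith
  have e7 : (s * M - 1) * (ρ1 * b3) + (t * M - 1) * (ρ2 * b3) = ρ * (q * L3)
      - (ρ1 + ρ2) * b3 := by
    rw [← e5]
    ring
  have e8 : ρ * (1 - q) * L3 = ρ * L3 - ρ * (q * L3) := by ring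
  rw [hrN, e8]
  linarith

theorem key (h : Sys φr ψ θ B c) {β : ℝ} (hβ : 0 < β) {ρ1 ρ2 s t : ℝ} (h1 : 0 ≤ ρ1) (h2 : 0 ≤ ρ2)
    (hs : 0 ≤ s) (ht : 0 ≤ t) (hst : s + t = 1) : ∃ K : ℝ, 0 ≤ K ∧ ∀ b : ℝ, 3 ≤ b → ∀ L : ℝ,
      b * (b + 2) ≤ L → fL φr ψ β (s * ρ1 + t * ρ2) L
        ≤ s * fL φr ψ β ρ1 b + t * fL φr ψ β ρ2 b + K / b := by
  have hBβ : 0 ≤ β * B := mul_nonneg hβ.le h.B0
  have hC := CJ_nonneg h hβ
  refine ⟨13 * ((1 + β * B * ρ1) + (1 + β * B * ρ2)) + CJ φr β * (13 * (ρ1 + ρ2) + 1) ^ 2,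
    by positivity, fun b hb L hL => ?_⟩
  have hb0 : 0 < b := by linarith
  have hL0 : 0 < L := lt_of_lt_of_le (by positivity) hL
  have hbL : b ≤ L := by nlinarith
  set ρ := s * ρ1 + t * ρ2 with hρ
  have hρ0 : 0 ≤ ρ := by positivity
  have hρle : ρ ≤ ρ1 + ρ2 := by nlinarith
  set w := L / b with hw
  have hw0 : 0 < w := by positivity
  have hwL : w ≤ L := div_le_self hL0.le (by linarith)
  set m := ⌊(L - w) / (b + 2)⌋₊ with hm
  have hm1 : (m : ℝ) * (b + 2) ≤ L - w := by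
    have := Nat.floor_le (show 0 ≤ (L - w) / (b + 2) by
      apply div_nonneg <;> linarith)
    rwa [le_div_iff₀ (by linarith)] at this
  have hm2 : L - w < ((m : ℝ) + 1) * (b + 2) := by
    have := Nat.lt_floor_add_one ((L - w) / (b + 2))
    rwa [div_lt_iff₀ (by linarith)] at this
  set M : ℝ := (m : ℝ) ^ 3 with hMdef
  have hM0 : 0 ≤ M := by positivity
  set M1 := ⌊s * M⌋₊ with hM1
  set M2 := ⌊t * M⌋₊ with hM2
  set n1 := ⌊ρ1 * b ^ 3⌋₊ with hn1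
  set n2 := ⌊ρ2 * b ^ 3⌋₊ with hn2
  set N := ⌊ρ * L ^ 3⌋₊ with hN
  have hM1a : (M1 : ℝ) ≤ s * M := Nat.floor_le (by positivity)
  have hM1b : s * M < M1 + 1 := Nat.lt_floor_add_one _
  have hM2a : (M2 : ℝ) ≤ t * M := Nat.floor_le (by positivity)
  have hM2b : t * M < M2 + 1 := Nat.lt_floor_add_one _
  have hn1a : (n1 : ℝ) ≤ ρ1 * b ^ 3 := Nat.floor_le (by positivity)
  have hn1b : ρ1 * b ^ 3 < n1 + 1 := Nat.lt_floor_add_one _
  have hn2a : (n2 : ℝ) ≤ ρ2 * b ^ 3 := Nat.floor_le (by positivity)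
  have hn2b : ρ2 * b ^ 3 < n2 + 1 := Nat.lt_floor_add_one _
  have hNa : (N : ℝ) ≤ ρ * L ^ 3 := Nat.floor_le (by positivity)
  have hfl1 : fL φr ψ β ρ1 b = -(1 / b ^ 3) * Real.log (partitionFn (tot φr ψ) b n1 β) := rfl
  have hfl2 : fL φr ψ β ρ2 b = -(1 / b ^ 3) * Real.log (partitionFn (tot φr ψ) b n2 β) := rfl
  have hflN : fL φr ψ β ρ L = -(1 / L ^ 3) * Real.log (partitionFn (tot φr ψ) L N β) := rfl
  have hNfl : ∀ k : ℕ, (k : ℝ) ≤ ρ * L ^ 3 → k ≤ N := fun k hk => Nat.le_floor hk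
  clear_value N n1 n2 M1 M2
  clear_value m
  -- the ratio
  set x : ℝ := m * b / L with hx
  have hx1 : x ≤ 1 := by
    rw [hx, div_le_one hL0]
    have : (m : ℝ) * b ≤ m * (b + 2) := by gcongr; linarith
    linarith
  have hx0 : 0 ≤ x := by positivity
  have hx2 : 1 - 4 / b ≤ x := aux_x hb hL hm2
  set q : ℝ := x ^ 3 with hq
  have hq1 : q ≤ 1 := pow_le_one₀ hx0 hx1
  have hq0 : 0 ≤ q := by positivity
  have hq2 : 1 - q ≤ 12 / b := aux_q hb hx0 hx2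
  have hMq : M * b ^ 3 = q * L ^ 3 := alg1 hL0
  have hL3 : 0 < L ^ 3 := by positivity
  have hbb : b ^ 3 / L ^ 3 ≤ 1 / b := aux_bb hb hL
  have hML : M / L ^ 3 ≤ 1 / b := aux_ML hb hL0 hq1 hq0 hMq
  clear_value q
  -- base ≤ N
  have hbase : (M1 : ℝ) * n1 + M2 * n2 ≤ ρ * L ^ 3 := by
    have e1 : (M1 : ℝ) * n1 ≤ (s * M) * (ρ1 * b ^ 3) := by gcongr
    have e2 : (M2 : ℝ) * n2 ≤ (t * M) * (ρ2 * b ^ 3) := by gcongr
    have e3 : (s * M) * (ρ1 * b ^ 3) + (t * M) * (ρ2 * b ^ 3) = ρ * (q * L ^ 3) := by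
      rw [← hMq, hρ]
      ring
    have e4 : ρ * (q * L ^ 3) ≤ ρ * (1 * L ^ 3) := by gcongr
    linarith
  have hbaseN : M1 * n1 + M2 * n2 ≤ N := by
    apply hNfl
    push_cast
    exact hbase
  obtain ⟨r, hr⟩ := Nat.exists_eq_add_of_le hbaseN
  have hMM : M1 + M2 ≤ m ^ 3 := by
    have e1 : ((M1 + M2 : ℕ) : ℝ) ≤ ((m ^ 3 : ℕ) : ℝ) := by
      push_cast
      have : s * M + t * M = M := by rw [← add_mul, hst, one_mul]
      linarith
    exact_mod_cast e1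
  have hmw : (m : ℝ) * (b + 2) + w ≤ L := by linarith
  have hineq := log_cells_ineq h hβ hb0 hw0 hL0 n1 n2 r hmw hMM
  rw [← hr] at hineq
  -- the remainder
  have hrN : (r : ℝ) = N - (M1 * n1 + M2 * n2) := by
    have : (N : ℝ) = M1 * n1 + M2 * n2 + r := by exact_mod_cast hr
    linarith
  have hrle : (r : ℝ) ≤ ρ * (1 - q) * L ^ 3 + (ρ1 + ρ2) * b ^ 3 + M :=
    aux_r hst hρ h1 h2 (by positivity) (by positivity) (by positivity) hM1a hM1b hM2a hM2b hn1b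
      hn2b hMq hNa hrN
  set R : ℝ := r / L ^ 3 with hR
  have hR0 : 0 ≤ R := by positivity
  have hRle : R ≤ (13 * (ρ1 + ρ2) + 1) / b := by
    have e1 : R ≤ ρ * (1 - q) + (ρ1 + ρ2) * (b ^ 3 / L ^ 3) + M / L ^ 3 := by
      rw [hR, div_le_iff₀ hL3]
      have : (ρ * (1 - q) + (ρ1 + ρ2) * (b ^ 3 / L ^ 3) + M / L ^ 3) * L ^ 3
          = ρ * (1 - q) * L ^ 3 + (ρ1 + ρ2) * b ^ 3 + M := by
        rw [add_mul, add_mul, mul_assoc (ρ1 + ρ2), div_mul_cancel₀ _ hL3.ne',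
          div_mul_cancel₀ _ hL3.ne']
      rw [this]
      exact hrle
    have e2 : ρ * (1 - q) ≤ (ρ1 + ρ2) * (12 / b) :=
      mul_le_mul hρle hq2 (by linarith) (by linarith)
    have e3 : (ρ1 + ρ2) * (b ^ 3 / L ^ 3) ≤ (ρ1 + ρ2) * (1 / b) := by gcongr
    have e4 : (13 * (ρ1 + ρ2) + 1) / b = (ρ1 + ρ2) * (12 / b) + (ρ1 + ρ2) * (1 / b) + 1 / b := by
      ring
    rw [e4]
    linarith
  -- conclusion
  set u1 : ℝ := M1 * b ^ 3 / L ^ 3 with hu1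
  set u2 : ℝ := M2 * b ^ 3 / L ^ 3 with hu2
  have hu1a : u1 ≤ s := by
    rw [hu1, div_le_iff₀ hL3]
    calc (M1 : ℝ) * b ^ 3 ≤ (s * M) * b ^ 3 := by gcongr
      _ = s * (q * L ^ 3) := by rw [← hMq]; ring
      _ ≤ s * (1 * L ^ 3) := by gcongr
      _ = _ := by ring
  have hu2a : u2 ≤ t := by
    rw [hu2, div_le_iff₀ hL3]
    calc (M2 : ℝ) * b ^ 3 ≤ (t * M) * b ^ 3 := by gcongr
      _ = t * (q * L ^ 3) := by rw [← hMq]; ring
      _ ≤ t * (1 * L ^ 3) := by gcongr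
      _ = _ := by ring
  have hub : ∀ (σ : ℝ) (Mi : ℕ), 0 ≤ σ → σ ≤ 1 → σ * M < Mi + 1 →
      σ - 13 / b ≤ Mi * b ^ 3 / L ^ 3 := by
    intro σ Mi hσ hσ1 hMi
    have e1 : (σ * M - 1) * b ^ 3 / L ^ 3 ≤ Mi * b ^ 3 / L ^ 3 := by
      gcongr
      linarith
    have e2 : (σ * M - 1) * b ^ 3 / L ^ 3 = σ * q - b ^ 3 / L ^ 3 := by
      rw [sub_mul, mul_assoc, hMq, sub_div, ← mul_assoc, mul_div_cancel_right₀ _ hL3.ne', one_mul]
    have e3 : σ * (1 - q) ≤ 12 / b :=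
      (mul_le_of_le_one_left (sub_nonneg.2 hq1) hσ1).trans hq2
    have e4 : (13 : ℝ) / b = 12 / b + 1 / b := by ring
    rw [e4]
    linarith
  have hu1b := hub s M1 hs (by linarith) hM1b
  have hu2b := hub t M2 ht (by linarith) hM2b
  have hfin := real_part (b := b) (L := L) (q := q) (ρ1 := ρ1) (ρ2 := ρ2) hb hs ht hst
    (neg_le.1 (fL_lower h hβ h1 hb0)) (neg_le.1 (fL_lower h hβ h2 hb0))
    (by positivity) (by positivity) hC hu1a hu1b hu2a hu2b hR0 hRle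
  refine le_trans ?_ hfin
  have hf1 : M1 * Real.log (partitionFn (tot φr ψ) b n1 β) = -(u1 * fL φr ψ β ρ1 b) * L ^ 3 := by
    rw [hfl1]
    exact alg2 hb0 hL0
  have hf2 : M2 * Real.log (partitionFn (tot φr ψ) b n2 β) = -(u2 * fL φr ψ β ρ2 b) * L ^ 3 := by
    rw [hfl2]
    exact alg2 hb0 hL0
  have hf3 : CJ φr β * (r : ℝ) ^ 2 / (w * L ^ 2) = CJ φr β * R ^ 2 * b * L ^ 3 := alg3 hb0 hL0
  rw [hf1, hf2, hf3] at hineq
  rw [hflN, neg_mul, neg_le, one_div, le_inv_mul_iff₀ hL3]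
  linarith

theorem exists_limit (h : Sys φr ψ θ B c) {β ρ : ℝ} (hβ : 0 < β) (hρ : 0 ≤ ρ) :
    ∃ l : ℝ, Tendsto (fL φr ψ β ρ) atTop (𝓝 l) := by
  obtain ⟨K, hK, hkey⟩ := key h hβ hρ hρ (s := 1) (t := 0) zero_le_one le_rfl (by norm_num)
  simp only [one_mul, zero_mul, add_zero] at hkey
  have hbb : IsBoundedUnder (· ≥ ·) atTop (fL φr ψ β ρ) :=
    isBoundedUnder_of_eventually_ge ((eventually_gt_atTop 0).mono fun L hL => fL_lower h hβ hρ hL)
  have hba : IsBoundedUnder (· ≤ ·) atTop (fL φr ψ β ρ) :=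
    isBoundedUnder_of_eventually_le ((eventually_gt_atTop 0).mono fun L hL => fL_upper h hβ hρ hL)
  refine ⟨limsup (fL φr ψ β ρ) atTop, tendsto_of_le_liminf_of_limsup_le ?_ le_rfl hba hbb⟩
  refine le_of_forall_pos_le_add fun ε hε => ?_
  rw [← sub_le_iff_le_add]
  refine le_liminf_of_le (hba.isCoboundedUnder_ge) ?_
  filter_upwards [eventually_ge_atTop (3 : ℝ), eventually_ge_atTop (K / ε)] with b hb hb'
  have hb0 : 0 < b := by linarith
  have h1 : limsup (fL φr ψ β ρ) atTop ≤ fL φr ψ β ρ b + K / b :=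
    limsup_le_of_le (hbb.isCoboundedUnder_le)
      ((eventually_ge_atTop (b * (b + 2))).mono fun L hL => hkey b hb L hL)
  have h2 : K / b ≤ ε := by
    rw [div_le_iff₀ hb0]
    rw [div_le_iff₀ hε] at hb'
    linarith
  linarith

end ThA

variable {φr ψ : ℝ → ℝ} {θ B c : ℝ}

theorem thermo_limit (h : Sys φr ψ θ B c) {β ρ : ℝ} (hβ : 0 < β) (hρ : 0 ≤ ρ) :
    Tendsto (fun L : ℝ => -(1 / L ^ 3) * Real.log (partitionFn (tot φr ψ) L ⌊ρ * L ^ 3⌋₊ β))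
      atTop (𝓝 (Fe (tot φr ψ) β ρ)) := by
  have h1 : ∃ l : ℝ, Filter.Tendsto
      (fun L : ℝ => -(1 / L ^ 3) * Real.log (partitionFn (tot φr ψ) L ⌊ρ * L ^ 3⌋₊ β))
      Filter.atTop (nhds l) := ThA.exists_limit h hβ hρ
  unfold Fe
  rw [dif_pos h1]
  exact h1.choose_spec

theorem Fe_convex (h : Sys φr ψ θ B c) {β : ℝ} (hβ : 0 < β) :
    ConvexOn ℝ (Ici 0) (Fe (tot φr ψ) β) := by
  refine ⟨convex_Ici 0, fun ρ1 h1 ρ2 h2 s t hs ht hst => ?_⟩
  simp only [Set.mem_Ici] at h1 h2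
  simp only [smul_eq_mul]
  obtain ⟨K, hK, hkey⟩ := ThA.key h hβ h1 h2 hs ht hst
  have hρ : 0 ≤ s * ρ1 + t * ρ2 := by positivity
  have hlim := thermo_limit h hβ hρ
  have h3 : ∀ b : ℝ, 3 ≤ b → Fe (tot φr ψ) β (s * ρ1 + t * ρ2)
      ≤ s * ThA.fL φr ψ β ρ1 b + t * ThA.fL φr ψ β ρ2 b + K / b := by
    intro b hb
    exact le_of_tendsto hlim ((eventually_ge_atTop (b * (b + 2))).mono fun L hL => hkey b hb L hL)
  have h4 : Tendsto (fun b : ℝ => s * ThA.fL φr ψ β ρ1 b + t * ThA.fL φr ψ β ρ2 b + K / b) atTop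
      (𝓝 (s * Fe (tot φr ψ) β ρ1 + t * Fe (tot φr ψ) β ρ2 + 0)) :=
    (((thermo_limit h hβ h1).const_mul s).add ((thermo_limit h hβ h2).const_mul t)).add
      (tendsto_const_nhds.div_atTop tendsto_id)
  rw [add_zero] at h4
  exact ge_of_tendsto h4 ((eventually_ge_atTop 3).mono h3)

theorem Fe_cell (h : Sys φr ψ θ B c) {β : ℝ} (hβ : 0 < β) {a : ℝ} (ha : 2 < a) (n : ℕ) :
    Fe (tot φr ψ) β (n / a ^ 3) ≤ -(1 / a ^ 3) * Real.log (partitionFn (tot φr ψ) (a - 2) n β) := by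
  have ha0 : 0 < a := by linarith
  have hb : 0 < a - 2 := by linarith
  have ha3 : 0 < a ^ 3 := by positivity
  have hlim := thermo_limit h hβ (ρ := n / a ^ 3) (by positivity)
  have hseq : Tendsto (fun m : ℕ => ((m : ℝ) + 1) * a) atTop atTop :=
    (tendsto_atTop_add_const_right _ _ tendsto_natCast_atTop_atTop).atTop_mul_const ha0
  refine le_of_tendsto (hlim.comp hseq) (Eventually.of_forall fun m => ?_)
  simp only [Function.comp]
  have hL : 0 < ((m : ℝ) + 1) * a := by positivity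
  have hfl : ⌊(n : ℝ) / a ^ 3 * (((m : ℝ) + 1) * a) ^ 3⌋₊ = (m + 1) ^ 3 * n := by
    have : (n : ℝ) / a ^ 3 * (((m : ℝ) + 1) * a) ^ 3 = (((m + 1) ^ 3 * n : ℕ) : ℝ) := by
      push_cast
      field_simp
    rw [this, Nat.floor_natCast]
  rw [hfl]
  have h1 := ThA.cells_pow h hβ hb hL (m := m + 1) n (by push_cast; linarith)
  have hpos := ThA.Z_pos h hb hβ n
  have h2 := Real.log_le_log (by positivity) h1
  rw [Real.log_pow] at h2
  push_cast at h2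
  have h3 : 0 < (((m : ℝ) + 1) * a) ^ 3 := by positivity
  have h4 : (1 / a ^ 3) * Real.log (partitionFn (tot φr ψ) (a - 2) n β)
      = 1 / (((m : ℝ) + 1) * a) ^ 3 *
        (((m : ℝ) + 1) ^ 3 * Real.log (partitionFn (tot φr ψ) (a - 2) n β)) := by
    field_simp
  rw [neg_mul, neg_mul, neg_le_neg_iff, h4]
  gcongr

end Crest.Agent.Kac
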