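import Crest.Agent.Kac.ConfigA

/-!
S0209/S0210, module ThermoA, part 1: stability, Jensen bound, geometry of the cells.
-/

set_option autoImplicit false
set_option linter.unusedVariables false

open MeasureTheory Crest.ProbabilityR.Continuum Filter Topology Set
open scoped ENNReal

namespace Crest.Agent.Kac

namespace ThA

variable {φr ψ : ℝ → ℝ} {θ B c : ℝ}

theorem energy_tot (φr ψ : ℝ → ℝ) {n : ℕ} (x : Fin n → Pt) :
    energy (tot φr ψ) x = energy φr x - energy ψ x := by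
  unfold energy tot
  rw [Finset.sum_sub_distrib]

theorem energy_nonneg {φ : ℝ → ℝ} (h : ∀ r, 0 ≤ φ r) {n : ℕ} (x : Fin n → Pt) :
    0 ≤ energy φ x := Finset.sum_nonneg fun _ _ => h _

theorem stable (h : Sys φr ψ θ B c) (n : ℕ) (x : Fin n → Pt) :
    -B * n ≤ energy (tot φr ψ) x := by
  rw [energy_tot]
  have h1 := h.dom n x
  have h2 := energy_nonneg h.r0 x
  have h3 := h.θ1
  nlinarith [h.θ0]

theorem measurable_tot (h : Sys φr ψ θ B c) : Measurable (tot φr ψ) := h.mr.sub h.mψ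

theorem measurable_rad {φ : ℝ → ℝ} (hφ : Measurable φ) (β : ℝ) :
    Measurable (Function.uncurry (rad β φ)) := by
  unfold rad Function.uncurry
  exact (hφ.comp (measurable_fst.dist measurable_snd)).const_mul β

theorem rad_symm (β : ℝ) (φ : ℝ → ℝ) (x y : Pt) : rad β φ x y = rad β φ y x := by
  unfold rad
  rw [dist_comm]

theorem rad_trans (β : ℝ) (φ : ℝ → ℝ) (v x y : Pt) : rad β φ (x + v) (y + v) = rad β φ x y := by
  unfold rad
  rw [dist_add_right]

theorem pairE_rad (β : ℝ) (φ : ℝ → ℝ) {n : ℕ} (x : Fin n → Pt) :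
    pairE (rad β φ) x = β * energy φ x := by
  unfold pairE rad energy
  rw [Finset.mul_sum]

theorem rad_nonpos (h : Sys φr ψ θ B c) {β : ℝ} (hβ : 0 < β) {x y : Pt} (hxy : 2 ≤ dist x y) :
    rad β (tot φr ψ) x y ≤ 0 := by
  unfold rad tot
  rw [h.r2 _ hxy]
  have := h.ψ0 (dist x y)
  nlinarith

/-! ### Jensen bound -/

theorem lintegral_rad (h : Sys φr ψ θ B c) {β : ℝ} (hβ : 0 < β) (x : Pt) :
    ∫⁻ y, ENNReal.ofReal (rad β φr x y) = ENNReal.ofReal (β * ∫ y : Pt, φr ‖y‖) := by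
  have h1 : ∀ y : Pt, ENNReal.ofReal (rad β φr x y)
      = (fun z : Pt => ENNReal.ofReal (β * φr ‖z‖)) (y - x) := by
    intro y
    simp only [rad]
    rw [dist_comm, dist_eq_norm]
  simp_rw [h1]
  rw [lintegral_sub_right_eq_self (fun z : Pt => ENNReal.ofReal (β * φr ‖z‖)) x,
    ← integral_const_mul, ofReal_integral_eq_lintegral_ofReal (h.rint.const_mul β)]
  exact Eventually.of_forall fun z => mul_nonneg hβ.le (h.r0 _)

theorem pow_div_factorial_ge {V : ℝ} (hV : 0 < V) (n : ℕ) :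
    Real.exp (-((n : ℝ) ^ 2 / V)) ≤ V ^ n / n.factorial := by
  have h1 : (n : ℝ) ≤ V * Real.exp (n / V) := by
    have h2 : (n : ℝ) / V ≤ Real.exp (n / V) := by
      linarith [Real.add_one_le_exp ((n : ℝ) / V)]
    calc (n : ℝ) = V * (n / V) := by field_simp
      _ ≤ _ := by gcongr
  have h3 : ((n : ℝ)) ^ n ≤ V ^ n * Real.exp ((n : ℝ) ^ 2 / V) := by
    calc ((n : ℝ)) ^ n ≤ (V * Real.exp (n / V)) ^ n := by gcongr
      _ = V ^ n * Real.exp ((n : ℝ) ^ 2 / V) := by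
          rw [mul_pow, ← Real.exp_nat_mul]
          congr 2
          ring
  have h4 : (n.factorial : ℝ) ≤ (n : ℝ) ^ n := by exact_mod_cast Nat.factorial_le_pow n
  have h5 : (0 : ℝ) < n.factorial := by exact_mod_cast n.factorial_pos
  rw [Real.exp_neg, le_div_iff₀ h5, inv_mul_le_iff₀ (Real.exp_pos _)]
  calc (n.factorial : ℝ) ≤ (n : ℝ) ^ n := h4
    _ ≤ V ^ n * Real.exp ((n : ℝ) ^ 2 / V) := h3
    _ = _ := by ring

/-- the constant of the Jensen bound -/
noncomputable def CJ (φr : ℝ → ℝ) (β : ℝ) : ℝ := 1 + (β * ∫ y : Pt, φr ‖y‖) / 2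

theorem CJ_nonneg (h : Sys φr ψ θ B c) {β : ℝ} (hβ : 0 < β) : 0 ≤ CJ φr β := by
  have h1 : 0 ≤ ∫ y : Pt, φr ‖y‖ := integral_nonneg fun y => h.r0 _
  unfold CJ
  have := mul_nonneg hβ.le h1
  linarith

theorem jensen_any (h : Sys φr ψ θ B c) {β : ℝ} (hβ : 0 < β) {Λ : Set Pt} (hΛ : MeasurableSet Λ)
    {V : ℝ} (hV : 0 < V) (hvol : volume Λ = ENNReal.ofReal V) (n : ℕ) :
    ENNReal.ofReal (Real.exp (-(CJ φr β * (n : ℝ) ^ 2 / V))) ≤ ZW (rad β (tot φr ψ)) Λ n := by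
  have hI0 : 0 ≤ β * ∫ y : Pt, φr ‖y‖ := mul_nonneg hβ.le (integral_nonneg fun y => h.r0 _)
  have h1 := ZW_jensen (measurable_rad h.mr β)
    (fun x y => mul_nonneg hβ.le (h.r0 _)) hΛ hV hvol hI0
    (fun x _ => (setLIntegral_le_lintegral _ _).trans (lintegral_rad h hβ x).le) n
  have h2 : ZW (rad β φr) Λ n ≤ ZW (rad β (tot φr ψ)) Λ n := by
    refine ZW_anti hΛ (fun x _ y _ => ?_) n
    unfold rad tot
    have := h.ψ0 (dist x y)
    nlinarith
  refine le_trans (ENNReal.ofReal_le_ofReal ?_) (h1.trans h2)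
  have h3 := pow_div_factorial_ge hV n
  calc Real.exp (-(CJ φr β * (n : ℝ) ^ 2 / V))
      = Real.exp (-((n : ℝ) ^ 2 / V)) *
          Real.exp (-((n : ℝ) ^ 2 * (β * ∫ y : Pt, φr ‖y‖) / (2 * V))) := by
        rw [← Real.exp_add]
        congr 1
        unfold CJ
        field_simp
        ring
    _ ≤ _ := by gcongr

/-! ### upper bound -/

theorem ofReal_Z (h : Sys φr ψ θ B c) {β L : ℝ} (hβ : 0 < β) (n : ℕ) :
    ENNReal.ofReal (partitionFn (tot φr ψ) L n β) = ZW (rad β (tot φr ψ)) (cube L) n :=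
  ofReal_partitionFn (measurable_tot h) (stable h) hβ n

theorem Z_pos (h : Sys φr ψ θ B c) {β L : ℝ} (hL : 0 < L) (hβ : 0 < β) (n : ℕ) :
    0 < partitionFn (tot φr ψ) L n β :=
  partitionFn_pos (measurable_tot h) (stable h) hL hβ n

theorem Z_zero (h : Sys φr ψ θ B c) {β L : ℝ} (hL : 0 < L) (hβ : 0 < β) :
    partitionFn (tot φr ψ) L 0 β = 1 := by
  have h1 := ofReal_Z h (L := L) hβ 0
  rw [ZW_zero] at h1
  exact ENNReal.ofReal_eq_one.1 h1

theorem Z_upper (h : Sys φr ψ θ B c) {β L : ℝ} (hL : 0 < L) (hβ : 0 < β) (n : ℕ) :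
    partitionFn (tot φr ψ) L n β ≤ Real.exp (L ^ 3 + β * B * n) := by
  rw [← ENNReal.ofReal_le_ofReal_iff (Real.exp_pos _).le, ofReal_Z h hβ]
  unfold ZW
  have h1 : ∫⁻ x in Set.pi Set.univ (fun _ : Fin n => cube L),
      ENNReal.ofReal (Real.exp (-pairE (rad β (tot φr ψ)) x))
      ≤ ENNReal.ofReal (Real.exp (β * B * n)) * ENNReal.ofReal ((L ^ 3) ^ n) := by
    calc _ ≤ ∫⁻ x in Set.pi Set.univ (fun _ : Fin n => cube L),
          ENNReal.ofReal (Real.exp (β * B * n)) := by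
          refine lintegral_mono fun x => ENNReal.ofReal_le_ofReal (Real.exp_le_exp.2 ?_)
          rw [pairE_rad]
          have := stable h n x
          nlinarith
      _ = _ := by
          rw [setLIntegral_const, volume_pi_pi]
          simp only [volume_cube hL.le, Finset.prod_const, Finset.card_univ, Fintype.card_fin]
          rw [ENNReal.ofReal_pow (pow_nonneg hL.le 3)]
  refine (mul_le_mul_right h1 _).trans ?_
  have h5 : (0 : ℝ) < n.factorial := by exact_mod_cast n.factorial_pos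
  rw [show ((n.factorial : ℝ≥0∞))⁻¹ = ENNReal.ofReal ((n.factorial : ℝ)⁻¹) by
    rw [ENNReal.ofReal_inv_of_pos h5, ENNReal.ofReal_natCast],
    ← ENNReal.ofReal_mul (Real.exp_pos _).le, ← ENNReal.ofReal_mul (by positivity)]
  refine ENNReal.ofReal_le_ofReal ?_
  rw [Real.exp_add]
  have h6 := Real.pow_div_factorial_le_exp (L ^ 3) (by positivity) n
  calc (n.factorial : ℝ)⁻¹ * (Real.exp (β * B * n) * (L ^ 3) ^ n)
      = ((L ^ 3) ^ n / n.factorial) * Real.exp (β * B * n) := by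
        rw [div_eq_mul_inv]; ring
    _ ≤ Real.exp (L ^ 3) * Real.exp (β * B * n) := by gcongr

/-! ### geometry of the cells -/

theorem coord_le_dist (x y : Pt) (k : Fin 3) : |x k - y k| ≤ dist x y := by
  rw [dist_eq_norm]
  have := PiLp.norm_apply_le (x - y) k
  simpa using this

theorem measurable_coord (k : Fin 3) : Measurable fun x : Pt => x k := by
  fun_prop

/-- a cell of the grid of side `a` with a cube of side `b` -/
def cell (a b : ℝ) {m : ℕ} (v : Fin 3 → Fin m) : Set Pt :=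
  {x | ∀ k : Fin 3, a * (v k : ℕ) ≤ x k ∧ x k ≤ a * (v k : ℕ) + b}

theorem measurableSet_cell (a b : ℝ) {m : ℕ} (v : Fin 3 → Fin m) : MeasurableSet (cell a b v) := by
  have : cell a b v = ⋂ k : Fin 3, {x : Pt | a * (v k : ℕ) ≤ x k} ∩
      {x : Pt | x k ≤ a * (v k : ℕ) + b} := by
    ext x
    simp [cell]
  rw [this]
  exact MeasurableSet.iInter fun k => (measurableSet_le measurable_const (measurable_coord k)).inter
    (measurableSet_le (measurable_coord k) measurable_const)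

theorem cell_eq (a b : ℝ) {m : ℕ} (v : Fin 3 → Fin m) :
    cell a b v = (fun x : Pt => x + WithLp.toLp 2 (fun k => a * ((v k : ℕ) : ℝ))) '' cube b := by
  ext x
  simp only [cell, Set.mem_ofPred_eq, Set.mem_image, cube]
  constructor
  · intro hx
    refine ⟨x - WithLp.toLp 2 (fun k => a * ((v k : ℕ) : ℝ)), fun k => ?_, by abel⟩
    have := hx k
    simp only [PiLp.sub_apply]
    constructor <;> linarith [this.1, this.2]
  · rintro ⟨y, hy, rfl⟩ k
    have := hy k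
    simp only [PiLp.add_apply]
    constructor <;> linarith [this.1, this.2]

theorem cell_apart {a b : ℝ} (ha : 0 ≤ a) (hab : b + 2 ≤ a) {m : ℕ} {v v' : Fin 3 → Fin m}
    (hv : v ≠ v') {x y : Pt} (hx : x ∈ cell a b v) (hy : y ∈ cell a b v') : 2 ≤ dist x y := by
  obtain ⟨k, hk⟩ := Function.ne_iff.1 hv
  have h1 := hx k
  have h2 := hy k
  refine le_trans ?_ (coord_le_dist x y k)
  rcases lt_or_gt_of_ne hk with h | h
  · have h3 : ((v k : ℕ) : ℝ) + 1 ≤ (v' k : ℕ) := by exact_mod_cast h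
    have h4 : a * (((v k : ℕ) : ℝ) + 1) ≤ a * ((v' k : ℕ) : ℝ) := by gcongr
    rw [abs_sub_comm]
    refine le_trans ?_ (le_abs_self _)
    linarith [h1.2, h2.1]
  · have h3 : ((v' k : ℕ) : ℝ) + 1 ≤ (v k : ℕ) := by exact_mod_cast h
    have h4 : a * (((v' k : ℕ) : ℝ) + 1) ≤ a * ((v k : ℕ) : ℝ) := by gcongr
    refine le_trans ?_ (le_abs_self _)
    linarith [h1.1, h2.2]

/-- a slab -/
def slab (s w L : ℝ) : Set Pt :=
  {x | (s ≤ x 0 ∧ x 0 ≤ s + w) ∧ (0 ≤ x 1 ∧ x 1 ≤ L) ∧ (0 ≤ x 2 ∧ x 2 ≤ L)}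

theorem slab_eq (s w L : ℝ) : slab s w L = (WithLp.ofLp : Pt → Fin 3 → ℝ) ⁻¹'
    Icc (![s, 0, 0]) (![s + w, L, L]) := by
  ext x
  simp only [slab, Set.mem_ofPred_eq, Set.mem_preimage, Set.mem_Icc, Pi.le_def, Fin.forall_fin_succ]
  simp
  tauto

theorem measurableSet_slab (s w L : ℝ) : MeasurableSet (slab s w L) := by
  rw [slab_eq]
  exact (PiLp.volume_preserving_ofLp (Fin 3)).measurable measurableSet_Icc

theorem volume_slab {s w L : ℝ} (hw : 0 ≤ w) (hL : 0 ≤ L) :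
    volume (slab s w L) = ENNReal.ofReal (w * L ^ 2) := by
  rw [slab_eq, (PiLp.volume_preserving_ofLp (Fin 3)).measure_preimage
    measurableSet_Icc.nullMeasurableSet, Real.volume_Icc_pi]
  simp only [Fin.prod_univ_three]
  simp
  rw [← ENNReal.ofReal_mul hw, ← ENNReal.ofReal_mul (mul_nonneg hw hL)]
  congr 1
  ring

theorem cell_slab_apart {a b w L : ℝ} (ha : 0 ≤ a) (hab : b + 2 ≤ a) {m : ℕ} {v : Fin 3 → Fin m}
    {x y : Pt} (hx : x ∈ cell a b v) (hy : y ∈ slab (m * a) w L) : 2 ≤ dist x y := by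
  refine le_trans ?_ (coord_le_dist x y 0)
  have h1 := (hx 0).2
  have h2 := hy.1.1
  have h3 : ((v 0 : ℕ) : ℝ) + 1 ≤ m := by exact_mod_cast (v 0).2
  have h4 : a * (((v 0 : ℕ) : ℝ) + 1) ≤ a * (m : ℝ) := by gcongr
  rw [abs_sub_comm]
  refine le_trans ?_ (le_abs_self _)
  linarith

theorem cell_subset {a b L : ℝ} (ha : 0 ≤ a) (hab : b + 2 ≤ a) {m : ℕ} (hL : m * a - 2 ≤ L)
    (v : Fin 3 → Fin m) : cell a b v ⊆ cube L := by
  intro x hx k
  have h1 := hx k
  have h3 : ((v k : ℕ) : ℝ) + 1 ≤ m := by exact_mod_cast (v k).2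
  have h4 : a * (((v k : ℕ) : ℝ) + 1) ≤ a * (m : ℝ) := by gcongr
  constructor
  · exact le_trans (by positivity) h1.1
  · linarith

theorem slab_subset {s w L : ℝ} (hs : 0 ≤ s) (hL : s + w ≤ L) : slab s w L ⊆ cube L := by
  intro x hx k
  fin_cases k
  · exact ⟨hs.trans hx.1.1, hx.1.2.trans hL⟩
  · exact hx.2.1
  · exact hx.2.2

theorem ZW_cell (h : Sys φr ψ θ B c) (β a b : ℝ) {m : ℕ} (v : Fin 3 → Fin m) (n : ℕ) :
    ZW (rad β (tot φr ψ)) (cell a b v) n = ZW (rad β (tot φr ψ)) (cube b) n := by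
  rw [cell_eq]
  exact ZW_translate (measurable_rad (measurable_tot h) β) _
    (fun x y => rad_trans β _ _ x y) _ n

end ThA

end Crest.Agent.Kac
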